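import Vale.Agent.P030.Defs

/-! Double Andreief bound and the Cauchy determinant. -/

namespace Vale.Agent.P030

open Finset MeasureTheory

namespace AndX

open Equiv

/-- permutation of both families of coordinates -/
noncomputable def rel {n : ℕ} (π τ : Perm (Fin n)) :
    ((Fin n → ℝ) × (Fin n → ℝ)) ≃ᵐ ((Fin n → ℝ) × (Fin n → ℝ)) :=
  MeasurableEquiv.prodCongr (MeasurableEquiv.arrowCongr' π.symm (MeasurableEquiv.refl ℝ))
    (MeasurableEquiv.arrowCongr' τ.symm (MeasurableEquiv.refl ℝ))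

theorem rel_apply {n : ℕ} (π τ : Perm (Fin n)) (w : (Fin n → ℝ) × (Fin n → ℝ)) :
    rel π τ w = (fun i => w.1 (π i), fun i => w.2 (τ i)) := rfl

theorem rel_mp {n : ℕ} (π τ : Perm (Fin n)) (μ ν : Measure ℝ) [SigmaFinite μ] [SigmaFinite ν] :
    MeasurePreserving (rel π τ)
      ((Measure.pi fun _ : Fin n => μ).prod (Measure.pi fun _ : Fin n => ν))
      ((Measure.pi fun _ : Fin n => μ).prod (Measure.pi fun _ : Fin n => ν)) :=
  (measurePreserving_arrowCongr' (fun _ => μ) (fun _ => μ) π.symm (MeasurableEquiv.refl ℝ)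
    (fun _ => MeasurePreserving.id μ)).prod
  (measurePreserving_arrowCongr' (fun _ => ν) (fun _ => ν) τ.symm (MeasurableEquiv.refl ℝ)
    (fun _ => MeasurePreserving.id ν))

theorem sign_sq {n : ℕ} (π : Perm (Fin n)) :
    ((Perm.sign π : ℤ) : ℝ) * ((Perm.sign π : ℤ) : ℝ) = 1 := by
  rcases Int.units_eq_one_or (Perm.sign π) with h | h <;> rw [h] <;> simp

theorem alg {n : ℕ} (A K B : Matrix (Fin n) (Fin n) ℝ) :
    ∑ π : Perm (Fin n), ∑ τ : Perm (Fin n), ∑ σ : Perm (Fin n),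
      ((Perm.sign σ : ℤ) : ℝ) * ∏ j, A (σ j) (π j) * K (π j) (τ j) * B j (τ j) =
      A.det * K.det * B.det := by
  have h1 : ∀ π τ : Perm (Fin n), ∑ σ : Perm (Fin n),
      ((Perm.sign σ : ℤ) : ℝ) * ∏ j, A (σ j) (π j) * K (π j) (τ j) * B j (τ j) =
      A.det * ((((Perm.sign π : ℤ) : ℝ) * ∏ j, K (π j) (τ j)) * ∏ j, B j (τ j)) := by
    intro π τ
    have e := Matrix.det_permute' π A
    rw [Matrix.det_apply'] at e
    simp only [Finset.prod_mul_distrib]
    calc _ = (∑ σ : Perm (Fin n), ((Perm.sign σ : ℤ) : ℝ) * ∏ j, A (σ j) (π j)) *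
          ((∏ j, K (π j) (τ j)) * ∏ j, B j (τ j)) := by
          rw [Finset.sum_mul]
          exact Finset.sum_congr rfl fun σ _ => by ring
      _ = (((Perm.sign π : ℤ) : ℝ) * A.det) * ((∏ j, K (π j) (τ j)) * ∏ j, B j (τ j)) := by
          rw [← e]
          rfl
      _ = _ := by ring
  simp only [h1, ← Finset.mul_sum]
  rw [Finset.sum_comm, mul_assoc]
  congr 1
  have h2 : ∀ τ : Perm (Fin n), ∑ π : Perm (Fin n),
      (((Perm.sign π : ℤ) : ℝ) * ∏ j, K (π j) (τ j)) * ∏ j, B j (τ j) =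
      K.det * (((Perm.sign τ : ℤ) : ℝ) * ∏ j, B.transpose (τ j) j) := by
    intro τ
    have e := Matrix.det_permute' τ K
    rw [Matrix.det_apply'] at e
    rw [← Finset.sum_mul]
    calc _ = (((Perm.sign τ : ℤ) : ℝ) * K.det) * ∏ j, B j (τ j) := by
          rw [← e]
          rfl
      _ = _ := by
          simp only [Matrix.transpose_apply]
          ring
  simp only [h2, ← Finset.mul_sum]
  rw [← Matrix.det_apply', Matrix.det_transpose]

theorem frac1 (a b c d : ℝ) (h1 : 1 - a * c ≠ 0) (h2 : 1 - a * d ≠ 0) (h3 : 1 - b * c ≠ 0) :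
    1 / (1 - a * c) = (a - b) / (1 - a * d) * ((c - d) / (1 - b * c) * (1 / (1 - a * c))) +
      (1 - b * d) / (1 - a * d) * (1 / (1 - b * c)) := by
  have e : (1 - a * d) * (1 - b * c) = (a - b) * (c - d) + (1 - b * d) * (1 - a * c) := by ring
  generalize 1 - a * c = u at *
  generalize 1 - a * d = v at *
  generalize 1 - b * c = w at *
  field_simp
  linear_combination e

theorem frac2 (u v w a b D Q : ℝ) (hu : u ≠ 0) (hv : v ≠ 0) (hw : w ≠ 0) :
    1 / u * (a / v * (b / w * D)) * (u * v * (w * Q)) = a * b * (D * Q) := by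
  field_simp

end AndX

open AndX

theorem andreief {n : ℕ} (S T : Set ℝ) (hS : MeasurableSet S) (hT : MeasurableSet T)
    (hS' : volume S ≠ ⊤) (hT' : volume T ≠ ⊤)
    (Φ Ψ : Fin n → ℝ → ℝ) (k : ℝ → ℝ → ℝ)
    (hint : ∀ r j, Integrable (fun q : ℝ × ℝ => Φ r q.1 * k q.1 q.2 * Ψ j q.2)
      ((volume.restrict S).prod (volume.restrict T)))
    (W : ℝ) (hW : ∀ x z : Fin n → ℝ, (∀ i, x i ∈ S) → (∀ i, z i ∈ T) →
      |(Matrix.of fun r i => Φ r (x i)).det * (Matrix.of fun i l => k (x i) (z l)).det *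
        (Matrix.of fun j l => Ψ j (z l)).det| ≤ W) :
    |(Matrix.of fun r j => ∫ q : ℝ × ℝ, Φ r q.1 * k q.1 q.2 * Ψ j q.2
      ∂((volume.restrict S).prod (volume.restrict T))).det| ≤
      W * ((volume S).toReal * (volume T).toReal) ^ n := by
  haveI : IsFiniteMeasure (volume.restrict S) := isFiniteMeasure_restrict.2 hS'
  haveI : IsFiniteMeasure (volume.restrict T) := isFiniteMeasure_restrict.2 hT'
  set μ : Measure ℝ := volume.restrict S with hμ
  set ν : Measure ℝ := volume.restrict T with hν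
  set P : Measure ((Fin n → ℝ) × (Fin n → ℝ)) :=
    (Measure.pi fun _ : Fin n => μ).prod (Measure.pi fun _ : Fin n => ν) with hP
  set g : Equiv.Perm (Fin n) → (Fin n → ℝ) × (Fin n → ℝ) → ℝ :=
    fun σ w => ∏ j, Φ (σ j) (w.1 j) * k (w.1 j) (w.2 j) * Ψ j (w.2 j) with hg
  have hA := measurePreserving_arrowProdEquivProdArrow ℝ ℝ (Fin n) (fun _ => μ) (fun _ => ν)
  have gi : ∀ σ, Integrable (g σ) P := by
    intro σ
    rw [← hA.integrable_comp_emb (MeasurableEquiv.measurableEmbedding _)]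
    exact Integrable.fintype_prod (μ := fun _ : Fin n => μ.prod ν)
      (f := fun j (q : ℝ × ℝ) => Φ (σ j) q.1 * k q.1 q.2 * Ψ j q.2) fun j => hint (σ j) j
  have ge : ∀ σ, ∫ w, g σ w ∂P = ∏ j, ∫ q : ℝ × ℝ, Φ (σ j) q.1 * k q.1 q.2 * Ψ j q.2 ∂(μ.prod ν) := by
    intro σ
    rw [← hA.integral_comp']
    exact integral_fintype_prod_eq_prod (μ := fun _ : Fin n => μ.prod ν)
      (fun j (q : ℝ × ℝ) => Φ (σ j) q.1 * k q.1 q.2 * Ψ j q.2)
  set D := (Matrix.of fun r j => ∫ q : ℝ × ℝ, Φ r q.1 * k q.1 q.2 * Ψ j q.2 ∂(μ.prod ν)).det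
    with hD
  have gi' : ∀ π τ σ : Equiv.Perm (Fin n),
      Integrable (fun w => ((Equiv.Perm.sign σ : ℤ) : ℝ) * g σ (rel π τ w)) P := fun π τ σ =>
    (((rel_mp π τ μ ν).integrable_comp_emb (MeasurableEquiv.measurableEmbedding _)).2
      (gi σ)).const_mul _
  have e1 : ∀ π τ : Equiv.Perm (Fin n),
      ∫ w, ∑ σ : Equiv.Perm (Fin n), ((Equiv.Perm.sign σ : ℤ) : ℝ) * g σ (rel π τ w) ∂P = D := by
    intro π τ
    rw [integral_finsetSum _ fun σ _ => gi' π τ σ, hD, Matrix.det_apply']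
    refine Finset.sum_congr rfl fun σ _ => ?_
    rw [integral_const_mul, (rel_mp π τ μ ν).integral_comp' (g σ), ge]
    rfl
  have e2 : ∫ w, (Matrix.of fun r i => Φ r (w.1 i)).det *
      (Matrix.of fun i l => k (w.1 i) (w.2 l)).det * (Matrix.of fun j l => Ψ j (w.2 l)).det ∂P =
      (Fintype.card (Equiv.Perm (Fin n)) : ℝ) * ((Fintype.card (Equiv.Perm (Fin n)) : ℝ) * D) := by
    have e3 : ∀ w : (Fin n → ℝ) × (Fin n → ℝ), (Matrix.of fun r i => Φ r (w.1 i)).det *
        (Matrix.of fun i l => k (w.1 i) (w.2 l)).det * (Matrix.of fun j l => Ψ j (w.2 l)).det =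
        ∑ π : Equiv.Perm (Fin n), ∑ τ : Equiv.Perm (Fin n), ∑ σ : Equiv.Perm (Fin n),
          ((Equiv.Perm.sign σ : ℤ) : ℝ) * g σ (rel π τ w) := fun w => (alg _ _ _).symm
    simp only [e3]
    rw [integral_finsetSum _ fun π _ => integrable_finsetSum _ fun τ _ =>
      integrable_finsetSum _ fun σ _ => gi' π τ σ]
    rw [Finset.sum_congr rfl fun π _ => integral_finsetSum _ fun τ _ =>
      integrable_finsetSum _ fun σ _ => gi' π τ σ]
    simp only [e1, Finset.sum_const, Finset.card_univ, nsmul_eq_mul]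
  have hae : ∀ᵐ w ∂P, ‖(Matrix.of fun r i => Φ r (w.1 i)).det *
      (Matrix.of fun i l => k (w.1 i) (w.2 l)).det * (Matrix.of fun j l => Ψ j (w.2 l)).det‖ ≤ W := by
    have a1 : ∀ᵐ x ∂(Measure.pi fun _ : Fin n => μ), ∀ i, x i ∈ S :=
      Filter.eventually_all.2 fun i =>
        (Measure.tendsto_eval_ae_ae (μ := fun _ : Fin n => μ) (i := i)).eventually
          (ae_restrict_mem hS)
    have a2 : ∀ᵐ x ∂(Measure.pi fun _ : Fin n => ν), ∀ i, x i ∈ T :=
      Filter.eventually_all.2 fun i =>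
        (Measure.tendsto_eval_ae_ae (μ := fun _ : Fin n => ν) (i := i)).eventually
          (ae_restrict_mem hT)
    filter_upwards [Measure.quasiMeasurePreserving_fst.ae a1,
      Measure.quasiMeasurePreserving_snd.ae a2] with w h1 h2
    exact hW w.1 w.2 h1 h2
  have hb := norm_integral_le_of_norm_le_const hae
  have hv : P.real Set.univ = ((volume S).toReal * (volume T).toReal) ^ n := by
    rw [Measure.real, hP, ← Set.univ_prod_univ, Measure.prod_prod, Measure.pi_univ,
      Measure.pi_univ, hμ, hν]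
    simp [mul_pow]
  rw [e2, hv, Real.norm_eq_abs, abs_mul, abs_mul, Nat.abs_cast] at hb
  have hc : (1 : ℝ) ≤ Fintype.card (Equiv.Perm (Fin n)) := by
    exact_mod_cast Fintype.card_pos
  refine le_trans ?_ hb
  exact (le_mul_of_one_le_left (abs_nonneg _) hc).trans
    (le_mul_of_one_le_left (by positivity) hc)

theorem cauchy_det {n : ℕ} (t s : Fin n → ℝ) (h : ∀ i l, 1 - t i * s l ≠ 0) :
    (Matrix.of fun i l => 1 / (1 - t i * s l)).det * ∏ i, ∏ l, (1 - t i * s l) =
      vdm t * vdm s := by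
  induction n with
  | zero => simp [vdm]
  | succ n ih =>
    have ih' := ih (fun i => t i.succ) (fun l => s l.succ) (fun i l => h _ _)
    have hv : ∀ x : Fin (n + 1) → ℝ,
        vdm x = (∏ j : Fin n, (x j.succ - x 0)) * vdm (fun i : Fin n => x i.succ) := by
      intro x
      simp only [vdm]
      rw [Fin.prod_univ_succ, Fin.prod_Ioi_zero]
      simp only [Fin.prod_Ioi_succ]
    set B : Matrix (Fin (n + 1)) (Fin (n + 1)) ℝ := Matrix.of fun i l =>
      Fin.cases (motive := fun _ => ℝ) (1 / (1 - t 0 * s l))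
        (fun i' => (t i'.succ - t 0) / (1 - t i'.succ * s 0) *
          ((s l - s 0) / (1 - t 0 * s l) * (1 / (1 - t i'.succ * s l)))) i with hB
    have e1 : (Matrix.of fun i l => 1 / (1 - t i * s l)).det = B.det := by
      refine Matrix.det_eq_of_forall_row_eq_smul_add_const
        (fun i => Fin.cases (motive := fun _ => ℝ) 0
          (fun i' => (1 - t 0 * s 0) / (1 - t i'.succ * s 0)) i) 0 rfl fun i l => ?_
      refine Fin.cases ?_ (fun i' => ?_) i
      · simp [hB]
      · simp only [hB, Matrix.of_apply, Fin.cases_succ, Fin.cases_zero]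
        exact frac1 _ _ _ _ (h _ _) (h _ _) (h _ _)
    have e2 : B.det = 1 / (1 - t 0 * s 0) * ((∏ i : Fin n, (t i.succ - t 0) / (1 - t i.succ * s 0)) *
        ((∏ l : Fin n, (s l.succ - s 0) / (1 - t 0 * s l.succ)) *
          (Matrix.of fun i l : Fin n => 1 / (1 - t i.succ * s l.succ)).det)) := by
      rw [Matrix.det_succ_column_zero, Fin.sum_univ_succ, Finset.sum_eq_zero, add_zero,
        ← Matrix.det_mul_row, ← Matrix.det_mul_column]
      · simp only [hB, Matrix.of_apply, Fin.cases_zero, Fin.val_zero, pow_zero, one_mul]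
        rfl
      · intro i _
        simp [hB]
    have n1 : ∏ i : Fin n, (1 - t i.succ * s 0) ≠ 0 := Finset.prod_ne_zero_iff.2 fun i _ => h _ _
    have n2 : ∏ l : Fin n, (1 - t 0 * s l.succ) ≠ 0 := Finset.prod_ne_zero_iff.2 fun i _ => h _ _
    have n3 := h 0 0
    rw [e1, e2, hv t, hv s]
    simp only [Fin.prod_univ_succ, Finset.prod_mul_distrib, Finset.prod_div_distrib]
    calc _ = ((∏ j : Fin n, (t j.succ - t 0)) * ∏ j : Fin n, (s j.succ - s 0)) *
          ((Matrix.of fun i l : Fin n => 1 / (1 - t i.succ * s l.succ)).det *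
            ∏ i : Fin n, ∏ l : Fin n, (1 - t i.succ * s l.succ)) :=
          frac2 _ _ _ _ _ _ _ n3 n1 n2
      _ = _ := by
          rw [ih']
          ring

end Vale.Agent.P030
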