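import Vale.Agent.P030.Defs
import Vale.Agent.Lib.PNT.Main

/-! Prime sums against hinge functions. -/

namespace Vale.Agent.P030

open Finset Filter Topology

namespace HingeX

open MeasureTheory

theorem int_step (a c : ℝ) (ha : 0 < a) (hc : 0 ≤ c) :
    ∫ t in (0 : ℝ)..c, (Set.Ici a).indicator (1 : ℝ → ℝ) t = max (c - a) 0 := by
  rw [intervalIntegral.integral_of_le hc, integral_indicator_one measurableSet_Ici, Measure.real,
    Measure.restrict_apply measurableSet_Ici]
  have e : Set.Ici a ∩ Set.Ioc 0 c = Set.Icc a c := by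
    ext t
    simp only [Set.mem_inter_iff, Set.mem_Ici, Set.mem_Ioc, Set.mem_Icc]
    exact ⟨fun h => ⟨h.1, h.2.2⟩, fun h => ⟨h.1, ha.trans_le h.1, h.2⟩⟩
  rw [e, Real.volume_Icc, ENNReal.toReal_ofReal']

theorem theta_eq (N : ℕ) (hN : 0 < N) (t : ℝ) (t0 : 0 ≤ t) (t1 : t ≤ 49) :
    Chebyshev.theta (N * t) = ∑ s ∈ (range (49 * N + 1)).filter Nat.Prime,
      Real.log s * (Set.Ici ((s : ℝ) / N)).indicator (1 : ℝ → ℝ) t := by
  have hN' : (0 : ℝ) < N := by exact_mod_cast hN
  have e : ∀ s : ℕ, Real.log s * (Set.Ici ((s : ℝ) / N)).indicator (1 : ℝ → ℝ) t =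
      if s ≤ ⌊(N : ℝ) * t⌋₊ then Real.log s else 0 := by
    intro s
    simp only [Set.indicator_apply, Set.mem_Ici, Pi.one_apply, div_le_iff₀' hN',
      Nat.le_floor_iff (show (0 : ℝ) ≤ N * t by positivity)]
    split_ifs <;> simp
  simp only [e]
  rw [← Finset.sum_filter, Chebyshev.theta_eq_sum_Icc]
  refine Finset.sum_congr ?_ fun _ _ => rfl
  ext s
  simp only [Finset.mem_filter, Finset.mem_Icc, Finset.mem_range]
  have h1 : ⌊(N : ℝ) * t⌋₊ ≤ 49 * N := by
    refine Nat.floor_le_of_le ?_
    push_cast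
    nlinarith
  exact ⟨fun h => ⟨⟨by omega, h.2⟩, h.1.2⟩, fun h => ⟨⟨by omega, h.2⟩, h.1.2⟩⟩

theorem int_theta (c : ℝ) (hc : 0 ≤ c) (hc' : c ≤ 49) (N : ℕ) (hN : 0 < N) :
    ∫ t in (0 : ℝ)..c, Chebyshev.theta (N * t) / N =
      (∑ s ∈ (range (49 * N + 1)).filter Nat.Prime,
        max (c * N - s) 0 * Real.log s) / (N : ℝ) ^ 2 := by
  have hN' : (0 : ℝ) < N := by exact_mod_cast hN
  rw [intervalIntegral.integral_div, intervalIntegral.integral_congr (g := fun t =>
    ∑ s ∈ (range (49 * N + 1)).filter Nat.Prime,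
      Real.log s * (Set.Ici ((s : ℝ) / N)).indicator (1 : ℝ → ℝ) t),
    intervalIntegral.integral_finsetSum, Finset.sum_div, Finset.sum_div]
  · refine Finset.sum_congr rfl fun s hs => ?_
    have s0 : (0 : ℝ) < s := by exact_mod_cast (Finset.mem_filter.1 hs).2.pos
    rw [intervalIntegral.integral_const_mul, int_step _ _ (by positivity) hc]
    have e : max (c * N - s) 0 = max (c - s / N) 0 * N := by
      rw [max_mul_of_nonneg _ _ hN'.le, zero_mul]
      congr 1
      field_simp
    rw [e]
    field_simp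
  · intro s _
    refine IntervalIntegrable.const_mul ?_ _
    exact ⟨(integrableOn_const (by simp)).indicator measurableSet_Ici,
      (integrableOn_const (by simp)).indicator measurableSet_Ici⟩
  · intro t ht
    rw [Set.uIcc_of_le hc] at ht
    exact theta_eq N hN t ht.1 (ht.2.trans hc')

end HingeX

open HingeX MeasureTheory

theorem hinge (c : ℝ) (hc : 0 ≤ c) (hc' : c ≤ 49) :
    Tendsto (fun N : ℕ => (∑ s ∈ (range (49 * N + 1)).filter Nat.Prime,
      max (c * N - s) 0 * Real.log s) / (N : ℝ) ^ 2) atTop (𝓝 (c ^ 2 / 2)) := by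
  have e : c ^ 2 / 2 = ∫ t in (0 : ℝ)..c, t := by simp
  rw [e]
  refine Tendsto.congr' ((eventually_gt_atTop 0).mono fun N hN => int_theta c hc hc' N hN) ?_
  refine intervalIntegral.tendsto_integral_filter_of_dominated_convergence
    (fun t => Real.log 4 * t) (Eventually.of_forall fun N => ?_) (Eventually.of_forall fun N => ?_)
    ((continuous_const.mul continuous_id).intervalIntegrable _ _) ?_
  · exact ((Chebyshev.theta_mono.measurable.comp (measurable_id.const_mul _)).div_const
      _).aestronglyMeasurable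
  · refine ae_of_all _ fun t ht => ?_
    rw [Set.uIoc_of_le hc] at ht
    have t0 := ht.1
    have l4 : 0 ≤ Real.log 4 := Real.log_nonneg (by norm_num)
    rcases Nat.eq_zero_or_pos N with rfl | hN
    · simp only [Nat.cast_zero, div_zero, norm_zero]
      positivity
    · have hN' : (0 : ℝ) < N := by exact_mod_cast hN
      rw [Real.norm_eq_abs, abs_of_nonneg (div_nonneg (Chebyshev.theta_nonneg _) hN'.le),
        div_le_iff₀ hN']
      have := Chebyshev.theta_le_log4_mul_x (x := N * t) (by positivity)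
      linarith
  · refine ae_of_all _ fun t ht => ?_
    rw [Set.uIoc_of_le hc] at ht
    have t0 := ht.1
    have h1 : Tendsto (fun N : ℕ => (N : ℝ) * t) atTop atTop :=
      tendsto_natCast_atTop_atTop.atTop_mul_const t0
    have h2 := (Vale.Agent.PNT.theta_div_tendsto.comp h1).mul_const t
    rw [one_mul] at h2
    refine h2.congr fun N => ?_
    simp only [Function.comp]
    rcases Nat.eq_zero_or_pos N with rfl | hN
    · simp
    · have hN' : (0 : ℝ) < N := by exact_mod_cast hN
      field_simp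

end Vale.Agent.P030
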