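import Vale.Agent.P030.Defs

/-! Linear algebra over the `p`-adic norm. -/

namespace Vale.Agent.P030

open Finset

variable {p : ℕ} [Fact p.Prime]

namespace LatX

theorem pn_prod {ι : Type} (s : Finset ι) (F : ι → ℚ) :
    padicNorm p (∏ i ∈ s, F i) = ∏ i ∈ s, padicNorm p (F i) := by
  classical
  induction s using Finset.induction_on with
  | empty => simp
  | insert a s ha ih => rw [Finset.prod_insert ha, Finset.prod_insert ha, padicNorm.mul, ih]

theorem norm_sign {n : Type} [Fintype n] [DecidableEq n] (σ : Equiv.Perm n) :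
    padicNorm p (((Equiv.Perm.sign σ : ℤˣ) : ℤ) : ℚ) = 1 := by
  rcases Int.units_eq_one_or (Equiv.Perm.sign σ) with h | h
  · rw [h]; simp
  · rw [h]; simp [padicNorm.neg]

theorem sum_le_real {ι : Type} (s : Finset ι) (F : ι → ℚ) {t : ℝ} (ht : 0 ≤ t)
    (h : ∀ i ∈ s, (padicNorm p (F i) : ℝ) ≤ t) : (padicNorm p (∑ i ∈ s, F i) : ℝ) ≤ t := by
  classical
  induction s using Finset.induction_on with
  | empty => simpa using ht
  | insert a s ha ih =>
    rw [Finset.sum_insert ha]
    have h1 : padicNorm p (F a + ∑ i ∈ s, F i) ≤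
        max (padicNorm p (F a)) (padicNorm p (∑ i ∈ s, F i)) := padicNorm.nonarchimedean
    have h2 : ((padicNorm p (F a + ∑ i ∈ s, F i) : ℚ) : ℝ) ≤
        ((max (padicNorm p (F a)) (padicNorm p (∑ i ∈ s, F i)) : ℚ) : ℝ) := by exact_mod_cast h1
    rw [Rat.cast_max] at h2
    exact h2.trans (max_le (h a (Finset.mem_insert_self _ _))
      (ih fun i hi => h i (Finset.mem_insert_of_mem hi)))

theorem exists_int {q : ℚ} (hq : padicNorm p q ≤ 1) : ∃ m : ℤ, padicNorm p (q - m) < 1 := by
  have h : ‖(q : ℚ_[p])‖ ≤ 1 := by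
    rw [Padic.eq_padicNorm]; exact_mod_cast hq
  obtain ⟨m, -, -, hm⟩ := PadicInt.exists_mem_range_of_norm_rat_le_one q h
  refine ⟨m, ?_⟩
  have h2 : ‖((q - m : ℚ) : ℚ_[p])‖ < 1 := by
    have e := PadicInt.coe_sub (p := p) ⟨(q : ℚ_[p]), h⟩ (m : ℤ_[p])
    rw [PadicInt.coe_intCast] at e
    push_cast
    exact lt_of_eq_of_lt (congrArg norm e).symm hm
  rw [Padic.eq_padicNorm] at h2
  exact_mod_cast h2

theorem norm_int_comb_le {n : Type} [Fintype n] (a : n → ℚ) (ha : ∀ r, padicNorm p (a r) ≤ 1)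
    (x : n → ℤ) : padicNorm p (∑ r, a r * x r) ≤ 1 := by
  refine padicNorm.sum_le' (fun r _ => ?_) zero_le_one
  rw [padicNorm.mul]
  exact mul_le_one₀ (ha r) (padicNorm.nonneg _) (padicNorm.of_int _)

theorem norm_int_comb_lt {n : Type} [Fintype n] (a : n → ℚ) (ha : ∀ r, padicNorm p (a r) < 1)
    (x : n → ℤ) : padicNorm p (∑ r, a r * x r) < 1 := by
  refine padicNorm.sum_lt' (fun r _ => ?_) zero_lt_one
  rw [padicNorm.mul]
  exact mul_lt_one_of_nonneg_of_lt_one_left (padicNorm.nonneg _) (ha r) (padicNorm.of_int _)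

theorem one_cond {n : Type} [Fintype n] [DecidableEq n] (a : n → ℚ)
    (ha : ∀ r, padicNorm p (a r) ≤ 1) :
    ∃ Y : Matrix n n ℤ, (∀ r, padicNorm p (∑ s, a s * Y r s) < 1) ∧
      1 ≤ (p : ℚ) * padicNorm p (Y.det : ℤ) := by
  have hp : (1 : ℚ) < p := by exact_mod_cast (Fact.out : p.Prime).one_lt
  by_cases h : ∀ r, padicNorm p (a r) < 1
  · refine ⟨1, fun r => norm_int_comb_lt a h _, ?_⟩
    simp [hp.le]
  · push Not at h
    obtain ⟨r0, hr0⟩ := h
    have e1 : padicNorm p (a r0) = 1 := le_antisymm (ha r0) hr0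
    have hne : a r0 ≠ 0 := by
      intro h0
      rw [h0] at e1
      simp at e1
    have hm : ∀ r, ∃ m : ℤ, padicNorm p (a r / a r0 - m) < 1 := fun r =>
      exists_int (by rw [padicNorm.div, e1, div_one]; exact ha r)
    choose m hm using hm
    refine ⟨(1 : Matrix n n ℤ).updateCol r0 (fun r => if r = r0 then (p : ℤ) else - m r),
      fun r => ?_, ?_⟩
    · rw [← Finset.add_sum_erase _ _ (Finset.mem_univ r0)]
      have e2 : ∑ s ∈ Finset.univ.erase r0, a s * (((1 : Matrix n n ℤ).updateCol r0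
          (fun r => if r = r0 then (p : ℤ) else - m r) r s : ℤ) : ℚ) =
          if r = r0 then 0 else a r := by
        rw [Finset.sum_congr rfl (g := fun s => if r = s then a s else 0)]
        · rw [Finset.sum_ite_eq]
          by_cases hr : r = r0 <;> simp [hr]
        · intro s hs
          rw [Matrix.updateCol_ne (Finset.ne_of_mem_erase hs), Matrix.one_apply]
          by_cases hr : r = s <;> simp [hr]
      rw [e2, Matrix.updateCol_self]
      by_cases hr : r = r0
      · simp only [hr, if_true, add_zero, Int.cast_natCast]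
        rw [padicNorm.mul, e1, one_mul]
        exact padicNorm.padicNorm_p_lt_one_of_prime
      · simp only [hr, if_false]
        have e3 : a r0 * ((-m r : ℤ) : ℚ) + a r = a r0 * (a r / a r0 - m r) := by
          push_cast; field_simp; ring
        rw [e3, padicNorm.mul, e1, one_mul]
        exact hm r
    · rw [← Matrix.cramer_apply, Matrix.cramer_one]
      simp only [Module.End.one_apply, if_true, Int.cast_natCast]
      rw [padicNorm.padicNorm_p_of_prime, mul_inv_cancel₀ (by positivity)]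

theorem many_cond {n ι : Type} [Fintype n] [DecidableEq n] (α : ι → n → ℚ)
    (hα : ∀ i r, padicNorm p (α i r) ≤ 1) (s : Finset ι) :
    ∃ X : Matrix n n ℤ, (∀ i ∈ s, ∀ r, padicNorm p (∑ c, α i c * X r c) < 1) ∧
      1 ≤ (p : ℚ) ^ s.card * padicNorm p (X.det : ℤ) := by
  classical
  induction s using Finset.induction_on with
  | empty => exact ⟨1, by simp, by simp⟩
  | insert i0 s hi0 ih =>
    obtain ⟨X, hX, hd⟩ := ih
    obtain ⟨Y, hY, hd'⟩ := one_cond (p := p) (fun r => ∑ c, α i0 c * X r c)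
      (fun r => norm_int_comb_le _ (hα i0) _)
    have key : ∀ i r, ∑ c, α i c * ((Y * X) r c : ℤ) =
        ∑ t, (∑ c, α i c * X t c) * (Y r t : ℤ) := by
      intro i r
      simp only [Matrix.mul_apply, Finset.sum_mul, Int.cast_sum, Int.cast_mul, Finset.mul_sum]
      rw [Finset.sum_comm]
      exact Finset.sum_congr rfl fun t _ => Finset.sum_congr rfl fun c _ => by ring
    refine ⟨Y * X, fun i hi r => ?_, ?_⟩
    · rw [key]
      rcases Finset.mem_insert.1 hi with rfl | hi
      · exact hY r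
      · exact norm_int_comb_lt _ (fun t => hX i hi t) _
    · rw [Finset.card_insert_of_notMem hi0, Matrix.det_mul, Int.cast_mul, padicNorm.mul, pow_succ]
      calc (1 : ℚ) ≤ ((p : ℚ) ^ s.card * padicNorm p (X.det : ℤ)) *
            ((p : ℚ) * padicNorm p (Y.det : ℤ)) := one_le_mul_of_one_le_of_one_le hd hd'
        _ = _ := by ring

end LatX

open LatX

theorem norm_det_le {n : Type} [Fintype n] [DecidableEq n] (E : Matrix n n ℚ) {c : ℚ}
    (h : ∀ r j, padicNorm p (E r j) ≤ c) : padicNorm p E.det ≤ c ^ Fintype.card n := by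
  rw [Matrix.det_apply']
  refine padicNorm.sum_le Finset.univ_nonempty fun σ _ => ?_
  rw [padicNorm.mul, norm_sign, one_mul, pn_prod, ← Finset.card_univ, ← Finset.prod_const]
  exact Finset.prod_le_prod (fun i _ => padicNorm.nonneg _) fun i _ => h _ _

/-- lattice lemma -/
theorem lat {n ι κ : Type} [Fintype n] [DecidableEq n] [Fintype ι] [Fintype κ]
    (E : Matrix n n ℚ) (α : ι → n → ℚ) (β : κ → n → ℚ)
    (hα : ∀ i r, padicNorm p (α i r) ≤ 1) (hβ : ∀ k j, padicNorm p (β k j) ≤ 1)
    (h : ∀ x y : n → ℤ, (∀ i, padicNorm p (∑ r, α i r * x r) < 1) →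
      (∀ k, padicNorm p (∑ j, β k j * y j) < 1) →
      padicNorm p (∑ r, ∑ j, (x r : ℚ) * E r j * y j) ≤ 1) :
    padicNorm p E.det ≤ (p : ℚ) ^ (Fintype.card ι + Fintype.card κ) := by
  obtain ⟨X, hX, dX⟩ := many_cond (p := p) α hα Finset.univ
  obtain ⟨Y, hY, dY⟩ := many_cond (p := p) β hβ Finset.univ
  rw [Finset.card_univ] at dX dY
  have hM : padicNorm p ((X.map (Int.cast : ℤ → ℚ)) * E * (Y.map (Int.cast : ℤ → ℚ)).transpose).det
      ≤ 1 ^ Fintype.card n := by
    refine norm_det_le _ fun r j => ?_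
    have e : ((X.map (Int.cast : ℤ → ℚ)) * E * (Y.map (Int.cast : ℤ → ℚ)).transpose) r j =
        ∑ a, ∑ b, (X r a : ℚ) * E a b * Y j b := by
      simp only [Matrix.mul_apply, Matrix.map_apply, Matrix.transpose_apply, Finset.sum_mul]
      rw [Finset.sum_comm]
    rw [e]
    exact h (X r) (Y j) (fun i => hX i (Finset.mem_univ _) r) (fun k => hY k (Finset.mem_univ _) j)
  have eX : (X.map (Int.cast : ℤ → ℚ)).det = (X.det : ℤ) := (Int.cast_det X).symm
  have eY : (Y.map (Int.cast : ℤ → ℚ)).det = (Y.det : ℤ) := (Int.cast_det Y).symm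
  rw [Matrix.det_mul, Matrix.det_mul, Matrix.det_transpose, eX, eY, padicNorm.mul, padicNorm.mul,
    one_pow] at hM
  have h0 := padicNorm.nonneg (p := p) E.det
  calc padicNorm p E.det ≤ (((p : ℚ) ^ Fintype.card ι * padicNorm p (X.det : ℤ)) *
        ((p : ℚ) ^ Fintype.card κ * padicNorm p (Y.det : ℤ))) * padicNorm p E.det :=
        le_mul_of_one_le_left h0 (one_le_mul_of_one_le_of_one_le dX dY)
    _ = (p : ℚ) ^ (Fintype.card ι + Fintype.card κ) *
        (padicNorm p (X.det : ℤ) * padicNorm p E.det * padicNorm p (Y.det : ℤ)) := by ring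
    _ ≤ _ := mul_le_of_le_one_right (by positivity) hM

/-- multilinear expansion of the determinant of a product through a larger index type -/
theorem cb {n φ : Type} [Fintype n] [DecidableEq n] [Fintype φ] (X : Matrix n φ ℚ)
    (B : Matrix φ n ℚ) (u : φ → ℝ) (v : n → ℝ) (U : ℝ) (hu : ∀ f, 0 ≤ u f) (hv : ∀ j, 0 ≤ v j)
    (hU0 : 0 ≤ U) (hX : ∀ r f, padicNorm p (X r f) ≤ 1)
    (hB : ∀ f j, (padicNorm p (B f j) : ℝ) ≤ u f * v j)
    (hU : ∀ f : n → φ, Function.Injective f → ∏ r, u (f r) ≤ U) :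
    (padicNorm p (X * B).det : ℝ) ≤ U * ∏ j, v j := by
  classical
  have hV : 0 ≤ ∏ j, v j := Finset.prod_nonneg fun j _ => hv j
  have e : (X * B).det = ∑ f : n → φ, (∏ r, X r (f r)) * (B.submatrix f id).det := by
    have e1 : X * B = fun r => ∑ f, X r f • B f := by
      ext r j
      simp [Matrix.mul_apply, Finset.sum_apply]
    rw [e1]
    have e2 := (Matrix.detRowAlternating (n := n) (R := ℚ)).toMultilinearMap.map_sum
      (fun r f => X r f • B f)
    refine Eq.trans e2 (Finset.sum_congr rfl fun f _ => ?_)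
    rw [MultilinearMap.map_smul_univ, smul_eq_mul]
    rfl
  rw [e]
  refine sum_le_real _ _ (mul_nonneg hU0 hV) fun f _ => ?_
  by_cases hf : Function.Injective f
  · rw [padicNorm.mul]
    have h1 : padicNorm p (∏ r, X r (f r)) ≤ 1 := by
      rw [pn_prod]
      exact Finset.prod_le_one (fun i _ => padicNorm.nonneg _) fun i _ => hX _ _
    have h2 : (padicNorm p (B.submatrix f id).det : ℝ) ≤ U * ∏ j, v j := by
      rw [Matrix.det_apply']
      refine sum_le_real _ _ (mul_nonneg hU0 hV) fun σ _ => ?_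
      rw [padicNorm.mul, norm_sign, one_mul, pn_prod, Rat.cast_prod]
      calc ∏ j, (padicNorm p (B.submatrix f id (σ j) j) : ℝ) ≤ ∏ j, u (f (σ j)) * v j :=
            Finset.prod_le_prod (fun j _ => by exact_mod_cast padicNorm.nonneg _)
              fun j _ => hB _ _
        _ = (∏ r, u (f r)) * ∏ j, v j := by
            rw [Finset.prod_mul_distrib, Equiv.prod_comp σ (fun r => u (f r))]
        _ ≤ _ := mul_le_mul_of_nonneg_right (hU f hf) hV
    have h3 : ((padicNorm p (∏ r, X r (f r)) : ℚ) : ℝ) ≤ 1 := by exact_mod_cast h1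
    have h4 : (0 : ℝ) ≤ (padicNorm p (B.submatrix f id).det : ℚ) := by
      exact_mod_cast padicNorm.nonneg _
    push_cast
    exact (mul_le_of_le_one_left h4 h3).trans h2
  · have h0 : (B.submatrix f id).det = 0 := by
      rw [Function.Injective] at hf
      push Not at hf
      obtain ⟨a, b, hab, hne⟩ := hf
      refine Matrix.det_zero_of_row_eq hne ?_
      ext j
      simp [hab]
    rw [h0]
    simpa using mul_nonneg hU0 hV

/-- a nonzero rational number with bounded `p`-adic norms is not small -/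
theorem log_ge (q : ℚ) (hq : q ≠ 0) (S : Finset ℕ) (b : ℕ → ℝ) (hb : ∀ s ∈ S, 0 ≤ b s)
    (hS : ∀ s ∈ S, s.Prime → (padicNorm s q : ℝ) ≤ Real.exp (b s))
    (hS' : ∀ s : ℕ, s.Prime → s ∉ S → padicNorm s q ≤ 1) :
    -∑ s ∈ S, b s ≤ Real.log |(q : ℝ)| := by
  have hden : q.den ≠ 0 := q.den_nz
  have hn : ∀ s ∈ q.den.primeFactors, padicNorm s q = (s : ℚ) ^ q.den.factorization s := by
    intro s hs
    have hsp := Nat.prime_of_mem_primeFactors hs
    have hsd := Nat.dvd_of_mem_primeFactors hs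
    have h1 : ¬ (s : ℤ) ∣ q.num := by
      intro h
      have h2 : s ∣ q.num.natAbs := Int.natCast_dvd.1 h
      have h3 : s ∣ Nat.gcd q.num.natAbs q.den := Nat.dvd_gcd h2 hsd
      rw [q.reduced] at h3
      exact hsp.one_lt.ne' (Nat.dvd_one.1 h3)
    rw [padicNorm.eq_zpow_of_nonzero hq, padicValRat_def, padicValInt.eq_zero_of_not_dvd h1,
      Nat.factorization_def _ hsp]
    simp
  have hsub : q.den.primeFactors ⊆ S := by
    intro s hs
    by_contra hc
    have hsp := Nat.prime_of_mem_primeFactors hs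
    have h1 := hS' s hsp hc
    rw [hn s hs] at h1
    have h2 : 0 < q.den.factorization s :=
      hsp.factorization_pos_of_dvd hden (Nat.dvd_of_mem_primeFactors hs)
    have h3 : (1 : ℚ) < (s : ℚ) ^ q.den.factorization s :=
      one_lt_pow₀ (by exact_mod_cast hsp.one_lt) h2.ne'
    exact absurd h1 (not_le.2 h3)
  have hd : (q.den : ℝ) ≤ Real.exp (∑ s ∈ S, b s) := by
    have e1 : (q.den : ℝ) = ∏ s ∈ q.den.primeFactors, (s : ℝ) ^ q.den.factorization s := by
      conv_lhs => rw [← Nat.factorization_prod_pow_eq_self hden]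
      rw [Finsupp.prod, Nat.support_factorization]
      push_cast
      rfl
    calc (q.den : ℝ) ≤ ∏ s ∈ q.den.primeFactors, Real.exp (b s) := by
          rw [e1]
          refine Finset.prod_le_prod (fun s _ => by positivity) fun s hs => ?_
          have h1 := hS s (hsub hs) (Nat.prime_of_mem_primeFactors hs)
          rw [hn s hs] at h1
          exact_mod_cast h1
      _ = Real.exp (∑ s ∈ q.den.primeFactors, b s) := (Real.exp_sum _ _).symm
      _ ≤ _ := Real.exp_le_exp.2 (Finset.sum_le_sum_of_subset_of_nonneg hsub fun s hs _ => hb s hs)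
  have hd0 : (0 : ℝ) < q.den := by exact_mod_cast q.den_pos
  have h1 : 1 ≤ |(q : ℝ)| * q.den := by
    have e : (q : ℝ) * q.den = q.num := by exact_mod_cast Rat.mul_den_eq_num q
    have e2 : |(q : ℝ)| * q.den = |(q.num : ℝ)| := by
      rw [← e, abs_mul, abs_of_pos hd0]
    rw [e2]
    have h2 : (1 : ℤ) ≤ |q.num| := Int.one_le_abs (Rat.num_ne_zero.2 hq)
    exact_mod_cast h2
  have hq0 : 0 < |(q : ℝ)| := abs_pos.2 (by exact_mod_cast hq)
  rw [Real.le_log_iff_exp_le hq0, Real.exp_neg, inv_le_iff_one_le_mul₀ (Real.exp_pos _)]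
  exact h1.trans (mul_le_mul_of_nonneg_left hd hq0.le)

end Vale.Agent.P030
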