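import Vale.Agent.P030.Val

/-! Small tools for the `p`-adic norm and for reduction modulo `p`. -/

namespace Vale.Agent.P030.Red

open Polynomial Finset

variable {p : ℕ} [Fact p.Prime]

theorem lt_add {a b c : ℚ} (ha : padicNorm p a < c) (hb : padicNorm p b < c) :
    padicNorm p (a + b) < c := padicNorm.nonarchimedean.trans_lt (max_lt ha hb)

theorem lt_sub {a b c : ℚ} (ha : padicNorm p a < c) (hb : padicNorm p b < c) :
    padicNorm p (a - b) < c := padicNorm.sub.trans_lt (max_lt ha hb)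

theorem le_add {a b c : ℚ} (ha : padicNorm p a ≤ c) (hb : padicNorm p b ≤ c) :
    padicNorm p (a + b) ≤ c := padicNorm.nonarchimedean.trans (max_le ha hb)

theorem le_sub {a b c : ℚ} (ha : padicNorm p a ≤ c) (hb : padicNorm p b ≤ c) :
    padicNorm p (a - b) ≤ c := padicNorm.sub.trans (max_le ha hb)

theorem le_mul {a b c d : ℚ} (ha : padicNorm p a ≤ c) (hb : padicNorm p b ≤ d) :
    padicNorm p (a * b) ≤ c * d := by
  rw [padicNorm.mul]
  exact mul_le_mul ha hb (padicNorm.nonneg _) ((padicNorm.nonneg _).trans ha)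

theorem le_mul_l {a b d : ℚ} (ha : padicNorm p a ≤ 1) (hb : padicNorm p b ≤ d) :
    padicNorm p (a * b) ≤ d := (le_mul ha hb).trans_eq (one_mul d)

theorem le_mul_r {a b d : ℚ} (ha : padicNorm p a ≤ d) (hb : padicNorm p b ≤ 1) :
    padicNorm p (a * b) ≤ d := (le_mul ha hb).trans_eq (mul_one d)

theorem lt_mul_l {a b : ℚ} (ha : padicNorm p a ≤ 1) (hb : padicNorm p b < 1) :
    padicNorm p (a * b) < 1 := (le_mul_l ha le_rfl).trans_lt hb

theorem lt_mul_r {a b : ℚ} (ha : padicNorm p a < 1) (hb : padicNorm p b ≤ 1) :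
    padicNorm p (a * b) < 1 := (le_mul_r le_rfl hb).trans_lt ha

theorem p_pos : (0 : ℚ) < p := by exact_mod_cast (Fact.out : p.Prime).pos

theorem one_lt_p : (1 : ℚ) < p := by exact_mod_cast (Fact.out : p.Prime).one_lt

theorem norm_p_mul (q : ℚ) : padicNorm p (p * q) = padicNorm p q / p := by
  rw [padicNorm.mul, padicNorm.padicNorm_p_of_prime]; ring

theorem norm_sq_mul (q : ℚ) : padicNorm p ((p : ℚ) ^ 2 * q) = padicNorm p q / p ^ 2 := by
  rw [sq, mul_assoc, norm_p_mul, norm_p_mul]; ring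

theorem p_lt {q : ℚ} (h : padicNorm p q ≤ 1) : padicNorm p (p * q) < 1 := by
  rw [norm_p_mul, div_lt_one p_pos]; exact h.trans_lt one_lt_p

theorem p_le {q : ℚ} (h : padicNorm p q ≤ p) : padicNorm p (p * q) ≤ 1 := by
  rw [norm_p_mul, div_le_one p_pos]; exact h

theorem sq_lt {q : ℚ} (h : padicNorm p q ≤ p) : padicNorm p ((p : ℚ) ^ 2 * q) < 1 := by
  rw [sq, mul_assoc]; exact p_lt (p_le h)

theorem sq_le {q : ℚ} (h : padicNorm p q ≤ (p : ℚ) ^ 2) : padicNorm p ((p : ℚ) ^ 2 * q) ≤ 1 := by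
  rw [norm_sq_mul, div_le_one (pow_pos p_pos 2)]; exact h

theorem le_of_lt_one {q : ℚ} (h : padicNorm p q < 1) : padicNorm p q ≤ (p : ℚ)⁻¹ := by
  by_cases hq : q = 0
  · rw [hq, padicNorm.zero]; exact inv_nonneg.2 p_pos.le
  obtain ⟨z, hz⟩ := padicNorm.values_discrete (p := p) hq
  rw [hz] at h ⊢
  have h1 : -z < 0 := (zpow_lt_one_iff_right₀ one_lt_p).1 h
  rw [← zpow_neg_one]
  exact zpow_le_zpow_right₀ one_lt_p.le (by omega)

theorem unit_int {m : ℤ} (h0 : m ≠ 0) (h : |m| < p) : padicNorm p m = 1 :=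
  (padicNorm.int_eq_one_iff m).2 fun hd => by
    have := Int.le_of_dvd (abs_pos.2 h0) ((dvd_abs _ _).2 hd)
    omega

theorem unit_nat {m : ℕ} (h : ¬p ∣ m) : padicNorm p m = 1 := (padicNorm.nat_eq_one_iff m).2 h

theorem unit_lt {m : ℕ} (h0 : m ≠ 0) (h : m < p) : padicNorm p m = 1 :=
  unit_nat fun hd => absurd (Nat.le_of_dvd (Nat.pos_of_ne_zero h0) hd) (by omega)

theorem norm_two (hp : p ≠ 2) : padicNorm p 2 = 1 := by
  have h := (Fact.out : p.Prime).two_le
  exact_mod_cast unit_lt (p := p) (m := 2) two_ne_zero (by omega)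

theorem div_unit {a b : ℚ} (hb : padicNorm p b = 1) : padicNorm p (a / b) = padicNorm p a := by
  rw [padicNorm.div, hb, div_one]

theorem norm_inv_le {m : ℕ} (h0 : m ≠ 0) : padicNorm p (1 / m) ≤ m := by
  have hm : (m : ℚ) ≠ 0 := by exact_mod_cast h0
  rw [padicNorm.div, padicNorm.one, padicNorm.eq_zpow_of_nonzero hm, padicValRat.of_nat, zpow_neg,
    one_div, inv_inv, zpow_natCast]
  exact_mod_cast Nat.le_of_dvd (Nat.pos_of_ne_zero h0) pow_padicValNat_dvd

theorem norm_inv_le_p {m : ℕ} (h0 : m ≠ 0) (h : m < p ^ 2) : padicNorm p (1 / m) ≤ p := by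
  have hm : (m : ℚ) ≠ 0 := by exact_mod_cast h0
  rw [padicNorm.div, padicNorm.one, padicNorm.eq_zpow_of_nonzero hm, padicValRat.of_nat, zpow_neg,
    one_div, inv_inv, zpow_natCast]
  have h1 : p ^ padicValNat p m ≤ m := Nat.le_of_dvd (Nat.pos_of_ne_zero h0) pow_padicValNat_dvd
  have h2 : padicValNat p m < 2 :=
    (Nat.pow_lt_pow_iff_right (Fact.out : p.Prime).one_lt).1 (h1.trans_lt h)
  calc (p : ℚ) ^ padicValNat p m ≤ (p : ℚ) ^ 1 := pow_le_pow_right₀ one_lt_p.le (by omega)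
    _ = p := pow_one _

theorem norm_le_den (g : ℚ) : padicNorm p g ≤ g.den := by
  have h : g = g.num * (1 / g.den) := by rw [mul_one_div, Rat.num_div_den]
  conv_lhs => rw [h]
  exact le_mul_l (padicNorm.of_int _) (norm_inv_le g.den_nz)

theorem norm_three_half (hp : p ≠ 2) : padicNorm p (3 / 2) ≤ 1 := by
  rw [div_unit (norm_two hp)]; exact_mod_cast padicNorm.of_nat (p := p) 3

theorem norm_four : padicNorm p 4 ≤ 1 := by exact_mod_cast padicNorm.of_nat (p := p) 4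

/-- a sum with one exceptional term -/
theorem sum_sub_le {s : Finset ℕ} {f : ℕ → ℚ} {k₀ : ℕ} {c : ℚ} (hc : 0 ≤ c) (h0 : k₀ ∈ s)
    (h : ∀ k ∈ s, k ≠ k₀ → padicNorm p (f k) ≤ c) :
    padicNorm p (∑ k ∈ s, f k - f k₀) ≤ c := by
  rw [← Finset.add_sum_erase s f h0, add_sub_cancel_left]
  exact padicNorm.sum_le' (fun k hk => h k (mem_of_mem_erase hk) (ne_of_mem_erase hk)) hc

/-! Reduction modulo `p`. -/

theorem den_ne {q : ℚ} (h : padicNorm p q ≤ 1) : (q.den : ZMod p) ≠ 0 := by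
  rw [Ne, ZMod.natCast_eq_zero_iff]
  intro hd
  have h1 : padicNorm p q.den < 1 := (padicNorm.nat_lt_one_iff _).2 hd
  have h2 : padicNorm p q.num < 1 := by
    rw [← Rat.mul_den_eq_num]; exact lt_mul_l h h1
  have h3 : (p : ℤ) ∣ q.num := (padicNorm.int_lt_one_iff _).1 h2
  have h4 : p ∣ q.num.natAbs := Int.natCast_dvd.1 h3
  have h5 : p ∣ 1 := q.reduced ▸ Nat.dvd_gcd h4 hd
  exact (Fact.out : p.Prime).one_lt.ne' (Nat.dvd_one.1 h5)

theorem cast_add {a b : ℚ} (ha : padicNorm p a ≤ 1) (hb : padicNorm p b ≤ 1) :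
    ((a + b : ℚ) : ZMod p) = a + b := Rat.cast_add_of_ne_zero (den_ne ha) (den_ne hb)

theorem cast_sub {a b : ℚ} (ha : padicNorm p a ≤ 1) (hb : padicNorm p b ≤ 1) :
    ((a - b : ℚ) : ZMod p) = a - b := Rat.cast_sub_of_ne_zero (den_ne ha) (den_ne hb)

theorem cast_mul {a b : ℚ} (ha : padicNorm p a ≤ 1) (hb : padicNorm p b ≤ 1) :
    ((a * b : ℚ) : ZMod p) = a * b := Rat.cast_mul_of_ne_zero (den_ne ha) (den_ne hb)

theorem cast_int_mul (m : ℤ) {b : ℚ} (hb : padicNorm p b ≤ 1) :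
    (((m : ℚ) * b : ℚ) : ZMod p) = (m : ZMod p) * b := by
  rw [cast_mul (padicNorm.of_int m) hb, Rat.cast_intCast]

theorem cast_sum {ι : Type} (s : Finset ι) (f : ι → ℚ) (h : ∀ i ∈ s, padicNorm p (f i) ≤ 1) :
    ((∑ i ∈ s, f i : ℚ) : ZMod p) = ∑ i ∈ s, (f i : ZMod p) := by
  classical
  induction s using Finset.induction_on with
  | empty => simp
  | insert a s ha ih =>
    have h' : ∀ i ∈ s, padicNorm p (f i) ≤ 1 := fun i hi => h i (mem_insert_of_mem hi)
    rw [sum_insert ha, sum_insert ha,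
      cast_add (h a (mem_insert_self _ _)) (padicNorm.sum_le' h' zero_le_one), ih h']

theorem cast_eq_zero {q : ℚ} (h : padicNorm p q < 1) : (q : ZMod p) = 0 := by
  have h2 : padicNorm p q.num < 1 := by
    rw [← Rat.mul_den_eq_num]; exact lt_mul_r h (padicNorm.of_nat _)
  rw [Rat.cast_def, (ZMod.intCast_zmod_eq_zero_iff_dvd _ _).2 ((padicNorm.int_lt_one_iff _).1 h2),
    zero_div]

theorem cast_eq {a b : ℚ} (hb : padicNorm p b ≤ 1) (h : padicNorm p (a - b) < 1) :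
    (a : ZMod p) = b := by
  have : a = b + (a - b) := by ring
  rw [this, cast_add hb h.le, cast_eq_zero h, add_zero]

theorem cast_three_half (hp : p ≠ 2) : ((3 / 2 : ℚ) : ZMod p) = 3 / 2 := by
  have h2 : ((2 : ℕ) : ZMod p) ≠ 0 := by
    rw [Ne, ZMod.natCast_eq_zero_iff]
    exact fun h => hp ((Nat.prime_dvd_prime_iff_eq Fact.out Nat.prime_two).1 h)
  rw [Rat.cast_div_of_ne_zero (by simp) (by simpa using h2)]
  simp

/-- the ring of `p`-integral rational numbers -/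
def Zp (p : ℕ) [Fact p.Prime] : Subring ℚ where
  carrier := {q | padicNorm p q ≤ 1}
  mul_mem' ha hb := le_mul_l ha hb
  one_mem' := padicNorm.one.le
  add_mem' ha hb := le_add ha hb
  zero_mem' := padicNorm.zero.le.trans zero_le_one
  neg_mem' {a} ha := (padicNorm.neg a).le.trans ha

/-- reduction modulo `p` -/
def red (p : ℕ) [Fact p.Prime] : Zp p →+* ZMod p where
  toFun q := ((q : ℚ) : ZMod p)
  map_one' := Rat.cast_one
  map_mul' a b := cast_mul a.2 b.2
  map_zero' := Rat.cast_zero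
  map_add' a b := cast_add a.2 b.2

theorem cast_det {n : Type} [Fintype n] [DecidableEq n] (E : Matrix n n ℚ)
    (h : ∀ r j, padicNorm p (E r j) ≤ 1) :
    (E.det : ZMod p) = (Matrix.of fun r j => (E r j : ZMod p)).det := by
  let E' : Matrix n n (Zp p) := Matrix.of fun r j => ⟨E r j, h r j⟩
  have h1 : E.det = ((E'.det : Zp p) : ℚ) := ((Zp p).subtype.map_det E').symm
  rw [h1]
  exact (red p).map_det E'

end Vale.Agent.P030.Red
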