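import Vale.Agent.P030.Taylor
import Vale.Agent.P030.Lat
import Vale.Agent.P030.Red

/-! Small, medium primes and the first dip. -/

namespace Vale.Agent.P030

open Polynomial Finset

namespace Dip

open Red

variable {p : ℕ} [Fact p.Prime]

theorem norm_pair_le (m : ℕ → ℕ → ℚ) (A : ℕ) (Q R : ℤ[X]) {c : ℚ} (hc : 0 ≤ c)
    (h : ∀ i ≤ A, ∀ l ≤ A, padicNorm p (m i l) ≤ c) : padicNorm p (pair m A Q R) ≤ c :=
  padicNorm.sum_le' (fun k _ => padicNorm.sum_le' (fun l hl =>
    le_mul_l (le_mul_l (padicNorm.of_int _) (padicNorm.of_int _))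
      (h _ (Nat.sub_le _ _) l (Nat.lt_succ_iff.1 (mem_range.1 hl)))) hc) hc

theorem norm_lam_le (hp : p ≠ 2) (g : ℚ) (A : ℕ) (P D R : ℤ[X]) {c : ℚ} (hg : padicNorm p g ≤ c)
    (h1 : ∀ i ≤ A, ∀ l ≤ A, padicNorm p (mr i l) ≤ c)
    (h2 : ∀ i ≤ A, ∀ l ≤ A, padicNorm p (zr i l) ≤ c) : padicNorm p (lam g A P D R) ≤ c := by
  have hc : 0 ≤ c := (padicNorm.nonneg _).trans hg
  refine le_sub (norm_pair_le _ _ _ _ hc fun i hi l hl => le_add (h1 i hi l hl) ?_)
    (le_mul_l (norm_three_half hp) (norm_pair_le _ _ _ _ hc fun i hi l hl =>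
      h2 i (by omega) l (by omega)))
  exact le_mul_r (le_mul_l norm_four hg) (norm_mg_le hp _ _)

/-- the form on a monomial column -/
noncomputable def Lm (g : ℚ) (A : ℕ) (P D : ℤ[X]) (l : ℕ) : ℚ :=
  ∑ k ∈ range (A + 1), (P.coeff k : ℚ) * (mr (A - k) l + 4 * g * mg (A - k) l) -
    3 / 2 * ∑ k ∈ range A, (D.coeff k : ℚ) * zr (A - 1 - k) l

theorem lam_eq (g : ℚ) {A : ℕ} (hA : 1 ≤ A) (P D R : ℤ[X]) (hR : R.coeff A = 0) :
    lam g A P D R = ∑ l ∈ range A, (R.coeff l : ℚ) * Lm g A P D l := by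
  unfold lam pair Lm
  rw [Nat.sub_add_cancel hA, sum_comm, sum_range_succ, hR, sum_comm (s := range A) (t := range A)]
  simp only [Int.cast_zero, mul_zero, zero_mul, sum_const_zero, add_zero, mul_sum, mul_sub,
    sum_sub_distrib]
  congr 1
  · exact sum_congr rfl fun l _ => sum_congr rfl fun k _ => by ring
  · exact sum_congr rfl fun l _ => sum_congr rfl fun k _ => by ring

theorem norm_Lm_sq (hp : p ≠ 2) {g : ℚ} (hg : padicNorm p g ≤ 1) {A : ℕ} (hA : A < p ^ 2)
    (P D : ℤ[X]) {l : ℕ} (hl : l < p ^ 2) : padicNorm p ((p : ℚ) ^ 2 * Lm g A P D l) ≤ 1 := by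
  have h0 : (0 : ℚ) ≤ (p : ℚ) ^ 2 := by positivity
  have h1 : (1 : ℚ) ≤ (p : ℚ) ^ 2 := one_le_pow₀ one_lt_p.le
  refine sq_le (le_sub (padicNorm.sum_le' (fun k _ => le_mul_l (padicNorm.of_int _)
    (le_add (norm_mr_sq hp (by omega) hl) ?_)) h0) (le_mul_l (norm_three_half hp)
      (padicNorm.sum_le' (fun k _ => le_mul_l (padicNorm.of_int _)
        (norm_zr_sq (by omega) hl)) h0)))
  exact (le_mul_l (le_mul_l norm_four hg) (norm_mg_le hp _ _)).trans h1

theorem three_le (hp : p ≠ 2) : 3 ≤ p := by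
  have := (Fact.out : p.Prime).two_le
  omega

theorem sq_big (hp : p ≠ 2) : 3 * p ≤ p ^ 2 := by
  have := three_le hp
  nlinarith

theorem unit_two {m : ℕ} (h0 : m ≠ 0) (h : m < 2 * p) (hne : m ≠ p) : padicNorm p m = 1 := by
  refine unit_nat ?_
  rintro ⟨t, rfl⟩
  rcases t with _ | _ | t
  · simp at h0
  · simp at hne
  · nlinarith

theorem nu_odd (l : ℕ) : nu (2 * l + 1) = cc l := by
  rw [nu, if_pos (by omega), show (2 * l + 1) / 2 = l by omega]

theorem nu_even (l : ℕ) : nu (2 * l) = 0 := by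
  rw [nu, if_neg (by omega)]

theorem norm_inv_aa (hp : p ≠ 2) {k : ℕ} (hk : 2 * k + 1 < p ^ 2) :
    padicNorm p (1 / aa k) ≤ p := by
  have h : 1 / aa k = ((2 * k + 1 : ℕ) : ℚ) * nu (2 * k + 1) / 2 := by
    have := (aa_pos k).ne'
    rw [nu_odd, cc]; push_cast; field_simp
  rw [h, div_unit (norm_two hp)]
  exact le_mul_l (padicNorm.of_nat _) (norm_nu_le hp hk)

theorem unit_succ {k : ℕ} (hk : k + 1 < p) : padicNorm p ((k : ℚ) + 1) = 1 := by
  exact_mod_cast unit_lt (p := p) (m := k + 1) (by omega) hk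

theorem unit_mul {a b : ℚ} (ha : padicNorm p a = 1) (hb : padicNorm p b = 1) :
    padicNorm p (a * b) = 1 := by rw [padicNorm.mul, ha, hb, one_mul]

theorem unit_sq {a : ℚ} (ha : padicNorm p a = 1) : padicNorm p (a ^ 2) = 1 := by
  rw [sq]; exact unit_mul ha ha

theorem b1_odd (hp : p ≠ 2) {l : ℕ} (hl : l < p) : padicNorm p (b1 (2 * l + 1)) ≤ p := by
  have h3 := sq_big hp
  rw [b1, if_pos (by omega), show (2 * l + 1) / 2 = l by omega]
  rcases lt_or_ge (2 * l) p with h | h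
  · refine (le_mul_l (norm_aa_le hp l) (padicNorm.sum_le' (fun k hk => ?_) zero_le_one)).trans
      one_lt_p.le
    have hk' := mem_range.1 hk
    rw [div_unit (unit_mul (unit_mul (norm_two hp) (unit_sq (unit_succ (by omega))))
      (unit_sq (norm_aa_eq hp (by omega)))), padicNorm.one]
  · have h1 : padicNorm p (aa l) ≤ (p : ℚ)⁻¹ := by
      have h4 : padicNorm p (4 ^ l) = 1 := by
        have := unit_nat (p := p) (m := 4 ^ l) fun hd => hp ((Nat.prime_dvd_prime_iff_eq Fact.out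
          Nat.prime_two).1 ((Fact.out : p.Prime).dvd_of_dvd_pow (n := 2)
            ((Fact.out : p.Prime).dvd_of_dvd_pow hd)))
        exact_mod_cast this
      rw [aa, div_unit h4]
      refine le_of_lt_one ((padicNorm.nat_lt_one_iff _).2 ?_)
      rw [Nat.centralBinom, two_mul]
      exact (Fact.out : p.Prime).dvd_choose_add hl hl (by omega)
    have h2 : padicNorm p (∑ k ∈ range l, 1 / (2 * ((k : ℚ) + 1) ^ 2 * aa (k + 1) ^ 2)) ≤
        (p : ℚ) * p := by
      refine padicNorm.sum_le' (fun k hk => ?_) (by positivity)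
      have hk' := mem_range.1 hk
      have e : 1 / (2 * ((k : ℚ) + 1) ^ 2 * aa (k + 1) ^ 2) =
          1 / aa (k + 1) * (1 / aa (k + 1)) / (2 * ((k : ℚ) + 1) ^ 2) := by
        have := (aa_pos (k + 1)).ne'
        field_simp
      rw [e, div_unit (unit_mul (norm_two hp) (unit_sq (unit_succ (by omega))))]
      exact le_mul (norm_inv_aa hp (by omega)) (norm_inv_aa hp (by omega))
    refine (le_mul h1 h2).trans_eq ?_
    have := p_pos (p := p)
    field_simp

theorem b1_even (hp : p ≠ 2) {l : ℕ} (hl : l < p) :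
    padicNorm p (b1 (2 * l + 2) - nu (2 * l + 1) / p) ≤ p := by
  have h3 := sq_big hp
  obtain ⟨m, hm⟩ := (Fact.out : p.Prime).odd_of_ne_two hp
  have hu : ∀ k ≤ l, k ≠ m → padicNorm p (1 / (2 * (k : ℚ) + 1)) ≤ 1 := fun k hk hkm => by
    have : padicNorm p (2 * (k : ℚ) + 1) = 1 := by
      exact_mod_cast unit_two (p := p) (m := 2 * k + 1) (by omega) (by omega) (by omega)
    rw [div_unit this, padicNorm.one]
  rw [b1, if_neg (by omega), show (2 * l + 2) / 2 = l + 1 by omega, Nat.add_sub_cancel, ← nu_odd]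
  rcases lt_or_ge l m with h | h
  · have h1 : padicNorm p (nu (2 * l + 1)) ≤ 1 := norm_nu_le_one hp (by omega)
    refine le_sub ((le_mul_l h1 (padicNorm.sum_le' (fun k hk => ?_) zero_le_one)).trans
      one_lt_p.le) ?_
    · have := mem_range.1 hk
      exact hu k (by omega) (by omega)
    · rw [div_eq_mul_one_div]
      exact le_mul_l h1 (norm_inv_le (Fact.out : p.Prime).ne_zero)
  · have e : (p : ℚ) = 2 * (m : ℚ) + 1 := by exact_mod_cast hm
    have h1 := sum_sub_le (p := p) (s := range (l + 1)) (f := fun k => 1 / (2 * (k : ℚ) + 1))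
      (k₀ := m) zero_le_one (mem_range.2 (by omega))
      (fun k hk hkm => hu k (by have := mem_range.1 hk; omega) hkm)
    rw [← e] at h1
    rw [div_eq_mul_one_div (nu _), ← mul_sub]
    exact le_mul_r (norm_nu_le hp (by omega)) h1

theorem b0_small (hp : p ≠ 2) {j : ℕ} (hj : j < p) : padicNorm p (b0 j) ≤ 1 := by
  obtain ⟨m, hm⟩ := (Fact.out : p.Prime).odd_of_ne_two hp
  by_cases h : j % 2 = 0
  · rw [b0, if_pos h]
    refine le_mul_l (norm_aa_le hp _) (padicNorm.sum_le' (fun k hk => ?_) zero_le_one)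
    have hk' := mem_range.1 hk
    rw [div_unit (unit_mul (unit_mul (norm_two hp) (unit_sq (unit_succ (by omega))))
      (norm_aa_eq hp (by omega))), padicNorm.one]
  · have := norm_mr_one hp (i := 0) (l := j) (by omega) (by omega)
    rwa [mr] at this

theorem b1_small (hp : p ≠ 2) {i : ℕ} (h0 : 0 < i) (hi : i ≤ p) : padicNorm p (b1 i) ≤ p := by
  obtain ⟨m, hm⟩ := (Fact.out : p.Prime).odd_of_ne_two hp
  rcases hi.lt_or_eq with h | h
  · obtain ⟨i, rfl⟩ : ∃ j, i = j + 1 := ⟨i - 1, by omega⟩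
    have h3 := three_le hp
    have := norm_mr_one hp (i := i + 1) (l := 0) h (by omega)
    rw [mr] at this
    exact this.trans one_lt_p.le
  · rw [show i = 2 * m + 1 by omega]
    exact b1_odd hp (by omega)

theorem tail_term (hp : p ≠ 2) {i l k : ℕ} (hi : i < p ^ 2) (hk : k < l) (hl : l < 2 * p)
    (hne : l ≠ k + p) : padicNorm p (nu (i - 1 - k) / ((l : ℚ) - k)) ≤ p := by
  have : padicNorm p ((l : ℚ) - k) = 1 := by
    rw [← Nat.cast_sub hk.le]
    exact unit_two (by omega) (by omega) (by omega)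
  rw [div_unit this]
  exact norm_nu_le hp (by omega)

theorem mr_dip (hp : p ≠ 2) {i c : ℕ} (hc : c < p) (h1 : c < i) (h2 : i ≤ c + 2 * p) :
    padicNorm p (mr i c + mr i (c + p)) ≤ p := by
  have h3 := sq_big hp
  have hi : i < p ^ 2 := by omega
  have hp0 := (p_pos (p := p)).le
  have t1 : padicNorm p (∑ k ∈ range (min i c), nu (i - 1 - k) / ((c : ℚ) - k)) ≤ p :=
    padicNorm.sum_le' (fun k hk => by
      have := mem_range.1 hk
      exact tail_term hp hi (by omega) (by omega) (by omega)) hp0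
  have t2 := sum_sub_le (p := p) (s := range (min i (c + p)))
    (f := fun k => nu (i - 1 - k) / (((c + p : ℕ) : ℚ) - k)) (k₀ := c) hp0
    (mem_range.2 (by omega)) (fun k hk hkc => by
      have := mem_range.1 hk
      exact tail_term hp hi (by omega) (by omega) (by omega))
  have t3 : padicNorm p (if i ≤ c + p then b0 (c + p - i) else b1 (i - (c + p))) ≤ p := by
    split_ifs with h
    · exact (b0_small hp (by omega)).trans one_lt_p.le
    · exact b1_small hp (by omega) (by omega)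
  have t4 : padicNorm p (b1 (i - c) - nu (i - 1 - c) / p) ≤ p := by
    rcases Nat.even_or_odd' (i - 1 - c) with ⟨l, h | h⟩
    · rw [h, nu_even, zero_div, sub_zero, show i - c = 2 * l + 1 by omega]
      exact b1_odd hp (by omega)
    · rw [h, show i - c = 2 * l + 2 by omega]
      exact b1_even hp (by omega)
  have e : ((c + p : ℕ) : ℚ) - c = p := by push_cast; ring
  rw [e] at t2
  rw [mr_eq, mr_eq, if_neg (by omega)]
  have := le_sub (le_add (le_sub t4 t1) t3) t2
  refine le_of_eq_of_le (congrArg _ ?_) this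
  ring

theorem norm_h1 {n : ℕ} (hn : n < p ^ 2) : padicNorm p (h1 n) ≤ p :=
  padicNorm.sum_le' (fun k hk => by
    have := mem_range.1 hk
    exact_mod_cast norm_inv_le_p (p := p) (m := k + 1) (by omega) (by omega)) p_pos.le

theorem zr_off {i l : ℕ} (hi : i < p ^ 2) (hl : l < p ^ 2) (hu : padicNorm p ((l : ℚ) - i) = 1) :
    padicNorm p (zr i l) ≤ p := by
  have hne : i ≠ l := by
    rintro rfl
    simp at hu
  rw [zr, if_neg hne, div_unit hu]
  exact le_sub (norm_h1 hl) (norm_h1 hi)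

theorem zr_dip (hp : p ≠ 2) {i c : ℕ} (hc : c < p) (h1' : c < i) (h2' : i < c + 2 * p) :
    padicNorm p (zr i c + zr i (c + p)) ≤ p := by
  have h3 := sq_big hp
  have hp0 := p_pos (p := p)
  by_cases h : i = c + p
  · subst h
    obtain ⟨q, hq⟩ : ∃ q, p = q + 1 := ⟨p - 1, by omega⟩
    have e : (p : ℚ) = q + 1 := by exact_mod_cast hq
    have hu : ∀ k < c + p, k ≠ q → padicNorm p ((k : ℚ) + 1) = 1 := fun k hk hkq => by
      exact_mod_cast unit_two (p := p) (m := k + 1) (by omega) (by omega) (by omega)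
    have t1 := sum_sub_le (p := p) (s := range (c + p)) (f := fun k => 1 / ((k : ℚ) + 1))
      (k₀ := q) zero_le_one (mem_range.2 (by omega)) (fun k hk hkq => by
        rw [div_unit (hu k (mem_range.1 hk) hkq), padicNorm.one])
    have t2 := sum_sub_le (p := p) (s := range (c + p)) (f := fun k => 1 / ((k : ℚ) + 1) ^ 2)
      (k₀ := q) zero_le_one (mem_range.2 (by omega)) (fun k hk hkq => by
        rw [div_unit (unit_sq (hu k (mem_range.1 hk) hkq)), padicNorm.one])
    have t3 : padicNorm p (h1 c) ≤ 1 := padicNorm.sum_le' (fun k hk => by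
      have := mem_range.1 hk
      rw [div_unit (hu k (by omega) (by omega)), padicNorm.one]) zero_le_one
    rw [← e] at t1 t2
    have t4 := le_sub (le_mul_r (norm_inv_le (p := p) (Fact.out : p.Prime).ne_zero) (le_sub t1 t3))
      (t2.trans one_lt_p.le)
    refine le_of_eq_of_le (congrArg _ ?_) t4
    rw [zr, zr, if_neg (by omega), if_pos rfl, h1, h1, h2]
    push_cast
    have e2 : (c : ℚ) - (c + p) = -p := by ring
    rw [e2]
    field_simp
    ring
  · refine le_add (zr_off (by omega) (by omega) ?_) (zr_off (by omega) (by omega) ?_)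
    · rw [← padicNorm.neg, neg_sub, ← Nat.cast_sub h1'.le]
      exact unit_two (by omega) (by omega) (by omega)
    · have := unit_int (p := p) (m := ((c + p : ℕ) : ℤ) - i) (by omega) (by rw [abs_lt]; omega)
      exact_mod_cast this

theorem Lm_dip (hp : p ≠ 2) {g : ℚ} (hg : padicNorm p g ≤ 1) {A c : ℕ} (P D : ℤ[X]) (hc : c < p)
    (hA : A ≤ c + 2 * p) (hP : P.natDegree + c < A) (hD : D.natDegree + c + 1 < A) :
    padicNorm p (Lm g A P D c + Lm g A P D (c + p)) ≤ p := by
  have hp0 := (p_pos (p := p)).le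
  have e : Lm g A P D c + Lm g A P D (c + p) =
      ∑ k ∈ range (A + 1), (P.coeff k : ℚ) * ((mr (A - k) c + mr (A - k) (c + p)) +
        4 * g * (mg (A - k) c + mg (A - k) (c + p))) -
      3 / 2 * ∑ k ∈ range A, (D.coeff k : ℚ) * (zr (A - 1 - k) c + zr (A - 1 - k) (c + p)) := by
    simp only [Lm, mul_add, sum_add_distrib]
    ring
  rw [e]
  refine le_sub (padicNorm.sum_le' (fun k _ => ?_) hp0)
    (le_mul_l (norm_three_half hp) (padicNorm.sum_le' (fun k _ => ?_) hp0))
  · by_cases hk : k ≤ P.natDegree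
    · refine le_mul_l (padicNorm.of_int _) (le_add (mr_dip hp hc (by omega) (by omega)) ?_)
      exact (le_mul_l (le_mul_l norm_four hg)
        (le_add (norm_mg_le hp _ _) (norm_mg_le hp _ _))).trans one_lt_p.le
    · rw [coeff_eq_zero_of_natDegree_lt (by omega)]; simp
  · by_cases hk : k ≤ D.natDegree
    · exact le_mul_l (padicNorm.of_int _) (zr_dip hp hc (by omega) (by omega))
    · rw [coeff_eq_zero_of_natDegree_lt (by omega)]; simp

theorem Emat_eq_sum (g : ℚ) {N : ℕ} (hN : 1 ≤ N) (r j : Fin (36 * N)) :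
    Emat g N r j = ∑ l ∈ range (49 * N), ((col (6 * N) (2 * N) j).coeff l : ℚ) *
      Lm g (49 * N) (QP (2 * N) (KK N r)) (QD (2 * N) (KK N r)) l :=
  lam_eq g (by omega) _ _ _ (coeff_col_eq_zero _ _ _ _ (Or.inr (by have := j.2; omega)))

end Dip

open Red Dip

theorem odd_small {p : ℕ} [Fact p.Prime] (hp : p ≠ 2) (g : ℚ) (N : ℕ) (hN : 1 ≤ N) :
    padicNorm p (Emat g N).det ≤ (((49 * N : ℕ) : ℚ) ^ 4 * g.den) ^ (36 * N) := by
  have hB : 1 ≤ 49 * N := by omega
  have hB' : (1 : ℚ) ≤ (49 * N : ℕ) := by exact_mod_cast hB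
  have hd : (1 : ℚ) ≤ g.den := by exact_mod_cast g.den_pos
  have h := norm_det_le (p := p) (Emat g N) (c := ((49 * N : ℕ) : ℚ) ^ 4 * g.den) fun r j =>
    norm_lam_le hp g _ _ _ _ ((norm_le_den g).trans
      (le_mul_of_one_le_left (by positivity) (one_le_pow₀ hB')))
      (fun i hi l hl => (norm_mr_crude hp hB hi hl).trans
        (le_mul_of_one_le_right (by positivity) hd))
      (fun i hi l hl => ((norm_zr_crude hB hi hl).trans
        (pow_le_pow_right₀ hB' (by norm_num))).trans (le_mul_of_one_le_right (by positivity) hd))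
  rwa [Fintype.card_fin] at h

theorem norm_Emat_sq {p : ℕ} [Fact p.Prime] (hp : p ≠ 2) (g : ℚ) (hg : padicNorm p g ≤ 1) (N : ℕ)
    (h2 : 49 * N < p ^ 2) (r j : Fin (36 * N)) : padicNorm p (Emat g N r j) ≤ (p : ℚ) ^ 2 :=
  norm_lam_le hp g _ _ _ _ (hg.trans (one_le_pow₀ one_lt_p.le))
    (fun _ _ _ _ => norm_mr_sq hp (by omega) (by omega))
    (fun _ _ _ _ => norm_zr_sq (by omega) (by omega))

theorem odd_mid {p : ℕ} [Fact p.Prime] (hp : p ≠ 2) (g : ℚ) (hg : padicNorm p g ≤ 1) (N : ℕ)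
    (h2 : 49 * N < p ^ 2) : padicNorm p (Emat g N).det ≤ (p : ℚ) ^ (72 * N) := by
  have h := norm_det_le (p := p) (Emat g N) (norm_Emat_sq hp g hg N h2)
  rwa [Fintype.card_fin, ← pow_mul, show 2 * (36 * N) = 72 * N by ring] at h

theorem odd_dip {p : ℕ} [Fact p.Prime] (hp : p ≠ 2) (g : ℚ) (hg : padicNorm p g ≤ 1) (N : ℕ)
    (hN : 1 ≤ N) (h0 : 14 * N ≤ p) (h1 : p ≤ 30 * N) (h2 : 49 * N < p ^ 2) :
    padicNorm p (Emat g N).det ≤
      (p : ℚ) ^ (36 * N + (38 * N - (14 * N - 1 - max (6 * N) (49 * N - 2 * p)))) := by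
  classical
  set c₀ := max (6 * N) (49 * N - 2 * p) with hc₀
  set I : Finset ℕ := Ico (6 * N) (44 * N) \ Ico (c₀ + p) (14 * N - 1 + p) with hI
  have hcard : I.card = 38 * N - (14 * N - 1 - c₀) := by
    rw [hI, card_sdiff_of_subset (Ico_subset_Ico (by omega) (by omega)), Nat.card_Ico, Nat.card_Ico]
    omega
  set Λ : Fin (36 * N) → ℕ → ℚ := fun r l =>
    Lm g (49 * N) (QP (2 * N) (KK N r)) (QD (2 * N) (KK N r)) l with hΛ
  have h := lat (p := p) (Emat g N) (fun (i : I) r => (p : ℚ) ^ 2 * Λ r i)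
    (fun (k j : Fin (36 * N)) => if k = j then 1 else 0)
    (fun i r => norm_Lm_sq hp hg h2 _ _ (by
      have := mem_Ico.1 (mem_sdiff.1 i.2).1
      omega))
    (fun k j => by split_ifs <;> simp) (fun x y hx hy => ?_)
  · rwa [Fintype.card_coe, Fintype.card_fin, hcard, add_comm] at h
  have hy' : ∀ j, padicNorm p (y j) ≤ (p : ℚ)⁻¹ := fun j => le_of_lt_one (by simpa using hy j)
  have hx' : ∀ l ∈ I, padicNorm p (∑ r, (x r : ℚ) * Λ r l) ≤ p := fun l hl => by
    have h3 := le_of_lt_one (hx ⟨l, hl⟩)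
    have e : ∑ r, (p : ℚ) ^ 2 * Λ r l * x r = (p : ℚ) ^ 2 * ∑ r, (x r : ℚ) * Λ r l := by
      rw [mul_sum]; exact sum_congr rfl fun r _ => by ring
    have hp0 := p_pos (p := p)
    rw [e, norm_sq_mul, div_le_iff₀ (by positivity)] at h3
    refine h3.trans_eq ?_
    field_simp
  have hx'' : ∀ l ∈ Ico (6 * N) (44 * N), padicNorm p (∑ r, (x r : ℚ) * Λ r l) ≤ p := by
    intro l hl
    by_cases hl' : l ∈ Ico (c₀ + p) (14 * N - 1 + p)
    · obtain ⟨h3, h4⟩ := mem_Ico.1 hl'
      obtain ⟨c, rfl⟩ : ∃ c, l = c + p := ⟨l - p, by omega⟩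
      have h5 := hx' c (mem_sdiff.2 ⟨mem_Ico.2 (by omega), fun h => by
        have := mem_Ico.1 h
        omega⟩)
      have h6 : padicNorm p (∑ r, (x r : ℚ) * (Λ r c + Λ r (c + p))) ≤ p := by
        refine padicNorm.sum_le' (fun r _ => le_mul_l (padicNorm.of_int _) ?_) p_pos.le
        have hr := r.2
        have hK : (KK N r).natAbs ≤ 33 * N := by unfold KK; omega
        have d1 := natDegree_QP (2 * N) (KK N r)
        have d2 := natDegree_QD (2 * N) (KK N r)
        exact Lm_dip hp hg _ _ (by omega) (by omega) (by omega) (by omega)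
      refine le_of_eq_of_le (congrArg _ ?_) (le_sub h6 h5)
      simp only [mul_add, sum_add_distrib]
      ring
    · exact hx' l (mem_sdiff.2 ⟨hl, hl'⟩)
  have e : ∑ r, ∑ j, (x r : ℚ) * Emat g N r j * y j = ∑ j, ∑ l ∈ range (49 * N),
      (y j : ℚ) * (((col (6 * N) (2 * N) j).coeff l : ℚ) * ∑ r, (x r : ℚ) * Λ r l) := by
    rw [sum_comm]
    refine sum_congr rfl fun j _ => ?_
    simp only [Emat_eq_sum g hN, mul_sum, sum_mul]
    rw [sum_comm]
    exact sum_congr rfl fun l _ => sum_congr rfl fun r _ => by ring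
  rw [e]
  refine padicNorm.sum_le' (fun j _ => padicNorm.sum_le' (fun l _ => ?_) zero_le_one) zero_le_one
  by_cases hl : l ∈ Ico (6 * N) (44 * N)
  · refine (le_mul (hy' j) (le_mul_l (padicNorm.of_int _) (hx'' l hl))).trans_eq ?_
    exact inv_mul_cancel₀ (p_pos (p := p)).ne'
  · rw [mem_Ico] at hl
    have := j.2
    rw [coeff_col_eq_zero _ _ _ _ (by omega)]
    simp

end Vale.Agent.P030
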