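import Vale.Agent.P030.Val

/-! Degrees, linearity, and the Taylor cancellation. -/

namespace Vale.Agent.P030

open Polynomial Finset

theorem tay_deg_pow (h : ℕ) : ((X - 1 : ℤ[X]) ^ h).natDegree ≤ h := by
  have h1 : (X - 1 : ℤ[X]).natDegree ≤ 1 := by compute_degree
  calc ((X - 1 : ℤ[X]) ^ h).natDegree ≤ h * (X - 1 : ℤ[X]).natDegree := natDegree_pow_le
    _ ≤ h * 1 := Nat.mul_le_mul_left h h1
    _ = h := mul_one h

theorem natDegree_QP (h : ℕ) (K : ℤ) : (QP h K).natDegree ≤ h + K.natAbs + 1 := by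
  unfold QP
  rcases eq_or_ne K 0 with rfl | hK
  · simp
  have h1 : (X ^ 2 - 1 : ℤ[X]).natDegree ≤ 2 := by compute_degree
  have h2 := tay_deg_pow h
  have h3 : (Chebyshev.U ℤ (K - 1)).natDegree = K.natAbs - 1 := by
    rw [Chebyshev.natDegree_U, sub_add_cancel]
  have h4 : ((X ^ 2 - 1 : ℤ[X]) * (X - 1) ^ h * Chebyshev.U ℤ (K - 1)).natDegree ≤
      ((X ^ 2 - 1 : ℤ[X]) * (X - 1) ^ h).natDegree + (Chebyshev.U ℤ (K - 1)).natDegree :=
    natDegree_mul_le
  have h5 : ((X ^ 2 - 1 : ℤ[X]) * (X - 1) ^ h).natDegree ≤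
      (X ^ 2 - 1 : ℤ[X]).natDegree + ((X - 1 : ℤ[X]) ^ h).natDegree := natDegree_mul_le
  have h6 : K.natAbs ≠ 0 := Int.natAbs_ne_zero.2 hK
  omega

theorem natDegree_QD (h : ℕ) (K : ℤ) : (QD h K).natDegree ≤ h + K.natAbs := by
  unfold QD
  have h2 := tay_deg_pow h
  have h3 : (Chebyshev.T ℤ K).natDegree = K.natAbs := Chebyshev.natDegree_T ℤ K
  have h4 : ((X - 1 : ℤ[X]) ^ h * Chebyshev.T ℤ K).natDegree ≤
      ((X - 1 : ℤ[X]) ^ h).natDegree + (Chebyshev.T ℤ K).natDegree := natDegree_mul_le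
  omega

theorem coeff_col_eq_zero (a b j l : ℕ) (hl : l < a + j ∨ a + j + b < l) :
    (col a b j).coeff l = 0 := by
  unfold col
  rw [coeff_X_pow_mul']
  split_ifs with h
  · apply coeff_eq_zero_of_natDegree_lt
    have h1 : (1 - X : ℤ[X]).natDegree ≤ 1 := by compute_degree
    have h2 : ((1 - X : ℤ[X]) ^ b).natDegree ≤ b * (1 - X : ℤ[X]).natDegree := natDegree_pow_le
    have h3 : b * (1 - X : ℤ[X]).natDegree ≤ b * 1 := Nat.mul_le_mul_left b h1
    omega
  · rfl

/-- coefficients of `1 / √(1 - t ^ 2)` -/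
def tayPhi (n : ℕ) : ℚ := if n % 2 = 0 then aa (n / 2) else 0

noncomputable def tayF : PowerSeries ℚ := PowerSeries.mk tayPhi

theorem tayPhi_rec (n : ℕ) : tayPhi (n + 2) * ((n : ℚ) + 2) = tayPhi n * ((n : ℚ) + 1) := by
  unfold tayPhi
  rcases Nat.even_or_odd' n with ⟨l, rfl | rfl⟩
  · rw [if_pos (by omega), if_pos (by omega)]
    have e1 : (2 * l + 2) / 2 = l + 1 := by omega
    have e2 : 2 * l / 2 = l := by omega
    rw [e1, e2, aa_succ]
    push_cast
    field_simp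
  · rw [if_neg (by omega), if_neg (by omega)]
    simp

theorem tayF_ode : PowerSeries.derivative ℚ tayF =
    PowerSeries.X * (PowerSeries.X * PowerSeries.derivative ℚ tayF) + PowerSeries.X * tayF := by
  ext n
  rw [map_add, PowerSeries.coeff_derivative]
  cases n with
  | zero => simp [tayF, tayPhi]
  | succ n =>
    rw [PowerSeries.coeff_succ_X_mul, PowerSeries.coeff_succ_X_mul]
    have h := tayPhi_rec n
    cases n with
    | zero =>
      simp only [tayF, PowerSeries.coeff_mk, PowerSeries.coeff_zero_X_mul] at h ⊢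
      push_cast at h ⊢
      linarith only [h]
    | succ n =>
      rw [PowerSeries.coeff_succ_X_mul, PowerSeries.coeff_derivative]
      simp only [tayF, PowerSeries.coeff_mk] at h ⊢
      push_cast at h ⊢
      linarith only [h]

theorem tayF_sq : tayF * tayF * (1 - PowerSeries.X * PowerSeries.X) = 1 := by
  apply PowerSeries.derivative.ext
  · have h := tayF_ode
    simp only [Derivation.leibniz, map_sub, PowerSeries.derivative_X, smul_eq_mul,
      Derivation.map_one_eq_zero]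
    linear_combination (2 * tayF) * h
  · simp [tayF, tayPhi, aa_zero]

theorem tay_unit : ∃ u : PowerSeries ℚ,
    1 - (1 - PowerSeries.X * PowerSeries.X) * tayF = PowerSeries.X * PowerSeries.X * u := by
  have hu : IsUnit (1 + (1 - PowerSeries.X * PowerSeries.X) * tayF) := by
    rw [PowerSeries.isUnit_iff_constantCoeff]
    simp [tayF, tayPhi, aa_zero]
  obtain ⟨u, hu⟩ := hu.exists_right_inv
  refine ⟨u, ?_⟩
  have h := tayF_sq
  linear_combination (-(1 - (1 - PowerSeries.X * PowerSeries.X) * tayF)) * hu -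
    (u * (1 - PowerSeries.X * PowerSeries.X)) * h

theorem tay_cheb {L : Type} [CommRing L] (ψ : ℤ[X] →+* L) (x s : L) (hx : ψ X = x)
    (hs : s * s = x * x - 1) (k : ℕ) :
    (x - s) ^ k = ψ (Chebyshev.T ℤ k) - s * ψ (Chebyshev.U ℤ (k - 1)) := by
  induction k with
  | zero => simp
  | succ k ih =>
    have h1 := Chebyshev.T_eq_X_mul_T_sub_pol_U ℤ ((k : ℤ) - 1)
    have h2 := Chebyshev.U_eq_X_mul_U_add_T ℤ ((k : ℤ) - 1)
    have e1 : (k : ℤ) - 1 + 2 = ((k + 1 : ℕ) : ℤ) := by push_cast; ring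
    have e2 : (k : ℤ) - 1 + 1 = k := by ring
    have e3 : ((k + 1 : ℕ) : ℤ) - 1 = k := by push_cast; ring
    rw [e1, e2] at h1
    rw [e2] at h2
    rw [e3, h1, h2, pow_succ, ih]
    simp only [map_sub, map_add, map_mul, map_pow, hx, map_one]
    linear_combination (ψ (Chebyshev.U ℤ ((k : ℤ) - 1))) * hs

theorem tay_coeff (Q : ℤ[X]) (A : ℕ) (hQ : Q.natDegree < A + 1) (G : LaurentSeries ℚ) (n : ℤ) :
    (eval₂RingHom (Int.castRingHom (LaurentSeries ℚ)) (HahnSeries.single (-1 : ℤ) (1 : ℚ)) Q *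
      G).coeff n =
      ∑ k ∈ range (A + 1), (Q.coeff k : ℚ) * G.coeff (n + k) := by
  rw [coe_eval₂RingHom, eval₂_eq_sum_range' _ hQ, Finset.sum_mul, HahnSeries.coeff_sum]
  refine Finset.sum_congr rfl fun k _ => ?_
  have e : Int.castRingHom (LaurentSeries ℚ) (Q.coeff k) *
      (HahnSeries.single (-1 : ℤ) (1 : ℚ)) ^ k =
      HahnSeries.single (-(k : ℤ)) (Q.coeff k : ℚ) := by
    have e0 : Int.castRingHom (LaurentSeries ℚ) (Q.coeff k) =
        HahnSeries.single (0 : ℤ) (Q.coeff k : ℚ) := by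
      rw [← HahnSeries.C_apply, map_intCast, eq_intCast]
    rw [e0, HahnSeries.single_pow, HahnSeries.single_mul_single]
    simp
  have e2 : n = (n + k) + -(k : ℤ) := by ring
  rw [e]
  conv_lhs => rw [e2]
  exact HahnSeries.coeff_single_mul_add

/-- `t ^ A * QP (1 / t) / √(1 - t ^ 2) - t ^ (A - 1) * QD (1 / t) = O (t ^ (A - h - 1 + K))` -/
theorem taylor (h A : ℕ) (K : ℤ) (hA : h + K.natAbs + 1 ≤ A) (l : ℕ) (hl : l < A)
    (hK : (l : ℤ) + 1 + h < A + K) :
    ∑ k ∈ range (A + 1), ((QP h K).coeff k : ℚ) * mz (A - k) l = (QD h K).coeff (A - 1 - l) := by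
  have hP := natDegree_QP h K
  have hD := natDegree_QD h K
  rcases lt_or_ge K 0 with hK0 | hK0
  · rw [coeff_eq_zero_of_natDegree_lt (p := QD h K) (by omega), Int.cast_zero]
    refine Finset.sum_eq_zero fun k _ => ?_
    by_cases hk : (QP h K).natDegree < k
    · rw [coeff_eq_zero_of_natDegree_lt hk]; simp
    · unfold mz
      rw [if_neg (by omega), mul_zero]
  obtain ⟨k, rfl⟩ := Int.eq_ofNat_of_zero_le hK0
  obtain ⟨u, hu⟩ := tay_unit
  obtain ⟨φ, hφ⟩ : ∃ φ : PowerSeries ℚ →+* LaurentSeries ℚ, φ = HahnSeries.ofPowerSeries ℤ ℚ :=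
    ⟨_, rfl⟩
  obtain ⟨x, hx⟩ : ∃ x : LaurentSeries ℚ, x = HahnSeries.single (-1 : ℤ) (1 : ℚ) := ⟨_, rfl⟩
  have ht : φ PowerSeries.X = HahnSeries.single (1 : ℤ) (1 : ℚ) := by
    rw [hφ, HahnSeries.ofPowerSeries_X]
  have hxt : x * φ PowerSeries.X = 1 := by
    rw [hx, ht, HahnSeries.single_mul_single]
    simp
  have hF := congrArg φ tayF_sq
  have hU := congrArg φ hu
  simp only [map_mul, map_sub, map_one] at hF hU
  obtain ⟨t, hτ⟩ : ∃ t, t = φ PowerSeries.X := ⟨_, rfl⟩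
  rw [← hτ] at hF hU hxt
  have hs : (x * ((1 - t * t) * φ tayF)) * (x * ((1 - t * t) * φ tayF)) = x * x - 1 := by
    linear_combination (x * x * (1 - t * t)) * hF - (x * t + 1) * hxt
  obtain ⟨ψ, hψ⟩ : ∃ ψ : ℤ[X] →+* LaurentSeries ℚ,
      ψ = eval₂RingHom (Int.castRingHom (LaurentSeries ℚ)) x := ⟨_, rfl⟩
  have hψX : ψ X = x := by rw [hψ, coe_eval₂RingHom, eval₂_X]
  have hc := tay_cheb ψ x _ hψX hs k
  have hw : x - x * ((1 - t * t) * φ tayF) = t * φ u := by
    linear_combination x * hU + (t * φ u) * hxt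
  have hx1 : x - 1 = x * (1 - t) := by linear_combination hxt
  have key : ψ (QP h k) * φ tayF - ψ (QD h k) * x =
      x ^ (h + 1) * t ^ k * φ (-((1 - PowerSeries.X) ^ h * u ^ k)) := by
    unfold QP QD
    simp only [map_mul, map_sub, map_pow, hψX, map_one, map_neg, ← hτ]
    rw [hw, mul_pow] at hc
    rw [hx1, mul_pow, pow_succ x h]
    linear_combination (x ^ h * (1 - t) ^ h * x) * hc +
      (x ^ h * (1 - t) ^ h * ψ (Chebyshev.U ℤ ((k : ℤ) - 1)) * φ tayF * (x * t + 1)) * hxt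
  have hsing : x ^ (h + 1) * t ^ k = HahnSeries.single ((k : ℤ) - h - 1) (1 : ℚ) := by
    rw [hx, hτ, ht, HahnSeries.single_pow, HahnSeries.single_pow, HahnSeries.single_mul_single]
    congr 1
    · simp only [smul_neg, nsmul_eq_mul, mul_one]
      push_cast
      ring_nf
    · simp
  have hz : (x ^ (h + 1) * t ^ k * φ (-((1 - PowerSeries.X) ^ h * u ^ k))).coeff
      ((l : ℤ) - A) = 0 := by
    have e : (l : ℤ) - A = ((l : ℤ) - A - ((k : ℤ) - h - 1)) + ((k : ℤ) - h - 1) := by ring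
    rw [hsing, e, HahnSeries.coeff_single_mul_add, hφ, PowerSeries.coeff_coe, if_pos (by omega),
      mul_zero]
  rw [← key, HahnSeries.coeff_sub, hψ, hx, tay_coeff _ A (by omega), tay_coeff _ A (by omega),
    sub_eq_zero] at hz
  have e1 : ∑ j ∈ range (A + 1), ((QP h k).coeff j : ℚ) * mz (A - j) l =
      ∑ j ∈ range (A + 1), ((QP h k).coeff j : ℚ) * (φ tayF).coeff ((l : ℤ) - A + j) := by
    refine Finset.sum_congr rfl fun j hj => ?_
    have hj' := Finset.mem_range.1 hj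
    congr 1
    rw [hφ, PowerSeries.coeff_coe]
    unfold mz
    by_cases hlt : (l : ℤ) - A + j < 0
    · rw [if_pos hlt, if_neg (by omega)]
    · have e : ((l : ℤ) - A + j).natAbs = l - (A - j) := by omega
      rw [if_neg hlt, e, tayF, PowerSeries.coeff_mk, tayPhi]
      by_cases h2 : (l - (A - j)) % 2 = 0
      · rw [if_pos h2, if_pos ⟨by omega, h2⟩]
      · rw [if_neg h2, if_neg fun hh => h2 hh.2]
  rw [e1, hz, Finset.sum_eq_single (A - 1 - l)]
  · rw [HahnSeries.coeff_single, if_pos (by omega), mul_one]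
  · intro j _ hj
    rw [HahnSeries.coeff_single, if_neg (by omega), mul_zero]
  · intro hj
    exact absurd (Finset.mem_range.2 (by omega)) hj

end Vale.Agent.P030
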