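import Vale.Agent.P030.TwoA
import Vale.Agent.P030.Taylor
import Vale.Agent.P030.Lat

/-! The prime `2`. -/

namespace Vale.Agent.P030

open Polynomial Finset

namespace TwoB

open TwoA

theorem pair_add (m : ℕ → ℕ → ℚ) (A : ℕ) (Q Q' R : ℤ[X]) :
    pair m A (Q + Q') R = pair m A Q R + pair m A Q' R := by
  unfold pair
  simp only [coeff_add, Int.cast_add, add_mul, Finset.sum_add_distrib]

theorem pair_smul (m : ℕ → ℕ → ℚ) (A : ℕ) (c : ℤ) (Q R : ℤ[X]) :
    pair m A (c • Q) R = c * pair m A Q R := by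
  unfold pair
  simp only [coeff_smul, smul_eq_mul, Int.cast_mul, Finset.mul_sum, mul_assoc]

theorem norm_pair_le (m : ℕ → ℕ → ℚ) (A : ℕ) (Q R : ℤ[X]) {c : ℚ} (hc : 0 ≤ c)
    (h : ∀ k ≤ A, ∀ l ≤ A, Q.coeff k ≠ 0 → R.coeff l ≠ 0 → padicNorm 2 (m (A - k) l) ≤ c) :
    padicNorm 2 (pair m A Q R) ≤ c := by
  unfold pair
  refine padicNorm.sum_le' (fun k hk => padicNorm.sum_le' (fun l hl => ?_) hc) hc
  by_cases h1 : Q.coeff k = 0
  · simp [h1, hc]
  by_cases h2 : R.coeff l = 0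
  · simp [h2, hc]
  rw [padicNorm.mul, padicNorm.mul]
  have := h k (Nat.lt_succ_iff.1 (Finset.mem_range.1 hk)) l
    (Nat.lt_succ_iff.1 (Finset.mem_range.1 hl)) h1 h2
  calc _ ≤ 1 * 1 * c := by
        refine mul_le_mul (mul_le_mul (padicNorm.of_int _) (padicNorm.of_int _)
          (padicNorm.nonneg _) (by norm_num)) this (padicNorm.nonneg _) (by norm_num)
    _ = c := by ring

def m2 (B i l : ℕ) : ℚ := mr i l - gam B * mg i l - xi B * mz i l

/-- the modified linear form -/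
noncomputable def Lm (g : ℚ) (A : ℕ) (R : ℤ[X]) : (ℤ[X] × ℤ[X]) →ₗ[ℤ] ℚ where
  toFun x := pair (m2 A) A x.1 R + (4 * g + gam A) * pair mg A x.1 R
    - 3 / 2 * pair zr (A - 1) x.2 R
    + xi A * ∑ l ∈ range (A + 1), (R.coeff l : ℚ) * x.2.coeff (A - 1 - l)
  map_add' x y := by
    simp only [Prod.fst_add, Prod.snd_add, pair_add, coeff_add, Int.cast_add, mul_add,
      Finset.sum_add_distrib]
    ring
  map_smul' c x := by
    simp only [Prod.smul_fst, Prod.smul_snd, pair_smul, coeff_smul, smul_eq_mul, Int.cast_mul,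
      RingHom.id_apply]
    rw [zsmul_eq_mul, show ∑ l ∈ range (A + 1), (R.coeff l : ℚ) * (c * x.2.coeff (A - 1 - l)) =
      c * ∑ l ∈ range (A + 1), (R.coeff l : ℚ) * x.2.coeff (A - 1 - l) by
        rw [Finset.mul_sum]; exact Finset.sum_congr rfl fun l _ => by ring]
    ring

theorem Lm_apply (g : ℚ) (A : ℕ) (R P D : ℤ[X]) : Lm g A R (P, D) =
    pair (m2 A) A P R + (4 * g + gam A) * pair mg A P R - 3 / 2 * pair zr (A - 1) D R
      + xi A * ∑ l ∈ range (A + 1), (R.coeff l : ℚ) * D.coeff (A - 1 - l) := rfl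

theorem norm_g (g : ℚ) : padicNorm 2 g ≤ g.den := by
  have h1 : g = g.num * (1 / (g.den : ℚ)) := by rw [mul_one_div, Rat.num_div_den]
  conv_lhs => rw [h1, padicNorm.mul]
  calc _ ≤ 1 * (g.den : ℚ) := mul_le_mul (padicNorm.of_int _) (norm_inv_nat_le 2 _ g.den_nz)
        (padicNorm.nonneg _) (by norm_num)
    _ = _ := one_mul _

theorem norm_mg (i l : ℕ) : padicNorm 2 (mg i l) ≤ 2 ^ (i - l) := by
  unfold mg
  split_ifs with h
  · refine (norm_aa_two _).trans ?_
    rw [show (4 : ℚ) = 2 ^ 2 by norm_num, ← pow_mul]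
    exact pow_le_pow_right₀ (by norm_num) (by omega)
  · simp

theorem norm_Lm (g : ℚ) {A : ℕ} (hA : 1 ≤ A) (R P D : ℤ[X]) (e : ℕ)
    (h : ∀ k l, P.coeff k ≠ 0 → R.coeff l ≠ 0 → A - k - l ≤ e) :
    padicNorm 2 (Lm g A R (P, D)) ≤ (2 * A : ℚ) ^ 5 * g.den * 2 ^ e := by
  have hA' : (1 : ℚ) ≤ A := by exact_mod_cast hA
  have hd : (1 : ℚ) ≤ g.den := by exact_mod_cast g.den_pos
  have he : (1 : ℚ) ≤ 2 ^ e := one_le_pow₀ (by norm_num)
  have h5 : (1 : ℚ) ≤ (2 * A : ℚ) ^ 5 := one_le_pow₀ (by linarith)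
  have hk1 : (2 * A : ℚ) ^ 5 ≤ (2 * A : ℚ) ^ 5 * g.den := le_mul_of_one_le_right (by positivity) hd
  have hk2 : (2 * A : ℚ) ^ 5 * g.den ≤ (2 * A : ℚ) ^ 5 * g.den * 2 ^ e :=
    le_mul_of_one_le_right (by positivity) he
  have t1 : padicNorm 2 (pair (m2 A) A P R) ≤ (2 * A : ℚ) ^ 5 :=
    norm_pair_le _ _ _ _ (by positivity) fun k _ l hl _ _ => norm_mr_two hA (by omega) hl
  have t2 : padicNorm 2 ((4 * g + gam A) * pair mg A P R) ≤ (2 * A : ℚ) ^ 5 * g.den * 2 ^ e := by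
    rw [padicNorm.mul]
    refine mul_le_mul ?_ ?_ (padicNorm.nonneg _) (by positivity)
    · refine padicNorm.nonarchimedean.trans (max_le ?_ ((norm_gam A hA).trans hk1))
      rw [padicNorm.mul]
      have := padicNorm.of_nat (p := 2) 4
      push_cast at this
      exact mul_le_mul (this.trans h5) (norm_g g) (padicNorm.nonneg _) (by positivity)
    · refine norm_pair_le _ _ _ _ (by positivity) fun k _ l _ h1 h2 => (norm_mg _ _).trans ?_
      exact pow_le_pow_right₀ (by norm_num) (h k l h1 h2)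
  have t3 : padicNorm 2 (3 / 2 * pair zr (A - 1) D R) ≤ (2 * A : ℚ) ^ 5 := by
    rw [padicNorm.mul]
    have h1 : padicNorm 2 (3 / 2) ≤ 2 := by
      rw [padicNorm.div, norm_two]
      have := padicNorm.of_nat (p := 2) 3
      push_cast at this
      linarith
    have h2 : padicNorm 2 (pair zr (A - 1) D R) ≤ (A : ℚ) ^ 2 :=
      norm_pair_le _ _ _ _ (by positivity) fun k _ l hl _ _ =>
        norm_zr_crude hA (by omega) (by omega)
    calc _ ≤ 2 * (A : ℚ) ^ 2 := mul_le_mul h1 h2 (padicNorm.nonneg _) (by norm_num)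
      _ ≤ 32 * (A : ℚ) ^ 5 := by
          gcongr <;> norm_num
      _ = _ := by ring
  have t4 : padicNorm 2 (xi A * ∑ l ∈ range (A + 1), (R.coeff l : ℚ) * D.coeff (A - 1 - l)) ≤
      (2 * A : ℚ) ^ 5 := by
    rw [padicNorm.mul]
    have h1 : padicNorm 2 (∑ l ∈ range (A + 1), (R.coeff l : ℚ) * D.coeff (A - 1 - l)) ≤ 1 := by
      refine padicNorm.sum_le' (fun l _ => ?_) (by norm_num)
      rw [← Int.cast_mul]
      exact padicNorm.of_int _
    calc _ ≤ (2 * A : ℚ) ^ 5 * 1 :=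
          mul_le_mul (norm_xi A hA) h1 (padicNorm.nonneg _) (by positivity)
      _ = _ := mul_one _
  rw [Lm_apply]
  refine padicNorm.nonarchimedean.trans (max_le (padicNorm.sub.trans (max_le
    (padicNorm.nonarchimedean.trans (max_le ?_ t2)) ?_)) ?_)
  · exact t1.trans (hk1.trans hk2)
  · exact t3.trans (hk1.trans hk2)
  · exact t4.trans (hk1.trans hk2)

theorem lam_eq (g : ℚ) (A : ℕ) (P D R : ℤ[X])
    (h : ∀ l, R.coeff l ≠ 0 →
      ∑ k ∈ range (A + 1), (P.coeff k : ℚ) * mz (A - k) l = D.coeff (A - 1 - l)) :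
    lam g A P D R = Lm g A R (P, D) := by
  rw [Lm_apply]
  have h1 : ∑ l ∈ range (A + 1), (R.coeff l : ℚ) * D.coeff (A - 1 - l) = pair mz A P R := by
    unfold pair
    rw [Finset.sum_comm]
    refine Finset.sum_congr rfl fun l _ => ?_
    by_cases h2 : R.coeff l = 0
    · simp [h2]
    · rw [← h l h2, Finset.mul_sum]
      exact Finset.sum_congr rfl fun k _ => by ring
  have h2 : pair (fun i l => mr i l + 4 * g * mg i l) A P R =
      pair (m2 A) A P R + (4 * g + gam A) * pair mg A P R + xi A * pair mz A P R := by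
    unfold pair m2
    simp only [Finset.mul_sum, ← Finset.sum_add_distrib]
    exact Finset.sum_congr rfl fun k _ => Finset.sum_congr rfl fun l _ => by ring
  rw [h1]
  unfold lam
  rw [h2]
  ring

theorem U_expand (n : ℤ) (M : ℕ) (hM : (n + 1).natAbs < M) : Chebyshev.U ℤ n =
    ∑ y : Fin M, ((Chebyshev.S ℤ n).coeff y * 2 ^ (y : ℕ)) • (X : ℤ[X]) ^ (y : ℕ) := by
  have h1 : (Chebyshev.U ℤ n).natDegree < M := by rw [Chebyshev.natDegree_U]; omega
  conv_lhs => rw [as_sum_range' _ M h1]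
  rw [Finset.sum_range]
  refine Finset.sum_congr rfl fun y _ => ?_
  rw [← Chebyshev.S_comp_two_mul_X, show (2 * X : ℤ[X]) = C 2 * X by simp, comp_C_mul_X_coeff,
    smul_X_eq_monomial]

/-- the coordinates -/
noncomputable def bas (h M : ℕ) : Fin M ⊕ Fin M → ℤ[X] × ℤ[X]
  | Sum.inl k => (2 ^ (k : ℕ) : ℤ) • (0, (X - 1) ^ h * X ^ (k : ℕ))
  | Sum.inr y => (2 ^ (y : ℕ) : ℤ) •
      (X ^ (y : ℕ) * ((X ^ 2 - 1) * (X - 1) ^ h), (X - 1) ^ h * X * X ^ (y : ℕ))

noncomputable def crd (M : ℕ) (K : ℤ) : Fin M ⊕ Fin M → ℤ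
  | Sum.inl k => -(Chebyshev.S ℤ (K - 2)).coeff k
  | Sum.inr y => (Chebyshev.S ℤ (K - 1)).coeff y

theorem row_eq (h M : ℕ) (K : ℤ) (hM : K.natAbs + 1 < M) :
    (QP h K, QD h K) = ∑ f, crd M K f • bas h M f := by
  have hT : Chebyshev.T ℤ K = X * Chebyshev.U ℤ (K - 1) - Chebyshev.U ℤ (K - 2) := by
    have := Chebyshev.T_eq_X_mul_U_sub_U ℤ (K - 2)
    rwa [show K - 2 + 2 = K by ring, show K - 2 + 1 = K - 1 by ring] at this
  have h1 := U_expand (K - 1) M (by omega)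
  have h2 := U_expand (K - 2) M (by omega)
  rw [Fintype.sum_sum_type]
  ext1
  · simp only [crd, bas, Prod.fst_add, Prod.fst_sum, Prod.smul_fst, smul_zero,
      Finset.sum_const_zero, zero_add]
    unfold QP
    rw [h1, Finset.mul_sum]
    refine Finset.sum_congr rfl fun y _ => ?_
    rw [smul_smul, mul_smul_comm, mul_comm (X ^ (y : ℕ))]
  · simp only [crd, bas, Prod.snd_add, Prod.snd_sum, Prod.smul_snd]
    unfold QD
    rw [hT, mul_sub, ← mul_assoc]
    conv_lhs => rw [h1, h2]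
    rw [Finset.mul_sum, Finset.mul_sum, sub_eq_neg_add, ← Finset.sum_neg_distrib]
    refine congrArg₂ (· + ·) (Finset.sum_congr rfl fun y _ => ?_)
      (Finset.sum_congr rfl fun y _ => ?_)
    · rw [smul_smul, mul_smul_comm, neg_mul, neg_smul]
    · rw [smul_smul, mul_smul_comm]

theorem sum_hinge (M : ℕ) : ∀ x : ℝ,
    ∑ k ∈ range M, max 0 (x - k) ≤ (max 0 x) ^ 2 / 2 + max 0 x := by
  induction M with
  | zero => intro x; simp only [range_zero, sum_empty]; positivity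
  | succ M ih =>
    intro x
    rw [Finset.sum_range_succ']
    have h1 : ∑ k ∈ range M, max 0 (x - ((k + 1 : ℕ) : ℝ)) = ∑ k ∈ range M, max 0 (x - 1 - k) :=
      Finset.sum_congr rfl fun k _ => by push_cast; congr 1; ring
    rw [h1]
    have h2 := ih (x - 1)
    simp only [Nat.cast_zero, sub_zero]
    rcases le_total x 0 with h | h
    · rw [max_eq_left (show x - 1 ≤ 0 by linarith)] at h2
      rw [max_eq_left h]
      linarith
    · rw [max_eq_right h]
      rcases le_total x 1 with h' | h'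
      · rw [max_eq_left (show x - 1 ≤ 0 by linarith)] at h2
        nlinarith
      · rw [max_eq_right (show 0 ≤ x - 1 by linarith)] at h2
        nlinarith

theorem sum_hinge' (M : ℕ) (x : ℝ) (hx : 0 ≤ x) :
    ∑ k : Fin M, max 0 (x - (k : ℕ)) ≤ x ^ 2 / 2 + x := by
  have := sum_hinge M x
  rw [max_eq_right hx] at this
  rwa [Fin.sum_univ_eq_sum_range (fun k => max 0 (x - (k : ℕ))) M]

noncomputable def del (N M : ℕ) : Fin M ⊕ Fin M → ℝ
  | Sum.inl k => max 0 (65 / 4 * (N : ℝ) - (k : ℕ))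
  | Sum.inr y => 2 * max 0 (79 / 4 * (N : ℝ) - (y : ℕ))

theorem del_nonneg (N M : ℕ) (f : Fin M ⊕ Fin M) : 0 ≤ del N M f := by
  cases f <;> simp only [del] <;> positivity

theorem sum_del (N M : ℕ) : ∑ f, del N M f ≤
    ((65 / 4 * (N : ℝ)) ^ 2 / 2 + 65 / 4 * N) + 2 * ((79 / 4 * (N : ℝ)) ^ 2 / 2 + 79 / 4 * N) := by
  rw [Fintype.sum_sum_type]
  simp only [del]
  rw [← Finset.mul_sum]
  have h1 := sum_hinge' M (65 / 4 * (N : ℝ)) (by positivity)
  have h2 := sum_hinge' M (79 / 4 * (N : ℝ)) (by positivity)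
  linarith

theorem norm_two_pow_smul (k : ℕ) (q : ℚ) :
    padicNorm 2 ((2 ^ k : ℤ) • q) = padicNorm 2 q / 2 ^ k := by
  rw [zsmul_eq_mul, padicNorm.mul]
  push_cast
  rw [norm_pow, norm_two, one_div_pow]
  ring

theorem norm_bas (g : ℚ) {N : ℕ} (hN : 1 ≤ N) (M j : ℕ) (f : Fin M ⊕ Fin M) :
    (padicNorm 2 (Lm g (49 * N) (col (6 * N) (2 * N) j) (bas (2 * N) M f)) : ℝ) ≤
      ((98 * N : ℝ) ^ 5 * g.den * (2 : ℝ) ^ (del N M f - 65 / 4 * N)) *
        (2 : ℝ) ^ (max 0 (79 / 4 * (N : ℝ) - j)) := by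
  have key : ∀ (k e : ℕ) (q : ℚ), padicNorm 2 q ≤ (2 * (49 * N : ℕ) : ℚ) ^ 5 * g.den * 2 ^ e →
      (e : ℝ) - k ≤ del N M f - 65 / 4 * N + max 0 (79 / 4 * (N : ℝ) - j) →
      (padicNorm 2 ((2 ^ k : ℤ) • q) : ℝ) ≤
      ((98 * N : ℝ) ^ 5 * g.den * (2 : ℝ) ^ (del N M f - 65 / 4 * N)) *
        (2 : ℝ) ^ (max 0 (79 / 4 * (N : ℝ) - j)) := by
    intro k e q hq he
    rw [norm_two_pow_smul, mul_assoc, ← Real.rpow_add (by norm_num)]
    have h1 : (padicNorm 2 q : ℝ) ≤ (98 * N : ℝ) ^ 5 * g.den * 2 ^ e := by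
      have : ((padicNorm 2 q : ℚ) : ℝ) ≤
          (((2 * (49 * N : ℕ) : ℚ) ^ 5 * g.den * 2 ^ e : ℚ) : ℝ) := by exact_mod_cast hq
      push_cast at this
      rwa [show (2 : ℝ) * (49 * N) = 98 * N by ring] at this
    have h2 : (2 : ℝ) ^ e / 2 ^ k ≤
        (2 : ℝ) ^ (del N M f - 65 / 4 * N + max 0 (79 / 4 * (N : ℝ) - j)) := by
      rw [← Real.rpow_natCast, ← Real.rpow_natCast, ← Real.rpow_sub (by norm_num)]
      exact Real.rpow_le_rpow_of_exponent_le (by norm_num) he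
    push_cast
    calc _ ≤ (98 * N : ℝ) ^ 5 * g.den * 2 ^ e / 2 ^ k := by gcongr
      _ = (98 * N : ℝ) ^ 5 * g.den * (2 ^ e / 2 ^ k) := by ring
      _ ≤ _ := by gcongr
  have hm := le_max_left (0 : ℝ) (79 / 4 * (N : ℝ) - j)
  have hm' := le_max_right (0 : ℝ) (79 / 4 * (N : ℝ) - j)
  have hN0 : (0 : ℝ) ≤ N := by positivity
  cases f with
  | inl k =>
    simp only [bas, map_zsmul]
    refine key k 0 _ (norm_Lm g (by omega) _ _ _ 0 (fun k l h => by simp at h)) ?_
    simp only [del]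
    have := le_max_right (0 : ℝ) (65 / 4 * (N : ℝ) - (k : ℕ))
    push_cast
    linarith
  | inr y =>
    simp only [bas, map_zsmul]
    refine key y (43 * N - y - j) _ (norm_Lm g (by omega) _ _ _ _ (fun k l h1 h2 => ?_)) ?_
    · have hk : (y : ℕ) ≤ k := by
        by_contra hc
        rw [coeff_X_pow_mul', if_neg hc] at h1
        exact h1 rfl
      have hl : 6 * N + j ≤ l := by
        by_contra hc
        exact h2 (coeff_col_eq_zero _ _ _ _ (Or.inl (by omega)))
      omega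
    · simp only [del]
      have h1 := le_max_left (0 : ℝ) (79 / 4 * (N : ℝ) - (y : ℕ))
      have h2 := le_max_right (0 : ℝ) (79 / 4 * (N : ℝ) - (y : ℕ))
      rcases le_total (43 * N) (y + j) with h | h
      · rw [show 43 * N - y - j = 0 by omega]
        push_cast
        linarith
      · rw [Nat.sub_sub, Nat.cast_sub h]
        push_cast
        linarith

end TwoB

open TwoB

theorem two_bound (g : ℚ) : ∃ C : ℝ, ∀ N : ℕ, 1 ≤ N → (padicNorm 2 (Emat g N).det : ℝ) ≤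
    Real.exp (1057 / 8 * Real.log 2 * (N : ℝ) ^ 2 + C * N * (1 + Real.log N)) := by
  refine ⟨36 * (5 * Real.log 98 + 5 + Real.log g.den) + 76, fun N hN => ?_⟩
  set M := 33 * N + 2 with hM
  let Xm : Matrix (Fin (36 * N)) (Fin M ⊕ Fin M) ℚ := Matrix.of fun r f => (crd M (KK N r) f : ℚ)
  let Bm : Matrix (Fin M ⊕ Fin M) (Fin (36 * N)) ℚ :=
    Matrix.of fun f j => Lm g (49 * N) (col (6 * N) (2 * N) j) (bas (2 * N) M f)
  have hE : Emat g N = Xm * Bm := by
    ext r j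
    have hr := r.2
    have hj := j.2
    have hK : (KK N r).natAbs ≤ 33 * N := by unfold KK; omega
    rw [Matrix.mul_apply]
    simp only [Emat, Matrix.of_apply, Xm, Bm]
    rw [lam_eq, row_eq (2 * N) M (KK N r) (by omega), map_sum]
    · exact Finset.sum_congr rfl fun f _ => by rw [map_zsmul, zsmul_eq_mul]
    · intro l hl
      have hl' : l ≤ 6 * N + j + 2 * N := by
        by_contra hc
        exact hl (coeff_col_eq_zero _ _ _ _ (Or.inr (by omega)))
      refine taylor _ _ _ (by omega) l (by omega) ?_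
      unfold KK
      push_cast
      omega
  have hN' : (1 : ℝ) ≤ N := by exact_mod_cast hN
  have hd : (1 : ℝ) ≤ g.den := by exact_mod_cast g.den_pos
  set κ : ℝ := (98 * N : ℝ) ^ 5 * g.den with hκ
  have hκ0 : 0 < κ := by positivity
  set S : ℝ := ((65 / 4 * (N : ℝ)) ^ 2 / 2 + 65 / 4 * N) +
    2 * ((79 / 4 * (N : ℝ)) ^ 2 / 2 + 79 / 4 * N) with hS
  have h1 := cb (p := 2) Xm Bm (fun f => κ * (2 : ℝ) ^ (del N M f - 65 / 4 * N))
    (fun j => (2 : ℝ) ^ (max 0 (79 / 4 * (N : ℝ) - (j : ℕ))))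
    (κ ^ (36 * N) * (2 : ℝ) ^ (S - 36 * N * (65 / 4 * N))) (fun f => by positivity)
    (fun j => by positivity) (by positivity) (fun r f => padicNorm.of_int _)
    (fun f j => norm_bas g hN M j f) (fun f hf => by
      rw [Finset.prod_mul_distrib, Finset.prod_const, Finset.card_univ, Fintype.card_fin,
        ← Real.rpow_sum_of_pos (by norm_num), Finset.sum_sub_distrib, Finset.sum_const,
        Finset.card_univ, Fintype.card_fin, nsmul_eq_mul]
      have h2 : ∑ r, del N M (f r) ≤ ∑ f, del N M f := by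
        rw [← Finset.sum_image (s := univ) (g := f) (f := del N M) (fun a _ b _ h => hf h)]
        exact Finset.sum_le_sum_of_subset_of_nonneg (Finset.subset_univ _)
          (fun a _ _ => del_nonneg N M a)
      have h3 := sum_del N M
      gcongr
      · norm_num
      · linarith
      · push_cast
        exact le_rfl)
  rw [hE]
  refine h1.trans ?_
  rw [← Real.rpow_sum_of_pos (by norm_num), mul_assoc, ← Real.rpow_add (by norm_num)]
  have h4 := sum_hinge' (36 * N) (79 / 4 * (N : ℝ)) (by positivity)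
  have hl2 : 0 < Real.log 2 := Real.log_pos (by norm_num)
  have hl2' : Real.log 2 < 1 := by have := Real.log_two_lt_d9; linarith
  have hlN : 0 ≤ Real.log N := Real.log_nonneg hN'
  have hld : 0 ≤ Real.log g.den := Real.log_nonneg hd
  have hl98 : 0 ≤ Real.log 98 := Real.log_nonneg (by norm_num)
  have hlκ : Real.log κ = 5 * Real.log 98 + 5 * Real.log N + Real.log g.den := by
    rw [hκ, Real.log_mul (by positivity) (by positivity), Real.log_pow,
      Real.log_mul (by norm_num) (by positivity)]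
    push_cast
    ring
  rw [← Real.exp_log hκ0, ← Real.exp_nat_mul, Real.rpow_def_of_pos (by norm_num), ← Real.exp_add,
    Real.exp_le_exp, hlκ]
  set T := ∑ j : Fin (36 * N), max 0 (79 / 4 * (N : ℝ) - (j : ℕ)) with hT
  have h5 : S - 36 * N * (65 / 4 * N) + T ≤ 1057 / 8 * (N : ℝ) ^ 2 + 76 * N := by
    rw [hS]; nlinarith
  have h6 : Real.log 2 * (S - 36 * N * (65 / 4 * N) + T) ≤
      Real.log 2 * (1057 / 8 * (N : ℝ) ^ 2 + 76 * N) := by gcongr
  have h7 : Real.log 2 * (76 * N) ≤ 76 * N * (1 + Real.log N) := by nlinarith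
  have h8 : 5 * Real.log 98 + 5 * Real.log N + Real.log g.den ≤
      (5 * Real.log 98 + 5 + Real.log g.den) * (1 + Real.log N) := by nlinarith
  have h9 : (36 * N : ℝ) * (5 * Real.log 98 + 5 * Real.log N + Real.log g.den) ≤
      36 * N * ((5 * Real.log 98 + 5 + Real.log g.den) * (1 + Real.log N)) := by gcongr
  push_cast
  nlinarith

end Vale.Agent.P030
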