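import Vale.Agent.P030.OddBig
import Vale.Agent.P030.OddDip
import Vale.Agent.P030.Two
import Vale.Agent.P030.Hinge

/-! The arithmetic lower bound. -/

namespace Vale.Agent.P030

open Finset Filter Topology

namespace ArithX

theorem cast_hinge (a N s : ℕ) :
    max ((a : ℝ) / 2 * N - s) 0 = ((a * N - 2 * s : ℕ) : ℝ) / 2 := by
  rcases le_total (2 * s) (a * N) with h | h
  · have h' : (2 * s : ℝ) ≤ a * N := by exact_mod_cast h
    rw [Nat.cast_sub h, max_eq_left (by linarith)]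
    push_cast
    ring
  · have h' : (a * N : ℝ) ≤ 2 * s := by exact_mod_cast h
    rw [Nat.sub_eq_zero_of_le h, max_eq_right (by linarith)]
    simp

/-- the hinge function -/
noncomputable def hg (a N s : ℕ) : ℝ := max ((a : ℝ) / 2 * N - s) 0

noncomputable def ph (N s : ℕ) : ℝ :=
  hg 98 N s + hg 88 N s + hg 86 N s + hg 60 N s - 2 * hg 51 N s - 2 * hg 49 N s + 2 * hg 43 N s
    - 2 * hg 37 N s

theorem le_ph (N s e : ℕ) (h : 2 * e + 2 * (51 * N - 2 * s) + 2 * (49 * N - 2 * s) +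
      2 * (37 * N - 2 * s) ≤ (98 * N - 2 * s) + (88 * N - 2 * s) + (86 * N - 2 * s) +
      (60 * N - 2 * s) + 2 * (43 * N - 2 * s) + 2) : (e : ℝ) ≤ ph N s + 1 := by
  simp only [ph, hg, cast_hinge]
  generalize 98 * N - 2 * s = a1 at *
  generalize 88 * N - 2 * s = a2 at *
  generalize 86 * N - 2 * s = a3 at *
  generalize 60 * N - 2 * s = a4 at *
  generalize 51 * N - 2 * s = a5 at *
  generalize 49 * N - 2 * s = a6 at *
  generalize 43 * N - 2 * s = a7 at *
  generalize 37 * N - 2 * s = a8 at *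
  have h' : (2 * e + 2 * a5 + 2 * a6 + 2 * a8 : ℝ) ≤ a1 + a2 + a3 + a4 + 2 * a7 + 2 := by
    exact_mod_cast h
  linarith

theorem norm_le_one {p : ℕ} [Fact p.Prime] (g : ℚ) (h : g.den < p) : padicNorm p g ≤ 1 := by
  have h1 : padicNorm p (g.den : ℚ) = 1 :=
    (padicNorm.nat_eq_one_iff _).2 (Nat.not_dvd_of_pos_of_lt g.den_pos h)
  conv_lhs => rw [← Rat.num_div_den g]
  rw [padicNorm.div, h1, div_one]
  exact padicNorm.of_int _

theorem generic {p : ℕ} [Fact p.Prime] (hp : p ≠ 2) (g : ℚ) (h : g.den < p) (N : ℕ) (hN : 1 ≤ N)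
    (h2 : 49 * N < p ^ 2) :
    (padicNorm p (Emat g N).det : ℝ) ≤ Real.exp ((ph N p + 1) * Real.log p) := by
  have hg := norm_le_one (p := p) g h
  have p1 : (1 : ℝ) ≤ p := by exact_mod_cast (Fact.out : p.Prime).one_le
  have key : ∀ e : ℕ, padicNorm p (Emat g N).det ≤ (p : ℚ) ^ e → (e : ℝ) ≤ ph N p + 1 →
      (padicNorm p (Emat g N).det : ℝ) ≤ Real.exp ((ph N p + 1) * Real.log p) := by
    intro e h1 h3
    have h4 : (padicNorm p (Emat g N).det : ℝ) ≤ (p : ℝ) ^ e := by exact_mod_cast h1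
    refine h4.trans ?_
    rw [← Real.exp_log (show (0 : ℝ) < (p : ℝ) ^ e by positivity), Real.log_pow, Real.exp_le_exp]
    exact mul_le_mul_of_nonneg_right h3 (Real.log_nonneg p1)
  by_cases c1 : 2 * p ≤ 37 * N
  · exact key _ (odd_mid hp g hg N h2) (le_ph _ _ _ (by omega))
  by_cases c2 : 2 * p ≤ 49 * N
  · exact key _ (odd_dip hp g hg N hN (by omega) (by omega) h2) (le_ph _ _ _ (by omega))
  · exact key _ (odd_big hp g hg N hN (by omega) h2) (le_ph _ _ _ (by omega))

theorem ev_small (K : ℝ) :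
    ∀ᶠ N : ℕ in atTop, K * (1 + Real.log N) ≤ 1 / 1000 * √(N : ℝ) := by
  have h0 : Tendsto (fun N : ℕ => √(N : ℝ)) atTop atTop :=
    Real.tendsto_sqrt_atTop.comp tendsto_natCast_atTop_atTop
  have h1 : Tendsto (fun x : ℝ => K * (x⁻¹ + 2 * (Real.log x ^ 1 / (1 * x + 0)))) atTop
      (𝓝 (K * (0 + 2 * 0))) :=
    (tendsto_inv_atTop_zero.add
      ((Real.tendsto_pow_log_div_mul_add_atTop 1 0 1 one_ne_zero).const_mul _)).const_mul _
  have h2 := (h1.comp h0).eventually
    (eventually_le_nhds (show K * (0 + 2 * 0) < (1 / 1000 : ℝ) by norm_num))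
  filter_upwards [h2, eventually_gt_atTop 0] with N h3 h4
  have h5 : (0 : ℝ) < N := by exact_mod_cast h4
  have h6 : 0 < √(N : ℝ) := Real.sqrt_pos.2 h5
  simp only [Function.comp, pow_one, one_mul, add_zero, Real.log_sqrt h5.le] at h3
  have e : K * (1 + Real.log N) =
      K * ((√(N : ℝ))⁻¹ + 2 * (Real.log N / 2 / √(N : ℝ))) * √(N : ℝ) := by
    field_simp
  rw [e]
  exact mul_le_mul_of_nonneg_right h3 h6.le

theorem ev_ph : ∀ᶠ N : ℕ in atTop, ∑ s ∈ (range (49 * N + 1)).filter Nat.Prime,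
    ph N s * Real.log s ≤ (4825 / 2 + 1 / 1000) * (N : ℝ) ^ 2 := by
  have H : ∀ a : ℕ, a ≤ 98 → Tendsto (fun N : ℕ => (∑ s ∈ (range (49 * N + 1)).filter Nat.Prime,
      hg a N s * Real.log s) / (N : ℝ) ^ 2) atTop (𝓝 (((a : ℝ) / 2) ^ 2 / 2)) := fun a ha =>
    hinge _ (by positivity) (by
      have : (a : ℝ) ≤ 98 := by exact_mod_cast ha
      linarith)
  have h1 := ((((((((H 98 le_rfl).add (H 88 (by norm_num))).add (H 86 (by norm_num))).add
    (H 60 (by norm_num))).sub ((H 51 (by norm_num)).const_mul 2)).sub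
    ((H 49 (by norm_num)).const_mul 2)).add ((H 43 (by norm_num)).const_mul 2)).sub
    ((H 37 (by norm_num)).const_mul 2)).eventually
    (eventually_le_nhds (show _ < (4825 / 2 + 1 / 1000 : ℝ) by norm_num))
  filter_upwards [h1, eventually_gt_atTop 0] with N h3 h4
  have h5 : (0 : ℝ) < N := by exact_mod_cast h4
  rw [← div_le_iff₀ (by positivity)]
  refine le_trans (le_of_eq ?_) h3
  simp only [ph, add_mul, sub_mul, mul_assoc, Finset.sum_add_distrib, Finset.sum_sub_distrib,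
    ← Finset.mul_sum]
  ring

theorem sq_le_self {N : ℕ} (hN : 1 ≤ N) : √(N : ℝ) ≤ N := by
  have N1 : (1 : ℝ) ≤ N := by exact_mod_cast hN
  rw [Real.sqrt_le_left (by linarith)]
  nlinarith

theorem ev_C (C : ℝ) : ∀ᶠ N : ℕ in atTop, 1057 / 8 * Real.log 2 * (N : ℝ) ^ 2 +
    |C| * N * (1 + Real.log N) ≤ 91584 / 1000 * (N : ℝ) ^ 2 := by
  filter_upwards [ev_small |C|, eventually_ge_atTop 1] with N h2 hN
  have a6 : |C| * (1 + Real.log N) * N ≤ 1 / 1000 * N * N :=
    mul_le_mul_of_nonneg_right (h2.trans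
      (mul_le_mul_of_nonneg_left (sq_le_self hN) (by norm_num))) (Nat.cast_nonneg N)
  have a8 : 1057 / 8 * Real.log 2 * (N : ℝ) ^ 2 ≤ 91583 / 1000 * (N : ℝ) ^ 2 := by
    refine mul_le_mul_of_nonneg_right ?_ (by positivity)
    have := Real.log_two_lt_d9
    linarith
  linarith

theorem ev_theta : ∀ᶠ N : ℕ in atTop, ∑ s ∈ (range (49 * N + 1)).filter Nat.Prime,
    Real.log s ≤ 1 / 1000 * (N : ℝ) ^ 2 := by
  filter_upwards [ev_small (49 * Real.log 4), eventually_ge_atTop 1] with N h3 hN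
  have l4 : 0 ≤ Real.log 4 := Real.log_nonneg (by norm_num)
  have lN : 0 ≤ Real.log N := Real.log_natCast_nonneg N
  have b1 := Chebyshev.theta_le_log4_mul_x (x := ((49 * N : ℕ) : ℝ)) (by positivity)
  rw [Chebyshev.theta_eq_sum_Icc, Nat.floor_natCast, ← Nat.range_succ_eq_Icc_zero] at b1
  push_cast at b1
  have b2 : 49 * Real.log 4 ≤ 1 / 1000 * N := by
    have := mul_nonneg l4 lN
    have := sq_le_self hN
    linarith
  have b3 := mul_le_mul_of_nonneg_right b2 (Nat.cast_nonneg (α := ℝ) N)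
  linarith

theorem ev_M (d : ℕ) : ∀ᶠ N : ℕ in atTop, ((Nat.sqrt (49 * N) + d + 1 : ℕ) : ℝ) *
    (36 * N * (4 * (Real.log 49 + Real.log N) + Real.log d)) ≤ 1 / 1000 * (N : ℝ) ^ 2 := by
  have ld : 0 ≤ Real.log d := Real.log_natCast_nonneg d
  have l49 : 0 ≤ Real.log 49 := Real.log_nonneg (by norm_num)
  filter_upwards [ev_small ((8 + d) * (36 * (4 * Real.log 49 + 4 + Real.log d))),
    eventually_ge_atTop 1] with N h4 hN
  have N1 : (1 : ℝ) ≤ N := by exact_mod_cast hN
  have lN : 0 ≤ Real.log N := Real.log_nonneg N1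
  have s1 : 1 ≤ √(N : ℝ) := Real.one_le_sqrt.2 N1
  have s2 : √(N : ℝ) * √(N : ℝ) = N := Real.mul_self_sqrt (by linarith)
  have a3 : ((Nat.sqrt (49 * N) + d + 1 : ℕ) : ℝ) ≤ (8 + d) * √(N : ℝ) := by
    have b1 : ((Nat.sqrt (49 * N) : ℕ) : ℝ) ≤ 7 * √(N : ℝ) := by
      have b2 : ((Nat.sqrt (49 * N) : ℕ) : ℝ) * (Nat.sqrt (49 * N) : ℕ) ≤ 49 * N := by
        exact_mod_cast Nat.sqrt_le (49 * N)
      refine (mul_self_le_mul_self_iff (by positivity) (by positivity)).2 ?_
      linarith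
    have b3 := mul_le_mul_of_nonneg_left s1 (Nat.cast_nonneg (α := ℝ) d)
    push_cast
    linarith
  have b1 : 36 * N * (4 * (Real.log 49 + Real.log N) + Real.log d) ≤
      36 * N * ((4 * Real.log 49 + 4 + Real.log d) * (1 + Real.log N)) := by
    refine mul_le_mul_of_nonneg_left ?_ (by positivity)
    have := mul_nonneg l49 lN
    have := mul_nonneg ld lN
    linarith
  calc _ ≤ ((8 + d) * √(N : ℝ)) *
        (36 * N * ((4 * Real.log 49 + 4 + Real.log d) * (1 + Real.log N))) :=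
        mul_le_mul a3 b1 (by positivity) (by positivity)
    _ = ((8 + d) * (36 * (4 * Real.log 49 + 4 + Real.log d)) * (1 + Real.log N)) *
        (√(N : ℝ) * N) := by ring
    _ ≤ (1 / 1000 * √(N : ℝ)) * (√(N : ℝ) * N) :=
        mul_le_mul_of_nonneg_right h4 (by positivity)
    _ = 1 / 1000 * ((√(N : ℝ) * √(N : ℝ)) * N) := by ring
    _ = _ := by rw [s2]; ring

end ArithX

open ArithX

theorem arith (g : ℚ) : ∀ᶠ N : ℕ in atTop, (Emat g N).det ≠ 0 →
    -(25041 / 10) * (N : ℝ) ^ 2 ≤ Real.log |((Emat g N).det : ℝ)| := by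
  obtain ⟨C, hC⟩ := two_bound g
  have ld : 0 ≤ Real.log g.den := Real.log_natCast_nonneg _
  have d0 : (0 : ℝ) < g.den := by exact_mod_cast g.den_pos
  have l49 : 0 ≤ Real.log 49 := Real.log_nonneg (by norm_num)
  have l2 : 0 ≤ Real.log 2 := Real.log_nonneg (by norm_num)
  filter_upwards [ev_ph, ev_C C, ev_theta, ev_M g.den,
    eventually_ge_atTop 1, eventually_ge_atTop g.den] with N h1 h2 h3 h4 hN hNd hdet
  have N1 : (1 : ℝ) ≤ N := by exact_mod_cast hN
  have lN : 0 ≤ Real.log N := Real.log_nonneg N1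
  obtain ⟨B2, hB2⟩ : ∃ B2 : ℝ, B2 = 1057 / 8 * Real.log 2 * (N : ℝ) ^ 2 +
    |C| * N * (1 + Real.log N) := ⟨_, rfl⟩
  obtain ⟨Bs, hBs⟩ : ∃ Bs : ℝ, Bs = 36 * N * (4 * (Real.log 49 + Real.log N) + Real.log g.den) :=
    ⟨_, rfl⟩
  have B20 : 0 ≤ B2 := by rw [hB2]; positivity
  have Bs0 : 0 ≤ Bs := by rw [hBs]; positivity
  obtain ⟨M, hM⟩ : ∃ M : ℕ, M = Nat.sqrt (49 * N) + g.den + 1 := ⟨_, rfl⟩
  rw [← hB2] at h2
  rw [← hBs, ← hM] at h4
  have ph0 : ∀ s : ℕ, 0 ≤ (ph N s + 1) * Real.log s := fun s => by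
    have := le_ph N s 0 (by omega)
    exact mul_nonneg (by simpa using this) (Real.log_natCast_nonneg s)
  have i1 : ∀ s : ℕ, 0 ≤ if s = 2 then B2 else 0 := fun s => by split_ifs <;> positivity
  have i2 : ∀ s : ℕ, 0 ≤ if s ∈ range M then Bs else 0 := fun s => by split_ifs <;> positivity
  have key := log_ge (Emat g N).det hdet ((range (49 * N + 1)).filter Nat.Prime)
    (fun s => (if s = 2 then B2 else 0) +
    (if s ∈ range M then Bs else 0) + (ph N s + 1) * Real.log s)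
    (fun s _ => add_nonneg (add_nonneg (i1 s) (i2 s)) (ph0 s)) (fun s _ hs => ?_) (fun s hs hn => ?_)
  · refine le_trans ?_ key
    generalize (range (49 * N + 1)).filter Nat.Prime = S at h1 h3
    rw [neg_mul, neg_le_neg_iff, Finset.sum_add_distrib, Finset.sum_add_distrib]
    have a1 : ∑ s ∈ S, (if s = 2 then B2 else 0) ≤ B2 := by
      rw [Finset.sum_ite_eq']
      split_ifs
      · exact le_rfl
      · exact B20
    have a2 : ∑ s ∈ S, (if s ∈ range M then Bs else 0) ≤ M * Bs := by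
      rw [Finset.sum_ite_mem, Finset.sum_const, nsmul_eq_mul]
      refine mul_le_mul_of_nonneg_right ?_ Bs0
      have := Finset.card_le_card (Finset.inter_subset_right (s₁ := S) (s₂ := range M))
      rw [Finset.card_range] at this
      exact_mod_cast this
    simp only [add_mul, one_mul, Finset.sum_add_distrib] at h1 ⊢
    have := sq_nonneg (N : ℝ)
    linarith
  · haveI : Fact s.Prime := ⟨hs⟩
    by_cases c1 : s = 2
    · subst c1
      refine (hC N hN).trans (Real.exp_le_exp.2 ?_)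
      have b1 : C * N * (1 + Real.log N) ≤ |C| * N * (1 + Real.log N) :=
        mul_le_mul_of_nonneg_right (mul_le_mul_of_nonneg_right (le_abs_self C) (by linarith))
          (by linarith)
      refine le_add_of_le_of_nonneg (le_add_of_le_of_nonneg ?_ (i2 2)) (ph0 2)
      rw [if_pos rfl, hB2]
      exact add_le_add le_rfl b1
    by_cases c2 : s ∈ range M
    · have b1 : (padicNorm s (Emat g N).det : ℝ) ≤ (((49 * N : ℕ) : ℝ) ^ 4 * g.den) ^ (36 * N) := by
        exact_mod_cast odd_small c1 g N hN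
      refine b1.trans ?_
      rw [← Real.exp_log (show (0 : ℝ) < (((49 * N : ℕ) : ℝ) ^ 4 * g.den) ^ (36 * N) by
        positivity), Real.exp_le_exp, Real.log_pow, Real.log_mul (by positivity) (by positivity),
        Real.log_pow, if_pos c2]
      rw [Nat.cast_mul, Nat.cast_mul, Real.log_mul (by norm_num) (by positivity)]
      simp only [Nat.cast_ofNat]
      have := i1 s
      have := ph0 s
      linarith
    · rw [Finset.mem_range, hM] at c2
      have b1 : 49 * N < s ^ 2 := Nat.sqrt_lt'.1 (by omega)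
      refine (generic c1 g (by omega) N hN b1).trans (Real.exp_le_exp.2 ?_)
      have := i1 s
      have := i2 s
      linarith
  · haveI : Fact s.Prime := ⟨hs⟩
    have b1 : 49 * N < s := by
      by_contra hc
      exact hn (Finset.mem_filter.2 ⟨Finset.mem_range.2 (by omega), hs⟩)
    have b2 := odd_big (p := s) (by omega) g (norm_le_one g (by omega)) N hN (by omega)
      (by nlinarith)
    rw [show (49 * N - s) + (30 * N + 1 - s) + min (36 * N) ((43 * N - s) + (44 * N - s)) = 0 by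
      omega, pow_zero] at b2
    exact b2

end Vale.Agent.P030
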