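import Vale.Agent.P030.Val

/-! The two basic series. -/

namespace Vale.Agent.P030

open Finset MeasureTheory

noncomputable def co (x : ℝ) : ℝ := (1 - x ^ 2) / (1 + x ^ 2)

theorem one_add_sq_pos (x : ℝ) : 0 < 1 + x ^ 2 := by positivity

theorem hasDerivAt_tau (x : ℝ) : HasDerivAt tau (co x * (2 / (1 + x ^ 2))) x := by
  have h := one_add_sq_pos x
  have h1 : HasDerivAt (fun x : ℝ => 2 * x) 2 x := by
    simpa using (hasDerivAt_id x).const_mul 2
  have h2 : HasDerivAt (fun x : ℝ => 1 + x ^ 2) (2 * x) x := by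
    simpa using (hasDerivAt_pow 2 x).const_add 1
  have h3 := h1.fun_div h2 h.ne'
  refine h3.congr_deriv ?_
  unfold co
  field_simp
  ring

theorem hasDerivAt_co (x : ℝ) : HasDerivAt co (-(tau x * (2 / (1 + x ^ 2)))) x := by
  have h := one_add_sq_pos x
  have h1 : HasDerivAt (fun x : ℝ => 1 - x ^ 2) (-(2 * x)) x := by
    simpa using (hasDerivAt_pow 2 x).const_sub 1
  have h2 : HasDerivAt (fun x : ℝ => 1 + x ^ 2) (2 * x) x := by
    simpa using (hasDerivAt_pow 2 x).const_add 1
  have h3 := h1.fun_div h2 h.ne'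
  refine h3.congr_deriv ?_
  unfold tau
  field_simp
  ring

theorem dtau_eq (x : ℝ) : dtau x = co x * (2 / (1 + x ^ 2)) := by
  have h := one_add_sq_pos x
  unfold dtau co
  field_simp

theorem tau_sq_add (x : ℝ) : tau x ^ 2 + co x ^ 2 = 1 := by
  have h := one_add_sq_pos x
  unfold tau co
  field_simp
  ring

theorem continuous_tau : Continuous tau :=
  continuous_iff_continuousAt.2 fun x => (hasDerivAt_tau x).continuousAt

theorem continuous_co : Continuous co :=
  continuous_iff_continuousAt.2 fun x => (hasDerivAt_co x).continuousAt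

theorem continuous_wt : Continuous fun x : ℝ => 2 / (1 + x ^ 2) :=
  continuous_const.div (by fun_prop) fun x => (one_add_sq_pos x).ne'

theorem continuous_dtau : Continuous dtau := by
  have : dtau = fun x => co x * (2 / (1 + x ^ 2)) := funext dtau_eq
  rw [this]
  exact continuous_co.mul continuous_wt

theorem tau_zero : tau 0 = 0 := by simp [tau]

theorem tau_one : tau 1 = 1 := by norm_num [tau]

theorem co_zero : co 0 = 1 := by simp [co]

theorem co_one : co 1 = 0 := by simp [co]

theorem tau_neg (x : ℝ) : tau (-x) = -tau x := by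
  unfold tau
  rw [neg_sq]
  ring

theorem cc_zero : cc 0 = 2 := by simp [cc, aa_zero]

theorem cc_pos (m : ℕ) : 0 < cc m := by
  have := aa_pos m
  unfold cc
  positivity

/-- Wallis integrals from a pair of functions behaving like sine and cosine -/
theorem wallis_aux (u v : ℝ → ℝ) (σ : ℝ) (hσ : σ ^ 2 = 1)
    (hu : ∀ x, HasDerivAt u (σ * (v x * (2 / (1 + x ^ 2)))) x)
    (hv : ∀ x, HasDerivAt v (-(σ * (u x * (2 / (1 + x ^ 2))))) x)
    (huv : ∀ x, u x ^ 2 + v x ^ 2 = 1) (h0 : u 0 * v 0 = 0) (h1 : u 1 * v 1 = 0)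
    (h2 : σ * (v 0 - v 1) = 1) (m : ℕ) :
    ∫ x in (0 : ℝ)..1, u x ^ (2 * m + 1) * (2 / (1 + x ^ 2)) = (cc m : ℝ) / 2 := by
  have cu : Continuous u := continuous_iff_continuousAt.2 fun x => (hu x).continuousAt
  have cv : Continuous v := continuous_iff_continuousAt.2 fun x => (hv x).continuousAt
  have hint : ∀ i : ℕ, IntervalIntegrable (fun x => u x ^ i * (2 / (1 + x ^ 2))) volume 0 1 :=
    fun i => ((cu.pow i).mul continuous_wt).intervalIntegrable _ _
  induction m with
  | zero =>
    have hd : ∀ x ∈ Set.uIcc (0 : ℝ) 1,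
        HasDerivAt (fun x => -σ * v x) (u x ^ (2 * 0 + 1) * (2 / (1 + x ^ 2))) x := by
      intro x _
      refine ((hv x).const_mul (-σ)).congr_deriv ?_
      linear_combination ((u x * (2 / (1 + x ^ 2)))) * hσ
    rw [intervalIntegral.integral_eq_sub_of_hasDerivAt hd (hint _), cc_zero]
    push_cast
    linear_combination h2
  | succ m ih =>
    have hd : ∀ x ∈ Set.uIcc (0 : ℝ) 1,
        HasDerivAt (fun x => σ * (u x ^ (2 * m + 2) * v x))
          ((2 * m + 2) * (u x ^ (2 * m + 1) * (2 / (1 + x ^ 2))) -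
            (2 * m + 3) * (u x ^ (2 * (m + 1) + 1) * (2 / (1 + x ^ 2)))) x := by
      intro x _
      refine ((((hu x).fun_pow (2 * m + 2)).fun_mul (hv x)).const_mul σ).congr_deriv ?_
      have e : v x ^ 2 = 1 - u x ^ 2 := by linarith [huv x]
      simp only [Nat.add_succ_sub_one]
      push_cast
      linear_combination
        (((2 * (m : ℝ) + 2) * u x ^ (2 * m + 1) * v x ^ 2 * (2 / (1 + x ^ 2))) -
          u x ^ (2 * m + 3) * (2 / (1 + x ^ 2))) * hσ +
        ((2 * (m : ℝ) + 2) * u x ^ (2 * m + 1) * (2 / (1 + x ^ 2))) * e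
    have := intervalIntegral.integral_eq_sub_of_hasDerivAt hd
      (((hint _).const_mul _).sub ((hint _).const_mul _))
    rw [intervalIntegral.integral_sub ((hint _).const_mul _) ((hint _).const_mul _),
      intervalIntegral.integral_const_mul, intervalIntegral.integral_const_mul, ih] at this
    have e0 : u 0 ^ (2 * m + 2) * v 0 = 0 := by
      rw [pow_succ, mul_assoc, h0, mul_zero]
    have e1 : u 1 ^ (2 * m + 2) * v 1 = 0 := by
      rw [pow_succ, mul_assoc, h1, mul_zero]
    rw [e0, e1] at this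
    rw [cc_succ]
    generalize (∫ x in (0 : ℝ)..1, u x ^ (2 * (m + 1) + 1) * (2 / (1 + x ^ 2))) = I at this ⊢
    push_cast
    have hp : (2 * (m : ℝ) + 3) ≠ 0 := by positivity
    field_simp
    linarith

theorem wallis_tau (m : ℕ) :
    ∫ x in (0 : ℝ)..1, tau x ^ (2 * m + 1) * (2 / (1 + x ^ 2)) = (cc m : ℝ) / 2 :=
  wallis_aux tau co 1 (by norm_num) (fun x => by simpa using hasDerivAt_tau x)
    (fun x => by simpa using hasDerivAt_co x) tau_sq_add (by simp [tau_zero]) (by simp [co_one])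
    (by simp [co_zero, co_one]) m

theorem wallis_co (m : ℕ) :
    ∫ x in (0 : ℝ)..1, co x ^ (2 * m + 1) * (2 / (1 + x ^ 2)) = (cc m : ℝ) / 2 :=
  wallis_aux co tau (-1) (by norm_num) (fun x => by simpa using hasDerivAt_co x)
    (fun x => by simpa using hasDerivAt_tau x) (fun x => by linarith [tau_sq_add x])
    (by simp [tau_zero]) (by simp [co_one]) (by simp [tau_zero, tau_one]) m

theorem setInt_eq (f : ℝ → ℝ) {a b : ℝ} (hab : a ≤ b) :
    ∫ x in Set.Ioo a b, f x = ∫ x in a..b, f x := by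
  rw [intervalIntegral.integral_of_le hab, integral_Ioc_eq_integral_Ioo]

theorem nu_eq_integral (i : ℕ) :
    (nu i : ℝ) = ∫ x in Set.Ioo (-1 : ℝ) 1, SignType.sign x * tau x ^ i * (2 / (1 + x ^ 2)) := by
  have hc : Continuous fun x => tau x ^ i * (2 / (1 + x ^ 2)) :=
    (continuous_tau.pow i).mul continuous_wt
  have e1 : ∀ x ∈ Set.uIoc (0 : ℝ) 1, SignType.sign x * tau x ^ i * (2 / (1 + x ^ 2)) =
      tau x ^ i * (2 / (1 + x ^ 2)) := by
    intro x hx
    rw [Set.uIoc_of_le zero_le_one] at hx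
    rw [sign_pos hx.1]
    simp
  have e2 : ∀ x ∈ Set.uIoo (-1 : ℝ) 0, SignType.sign x * tau x ^ i * (2 / (1 + x ^ 2)) =
      -(tau x ^ i * (2 / (1 + x ^ 2))) := by
    intro x hx
    rw [Set.uIoo_of_le (by norm_num)] at hx
    rw [sign_neg hx.2]
    simp
  have i1 : IntervalIntegrable (fun x : ℝ => SignType.sign x * tau x ^ i * (2 / (1 + x ^ 2)))
      volume 0 1 := (hc.intervalIntegrable 0 1).congr fun x hx => (e1 x hx).symm
  have i2 : IntervalIntegrable (fun x : ℝ => SignType.sign x * tau x ^ i * (2 / (1 + x ^ 2)))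
      volume (-1) 0 := by
    rw [intervalIntegrable_iff_integrableOn_Ioo_of_le (by norm_num)]
    have := (intervalIntegrable_iff_integrableOn_Ioo_of_le (by norm_num)).1
      (hc.neg.intervalIntegrable (μ := volume) (-1) 0)
    refine this.congr_fun (fun x hx => (e2 x ?_).symm) measurableSet_Ioo
    rwa [Set.uIoo_of_le (by norm_num)]
  rw [setInt_eq _ (by norm_num), ← intervalIntegral.integral_add_adjacent_intervals i2 i1,
    intervalIntegral.integral_congr_ae (Filter.Eventually.of_forall e1),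
    ← setInt_eq _ (by norm_num : (-1 : ℝ) ≤ 0),
    setIntegral_congr_fun measurableSet_Ioo (g := fun x => -(tau x ^ i * (2 / (1 + x ^ 2))))
      (fun x hx => e2 x (by rwa [Set.uIoo_of_le (by norm_num)])),
    setInt_eq _ (by norm_num)]
  have e3 : ∫ x in (-1 : ℝ)..0, -(tau x ^ i * (2 / (1 + x ^ 2))) =
      -((-1) ^ i * ∫ x in (0 : ℝ)..1, tau x ^ i * (2 / (1 + x ^ 2))) := by
    have := intervalIntegral.integral_comp_neg (a := (0 : ℝ)) (b := 1)
      (fun x => -(tau x ^ i * (2 / (1 + x ^ 2))))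
    rw [neg_zero] at this
    rw [← this, ← intervalIntegral.integral_const_mul, ← intervalIntegral.integral_neg]
    congr 1
    ext x
    rw [tau_neg, neg_sq, neg_pow]
    ring
  rw [e3]
  rcases Nat.even_or_odd' i with ⟨m, rfl | rfl⟩
  · simp [nu]
  · have h1 : (2 * m + 1) % 2 = 1 := by omega
    have h2 : (2 * m + 1) / 2 = m := by omega
    rw [wallis_tau, nu, if_pos h1, h2, pow_succ, pow_mul]
    norm_num

theorem inv_eq_integral (i : ℕ) :
    1 / ((i : ℝ) + 1) = ∫ x in Set.Ioo (0 : ℝ) 1, tau x ^ i * dtau x := by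
  have hp : ((i : ℝ) + 1) ≠ 0 := by positivity
  have hd : ∀ x ∈ Set.uIcc (0 : ℝ) 1,
      HasDerivAt (fun x => tau x ^ (i + 1) / ((i : ℝ) + 1)) (tau x ^ i * dtau x) x := by
    intro x _
    refine (((hasDerivAt_tau x).fun_pow (i + 1)).div_const ((i : ℝ) + 1)).congr_deriv ?_
    rw [dtau_eq]
    simp only [Nat.add_succ_sub_one]
    push_cast
    field_simp
    ring
  rw [setInt_eq _ zero_le_one, intervalIntegral.integral_eq_sub_of_hasDerivAt hd
    (((continuous_tau.pow i).mul continuous_dtau).intervalIntegrable _ _)]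
  simp [tau_zero, tau_one]

theorem nu_even (m : ℕ) : nu (2 * m) = 0 := by simp [nu]

theorem nu_odd (m : ℕ) : nu (2 * m + 1) = cc m := by
  have h1 : (2 * m + 1) % 2 = 1 := by omega
  have h2 : (2 * m + 1) / 2 = m := by omega
  rw [nu, if_pos h1, h2]

theorem nu_nonneg (i : ℕ) : 0 ≤ nu i := by
  unfold nu
  split_ifs
  · exact (cc_pos _).le
  · exact le_rfl

theorem nu_add_two (i : ℕ) : nu (i + 2) = nu i * (i + 1) / (i + 2) := by
  rcases Nat.even_or_odd' i with ⟨m, rfl | rfl⟩
  · rw [show 2 * m + 2 = 2 * (m + 1) by ring, nu_even, nu_even]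
    simp
  · rw [show 2 * m + 1 + 2 = 2 * (m + 1) + 1 by ring, nu_odd, nu_odd, cc_succ]
    push_cast
    ring

theorem nu_sub (i : ℕ) : (nu i : ℝ) - nu (i + 2) = nu i / ((i : ℝ) + 2) := by
  rw [nu_add_two]
  push_cast
  field_simp
  ring

theorem sum_nu_sub (i n : ℕ) : ∑ k ∈ range n, ((nu (i + k) : ℝ) - nu (i + k + 2)) =
    nu i + nu (i + 1) - (nu (i + n) + nu (i + n + 1)) := by
  induction n with
  | zero => simp
  | succ n ih =>
    rw [sum_range_succ, ih, show i + (n + 1) = i + n + 1 by ring]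
    ring

theorem summable_nu_sub (i : ℕ) : Summable fun k : ℕ => (nu (i + k) : ℝ) - nu (i + k + 2) := by
  have hn : ∀ n, (0 : ℝ) ≤ nu n := fun n => by exact_mod_cast nu_nonneg n
  refine summable_of_sum_range_le (c := nu i + nu (i + 1)) (fun k => ?_) fun n => ?_
  · rw [nu_sub]
    have := hn (i + k)
    positivity
  · rw [sum_nu_sub]
    linarith [hn (i + n), hn (i + n + 1)]

theorem summable_MM (i j : ℕ) : Summable fun k : ℕ => (nu (i + k) : ℝ) / ((j : ℝ) + k + 1) := by
  have hn : ∀ n, (0 : ℝ) ≤ nu n := fun n => by exact_mod_cast nu_nonneg n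
  refine Summable.of_nonneg_of_le (fun k => ?_) (fun k => ?_)
    ((summable_nu_sub i).mul_left ((i : ℝ) + 2))
  · have := hn (i + k)
    positivity
  · rw [nu_sub, ← mul_div_assoc, div_le_div_iff₀ (by positivity) (by positivity)]
    push_cast
    have h1 : (i : ℝ) + k + 2 ≤ (i + 2) * (j + k + 1) := by
      have : (0 : ℝ) ≤ i := by positivity
      have : (0 : ℝ) ≤ j := by positivity
      have : (0 : ℝ) ≤ k := by positivity
      nlinarith [mul_nonneg ‹(0 : ℝ) ≤ i› ‹(0 : ℝ) ≤ j›, mul_nonneg ‹(0 : ℝ) ≤ i› ‹(0 : ℝ) ≤ k›]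
    nlinarith [hn (i + k)]

theorem hs_congr {f g : ℕ → ℝ} {a b : ℝ} (h : HasSum f a) (hf : ∀ n, g n = f n) (hab : b = a) :
    HasSum g b := by
  rw [hab, funext hf]
  exact h

/-- interchange of sum and integral on the unit interval -/
theorem hasSum_int01 (F : ℕ → ℝ → ℝ) (f : ℝ → ℝ) (v w : ℕ → ℝ)
    (hint : ∀ n, IntervalIntegrable (F n) volume 0 1)
    (hv : ∀ n, ∫ x in (0 : ℝ)..1, F n x = v n)
    (hw : ∀ n, ∫ x in Set.Ioo (0 : ℝ) 1, ‖F n x‖ = w n) (hs : Summable w)
    (hf : ∀ x ∈ Set.Ioo (0 : ℝ) 1, HasSum (fun n => F n x) (f x)) :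
    HasSum v (∫ x in Set.Ioo (0 : ℝ) 1, f x) := by
  have h1 := hasSum_integral_of_summable_integral_norm (μ := volume.restrict (Set.Ioo (0 : ℝ) 1))
    (F := F) (fun n => (intervalIntegrable_iff_integrableOn_Ioo_of_le zero_le_one).1 (hint n))
    (by simpa only [hw] using hs)
  have h2 : ∫ x in Set.Ioo (0 : ℝ) 1, ∑' n, F n x = ∫ x in Set.Ioo (0 : ℝ) 1, f x :=
    setIntegral_congr_fun measurableSet_Ioo fun x hx => (hf x hx).tsum_eq
  rw [h2] at h1
  refine hs_congr h1 (fun n => ?_) rfl
  rw [setInt_eq _ zero_le_one, hv]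

/-- the same for nonnegative terms -/
theorem hasSum_int01_nonneg (F : ℕ → ℝ → ℝ) (f : ℝ → ℝ) (v : ℕ → ℝ)
    (hint : ∀ n, IntervalIntegrable (F n) volume 0 1)
    (hv : ∀ n, ∫ x in (0 : ℝ)..1, F n x = v n)
    (hpos : ∀ n, ∀ x ∈ Set.Ioo (0 : ℝ) 1, 0 ≤ F n x) (hs : Summable v)
    (hf : ∀ x ∈ Set.Ioo (0 : ℝ) 1, HasSum (fun n => F n x) (f x)) :
    HasSum v (∫ x in Set.Ioo (0 : ℝ) 1, f x) := by
  refine hasSum_int01 F f v v hint hv (fun n => ?_) hs hf
  rw [← hv, ← setInt_eq _ zero_le_one]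
  exact setIntegral_congr_fun measurableSet_Ioo fun x hx => Real.norm_of_nonneg (hpos n x hx)

theorem int_log_pow (n : ℕ) :
    ∫ x in (0 : ℝ)..1, -Real.log x * x ^ n = 1 / ((n : ℝ) + 1) ^ 2 := by
  have hp : ((n : ℝ) + 1) ≠ 0 := by positivity
  have hc : Continuous fun x : ℝ =>
      x ^ (n + 1) / ((n : ℝ) + 1) ^ 2 - x ^ n * (x * Real.log x) / ((n : ℝ) + 1) :=
    (by fun_prop : Continuous fun x : ℝ => x ^ (n + 1) / ((n : ℝ) + 1) ^ 2).sub
      (((continuous_pow n).mul Real.continuous_mul_log).div_const _)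
  have hd : ∀ x ∈ Set.Ioo (0 : ℝ) 1, HasDerivAt (fun x : ℝ =>
      x ^ (n + 1) / ((n : ℝ) + 1) ^ 2 - x ^ n * (x * Real.log x) / ((n : ℝ) + 1))
      (-Real.log x * x ^ n) x := by
    intro x hx
    have h1 := ((hasDerivAt_pow (n + 1) x).div_const (((n : ℝ) + 1) ^ 2)).fun_sub
      (((hasDerivAt_pow (n + 1) x).fun_mul (Real.hasDerivAt_log hx.1.ne')).div_const ((n : ℝ) + 1))
    have e : (fun x : ℝ =>
        x ^ (n + 1) / ((n : ℝ) + 1) ^ 2 - x ^ n * (x * Real.log x) / ((n : ℝ) + 1)) =
        fun x : ℝ => x ^ (n + 1) / ((n : ℝ) + 1) ^ 2 - x ^ (n + 1) * Real.log x / ((n : ℝ) + 1) := by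
      ext x
      ring
    rw [e]
    refine h1.congr_deriv ?_
    have := hx.1.ne'
    simp only [Nat.add_succ_sub_one]
    push_cast
    field_simp
    ring
  rw [intervalIntegral.integral_eq_sub_of_hasDerivAt_of_le zero_le_one hc.continuousOn hd
    (intervalIntegral.intervalIntegrable_log'.neg.mul_continuousOn (continuous_pow n).continuousOn)]
  simp

theorem summable_odd_sq : Summable fun j : ℕ => 1 / (2 * (j : ℝ) + 1) ^ 2 := by
  have := hasSum_zeta_two.summable.comp_injective (i := fun j : ℕ => 2 * j + 1)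
    (fun a b h => by simpa using h)
  refine this.congr fun j => ?_
  simp

theorem hasSum_odd_sq : HasSum (fun j : ℕ => 1 / (2 * (j : ℝ) + 1) ^ 2) (Real.pi ^ 2 / 8) := by
  have h1 : HasSum (fun k : ℕ => (1 : ℝ) / ((2 * k : ℕ) : ℝ) ^ 2) (Real.pi ^ 2 / 6 / 4) := by
    refine hs_congr (hasSum_zeta_two.div_const 4) (fun k => ?_) rfl
    push_cast
    ring
  have h2 : HasSum (fun k : ℕ => (1 : ℝ) / ((2 * k + 1 : ℕ) : ℝ) ^ 2)
      (∑' j : ℕ, 1 / (2 * (j : ℝ) + 1) ^ 2) := by
    simpa using summable_odd_sq.hasSum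
  have h3 := (HasSum.even_add_odd (f := fun n : ℕ => (1 : ℝ) / (n : ℝ) ^ 2) h1 h2).unique
    hasSum_zeta_two
  have h4 := summable_odd_sq.hasSum
  rwa [show ∑' j : ℕ, 1 / (2 * (j : ℝ) + 1) ^ 2 = Real.pi ^ 2 / 8 by linarith] at h4

theorem MM_one_zero : MM 1 0 = 4 * GG := by
  have hs := summable_MM 1 0
  have hs1 : Summable fun m : ℕ => (cc m : ℝ) / (2 * m + 1) := by
    refine (hs.comp_injective (i := fun m : ℕ => 2 * m) (fun a b h => by simpa using h)).congr
      fun m => ?_
    simp [add_comm 1 (2 * m), nu_odd]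
  have h1 := hasSum_int01_nonneg
    (fun m x => 2 / (2 * m + 1) * (co x ^ (2 * m + 1) * (2 / (1 + x ^ 2))))
    (fun x => 4 * (-Real.log x / (1 + x ^ 2))) (fun m => (cc m : ℝ) / (2 * m + 1))
    (fun m => (((continuous_co.pow _).mul continuous_wt).intervalIntegrable _ _).const_mul _)
    (fun m => by
      rw [intervalIntegral.integral_const_mul, wallis_co]
      ring)
    (fun m x hx => by
      have : 0 ≤ co x := div_nonneg (by nlinarith [hx.1, hx.2]) (by positivity)
      positivity) hs1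
    (fun x hx => by
      have hp := one_add_sq_pos x
      have hx0 := hx.1
      have hx2 : 0 < x ^ 2 := by positivity
      have h0 : 0 ≤ co x := div_nonneg (by nlinarith [hx.1, hx.2]) (by positivity)
      have h1 : co x < 1 := by
        unfold co
        rw [div_lt_one hp]
        linarith
      have h2 := (Real.hasSum_log_sub_log_of_abs_lt_one (x := co x)
        (by rwa [abs_of_nonneg h0])).mul_right (2 / (1 + x ^ 2))
      have e1 : 1 + co x = 2 / (1 + x ^ 2) := by
        unfold co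
        field_simp
        ring
      have e2 : 1 - co x = 2 / (1 + x ^ 2) * x ^ 2 := by
        unfold co
        field_simp
        ring
      rw [e1, e2, Real.log_mul (by positivity) hx2.ne', Real.log_pow] at h2
      refine hs_congr h2 (fun m => ?_) ?_
      · ring
      · push_cast
        ring)
  have h2 := hasSum_int01
    (fun j x => 4 * (-1) ^ j * (-Real.log x * x ^ (2 * j)))
    (fun x => 4 * (-Real.log x / (1 + x ^ 2))) (fun j => 4 * ((-1) ^ j / (2 * (j : ℝ) + 1) ^ 2))
    (fun j => 4 * (1 / (2 * (j : ℝ) + 1) ^ 2))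
    (fun j => (intervalIntegral.intervalIntegrable_log'.neg.mul_continuousOn
      (continuous_pow _).continuousOn).const_mul _)
    (fun j => by
      rw [intervalIntegral.integral_const_mul, int_log_pow]
      push_cast
      ring)
    (fun j => by
      have e := int_log_pow (2 * j)
      push_cast at e
      rw [← e, ← intervalIntegral.integral_const_mul, ← setInt_eq _ zero_le_one]
      refine setIntegral_congr_fun measurableSet_Ioo fun x hx => ?_
      have hl : 0 ≤ -Real.log x := by linarith [Real.log_nonpos hx.1.le hx.2.le]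
      have hx0 := hx.1
      have : 0 ≤ -Real.log x * x ^ (2 * j) := by positivity
      simp only [norm_mul, norm_pow, norm_neg, norm_one, one_pow, mul_one]
      rw [← norm_neg (Real.log x), Real.norm_of_nonneg hl, Real.norm_of_nonneg hx0.le]
      norm_num)
    (summable_odd_sq.mul_left 4)
    (fun x hx => by
      have hx0 := hx.1
      have h1 : |-x ^ 2| < 1 := by
        rw [abs_neg, abs_of_nonneg (by positivity)]
        nlinarith [hx.2]
      have h2 := (hasSum_geometric_of_abs_lt_one h1).mul_left (4 * -Real.log x)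
      refine hs_congr h2 (fun j => ?_) ?_
      · rw [neg_pow (x ^ 2), pow_mul]
        ring
      · rw [sub_neg_eq_add]
        ring)
  have h3 : HasSum (fun k : ℕ => (nu (1 + k) : ℝ) / (((0 : ℕ) : ℝ) + k + 1))
      ((∫ x in Set.Ioo (0 : ℝ) 1, 4 * (-Real.log x / (1 + x ^ 2))) + 0) := by
    refine HasSum.even_add_odd ?_ ?_
    · refine hs_congr h1 (fun m => ?_) rfl
      simp [add_comm 1 (2 * m), nu_odd]
    · refine hs_congr hasSum_zero (fun m => ?_) rfl
      rw [show 1 + (2 * m + 1) = 2 * (m + 1) by ring, nu_even]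
      simp
  rw [MM, h3.tsum_eq, add_zero, ← h2.tsum_eq, tsum_mul_left, GG]

theorem MM_zero_zero : MM 0 0 = Real.pi ^ 2 / 4 := by
  have hs := summable_MM 0 0
  have hs1 : Summable fun m : ℕ => (cc m : ℝ) / (2 * m + 2) := by
    refine (hs.comp_injective (i := fun m : ℕ => 2 * m + 1) (fun a b h => by simpa using h)).congr
      fun m => ?_
    simp only [Function.comp, zero_add, nu_odd]
    push_cast
    ring
  have h1 := hasSum_int01_nonneg
    (fun m x => 2 / (2 * m + 2) * (tau x ^ (2 * m + 1) * (2 / (1 + x ^ 2))))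
    (fun x => 2 * (Real.log (1 + x ^ 2) - Real.log (1 - x ^ 2)) / x)
    (fun m => (cc m : ℝ) / (2 * m + 2))
    (fun m => (((continuous_tau.pow _).mul continuous_wt).intervalIntegrable _ _).const_mul _)
    (fun m => by
      rw [intervalIntegral.integral_const_mul, wallis_tau]
      ring)
    (fun m x hx => by
      have hx0 := hx.1
      have : 0 ≤ tau x := by
        unfold tau
        positivity
      positivity) hs1
    (fun x hx => by
      have hp := one_add_sq_pos x
      have hx0 := hx.1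
      have hx2 : 0 < 1 - x ^ 2 := by nlinarith [hx.2]
      have h0 : 0 < co x := div_pos hx2 hp
      have h1 : |tau x ^ 2| < 1 := by
        rw [abs_of_nonneg (by positivity)]
        nlinarith [tau_sq_add x]
      have h2 := (Real.hasSum_pow_div_log_of_abs_lt_one h1).div_const x
      have e1 : 1 - tau x ^ 2 = co x ^ 2 := by linarith [tau_sq_add x]
      rw [e1, Real.log_pow, co, Real.log_div hx2.ne' hp.ne'] at h2
      refine hs_congr h2 (fun m => ?_) ?_
      · have e2 : 2 / (1 + x ^ 2) = tau x / x := by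
          unfold tau
          field_simp
        rw [e2]
        field_simp
        ring
      · push_cast
        ring)
  have h2 := hasSum_int01_nonneg
    (fun k x => 4 / (2 * k + 1) * x ^ (4 * k + 1))
    (fun x => 2 * (Real.log (1 + x ^ 2) - Real.log (1 - x ^ 2)) / x)
    (fun j => 2 * (1 / (2 * (j : ℝ) + 1) ^ 2))
    (fun j => ((continuous_pow _).intervalIntegrable _ _).const_mul _)
    (fun j => by
      rw [intervalIntegral.integral_const_mul, integral_pow]
      push_cast
      field_simp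
      ring)
    (fun m x hx => by
      have hx0 := hx.1
      positivity)
    (summable_odd_sq.mul_left 2)
    (fun x hx => by
      have hx0 := hx.1
      have h1 : |x ^ 2| < 1 := by
        rw [abs_of_nonneg (by positivity)]
        nlinarith [hx.2]
      have h2 := ((Real.hasSum_log_sub_log_of_abs_lt_one h1).mul_left 2).div_const x
      refine hs_congr h2 (fun j => ?_) rfl
      field_simp
      ring)
  have h3 : HasSum (fun k : ℕ => (nu (0 + k) : ℝ) / (((0 : ℕ) : ℝ) + k + 1))
      (0 + ∫ x in Set.Ioo (0 : ℝ) 1, 2 * (Real.log (1 + x ^ 2) - Real.log (1 - x ^ 2)) / x) := by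
    refine HasSum.even_add_odd ?_ ?_
    · refine hs_congr hasSum_zero (fun m => ?_) rfl
      rw [zero_add, nu_even]
      simp
    · refine hs_congr h1 (fun m => ?_) rfl
      simp only [zero_add, nu_odd]
      push_cast
      ring
  rw [MM, h3.tsum_eq, zero_add, h2.unique (hasSum_odd_sq.mul_left 2)]
  ring

end Vale.Agent.P030
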