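import Vale.Agent.P030.Val
import Vale.Agent.P030.DetD

/-! The three matrices of level one are nonsingular. -/

namespace Vale.Agent.P030

open Polynomial Finset

namespace DT

/-- `q` is integral at 101 and congruent to `n` -/
def Rd (q : ℚ) (n : ℕ) : Prop :=
  ∃ a b : ℤ, (b : ZMod 101) ≠ 0 ∧ q = a / b ∧ (a : ZMod 101) = n * b

instance : Fact (Nat.Prime 101) := ⟨by norm_num⟩

theorem ne_zero_of {b : ℤ} (h : (b : ZMod 101) ≠ 0) : (b : ℚ) ≠ 0 := by
  intro h1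
  have : b = 0 := by exact_mod_cast h1
  exact h (by simp [this])

theorem Rd.int (a : ℤ) (n : ℕ) (h : (a : ZMod 101) = n) : Rd a n := ⟨a, 1, by simp, by simp, by simp [h]⟩

theorem Rd.nat (n : ℕ) : Rd n n := ⟨n, 1, by simp, by simp, by simp⟩

theorem Rd.congr {q : ℚ} {n m : ℕ} (h : Rd q n) (e : (n : ZMod 101) = m) : Rd q m := by
  obtain ⟨a, b, h1, h2, h3⟩ := h
  exact ⟨a, b, h1, h2, e ▸ h3⟩

theorem Rd.mod {q : ℚ} {n : ℕ} (h : Rd q n) : Rd q (n % 101) := h.congr (by simp)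

theorem Rd.add {q r : ℚ} {n m : ℕ} (h : Rd q n) (h' : Rd r m) : Rd (q + r) (n + m) := by
  obtain ⟨a, b, h1, h2, h3⟩ := h
  obtain ⟨c, d, k1, k2, k3⟩ := h'
  refine ⟨a * d + b * c, b * d, by push_cast; exact mul_ne_zero h1 k1, ?_, ?_⟩
  · rw [h2, k2, div_add_div _ _ (ne_zero_of h1) (ne_zero_of k1)]; push_cast; rfl
  · push_cast; rw [h3, k3]; ring

theorem Rd.mul {q r : ℚ} {n m : ℕ} (h : Rd q n) (h' : Rd r m) : Rd (q * r) (n * m) := by
  obtain ⟨a, b, h1, h2, h3⟩ := h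
  obtain ⟨c, d, k1, k2, k3⟩ := h'
  refine ⟨a * c, b * d, by push_cast; exact mul_ne_zero h1 k1, ?_, ?_⟩
  · rw [h2, k2, div_mul_div_comm]; push_cast; rfl
  · push_cast; rw [h3, k3]; ring

theorem Rd.neg {q : ℚ} {n : ℕ} (h : Rd q n) : Rd (-q) (100 * n) := by
  have := (Rd.int (-1) 100 (by decide)).mul h
  simpa using this

theorem Rd.sub {q r : ℚ} {n m : ℕ} (h : Rd q n) (h' : Rd r m) : Rd (q - r) (n + 100 * m) := by
  rw [sub_eq_add_neg]; exact h.add h'.neg

def iv (n : ℕ) : ℕ := (n % 101) ^ 99 % 101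

theorem Rd.div {q r : ℚ} {n m : ℕ} (h : Rd q n) (h' : Rd r m) (h0 : m % 101 ≠ 0) :
    Rd (q / r) (n * iv m) := by
  rw [div_eq_mul_inv]
  refine h.mul ?_
  obtain ⟨c, d, k1, k2, k3⟩ := h'
  have hm : (m : ZMod 101) ≠ 0 := by
    rw [Ne, ZMod.natCast_eq_zero_iff]; omega
  refine ⟨d, c, by rw [k3]; exact mul_ne_zero hm k1, by rw [k2, inv_div], ?_⟩
  have := ZMod.pow_card_sub_one_eq_one hm
  simp only [iv, ZMod.natCast_mod, Nat.cast_pow, k3]
  linear_combination (-(d : ZMod 101)) * this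

def sumTo (f : ℕ → ℕ) (n : ℕ) : ℕ := Nat.rec 0 (fun k acc => Nat.add acc (f k)) n

theorem Rd.sum {f : ℕ → ℚ} {g : ℕ → ℕ} (n : ℕ) (h : ∀ k < n, Rd (f k) (g k)) :
    Rd (∑ k ∈ range n, f k) (sumTo g n) := by
  induction n with
  | zero => simpa [sumTo] using Rd.nat 0
  | succ n ih =>
    rw [sum_range_succ]
    exact (ih fun k hk => h k (by omega)).add (h n (by omega))

theorem sumTo_eq (g : ℕ → ℕ) (n : ℕ) : sumTo g n = ∑ k ∈ range n, g k := by
  induction n with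
  | zero => rfl
  | succ n ih => rw [sum_range_succ, ← ih]; rfl

def allLt (f : ℕ → Bool) (n : ℕ) : Bool := Nat.rec true (fun k acc => cond (f k) acc false) n

theorem allLt_sound {f : ℕ → Bool} {n : ℕ} (h : allLt f n = true) : ∀ k < n, f k = true := by
  induction n with
  | zero => intro k hk; omega
  | succ n ih =>
    have h' : cond (f n) (allLt f n) false = true := h
    cases hf : f n with
    | false => rw [hf] at h'; exact absurd h' (by simp)
    | true =>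
      rw [hf] at h'
      intro k hk
      rcases Nat.lt_succ_iff_lt_or_eq.1 hk with h1 | rfl
      exacts [ih h' k h1, hf]

theorem all2 {f g : ℕ → ℕ → ℕ} {n m : ℕ}
    (h : allLt (fun i => allLt (fun j => Nat.beq (f i j) (g i j)) m) n = true) :
    ∀ i < n, ∀ j < m, f i j = g i j := fun i hi j hj =>
  Nat.eq_of_beq_eq_true (allLt_sound (allLt_sound h i hi) j hj)

theorem det_ne {n : ℕ} (M : Matrix (Fin n) (Fin n) ℚ) (B N : ℕ → ℕ → ℕ)
    (h : ∀ r j : Fin n, Rd (M r j) (B r j))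
    (hN : ∀ r < n, ∀ j < n, sumTo (fun k => N r k * B k j) n % 101 = cond (Nat.beq r j) 1 0) :
    M.det ≠ 0 := by
  classical
  let Rz : ℚ → ZMod 101 → Prop := fun q z => Rd q z.val
  have hz : ∀ {q n}, Rd q n → Rz q n := fun h => h.congr (by simp)
  have hmul : ∀ {q r z w}, Rz q z → Rz r w → Rz (q * r) (z * w) := fun h h' =>
    (h.mul h').congr (by simp)
  have hadd : ∀ {q r z w}, Rz q z → Rz r w → Rz (q + r) (z + w) := fun h h' =>
    (h.add h').congr (by simp)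
  have hdet : Rz M.det (Matrix.of fun r j : Fin n => (B r j : ZMod 101)).det := by
    rw [Matrix.det_apply', Matrix.det_apply']
    refine Finset.sum_hom_rel (r := Rz) (by simpa using hz (Rd.nat 0)) ?_
    intro σ a b hab
    refine hadd (hmul ((Rd.int _ _ (by simp))) ?_) hab
    exact Finset.prod_hom_rel (r := Rz) (by simpa using hz (Rd.nat 1))
      fun i a b hab => hmul (hz (h _ _)) hab
  intro h0
  rw [h0] at hdet
  obtain ⟨a, b, h1, h2, h3⟩ := hdet
  have ha : a = 0 := by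
    have := (div_eq_zero_iff.1 h2.symm).resolve_right (ne_zero_of h1)
    exact_mod_cast this
  have h4 : (Matrix.of fun r j : Fin n => (B r j : ZMod 101)).det = 0 := by
    rw [ha] at h3
    simpa [h1] using h3.symm
  have h5 : (Matrix.of fun r j : Fin n => (N r j : ZMod 101)) *
      (Matrix.of fun r j : Fin n => (B r j : ZMod 101)) = 1 := by
    ext r j
    have := congrArg (Nat.cast : ℕ → ZMod 101) (hN r r.2 j j.2)
    rw [ZMod.natCast_mod, sumTo_eq, ← Fin.sum_univ_eq_sum_range (fun k => N r k * B k j)] at this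
    push_cast at this
    rw [Matrix.mul_apply, Matrix.one_apply]
    simp only [Matrix.of_apply]
    rw [this]
    by_cases hrj : r = j
    · simp [hrj]
    · have : Nat.beq r j = false := by
        rw [← Bool.not_eq_true, Nat.beq_eq]; exact fun h => hrj (Fin.ext h)
      simp [hrj, this]
  have := congrArg Matrix.det h5
  rw [Matrix.det_mul, h4, mul_zero, Matrix.det_one] at this
  exact zero_ne_one this

def lk (B w i j : ℕ) : ℕ := Nat.mod (Nat.shiftRight B (Nat.mul 7 (Nat.add (Nat.mul w i) j))) 128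

def aN (l : ℕ) : ℕ := Nat.rec 1 (fun l a => a * (2 * l + 1) * iv (2 * l + 2) % 101) l

def cN (m : ℕ) : ℕ := 2 * iv ((2 * m + 1) * aN m)

def nuN (i : ℕ) : ℕ := if i % 2 = 1 then cN (i / 2) else 0

def b0N (j : ℕ) : ℕ :=
  if j % 2 = 0 then aN (j / 2) * sumTo (fun k => 1 * iv (2 * ((k + 1) * (k + 1)) * aN (k + 1))) (j / 2)
  else cN (j / 2) * sumTo (fun k => aN k * iv (2 * k + 1)) (j / 2 + 1)

def b1N (i : ℕ) : ℕ :=
  if i % 2 = 1 then aN (i / 2) * sumTo
    (fun k => 1 * iv (2 * ((k + 1) * (k + 1)) * (aN (k + 1) * aN (k + 1)))) (i / 2)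
  else cN (i / 2 - 1) * sumTo (fun k => 1 * iv (2 * k + 1)) (i / 2)

theorem rd_aa (l : ℕ) (hl : l < 26) : Rd (aa l) (aN l) := by
  induction l with
  | zero => rw [aa_zero]; simpa [aN] using Rd.nat 1
  | succ l ih =>
    rw [aa_succ]
    have h1 := Rd.nat (2 * l + 1)
    have h2 := Rd.nat (2 * l + 2)
    push_cast at h1 h2
    exact (((ih (by omega)).mul h1).div h2 (by omega)).mod

theorem nz : ∀ k < 25, ((2 * k + 1) * aN k) % 101 ≠ 0 ∧
    (2 * ((k + 1) * (k + 1)) * aN (k + 1)) % 101 ≠ 0 ∧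
    (2 * ((k + 1) * (k + 1)) * (aN (k + 1) * aN (k + 1))) % 101 ≠ 0 := by decide +kernel

theorem rd_cc (m : ℕ) (hm : m < 25) : Rd (cc m) (cN m) := by
  have h1 := Rd.nat (2 * m + 1)
  have h2 := Rd.nat 2
  push_cast at h1 h2
  exact h2.div (h1.mul (rd_aa m (by omega))) (nz m hm).1

theorem rd_nu (i : ℕ) (hi : i < 50) : Rd (nu i) (nuN i) := by
  unfold nu nuN
  split_ifs
  · exact rd_cc _ (by omega)
  · simpa using Rd.nat 0

theorem rd_sq (k : ℕ) : Rd (2 * ((k : ℚ) + 1) ^ 2) (2 * ((k + 1) * (k + 1))) := by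
  have := Rd.nat (2 * ((k + 1) * (k + 1)))
  push_cast at this
  rwa [sq]

theorem rd_one : Rd 1 1 := by simpa using Rd.nat 1

theorem rd_odd (k : ℕ) : Rd (2 * (k : ℚ) + 1) (2 * k + 1) := by
  have := Rd.nat (2 * k + 1)
  push_cast at this
  exact this

theorem rd_b0 (j : ℕ) (hj : j < 50) : Rd (b0 j) (b0N j) := by
  unfold b0 b0N
  split_ifs
  · exact (rd_aa _ (by omega)).mul (Rd.sum _ fun k hk =>
      rd_one.div ((rd_sq k).mul (rd_aa _ (by omega))) (nz k (by omega)).2.1)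
  · exact (rd_cc _ (by omega)).mul (Rd.sum _ fun k hk =>
      (rd_aa _ (by omega)).div (rd_odd k) (by omega))

theorem rd_b1 (j : ℕ) (hj : j < 50) : Rd (b1 j) (b1N j) := by
  unfold b1 b1N
  split_ifs
  · refine (rd_aa _ (by omega)).mul (Rd.sum _ fun k hk => ?_)
    rw [sq (aa _)]
    exact rd_one.div ((rd_sq k).mul ((rd_aa _ (by omega)).mul (rd_aa _ (by omega))))
      (nz k (by omega)).2.2
  · exact (rd_cc _ (by omega)).mul (Rd.sum _ fun k hk => rd_one.div (rd_odd k) (by omega))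

theorem ck_b0 : ∀ j < 44, lk MT 44 0 j = b0N j % 101 := by decide +kernel

theorem ck_b1 : ∀ i < 49, lk MT 44 (i + 1) 0 = b1N (i + 1) % 101 := by decide +kernel

theorem ck_mr : ∀ i < 49, ∀ j < 43, lk MT 44 (i + 1) (j + 1) =
    (lk MT 44 i j + 100 * (nuN i * iv (j + 1))) % 101 := all2 (by decide +kernel)

theorem rd_mr (i : ℕ) : ∀ j, i < 50 → j < 44 → Rd (mr i j) (lk MT 44 i j) := by
  induction i with
  | zero => intro j _ hj; rw [ck_b0 j hj, mr]; exact (rd_b0 j (by omega)).mod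
  | succ i ih =>
    intro j hi hj
    cases j with
    | zero => rw [ck_b1 i (by omega), mr]; exact (rd_b1 _ hi).mod
    | succ j =>
      rw [ck_mr i (by omega) j (by omega), mr]
      have h1 := Rd.nat (j + 1)
      push_cast at h1
      exact ((ih j (by omega) (by omega)).sub ((rd_nu i (by omega)).div h1 (by omega))).mod

theorem ck_h : ∀ i < 50, lk HT 50 0 i = sumTo (fun k => 1 * iv (k + 1)) i % 101 ∧
    lk HT 50 1 i = sumTo (fun k => 1 * iv ((k + 1) * (k + 1))) i % 101 := by decide +kernel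

theorem nz2 : ∀ k < 50, ((k + 1) * (k + 1)) % 101 ≠ 0 := by decide +kernel

theorem rd_h1 (i : ℕ) (hi : i < 50) : Rd (h1 i) (lk HT 50 0 i) := by
  rw [(ck_h i hi).1]
  refine (Rd.sum _ fun k hk => rd_one.div ?_ (by omega)).mod
  have := Rd.nat (k + 1)
  push_cast at this
  exact this

theorem rd_h2 (i : ℕ) (hi : i < 50) : Rd (h2 i) (lk HT 50 1 i) := by
  rw [(ck_h i hi).2]
  refine (Rd.sum _ fun k hk => rd_one.div ?_ (nz2 k (by omega))).mod
  have := Rd.nat ((k + 1) * (k + 1))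
  push_cast at this
  rwa [sq]

theorem ck_zr : ∀ i < 49, ∀ j < 44, lk ZT 44 i j = (if i = j then 100 * lk HT 50 1 i else
    (lk HT 50 0 j + 100 * lk HT 50 0 i) * iv (j + 100 * i)) % 101 := all2 (by decide +kernel)

theorem rd_zr (i j : ℕ) (hi : i < 49) (hj : j < 44) : Rd (zr i j) (lk ZT 44 i j) := by
  rw [ck_zr i hi j hj, zr]
  refine Rd.mod ?_
  split_ifs with h
  · exact (rd_h2 i (by omega)).neg
  · exact ((rd_h1 j (by omega)).sub (rd_h1 i (by omega))).div ((Rd.nat j).sub (Rd.nat i))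
      (by omega)

theorem pair_col (m : ℕ → ℕ → ℚ) (A : ℕ) (Q : ℤ[X]) (j : ℕ) (hj : 8 + j ≤ A) :
    pair m A Q (col 6 2 j) = ∑ k ∈ range (A + 1), (Q.coeff k : ℚ) *
      (m (A - k) (6 + j) - 2 * m (A - k) (7 + j) + m (A - k) (8 + j)) := by
  have e : col 6 2 j = X ^ (6 + j) - C 2 * X ^ (7 + j) + X ^ (8 + j) := by
    rw [col, show (C 2 : ℤ[X]) = 2 from rfl]; ring
  refine sum_congr rfl fun k _ => ?_
  simp only [e, coeff_add, coeff_sub, coeff_C_mul, coeff_X_pow]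
  push_cast
  simp only [mul_add, mul_sub, add_mul, sub_mul, mul_ite, ite_mul, mul_zero, zero_mul, mul_one,
    sum_add_distrib, sum_sub_distrib, sum_ite_eq', mem_range]
  rw [if_pos (by omega), if_pos (by omega), if_pos (by omega)]
  ring

theorem ck_cm : ∀ i < 50, ∀ j < 36, lk CM 36 i j = (lk MT 44 i (6 + j) +
    100 * (2 * lk MT 44 i (7 + j)) + lk MT 44 i (8 + j)) % 101 := all2 (by decide +kernel)

theorem ck_cz : ∀ i < 49, ∀ j < 36, lk CZ 36 i j = (lk ZT 44 i (6 + j) +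
    100 * (2 * lk ZT 44 i (7 + j)) + lk ZT 44 i (8 + j)) % 101 := all2 (by decide +kernel)

def ent (P D : ℕ → ℕ) (j : ℕ) : ℕ :=
  (sumTo (fun k => P k * lk CM 36 (49 - k) j) 50 +
    100 * (52 * sumTo (fun k => D k * lk CZ 36 (48 - k) j) 49)) % 101

theorem rd_two : Rd 2 2 := by simpa using Rd.nat 2

theorem rd_lam (P D : ℤ[X]) (p d : ℕ → ℕ) (hp : ∀ k < 50, (P.coeff k : ZMod 101) = p k)
    (hd : ∀ k < 50, (D.coeff k : ZMod 101) = d k) (j : ℕ) (hj : j < 36) :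
    Rd (lam 0 49 P D (col 6 2 j)) (ent p d j) := by
  rw [lam, pair_col _ _ _ _ (by omega), pair_col _ _ _ _ (by omega)]
  refine (Rd.sub (Rd.sum _ fun k hk => (Rd.int _ _ (hp k hk)).mul ?_)
    (Rd.mul ⟨3, 2, by decide, by norm_num, by decide⟩
      (Rd.sum _ fun k hk => (Rd.int _ _ (hd k (by omega))).mul ?_))).mod
  · simp only [mul_zero, zero_mul, add_zero]
    rw [ck_cm _ (by omega) j hj]
    exact (((rd_mr _ _ (by omega) (by omega)).sub (rd_two.mul (rd_mr _ _ (by omega) (by omega)))).add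
      (rd_mr _ _ (by omega) (by omega))).mod
  · rw [show 49 - 1 - k = 48 - k by omega, ck_cz _ (by omega) j hj]
    exact (((rd_zr _ _ (by omega) (by omega)).sub (rd_two.mul (rd_zr _ _ (by omega) (by omega)))).add
      (rd_zr _ _ (by omega) (by omega))).mod

/-- previous coefficient -/
def pv (f : ℕ → ℕ) (k : ℕ) : ℕ := Nat.rec 0 (fun k _ => f k) k

theorem coeff_X_mul_eq (Q : ℤ[X]) (f : ℕ → ℕ) (h : ∀ k < 50, (Q.coeff k : ZMod 101) = f k) :
    ∀ k < 50, ((X * Q).coeff k : ZMod 101) = pv f k := by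
  intro k hk
  cases k with
  | zero => simp [pv]
  | succ k => rw [coeff_X_mul]; exact h k (by omega)

theorem rec_tab (y : ℕ → ℤ[X]) (B : ℕ) (hy : ∀ K, y (K + 2) = C 2 * (X * y (K + 1)) - y K)
    (h0 : ∀ k < 50, ((y 0).coeff k : ZMod 101) = lk B 50 0 k)
    (h1 : ∀ k < 50, ((y 1).coeff k : ZMod 101) = lk B 50 1 k)
    (hB : ∀ K < 36, ∀ k < 50, lk B 50 (K + 2) k =
      (2 * pv (lk B 50 (K + 1)) k + 100 * lk B 50 K k) % 101) :
    ∀ K < 38, ∀ k < 50, ((y K).coeff k : ZMod 101) = lk B 50 K k := by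
  intro K
  induction K using Nat.twoStepInduction with
  | zero => exact fun _ => h0
  | one => exact fun _ => h1
  | more K i0 i1 =>
    intro hK k hk
    rw [hy, hB K (by omega) k hk, coeff_sub, coeff_C_mul]
    push_cast
    rw [coeff_X_mul_eq _ _ (i1 (by omega)) k hk, i0 (by omega) k hk]
    simp only [ZMod.natCast_mod]
    push_cast
    have : (100 : ZMod 101) = -1 := by decide
    rw [this]
    ring

theorem base (a b c d e f : ℤ) (B K : ℕ)
    (h : ∀ k < 50, (([a, b, c, d, e, f].getD k 0 : ℤ) : ZMod 101) = lk B 50 K k) :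
    ∀ k < 50, ((C a + C b * X + C c * X ^ 2 + C d * X ^ 3 + C e * X ^ 4 + C f * X ^ 5 : ℤ[X]).coeff k :
      ZMod 101) = lk B 50 K k := by
  intro k hk
  rw [← h k hk]
  congr 1
  simp only [coeff_add, coeff_C_mul, coeff_X_pow, coeff_C, coeff_X]
  rcases k with _ | _ | _ | _ | _ | _ | k <;> simp

theorem tabT : ∀ K < 38, ∀ k < 50,
    (((X - 1) ^ 2 * Chebyshev.T ℤ ((K : ℤ) - 3)).coeff k : ZMod 101) = lk TT 50 K k := by
  refine rec_tab (fun K => (X - 1) ^ 2 * Chebyshev.T ℤ ((K : ℤ) - 3)) TT ?_ ?_ ?_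
    (all2 (by decide +kernel))
  · intro K
    have := Chebyshev.T_add_two ℤ ((K : ℤ) - 3)
    simp only [show ((K + 2 : ℕ) : ℤ) - 3 = K - 3 + 2 by push_cast; ring,
      show ((K + 1 : ℕ) : ℤ) - 3 = K - 3 + 1 by push_cast; ring, this,
      show (C 2 : ℤ[X]) = 2 from rfl]
    ring
  · have e : (X - 1 : ℤ[X]) ^ 2 * Chebyshev.T ℤ (((0 : ℕ) : ℤ) - 3) = C 0 + C (-3) * X
        + C 6 * X ^ 2 + C 1 * X ^ 3 + C (-8) * X ^ 4 + C 4 * X ^ 5 := by
      have := Chebyshev.T_sub_two ℤ (-1)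
      simp only [show ((0 : ℕ) : ℤ) - 3 = -1 - 2 by norm_num, this,
        show (-1 : ℤ) - 1 = -2 by norm_num, Chebyshev.T_neg_two, Chebyshev.T_neg_one, eq_intCast]
      push_cast
      ring
    simp only [e]
    exact base _ _ _ _ _ _ _ _ (by decide +kernel)
  · have e : (X - 1 : ℤ[X]) ^ 2 * Chebyshev.T ℤ (((1 : ℕ) : ℤ) - 3) = C (-1) + C 2 * X
        + C 1 * X ^ 2 + C (-4) * X ^ 3 + C 2 * X ^ 4 + C 0 * X ^ 5 := by
      simp only [show ((1 : ℕ) : ℤ) - 3 = -2 by norm_num, Chebyshev.T_neg_two, eq_intCast]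
      push_cast
      ring
    simp only [e]
    exact base _ _ _ _ _ _ _ _ (by decide +kernel)

theorem tabU : ∀ K < 38, ∀ k < 50,
    (((X - 1) ^ 2 * Chebyshev.U ℤ ((K : ℤ) - 4)).coeff k : ZMod 101) = lk UT 50 K k := by
  have u3 : Chebyshev.U ℤ (-3) = -(2 * X) := by
    have := Chebyshev.U_sub_two ℤ (-1)
    simp only [show (-1 : ℤ) - 2 = -3 by norm_num, show (-1 : ℤ) - 1 = -2 by norm_num,
      Chebyshev.U_neg_two, Chebyshev.U_neg_one] at this
    rw [this]; ring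
  refine rec_tab (fun K => (X - 1) ^ 2 * Chebyshev.U ℤ ((K : ℤ) - 4)) UT ?_ ?_ ?_
    (all2 (by decide +kernel))
  · intro K
    have := Chebyshev.U_add_two ℤ ((K : ℤ) - 4)
    simp only [show ((K + 2 : ℕ) : ℤ) - 4 = K - 4 + 2 by push_cast; ring,
      show ((K + 1 : ℕ) : ℤ) - 4 = K - 4 + 1 by push_cast; ring, this,
      show (C 2 : ℤ[X]) = 2 from rfl]
    ring
  · have e : (X - 1 : ℤ[X]) ^ 2 * Chebyshev.U ℤ (((0 : ℕ) : ℤ) - 4) = C 1 + C (-2) * X
        + C (-3) * X ^ 2 + C 8 * X ^ 3 + C (-4) * X ^ 4 + C 0 * X ^ 5 := by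
      have := Chebyshev.U_sub_two ℤ (-2)
      simp only [show ((0 : ℕ) : ℤ) - 4 = -2 - 2 by norm_num, this,
        show (-2 : ℤ) - 1 = -3 by norm_num, Chebyshev.U_neg_two, u3, eq_intCast]
      push_cast
      ring
    simp only [e]
    exact base _ _ _ _ _ _ _ _ (by decide +kernel)
  · have e : (X - 1 : ℤ[X]) ^ 2 * Chebyshev.U ℤ (((1 : ℕ) : ℤ) - 4) = C 0 + C (-2) * X
        + C 4 * X ^ 2 + C (-2) * X ^ 3 + C 0 * X ^ 4 + C 0 * X ^ 5 := by
      simp only [show ((1 : ℕ) : ℤ) - 4 = -3 by norm_num, u3, eq_intCast]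
      push_cast
      ring
    simp only [e]
    exact base _ _ _ _ _ _ _ _ (by decide +kernel)

theorem h100 : (100 : ZMod 101) = -1 := by decide

theorem rd_B (σ : ℤ) (s : ℕ) (hs : (s : ZMod 101) = -σ) (r j : Fin 36) :
    Rd (Bmat σ r j) (ent (fun k => lk TT 50 (r + 1) k + s * lk TT 50 r k)
      (fun k => lk UT 50 (r + 1) k + s * lk UT 50 r k) j) := by
  have hr := r.2
  refine rd_lam _ _ _ _ (fun k hk => ?_) (fun k hk => ?_) j j.2
  · have a1 := tabT (r + 1) (by omega) k hk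
    have a2 := tabT r (by omega) k hk
    rw [show (((r : ℕ) + 1 : ℕ) : ℤ) - 3 = (r : ℕ) - 2 by push_cast; ring] at a1
    rw [mul_sub, mul_left_comm, coeff_sub, coeff_C_mul]
    push_cast
    rw [a1, a2, hs]
    ring
  · have a1 := tabU (r + 1) (by omega) k hk
    have a2 := tabU r (by omega) k hk
    rw [show (((r : ℕ) + 1 : ℕ) : ℤ) - 4 = (r : ℕ) - 3 by push_cast; ring] at a1
    rw [mul_sub, mul_left_comm, coeff_sub, coeff_C_mul]
    push_cast
    rw [a1, a2, hs]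
    ring

theorem rd_E (r j : Fin 36) :
    Rd (Emat 0 1 r j) (ent (fun k => lk TT 50 (r + 2) k + 100 * pv (lk TT 50 (r + 1)) k)
      (fun k => lk TT 50 (r + 1) k) j) := by
  have hr := r.2
  have eK : KK 1 r = (((r : ℕ) + 1 : ℕ) : ℤ) - 3 := by simp [KK]
  refine rd_lam _ _ _ _ (fun k hk => ?_) (fun k hk => ?_) j j.2
  · have a1 := tabT (r + 2) (by omega) k hk
    have a2 := coeff_X_mul_eq _ _ (tabT (r + 1) (by omega)) k hk
    have e : QP (2 * 1) (KK 1 r) = (X - 1) ^ 2 * Chebyshev.T ℤ ((((r : ℕ) + 2 : ℕ) : ℤ) - 3) -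
        X * ((X - 1) ^ 2 * Chebyshev.T ℤ ((((r : ℕ) + 1 : ℕ) : ℤ) - 3)) := by
      have := Chebyshev.T_eq_X_mul_T_sub_pol_U ℤ (KK 1 r - 1)
      rw [show KK 1 r - 1 + 2 = (((r : ℕ) + 2 : ℕ) : ℤ) - 3 by rw [eK]; push_cast; ring,
        show KK 1 r - 1 + 1 = (((r : ℕ) + 1 : ℕ) : ℤ) - 3 by rw [eK]; ring] at this
      rw [this, QP]
      ring
    rw [e, coeff_sub]
    push_cast at a1 a2 ⊢
    rw [a1, a2, h100]
    ring
  · rw [QD, eK]
    exact tabT (r + 1) (by omega) k hk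

theorem ck_B0 : ∀ r < 36, ∀ j < 36, ent (fun k => lk TT 50 (r + 2) k +
    100 * pv (lk TT 50 (r + 1)) k) (fun k => lk TT 50 (r + 1) k) j = lk B0 36 r j :=
  all2 (by decide +kernel)

theorem ck_Bp : ∀ r < 36, ∀ j < 36, ent (fun k => lk TT 50 (r + 1) k + 100 * lk TT 50 r k)
    (fun k => lk UT 50 (r + 1) k + 100 * lk UT 50 r k) j = lk Bp 36 r j :=
  all2 (by decide +kernel)

theorem ck_Bm : ∀ r < 36, ∀ j < 36, ent (fun k => lk TT 50 (r + 1) k + 1 * lk TT 50 r k)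
    (fun k => lk UT 50 (r + 1) k + 1 * lk UT 50 r k) j = lk Bm 36 r j :=
  all2 (by decide +kernel)

end DT

open DT

theorem det_B0 : (Emat 0 1).det ≠ 0 :=
  det_ne (n := 36) (Emat 0 1) (lk B0 36) (lk N0 36)
    (fun r j => ck_B0 r r.2 j j.2 ▸ rd_E r j) (all2 (by decide +kernel))

theorem det_Bp : (Bmat 1).det ≠ 0 :=
  det_ne _ (lk Bp 36) (lk Np 36)
    (fun r j => ck_Bp r r.2 j j.2 ▸ rd_B 1 100 (by decide) r j) (all2 (by decide +kernel))

theorem det_Bm : (Bmat (-1)).det ≠ 0 :=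
  det_ne _ (lk Bm 36) (lk Nm 36)
    (fun r j => ck_Bm r r.2 j j.2 ▸ rd_B (-1) 1 (by decide) r j) (all2 (by decide +kernel))

end Vale.Agent.P030
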