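import Vale.Agent.P030.Defs

/-! Negative definiteness of the logarithmic kernel and tangent bounds. -/

namespace Vale.Agent.P030

open Finset

theorem hasSum_log_norm {u : ℂ} (hu : ‖u‖ < 1) :
    HasSum (fun m : ℕ => (u ^ m).re / m) (-Real.log ‖1 - u‖) := by
  have h := Complex.hasSum_re (Complex.hasSum_taylorSeries_neg_log hu)
  simpa only [Complex.neg_re, Complex.log_re, Complex.div_natCast_re] using h

theorem pd_norm_mul {a b : ℂ} (ha : ‖a‖ < 1) (hb : ‖b‖ ≤ 1) : ‖a * b‖ < 1 := by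
  rw [norm_mul]
  exact mul_lt_one_of_nonneg_of_lt_one_left (norm_nonneg _) ha hb

theorem hasSum_kap {a b : ℂ} (ha : ‖a‖ < 1) (hb : ‖b‖ < 1) :
    HasSum (fun m : ℕ => -((a ^ m).re * (b ^ m).re / m)) (kap a b) := by
  have h1 := hasSum_log_norm (u := a * (starRingEnd ℂ) b)
    (pd_norm_mul ha (by rw [Complex.norm_conj]; exact hb.le))
  have h2 := hasSum_log_norm (u := a * b) (pd_norm_mul ha hb.le)
  have h := ((h1.add h2).div_const 2).neg
  have e1 : kap a b = -((-Real.log ‖1 - a * (starRingEnd ℂ) b‖ + -Real.log ‖1 - a * b‖) / 2) := by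
    unfold kap; ring
  have e2 : (fun m : ℕ => -((a ^ m).re * (b ^ m).re / m)) = fun m : ℕ =>
      -((((a * (starRingEnd ℂ) b) ^ m).re / m + ((a * b) ^ m).re / m) / 2) := by
    funext m
    rw [mul_pow, mul_pow, ← map_pow]
    simp only [Complex.mul_re, Complex.conj_re, Complex.conj_im]
    ring
  rw [e1, e2]
  exact h

theorem kap_nd {ι : Type} [Fintype ι] (a : ι → ℂ) (ha : ∀ i, ‖a i‖ < 1) (c : ι → ℝ) :
    ∑ i, ∑ j, c i * c j * kap (a i) (a j) ≤ 0 := by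
  have h := hasSum_sum (s := univ) fun i _ => hasSum_sum (s := univ) fun j _ =>
    (hasSum_kap (ha i) (ha j)).mul_left (c i * c j)
  refine HasSum.nonpos (fun m => ?_) h
  have e : ∑ i, ∑ j, c i * c j * -((a i ^ m).re * (a j ^ m).re / m) =
      -((∑ i, c i * (a i ^ m).re) ^ 2 / m) := by
    rw [sq, sum_mul_sum, sum_div, ← sum_neg_distrib]
    refine sum_congr rfl fun i _ => ?_
    rw [sum_div, ← sum_neg_distrib]
    refine sum_congr rfl fun j _ => ?_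
    ring
  rw [e]
  exact neg_nonpos.2 (by positivity)

theorem kap_comm (a b : ℂ) : kap a b = kap b a := by
  unfold kap
  rw [← Complex.norm_conj (1 - a * (starRingEnd ℂ) b), mul_comm b a]
  simp [mul_comm]

theorem kap_real (a : ℂ) (z : ℝ) : kap a z = Real.log ‖1 - a * z‖ := by
  unfold kap
  rw [Complex.conj_ofReal]
  ring

theorem pd_sum_symm {n : ℕ} (f : Fin n → Fin n → ℝ) (hf : ∀ i j, f i j = f j i) :
    ∑ i, ∑ j, f i j = ∑ i, f i i + 2 * ∑ i, ∑ j ∈ Ioi i, f i j := by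
  have h := sum_sum_Ioi_add_eq_sum_sum_off_diag f
  have e : ∑ i, ∑ j ∈ Ioi i, (f j i + f i j) = 2 * ∑ i, ∑ j ∈ Ioi i, f i j := by
    rw [mul_sum]
    refine sum_congr rfl fun i _ => ?_
    rw [mul_sum]
    refine sum_congr rfl fun j _ => ?_
    rw [hf j i]; ring
  rw [← e, h, ← sum_add_distrib]
  refine sum_congr rfl fun i _ => ?_
  rw [← sum_add_sum_compl {i} (f i), sum_singleton]
  congr 1
  exact sum_congr rfl fun j _ => hf i j

theorem pd_count (n : ℕ) (c : ℝ) :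
    ∑ i : Fin n, ∑ _j ∈ Ioi i, c = ((n : ℝ) ^ 2 - n) / 2 * c := by
  have h := pd_sum_symm (n := n) (fun _ _ => c) fun _ _ => rfl
  simp only [sum_const (s := (univ : Finset (Fin n))), card_univ, Fintype.card_fin,
    nsmul_eq_mul] at h
  linarith

theorem pd_log_lip {m x y : ℝ} (hm : 0 < m) (hx : m ≤ x) (hy : m ≤ y) :
    |Real.log x - Real.log y| ≤ |x - y| / m := by
  have key : ∀ u v : ℝ, m ≤ u → m ≤ v → Real.log u - Real.log v ≤ |u - v| / m := by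
    intro u v hu hv
    have hu' : 0 < u := hm.trans_le hu
    have hv' : 0 < v := hm.trans_le hv
    rw [← Real.log_div hu'.ne' hv'.ne']
    refine (Real.log_le_sub_one_of_pos (by positivity)).trans ?_
    rw [div_sub_one hv'.ne']
    exact div_le_div₀ (abs_nonneg _) (le_abs_self _) hm hv
  rw [abs_le]
  have h1 := key x y hx hy
  have h2 := key y x hy hx
  rw [abs_sub_comm] at h2
  constructor <;> linarith

theorem pd_log_scale {u : ℂ} {R r : ℝ} (hu : ‖u‖ ≤ R) (hR : R < 1) (h0 : 0 ≤ r) (h1 : r ≤ 1) :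
    |Real.log ‖1 - r * u‖ - Real.log ‖1 - u‖| ≤ (1 - r) / (1 - R) := by
  have hm : 0 < 1 - R := by linarith
  have n1 : ‖(r : ℂ) * u‖ ≤ R := by
    rw [norm_mul, Complex.norm_real, Real.norm_of_nonneg h0]
    nlinarith [norm_nonneg u]
  have a1 : 1 - R ≤ ‖1 - (r : ℂ) * u‖ := by
    have := norm_sub_norm_le (1 : ℂ) (r * u)
    rw [norm_one] at this
    linarith
  have a2 : 1 - R ≤ ‖1 - u‖ := by
    have := norm_sub_norm_le (1 : ℂ) u
    rw [norm_one] at this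
    linarith
  refine (pd_log_lip hm a1 a2).trans (div_le_div_of_nonneg_right ?_ hm.le)
  refine (abs_norm_sub_norm_le _ _).trans ?_
  have e : (1 - (r : ℂ) * u) - (1 - u) = ((1 - r : ℝ) : ℂ) * u := by push_cast; ring
  rw [e, norm_mul, Complex.norm_real, Real.norm_of_nonneg (by linarith)]
  nlinarith [norm_nonneg u]

theorem pd_unit {ζ : ℂ} (h : ‖ζ‖ = 1) : ζ.re ^ 2 + ζ.im ^ 2 = 1 := by
  have := Complex.sq_norm ζ
  rw [h, Complex.normSq_apply] at this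
  linarith

theorem pd_prod {ζ : ℂ} (h : ‖ζ‖ = 1) (a : ℂ) :
    ‖1 - ζ * (starRingEnd ℂ) a‖ * ‖1 - ζ * a‖ = ‖1 - 2 * a * (ζ.re : ℂ) + a ^ 2‖ := by
  rw [← Complex.norm_conj (1 - ζ * (starRingEnd ℂ) a), ← norm_mul]
  congr 1
  have h1 : (starRingEnd ℂ) ζ * ζ = 1 := by
    rw [mul_comm, Complex.mul_conj, ← Complex.sq_norm, h]; simp
  have h2 : (starRingEnd ℂ) ζ + ζ = 2 * (ζ.re : ℂ) := by
    rw [add_comm, Complex.add_conj]; push_cast; ring
  simp only [map_sub, map_one, map_mul, Complex.conj_conj]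
  linear_combination a ^ 2 * h1 - a * h2

theorem pd_quad {ζ : ℂ} (h : ‖ζ‖ = 1) (t : ℝ) :
    ‖1 - 2 * ζ * (t : ℂ) + ζ ^ 2‖ = 2 * |ζ.re - t| := by
  have h1 : (starRingEnd ℂ) ζ * ζ = 1 := by
    rw [mul_comm, Complex.mul_conj, ← Complex.sq_norm, h]; simp
  have h2 : (starRingEnd ℂ) ζ + ζ = 2 * (ζ.re : ℂ) := by
    rw [add_comm, Complex.add_conj]; push_cast; ring
  have e : 1 - 2 * ζ * (t : ℂ) + ζ ^ 2 = ζ * ((2 * (ζ.re - t) : ℝ) : ℂ) := by
    push_cast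
    linear_combination (-1 : ℂ) * h1 + ζ * h2
  rw [e, norm_mul, h, one_mul, Complex.norm_real, Real.norm_eq_abs, abs_mul, abs_two]

theorem pd_shrink {u : ℂ} (h : ‖u‖ = 1) {ρ : ℝ} (hρ : 0 < ρ) (hu : ‖1 - u‖ ≠ 0) :
    Real.log ρ / 2 + Real.log ‖1 - u‖ ≤ Real.log ‖1 - ρ * u‖ := by
  have h1 := pd_unit h
  have h2 : ρ * ‖1 - u‖ ^ 2 ≤ ‖1 - (ρ : ℂ) * u‖ ^ 2 := by
    rw [Complex.sq_norm, Complex.sq_norm, Complex.normSq_apply, Complex.normSq_apply]
    simp only [Complex.sub_re, Complex.one_re, Complex.sub_im, Complex.one_im, Complex.mul_re,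
      Complex.mul_im, Complex.ofReal_re, Complex.ofReal_im]
    have : (1 - (ρ * u.re - 0 * u.im)) * (1 - (ρ * u.re - 0 * u.im)) +
        (0 - (ρ * u.im + 0 * u.re)) * (0 - (ρ * u.im + 0 * u.re)) -
        ρ * ((1 - u.re) * (1 - u.re) + (0 - u.im) * (0 - u.im)) = (1 - ρ) ^ 2 := by
      linear_combination (ρ ^ 2 - ρ) * h1
    nlinarith [sq_nonneg (1 - ρ)]
  have h3 := Real.log_le_log (by positivity) h2
  rw [Real.log_mul hρ.ne' (pow_ne_zero _ hu), Real.log_pow, Real.log_pow] at h3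
  push_cast at h3
  linarith

theorem kap_off {ζ ξ : ℂ} (h : ‖ζ‖ = 1) (h' : ‖ξ‖ = 1) (hne : ζ.re ≠ ξ.re) {r s r0 : ℝ}
    (h0 : 0 < r0) (hr : r0 ≤ r) (hs : r0 ≤ s) :
    Real.log r0 + (Real.log 2 + Real.log |ξ.re - ζ.re|) / 2 ≤ kap (r * ζ) (s * ξ) := by
  have hp := pd_prod h ξ
  rw [pd_quad h'] at hp
  have hne' : |ξ.re - ζ.re| ≠ 0 := abs_ne_zero.2 (sub_ne_zero.2 hne.symm)
  have hp' : ‖1 - ζ * (starRingEnd ℂ) ξ‖ * ‖1 - ζ * ξ‖ ≠ 0 := by
    rw [hp]; exact mul_ne_zero two_ne_zero hne'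
  have hρ : 0 < r * s := mul_pos (h0.trans_le hr) (h0.trans_le hs)
  have a1 := pd_shrink (u := ζ * (starRingEnd ℂ) ξ)
    (by rw [norm_mul, Complex.norm_conj, h, h', one_mul]) hρ (left_ne_zero_of_mul hp')
  have a2 := pd_shrink (u := ζ * ξ) (by rw [norm_mul, h, h', one_mul]) hρ
    (right_ne_zero_of_mul hp')
  have a3 := congrArg Real.log hp
  rw [Real.log_mul (left_ne_zero_of_mul hp') (right_ne_zero_of_mul hp'),
    Real.log_mul two_ne_zero hne'] at a3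
  have a4 : 2 * Real.log r0 ≤ Real.log (r * s) := by
    rw [Real.log_mul (h0.trans_le hr).ne' (h0.trans_le hs).ne']
    linarith [Real.log_le_log h0 hr, Real.log_le_log h0 hs]
  have e1 : (r : ℂ) * ζ * (starRingEnd ℂ) (s * ξ) = ((r * s : ℝ) : ℂ) * (ζ * (starRingEnd ℂ) ξ) := by
    rw [map_mul, Complex.conj_ofReal]; push_cast; ring
  have e2 : (r : ℂ) * ζ * (s * ξ) = ((r * s : ℝ) : ℂ) * (ζ * ξ) := by push_cast; ring
  unfold kap
  rw [e1, e2]
  linarith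

theorem kap_diag {ζ : ℂ} (h : ‖ζ‖ = 1) {r : ℝ} (h0 : 0 ≤ r) (h1 : r < 1) :
    Real.log (1 - r) ≤ kap (r * ζ) (r * ζ) := by
  have n1 : ‖(r : ℂ) * ζ‖ = r := by
    rw [norm_mul, h, mul_one, Complex.norm_real, Real.norm_of_nonneg h0]
  have key : ∀ b : ℂ, ‖b‖ = r → Real.log (1 - r) ≤ Real.log ‖1 - r * ζ * b‖ := by
    intro b hb
    refine Real.log_le_log (by linarith) ?_
    have := norm_sub_norm_le (1 : ℂ) (r * ζ * b)
    rw [norm_one, norm_mul, n1, hb] at this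
    nlinarith
  have a1 := key _ n1
  have a2 := key ((starRingEnd ℂ) (r * ζ)) (by rw [Complex.norm_conj, n1])
  unfold kap
  linarith

theorem kap_atom {ζ a : ℂ} (h : ‖ζ‖ = 1) (ha : ‖a‖ < 1) {r : ℝ} (h0 : 0 ≤ r) (h1 : r ≤ 1) :
    |kap (r * ζ) a - Real.log ‖1 - 2 * a * (ζ.re : ℂ) + a ^ 2‖ / 2| ≤ (1 - r) / (1 - ‖a‖) := by
  have n1 : ‖ζ * (starRingEnd ℂ) a‖ ≤ ‖a‖ := by rw [norm_mul, h, one_mul, Complex.norm_conj]
  have n2 : ‖ζ * a‖ ≤ ‖a‖ := by rw [norm_mul, h, one_mul]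
  have a1 := abs_le.1 (pd_log_scale n1 ha h0 h1)
  have a2 := abs_le.1 (pd_log_scale n2 ha h0 h1)
  have nz : ∀ u : ℂ, ‖u‖ ≤ ‖a‖ → ‖1 - u‖ ≠ 0 := by
    intro u hu
    have := norm_sub_norm_le (1 : ℂ) u
    rw [norm_one] at this
    linarith
  rw [← pd_prod h, Real.log_mul (nz _ n1) (nz _ n2)]
  unfold kap
  rw [mul_assoc, mul_assoc, abs_le]
  constructor <;> linarith

/-- point of the unit circle above `t` -/
noncomputable def zt (t : ℝ) : ℂ := ⟨t, √(1 - t ^ 2)⟩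

theorem norm_zt {t : ℝ} (h : |t| ≤ 1) : ‖zt t‖ = 1 := by
  have h1 : 0 ≤ 1 - t ^ 2 := by nlinarith [abs_nonneg t, sq_abs t]
  have h2 : ‖zt t‖ ^ 2 = 1 := by
    rw [Complex.sq_norm, Complex.normSq_apply]
    simp only [zt]
    rw [Real.mul_self_sqrt h1]; ring
  nlinarith [norm_nonneg (zt t)]

theorem pd_s1 {n : ℕ} (t r : Fin n → ℝ) {r0 : ℝ} (h0 : 0 < r0) (hinj : Function.Injective t)
    (ht : ∀ i, |t i| ≤ 1) (hr0 : ∀ i, r0 ≤ r i) (hr1 : ∀ i, r i < 1) :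
    ∑ i, Real.log (1 - r i) + (((n : ℝ) ^ 2 - n) * (Real.log r0 + Real.log 2 / 2) + lv t) ≤
      ∑ i, ∑ j, kap (r i * zt (t i)) (r j * zt (t j)) := by
  have hu : ∀ i, ‖zt (t i)‖ = 1 := fun i => norm_zt (ht i)
  rw [pd_sum_symm _ fun i j => kap_comm _ _]
  refine add_le_add (sum_le_sum fun i _ => kap_diag (hu i) (h0.le.trans (hr0 i)) (hr1 i)) ?_
  have a1 : ∑ i, ∑ j ∈ Ioi i, (Real.log r0 + (Real.log 2 + Real.log |t j - t i|) / 2) ≤
      ∑ i, ∑ j ∈ Ioi i, kap (r i * zt (t i)) (r j * zt (t j)) :=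
    sum_le_sum fun i _ => sum_le_sum fun j hj =>
      kap_off (hu i) (hu j) (fun e => (mem_Ioi.1 hj).ne (hinj e)) h0 (hr0 i) (hr0 j)
  simp only [add_div, sum_add_distrib, ← sum_div] at a1
  rw [pd_count, pd_count] at a1
  unfold lv
  linarith

theorem pd_s6 {ζ a : ℂ} (h : ‖ζ‖ = 1) (ha : ‖a‖ < 1) {r n : ℝ} (w : ℝ) (hn : 1 ≤ n)
    (h0 : 1 - 1 / (2 * n) ≤ r) (h1 : r < 1) :
    -(n * (w * Real.log ‖1 - 2 * a * (ζ.re : ℂ) + a ^ 2‖) + |w| / (1 - ‖a‖)) / 2 ≤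
      -n * w * kap (r * ζ) a := by
  have hq : 1 / (2 * n) ≤ 1 / 2 := one_div_le_one_div_of_le (by norm_num) (by linarith)
  have a1 := kap_atom h ha (by linarith : 0 ≤ r) h1.le
  have hm : 0 < 1 - ‖a‖ := sub_pos.2 ha
  have a2 : (1 - r) / (1 - ‖a‖) ≤ 1 / (2 * n) / (1 - ‖a‖) :=
    div_le_div_of_nonneg_right (by linarith) hm.le
  have a3 : |w * (kap (r * ζ) a - Real.log ‖1 - 2 * a * (ζ.re : ℂ) + a ^ 2‖ / 2)| ≤
      |w| * (1 / (2 * n) / (1 - ‖a‖)) := by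
    rw [abs_mul]
    exact mul_le_mul_of_nonneg_left (a1.trans a2) (abs_nonneg _)
  have a4 := mul_le_mul_of_nonneg_left ((le_abs_self _).trans a3) (by linarith : (0 : ℝ) ≤ n)
  have a5 : n * (|w| * (1 / (2 * n) / (1 - ‖a‖))) = |w| / (1 - ‖a‖) / 2 := by
    field_simp
  rw [a5] at a4
  linarith

theorem pd_s7 {n : ℝ} (hn : 1 ≤ n) : 1 - n ≤ (n ^ 2 - n) * Real.log (1 - 1 / (2 * n)) := by
  have hq : 1 / (2 * n) ≤ 1 / 2 := one_div_le_one_div_of_le (by norm_num) (by linarith)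
  have s7 : -(1 / n) ≤ Real.log (1 - 1 / (2 * n)) := by
    refine le_trans ?_ (Real.one_sub_inv_le_log_of_pos (by linarith))
    have : (1 - 1 / (2 * n))⁻¹ ≤ 1 + 1 / n := by
      rw [inv_le_iff_one_le_mul₀ (by linarith)]
      have e : (1 + 1 / n) * (1 - 1 / (2 * n)) = 1 + (n - 1) / (2 * n ^ 2) := by
        field_simp; ring
      rw [e]
      have : 0 ≤ (n - 1) / (2 * n ^ 2) := div_nonneg (by linarith) (by positivity)
      linarith
    linarith
  have s8 := mul_le_mul_of_nonneg_left s7 (by nlinarith : (0 : ℝ) ≤ n ^ 2 - n)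
  have s9 : (n ^ 2 - n) * -(1 / n) = 1 - n := by field_simp; ring
  linarith

theorem pd_three {α β γ : Type} [Fintype α] [Fintype β] [Fintype γ] (x : α → ℂ) (y : β → ℂ)
    (a : γ → ℂ) (w : γ → ℝ) (hx : ∀ i, ‖x i‖ < 1) (hy : ∀ i, ‖y i‖ < 1) (ha : ∀ i, ‖a i‖ < 1) :
    ∑ i, ∑ j, kap (x i) (x j) - 2 * ∑ i, ∑ k, kap (x i) (y k) + ∑ k, ∑ l, kap (y k) (y l)
      + 2 * ∑ i, ∑ p, w p * kap (x i) (a p) - 2 * ∑ k, ∑ p, w p * kap (a p) (y k)
      + ∑ p, ∑ q, w p * w q * kap (a p) (a q) ≤ 0 := by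
  have h := kap_nd (ι := α ⊕ (β ⊕ γ)) (Sum.elim x (Sum.elim y a))
    (by
      rintro (i | k | p)
      exacts [hx i, hy k, ha p])
    (Sum.elim (fun _ => 1) (Sum.elim (fun _ => -1) w))
  simp only [Fintype.sum_sum_type, Sum.elim_inl, Sum.elim_inr, sum_add_distrib, one_mul, mul_one,
    neg_mul, mul_neg, sum_neg_distrib] at h
  have s1 : ∑ k, ∑ i, kap (y k) (x i) = ∑ i, ∑ k, kap (x i) (y k) := by
    rw [sum_comm]; simp only [kap_comm (y _)]
  have s2 : ∑ p, ∑ i, w p * kap (a p) (x i) = ∑ i, ∑ p, w p * kap (x i) (a p) := by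
    rw [sum_comm]; simp only [kap_comm (a _)]
  have s3 : ∑ p, ∑ k, w p * kap (a p) (y k) = ∑ k, ∑ p, w p * kap (a p) (y k) := sum_comm
  have s4 : ∑ k, ∑ p, w p * kap (y k) (a p) = ∑ k, ∑ p, w p * kap (a p) (y k) := by
    simp only [kap_comm (y _)]
  rw [s1, s2, s3, s4] at h
  linarith

theorem pd_gen (L : List (ℂ × ℝ)) (hL : ∀ p ∈ L, ‖p.1‖ < 1) : ∃ K : ℝ, 0 ≤ K ∧ ∀ n m : ℕ, 1 ≤ n →
    ∀ (t r : Fin n → ℝ) (z : Fin m → ℝ), Function.Injective t → (∀ i, |t i| ≤ 1) →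
      (∀ i, 1 - 1 / (2 * (n : ℝ)) ≤ r i) → (∀ i, r i < 1) → (∀ k, |z k| < 1) →
      lv t + ∑ i, Real.log (1 - r i) - 2 * ∑ i, ∑ k, Real.log ‖1 - r i * zt (t i) * z k‖
        + ∑ k, ∑ l, Real.log ‖1 - (z k : ℂ) * z l‖ ≤
      -((n : ℝ) ^ 2 / 2) * Real.log 2 + n * ∑ i, potC L (t i) - 2 * n * ∑ k, potD L (z k)
        + (n : ℝ) ^ 2 * En L + K * n := by
  obtain ⟨a, w, ha, hC, hD, hE⟩ : ∃ (a : Fin L.length → ℂ) (w : Fin L.length → ℝ),
      (∀ p, ‖a p‖ < 1) ∧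
      (∀ t, potC L t = ∑ p, w p * Real.log ‖1 - 2 * a p * (t : ℂ) + a p ^ 2‖) ∧
      (∀ z, potD L z = ∑ p, w p * Real.log ‖1 - a p * (z : ℂ)‖) ∧
      En L = -∑ p, ∑ q, w p * w q * kap (a p) (a q) := by
    refine ⟨fun p => L[p.1].1, fun p => L[p.1].2, fun p => hL _ (List.getElem_mem _),
      fun t => ?_, fun z => ?_, ?_⟩
    · rw [potC, ← Fin.sum_univ_fun_getElem]
    · rw [potD, ← Fin.sum_univ_fun_getElem]
    · rw [En, ← Fin.sum_univ_fun_getElem]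
      simp only [← Fin.sum_univ_fun_getElem]
  refine ⟨∑ p, |w p| / (1 - ‖a p‖) + 2, add_nonneg
    (sum_nonneg fun p _ => div_nonneg (abs_nonneg _) (sub_nonneg.2 (ha p).le)) (by norm_num),
    fun n m hn t r z hinj ht hr0 hr1 hz => ?_⟩
  have hn' : (1 : ℝ) ≤ n := by exact_mod_cast hn
  have hq : 1 / (2 * (n : ℝ)) ≤ 1 / 2 := one_div_le_one_div_of_le (by norm_num) (by linarith)
  have hr : ∀ i, 0 ≤ r i := fun i => by linarith [hr0 i]
  have hu : ∀ i, ‖zt (t i)‖ = 1 := fun i => norm_zt (ht i)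
  have h := pd_three (fun i => (r i : ℂ) * zt (t i)) (fun k => (z k : ℂ)) a
    (fun p => -(n : ℝ) * w p) (fun i => by simpa [hu i, abs_of_nonneg (hr i)] using hr1 i)
    (fun k => by simpa using hz k) ha
  have s1 := pd_s1 t r (by linarith) hinj ht hr0 hr1
  have s4 : ∑ k, ∑ p, -(n : ℝ) * w p * kap (a p) (z k) = -(n * ∑ k, potD L (z k)) := by
    rw [mul_sum, ← sum_neg_distrib]
    refine sum_congr rfl fun k _ => ?_
    rw [hD, mul_sum, ← sum_neg_distrib]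
    refine sum_congr rfl fun p _ => ?_
    rw [kap_real]; ring
  have s5 : ∑ p, ∑ q, -(n : ℝ) * w p * (-(n : ℝ) * w q) * kap (a p) (a q) =
      -((n : ℝ) ^ 2 * En L) := by
    rw [hE, mul_neg, neg_neg, mul_sum]
    refine sum_congr rfl fun p _ => ?_
    rw [mul_sum]
    refine sum_congr rfl fun q _ => ?_
    ring
  have s6 : -(n * ∑ i, potC L (t i) + (∑ p, |w p| / (1 - ‖a p‖)) * n) / 2 ≤
      ∑ i, ∑ p, -(n : ℝ) * w p * kap (r i * zt (t i)) (a p) := by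
    refine le_of_eq_of_le ?_ (sum_le_sum fun i _ => sum_le_sum fun p _ =>
      pd_s6 (hu i) (ha p) (w p) hn' (hr0 i) (hr1 i))
    have e : ∀ i, (zt (t i)).re = t i := fun i => rfl
    simp only [← sum_div, sum_neg_distrib, sum_add_distrib, ← mul_sum, hC, e,
      sum_const, card_univ, Fintype.card_fin, nsmul_eq_mul]
    ring
  have s8 := pd_s7 hn'
  have s10 : n * Real.log 2 ≤ n * 1 :=
    mul_le_mul_of_nonneg_left (by linarith [Real.log_two_lt_d9]) (by linarith)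
  rw [s4, s5] at h
  simp only [kap_real] at h
  linarith

theorem pd_two (L : List (ℂ × ℝ)) (hL : ∀ p ∈ L, ‖p.1‖ < 1) : ∃ C : ℝ, ∀ n : ℕ, 1 ≤ n →
    ∀ t : Fin n → ℝ, Function.Injective t → (∀ i, |t i| ≤ 1) →
      lv t ≤ -((n : ℝ) ^ 2 / 2) * Real.log 2 + n * ∑ i, potC L (t i) + (n : ℝ) ^ 2 * En L
        + C * n * (1 + Real.log n) := by
  obtain ⟨K, hK, h⟩ := pd_gen L hL
  refine ⟨K + 1, fun n hn t hinj ht => ?_⟩
  have hn' : (1 : ℝ) ≤ n := by exact_mod_cast hn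
  have h1 := h n 0 hn t (fun _ => 1 - 1 / (2 * (n : ℝ))) (fun k => k.elim0) hinj ht
    (fun _ => le_rfl) (fun _ => sub_lt_self _ (by positivity)) (fun k => k.elim0)
  simp only [univ_eq_empty, sum_empty, sum_const_zero, sum_const, card_univ, Fintype.card_fin,
    nsmul_eq_mul, sub_sub_cancel] at h1
  rw [one_div, Real.log_inv, Real.log_mul two_ne_zero (by linarith)] at h1
  have a1 : 0 ≤ Real.log n := Real.log_nonneg hn'
  have a2 : n * Real.log 2 ≤ n * 1 :=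
    mul_le_mul_of_nonneg_left (by linarith [Real.log_two_lt_d9]) (by linarith)
  have a3 : 0 ≤ K * n * Real.log n := by positivity
  linarith

theorem pd_one (L : List (ℂ × ℝ)) (hL : ∀ p ∈ L, ‖p.1‖ < 1) : ∃ C : ℝ, ∀ n : ℕ, 1 ≤ n →
    ∀ t z : Fin n → ℝ, Function.Injective t → (∀ i, |t i| < 1) → (∀ k, 0 < z k ∧ z k < 1) →
      lv t - ∑ i, ∑ k, Real.log (1 - 2 * z k * t i + z k ^ 2)
        + 2 * ∑ k, ∑ l ∈ Ioi k, Real.log (1 - z k * z l) ≤
      -((n : ℝ) ^ 2 / 2) * Real.log 2 + n * ∑ i, potC L (t i) - 2 * n * ∑ k, potD L (z k)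
        + (n : ℝ) ^ 2 * En L + C * n * (1 + Real.log n)
        - ∑ i, Real.log ((1 - t i) / 2) - ∑ k, Real.log (1 - z k) := by
  obtain ⟨K, hK, h⟩ := pd_gen L hL
  refine ⟨K + 2, fun n hn t z hinj ht hz => ?_⟩
  have hn' : (1 : ℝ) ≤ n := by exact_mod_cast hn
  have ht1 : ∀ i, 0 < 1 - t i := fun i => sub_pos.2 (abs_lt.1 (ht i)).2
  have h1 := h n n hn t (fun i => 1 - (1 - t i) / 2 / (2 * (n : ℝ))) z hinj (fun i => (ht i).le)
    (fun i => sub_le_sub_left (div_le_div_of_nonneg_right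
      (by linarith [(abs_lt.1 (ht i)).1]) (by positivity)) _)
    (fun i => sub_lt_self _ (by have := ht1 i; positivity))
    (fun k => abs_lt.2 ⟨by linarith [(hz k).1], (hz k).2⟩)
  have s1 : ∑ i, Real.log (1 - (1 - (1 - t i) / 2 / (2 * (n : ℝ)))) =
      ∑ i, Real.log ((1 - t i) / 2) - n * (Real.log 2 + Real.log n) := by
    have e : ∀ i, Real.log (1 - (1 - (1 - t i) / 2 / (2 * (n : ℝ)))) =
        Real.log ((1 - t i) / 2) - (Real.log 2 + Real.log n) := by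
      intro i
      have := ht1 i
      rw [sub_sub_cancel, Real.log_div (by positivity) (by positivity),
        Real.log_mul two_ne_zero (by linarith)]
    simp only [e, sum_sub_distrib, sum_const, card_univ, Fintype.card_fin, nsmul_eq_mul]
  have hzz : ∀ k l, 0 < 1 - z k * z l := fun k l => by
    nlinarith [(hz k).1, (hz k).2, (hz l).1, (hz l).2]
  have s2 : ∑ k, Real.log (1 - z k) + 2 * ∑ k, ∑ l ∈ Ioi k, Real.log (1 - z k * z l) ≤
      ∑ k, ∑ l, Real.log ‖1 - (z k : ℂ) * z l‖ := by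
    have e : ∀ k l, ‖1 - (z k : ℂ) * z l‖ = 1 - z k * z l := by
      intro k l
      rw [← Real.norm_of_nonneg (hzz k l).le, ← Complex.norm_real]
      push_cast; rfl
    simp only [e]
    rw [pd_sum_symm _ fun k l => by rw [mul_comm]]
    refine add_le_add (sum_le_sum fun k _ => Real.log_le_log (sub_pos.2 (hz k).2) ?_) le_rfl
    nlinarith [(hz k).1, (hz k).2]
  have s3 : ∑ i, ∑ k, Real.log ‖1 - ((1 - (1 - t i) / 2 / (2 * (n : ℝ)) : ℝ) : ℂ) * zt (t i) * z k‖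
      ≤ ∑ i, ∑ k, (Real.log (1 - 2 * z k * t i + z k ^ 2) / 2 + 1 / (2 * (n : ℝ))) := by
    refine sum_le_sum fun i _ => sum_le_sum fun k _ => ?_
    have hu := norm_zt (ht i).le
    have b1 := pd_unit hu
    have b2 : ‖1 - zt (t i) * z k‖ ^ 2 = 1 - 2 * z k * t i + z k ^ 2 := by
      rw [Complex.sq_norm, Complex.normSq_apply]
      simp only [Complex.sub_re, Complex.one_re, Complex.sub_im, Complex.one_im, Complex.mul_re,
        Complex.mul_im, Complex.ofReal_re, Complex.ofReal_im]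
      have : (zt (t i)).re = t i := rfl
      rw [this] at b1 ⊢
      linear_combination z k ^ 2 * b1
    have b3 : (1 - t i) / 2 ≤ ‖1 - zt (t i) * z k‖ := by
      refine (pow_le_pow_iff_left₀ (by linarith [ht1 i]) (norm_nonneg _) two_ne_zero).1 ?_
      rw [b2]
      have c1 := abs_lt.1 (ht i)
      rcases le_total 0 (t i) with c | c
      · nlinarith [sq_nonneg (z k - t i)]
      · nlinarith [(hz k).1, mul_nonneg (hz k).1.le (neg_nonneg.2 c)]
    have b4 : 0 < ‖1 - zt (t i) * z k‖ := by linarith [ht1 i]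
    set δ := (1 - t i) / 2 / (2 * (n : ℝ)) with hδ
    have b5 : 0 < δ := by have := ht1 i; positivity
    have b6 : ‖1 - ((1 - δ : ℝ) : ℂ) * zt (t i) * z k‖ ≤
        ‖1 - zt (t i) * z k‖ * (1 + 1 / (2 * (n : ℝ))) := by
      have e : 1 - ((1 - δ : ℝ) : ℂ) * zt (t i) * z k =
          (1 - zt (t i) * z k) + (δ : ℂ) * zt (t i) * z k := by push_cast; ring
      rw [e]
      refine (norm_add_le _ _).trans ?_
      rw [norm_mul, norm_mul, hu, Complex.norm_real, Complex.norm_real,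
        Real.norm_of_nonneg b5.le, Real.norm_of_nonneg (hz k).1.le, mul_add, mul_one]
      have c1 : δ ≤ ‖1 - zt (t i) * z k‖ * (1 / (2 * (n : ℝ))) := by
        rw [hδ, mul_one_div]
        exact div_le_div_of_nonneg_right b3 (by positivity)
      nlinarith [(hz k).1, (hz k).2]
    have b7 : 0 < ‖1 - ((1 - δ : ℝ) : ℂ) * zt (t i) * z k‖ := by
      have c1 := norm_sub_norm_le (1 : ℂ) (((1 - δ : ℝ) : ℂ) * zt (t i) * z k)
      have c2 : δ ≤ 1 := by
        rw [hδ, div_le_one (by positivity)]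
        linarith [(abs_lt.1 (ht i)).1]
      rw [norm_one, norm_mul, norm_mul, hu, Complex.norm_real, Complex.norm_real,
        Real.norm_of_nonneg (sub_nonneg.2 c2), Real.norm_of_nonneg (hz k).1.le] at c1
      nlinarith [(hz k).1, (hz k).2]
    refine (Real.log_le_log b7 b6).trans ?_
    rw [Real.log_mul b4.ne' (by positivity), ← b2, Real.log_pow]
    have := Real.log_le_sub_one_of_pos (x := 1 + 1 / (2 * (n : ℝ))) (by positivity)
    push_cast
    linarith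
  simp only [sum_add_distrib, ← sum_div, sum_const, card_univ, Fintype.card_fin,
    nsmul_eq_mul] at s3
  have s4 : (n : ℝ) * (n * 1) / (2 * (n : ℝ)) = n / 2 := by field_simp
  have a1 : 0 ≤ Real.log n := Real.log_nonneg hn'
  have a2 : n * Real.log 2 ≤ n * 1 :=
    mul_le_mul_of_nonneg_left (by linarith [Real.log_two_lt_d9]) (by linarith)
  have a3 : 0 ≤ K * n * Real.log n := by positivity
  have a4 : 0 ≤ n * Real.log n := by positivity
  rw [s1] at h1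
  linarith

end Vale.Agent.P030
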