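import Vale.Agent.P030.Omega
import Vale.Agent.P030.PD
import Vale.Agent.P030.And

/-! The pointwise bound. -/

namespace Vale.Agent.P030

open Finset

theorem en_tau_lt {x : ℝ} (h : |x| < 1) : |tau x| < 1 := by
  unfold tau
  rw [abs_div, abs_of_pos (by positivity : 0 < 1 + x ^ 2), div_lt_one (by positivity), abs_mul,
    abs_two, ← sq_abs x]
  nlinarith [sq_pos_of_pos (sub_pos.2 h)]

theorem en_tau_sub (x y : ℝ) :
    tau y - tau x = 2 * (y - x) * (1 - x * y) / ((1 + x ^ 2) * (1 + y ^ 2)) := by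
  unfold tau
  field_simp
  ring

theorem en_mul_lt {x y : ℝ} (hx : |x| < 1) (hy : |y| < 1) : 0 < 1 - x * y := by
  have : |x * y| < 1 := by
    rw [abs_mul]
    exact mul_lt_one_of_nonneg_of_lt_one_left (abs_nonneg _) hx hy.le
  linarith [le_abs_self (x * y)]

theorem en_tau_inj {n : ℕ} {x : Fin n → ℝ} (hx : ∀ i, |x i| < 1) (h : Function.Injective x) :
    Function.Injective fun i => tau (x i) := by
  intro i j e
  by_contra hne
  have h1 := en_tau_sub (x i) (x j)
  have h2 : x j - x i ≠ 0 := sub_ne_zero.2 fun e' => hne (h e').symm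
  have h3 := en_mul_lt (hx i) (hx j)
  have e' : tau (x i) = tau (x j) := e
  rw [e', sub_self] at h1
  exact absurd h1.symm (by positivity)

theorem en_vdm {n : ℕ} {x : Fin n → ℝ} (h : Function.Injective x) :
    |vdm x| = Real.exp (lv x) := by
  unfold vdm lv
  rw [Real.exp_sum, abs_prod]
  refine prod_congr rfl fun i _ => ?_
  rw [Real.exp_sum, abs_prod]
  refine prod_congr rfl fun j hj => ?_
  rw [Real.exp_log (abs_pos.2 (sub_ne_zero.2 fun e => (mem_Ioi.1 hj).ne' (h e)))]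

theorem en_lv_tau {n : ℕ} {z : Fin n → ℝ} (hz : ∀ i, |z i| < 1) (h : Function.Injective z) :
    lv (fun i => tau (z i)) = lv (fun i => 2 * z i - 1) +
      ∑ k, ∑ l ∈ Ioi k, Real.log (1 - z k * z l) - (n - 1) * ∑ k, Real.log (1 + z k ^ 2) := by
  have h1 := pd_sum_symm (fun k l => Real.log (1 + z k ^ 2) + Real.log (1 + z l ^ 2))
    fun _ _ => add_comm _ _
  simp only [sum_add_distrib (s := (univ : Finset (Fin n))), sum_const, card_univ,
    Fintype.card_fin, nsmul_eq_mul, ← mul_sum] at h1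
  have h2 : lv (fun i => tau (z i)) = lv (fun i => 2 * z i - 1) +
      ∑ k, ∑ l ∈ Ioi k, Real.log (1 - z k * z l) -
      ∑ k, ∑ l ∈ Ioi k, (Real.log (1 + z k ^ 2) + Real.log (1 + z l ^ 2)) := by
    unfold lv
    rw [← sum_add_distrib, ← sum_sub_distrib]
    refine sum_congr rfl fun k _ => ?_
    rw [← sum_add_distrib, ← sum_sub_distrib]
    refine sum_congr rfl fun l hl => ?_
    have a1 : |2 * (z l - z k)| ≠ 0 :=
      abs_ne_zero.2 (mul_ne_zero two_ne_zero (sub_ne_zero.2 fun e => (mem_Ioi.1 hl).ne' (h e)))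
    have a2 := en_mul_lt (hz k) (hz l)
    rw [en_tau_sub, abs_div, abs_mul, abs_of_pos a2,
      abs_of_pos (by positivity : 0 < (1 + z k ^ 2) * (1 + z l ^ 2)),
      Real.log_div (mul_ne_zero a1 a2.ne') (by positivity), Real.log_mul a1 a2.ne',
      Real.log_mul (by positivity) (by positivity),
      show 2 * z l - 1 - (2 * z k - 1) = 2 * (z l - z k) by ring]
  rw [h2]
  linarith

theorem en_ker {n : ℕ} {x z : Fin n → ℝ} (hx : ∀ i, |x i| < 1) (hz : ∀ i, |z i| < 1)
    (ix : Function.Injective x) (iz : Function.Injective z) :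
    |(Matrix.of fun i l => ker (x i) (z l)).det| =
      Real.exp (lv (fun i => tau (x i)) + lv (fun i => tau (z i))
        - ∑ i, ∑ k, Real.log (1 - 2 * z k * tau (x i) + z k ^ 2)
        + n * ∑ k, Real.log (1 + z k ^ 2)) := by
  have hp : ∀ i l, 0 < 1 - tau (x i) * tau (z l) := fun i l =>
    en_mul_lt (en_tau_lt (hx i)) (en_tau_lt (hz l))
  have h := congrArg abs (cauchy_det (fun i => tau (x i)) (fun i => tau (z i))
    fun i l => (hp i l).ne')
  have e : ∏ i, ∏ l, (1 - tau (x i) * tau (z l)) =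
      Real.exp (∑ i, ∑ k, Real.log (1 - 2 * z k * tau (x i) + z k ^ 2)
        - n * ∑ k, Real.log (1 + z k ^ 2)) := by
    have e1 : (n : ℝ) * ∑ k, Real.log (1 + z k ^ 2) = ∑ _i : Fin n, ∑ k, Real.log (1 + z k ^ 2) := by
      simp
    rw [e1, ← sum_sub_distrib, Real.exp_sum]
    refine prod_congr rfl fun i _ => ?_
    rw [← sum_sub_distrib, Real.exp_sum]
    refine prod_congr rfl fun l _ => ?_
    have e2 : 1 - 2 * z l * tau (x i) + z l ^ 2 = (1 - tau (x i) * tau (z l)) * (1 + z l ^ 2) := by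
      rw [tau.eq_1 (z l)]
      field_simp
      ring
    rw [e2, Real.log_mul (hp i l).ne' (by positivity), add_sub_cancel_right, Real.exp_log (hp i l)]
  rw [abs_mul, abs_mul, en_vdm (en_tau_inj hx ix), en_vdm (en_tau_inj hz iz), e,
    abs_of_pos (Real.exp_pos _), ← Real.exp_add, ← eq_div_iff (Real.exp_pos _).ne',
    ← Real.exp_sub] at h
  unfold ker
  rw [h]
  congr 1
  ring

theorem en_Psi {n : ℕ} (a b : ℕ) {z : Fin n → ℝ} (hz : ∀ i, 0 < z i ∧ z i < 1)
    (iz : Function.Injective z) :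
    |(Matrix.of fun (j : Fin n) l => Psi a b j (z l)).det| =
      Real.exp (∑ l, (a * Real.log (tau (z l)) + b * Real.log (1 - tau (z l)) +
        Real.log (dtau (z l))) + lv (fun i => tau (z i))) := by
  have hz' : ∀ i, |z i| < 1 := fun i => abs_lt.2 ⟨by linarith [(hz i).1], (hz i).2⟩
  have e : (Matrix.of fun (j : Fin n) l => Psi a b j (z l)) =
      Matrix.of fun (j : Fin n) l => (tau (z l) ^ a * (1 - tau (z l)) ^ b * dtau (z l)) *
        (Matrix.vandermonde fun i => tau (z i)).transpose j l := by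
    ext j l
    simp only [Matrix.of_apply, Psi, Matrix.transpose_apply, Matrix.vandermonde_apply]
    ring
  rw [e, Matrix.det_mul_row, Matrix.det_transpose, Matrix.det_vandermonde, abs_mul, Real.exp_add,
    ← en_vdm (en_tau_inj hz' iz), Real.exp_sum, abs_prod]
  congr 1
  refine prod_congr rfl fun l _ => ?_
  have h1 : 0 < tau (z l) := by
    have := (hz l).1
    unfold tau; positivity
  have h2 : 0 < 1 - tau (z l) := sub_pos.2 (abs_lt.1 (en_tau_lt (hz' l))).2
  have h3 : 0 < dtau (z l) := by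
    have : 0 < 1 - z l ^ 2 := by nlinarith [(hz l).1, (hz l).2]
    unfold dtau; positivity
  rw [Real.exp_add, Real.exp_add, ← Real.log_pow, ← Real.log_pow, Real.exp_log (by positivity),
    Real.exp_log (by positivity), Real.exp_log h3, abs_of_pos (by positivity)]

theorem en_x {η N M : ℝ} {L0 L1 : List (ℂ × ℝ)} {x e : ℝ} (hN : 0 ≤ N) (hη : 1 ≤ 36 * N * η)
    (hx : |x| < 1) (h : U1 η L0 L1 x + e ≤ M) :
    (47 * N - 1) * Real.log |tau x| + 2 * N * Real.log (1 - tau x) - 33 * N * Real.log |x|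
      + 36 * N * e + 36 * N * potC L0 (tau x) + 36 * N * potC L1 x
      - Real.log ((1 - tau x) / 2) ≤ 36 * N * M := by
  have h1 := en_tau_lt hx
  have h2 : Real.log |tau x| ≤ 0 := Real.log_nonpos (abs_nonneg _) h1.le
  have h3 : 0 < 1 - tau x := sub_pos.2 (abs_lt.1 h1).2
  have h4 : Real.log ((1 - tau x) / 2) ≤ 0 :=
    Real.log_nonpos (by positivity) (by linarith [(abs_lt.1 h1).1])
  have h5 := Real.log_div h3.ne' two_ne_zero
  have h6 := mul_le_mul_of_nonneg_left h (by positivity : 0 ≤ 36 * N)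
  have h7 := mul_nonpos_of_nonneg_of_nonpos (sub_nonneg.2 hη) h2
  have h8 := mul_nonpos_of_nonneg_of_nonpos (sub_nonneg.2 hη) h4
  unfold U1 at h6
  rw [h5] at h8 ⊢
  linarith

theorem en_z {η N M : ℝ} {L0 L2 : List (ℂ × ℝ)} {z : ℝ} (hN : 0 ≤ N) (hη : 1 ≤ 36 * N * η)
    (h0 : 0 < z) (h1 : z < 1) (h : U2 η L0 L2 z ≤ M) :
    6 * N * Real.log (tau z) + 2 * N * Real.log (1 - tau z) + Real.log (dtau z)
      - (36 * N - 2) * Real.log (1 + z ^ 2) - 2 * (36 * N) * potD L0 z
      + 2 * (36 * N) * potC L2 (2 * z - 1) - Real.log (1 - z) ≤ 36 * N * M + 1 := by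
  have h2 : 0 < 1 - z ^ 2 := by nlinarith
  have h3 : Real.log (dtau z) + 2 * Real.log (1 + z ^ 2) ≤ 1 := by
    unfold dtau
    rw [Real.log_div (by positivity) (by positivity), Real.log_pow]
    have := Real.log_le_sub_one_of_pos (x := 2 * (1 - z ^ 2)) (by positivity)
    push_cast
    nlinarith
  have h4 : Real.log (1 - z) ≤ 0 := Real.log_nonpos (by linarith) (by linarith)
  have h6 := mul_le_mul_of_nonneg_left h (by positivity : 0 ≤ 36 * N)
  have h7 := mul_nonpos_of_nonneg_of_nonpos (sub_nonneg.2 hη) h4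
  unfold U2 at h6
  linarith

theorem energy_one (E : ℝ) (ex : ℝ → ℝ) (c : Cert E ex) : ∃ (C : ℝ) (N0 : ℕ), 0 ≤ C ∧ ∀ N : ℕ,
    N0 ≤ N → 1 ≤ N → ∀ x z : Fin (36 * N) → ℝ, (∀ i, |x i| < 1) → (∀ i, x i ≠ 0) →
      (∀ i, 0 < z i ∧ z i < 1) → Function.Injective x → Function.Injective z →
      (∑ i, (((47 * N - 1 : ℕ) : ℝ) * Real.log |tau (x i)|
          + 2 * N * Real.log (1 - tau (x i)) - 33 * N * Real.log |x i| + 36 * N * ex (x i))
          + lv x + 36 * N * Real.log 60) +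
        (lv (fun i => tau (x i)) + lv (fun i => tau (z i))
          - ∑ i, ∑ k, Real.log (1 - 2 * z k * tau (x i) + z k ^ 2)
          + ((36 * N : ℕ) : ℝ) * ∑ k, Real.log (1 + z k ^ 2)) +
        (∑ l, (((6 * N : ℕ) : ℝ) * Real.log (tau (z l)) +
          ((2 * N : ℕ) : ℝ) * Real.log (1 - tau (z l)) +
          Real.log (dtau (z l))) + lv (fun i => tau (z i))) ≤
      E * (36 * N) ^ 2 + C * N * (1 + Real.log N) := by
  obtain ⟨η, M1, M2, L0, L1, L2, hη, l0, l1, l2, u1, u2, hE⟩ := c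
  obtain ⟨C0, p0⟩ := pd_one L0 l0
  obtain ⟨C1, p1⟩ := pd_two L1 l1
  obtain ⟨C2, p2⟩ := pd_two L2 l2
  obtain ⟨N0, hN0⟩ := exists_nat_ge (1 / η)
  refine ⟨36 * 36 * |C0 + C1 + 2 * C2| + 36 * 60, N0, by positivity,
    fun N hN hN1 x z hx h0 hz ix iz => ?_⟩
  have n1 : (1 : ℝ) ≤ N := by exact_mod_cast hN1
  have hNη : 1 ≤ 36 * (N : ℝ) * η := by
    have a : (N0 : ℝ) ≤ N := by exact_mod_cast hN
    have b : 1 ≤ (N : ℝ) * η := (div_le_iff₀ hη).1 (hN0.trans a)
    nlinarith
  have hz' : ∀ i, |z i| < 1 := fun i => abs_lt.2 ⟨by linarith [(hz i).1], (hz i).2⟩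
  have q0 := p0 (36 * N) (by omega) (fun i => tau (x i)) z (en_tau_inj hx ix)
    (fun i => en_tau_lt (hx i)) hz
  have q1 := p1 (36 * N) (by omega) x ix fun i => (hx i).le
  have q2 := p2 (36 * N) (by omega) (fun i => 2 * z i - 1)
    (fun i j e => iz (by simp only at e; linarith))
    fun i => abs_le.2 ⟨by linarith [(hz i).1], by linarith [(hz i).2]⟩
  have q3 := en_lv_tau hz' iz
  have q4 := sum_le_sum (s := univ) fun i _ => en_x (N := N) (by linarith) hNη (hx i)
    (u1 (x i) (abs_lt.1 (hx i)).1 (abs_lt.1 (hx i)).2 (h0 i))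
  have q5 := sum_le_sum (s := univ) fun i _ => en_z (N := N) (by linarith) hNη (hz i).1 (hz i).2
    (u2 (z i) (hz i).1 (hz i).2)
  have q6 := mul_le_mul_of_nonneg_left hE (by positivity : (0 : ℝ) ≤ (36 * N) ^ 2)
  have q7 : (N : ℝ) * Real.log 60 ≤ N * 59 :=
    mul_le_mul_of_nonneg_left ((Real.log_le_sub_one_of_pos (by norm_num)).trans (by norm_num))
      (by linarith)
  have a1 : 0 ≤ Real.log N := Real.log_nonneg n1
  have q8 : (C0 + C1 + 2 * C2) * (36 * N) * (1 + Real.log (36 * N)) ≤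
      36 * 36 * |C0 + C1 + 2 * C2| * N * (1 + Real.log N) := by
    have b1 : Real.log 36 ≤ 35 := (Real.log_le_sub_one_of_pos (by norm_num)).trans (by norm_num)
    have b2 : 0 ≤ Real.log 36 := Real.log_nonneg (by norm_num)
    rw [Real.log_mul (by norm_num) (by linarith)]
    calc (C0 + C1 + 2 * C2) * (36 * N) * (1 + (Real.log 36 + Real.log N))
        ≤ |C0 + C1 + 2 * C2| * (36 * N) * (1 + (Real.log 36 + Real.log N)) := by
          gcongr
          exact le_abs_self _
      _ ≤ |C0 + C1 + 2 * C2| * (36 * N) * (36 * (1 + Real.log N)) := by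
          gcongr
          linarith
      _ = _ := by ring
  have q9 : 0 ≤ (N : ℝ) * Real.log N := by positivity
  rw [Nat.cast_sub (by omega)]
  simp only [sum_add_distrib, sum_sub_distrib, ← mul_sum, sum_const, card_univ, Fintype.card_fin,
    nsmul_eq_mul] at q4 q5 ⊢
  push_cast at q0 q1 q2 q3 q4 q5 ⊢
  linarith

theorem energy (E : ℝ) (c1 : Cert E fun _ => 0) (c2 : Cert E ex2) : ∃ (C : ℝ) (N0 : ℕ), ∀ N : ℕ,
    N0 ≤ N → ∀ x z : Fin (36 * N) → ℝ, (∀ i, x i ∈ Set.Ioo (-1 : ℝ) 1) →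
      (∀ i, z i ∈ Set.Ioo (0 : ℝ) 1) →
      |(Matrix.of fun (r : Fin (36 * N)) i => Phi (2 * N) (47 * N - 1) (KK N r) (x i)).det *
        (Matrix.of fun i l => ker (x i) (z l)).det *
        (Matrix.of fun (j : Fin (36 * N)) l => Psi (6 * N) (2 * N) j (z l)).det| ≤
      Real.exp (E * (36 * N) ^ 2 + C * N * (1 + Real.log N)) := by
  obtain ⟨C1, N1, k1, e1⟩ := energy_one E _ c1
  obtain ⟨C2, N2, k2, e2⟩ := energy_one E _ c2
  refine ⟨C1 + C2, N1 + N2 + 1, fun N hN x z hx hz => ?_⟩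
  have hx' : ∀ i, |x i| < 1 := fun i => abs_lt.2 (hx i)
  have hz' : ∀ i, |z i| < 1 := fun i => abs_lt.2 ⟨by linarith [(hz i).1], (hz i).2⟩
  by_cases ix : Function.Injective x
  swap
  · obtain ⟨i, j, e, hne⟩ := Function.not_injective_iff.1 ix
    rw [Matrix.det_zero_of_column_eq hne fun k => by simp only [Matrix.of_apply, e], zero_mul,
      zero_mul, abs_zero]
    positivity
  by_cases iz : Function.Injective z
  swap
  · obtain ⟨i, j, e, hne⟩ := Function.not_injective_iff.1 iz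
    rw [Matrix.det_zero_of_column_eq (M := Matrix.of fun (j : Fin (36 * N)) l =>
      Psi (6 * N) (2 * N) j (z l)) hne fun k => by simp only [Matrix.of_apply, e], mul_zero,
      abs_zero]
    positivity
  by_cases h0 : ∀ i, x i ≠ 0
  swap
  · simp only [not_forall, not_not] at h0
    obtain ⟨i, hi⟩ := h0
    have hc : 47 * N - 1 ≠ 0 := by omega
    rw [Matrix.det_eq_zero_of_column_eq_zero i fun k => by simp [Phi, tau, hi, hc], zero_mul,
      zero_mul, abs_zero]
    positivity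
  obtain ⟨ex, hex, hd⟩ := det_Phi N (by omega) x ix hx' h0
  rw [abs_mul, abs_mul, en_ker hx' hz' ix iz, en_Psi _ _ hz iz]
  refine (mul_le_mul_of_nonneg_right (mul_le_mul_of_nonneg_right hd (Real.exp_pos _).le)
    (Real.exp_pos _).le).trans ?_
  rw [← Real.exp_add, ← Real.exp_add, Real.exp_le_exp]
  have n1 : (1 : ℝ) ≤ N := by exact_mod_cast (by omega : 1 ≤ N)
  have a1 : 0 ≤ (N : ℝ) * (1 + Real.log N) := by
    have := Real.log_nonneg n1
    positivity
  rcases hex with rfl | rfl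
  · refine (e1 N (by omega) (by omega) x z hx' h0 hz ix iz).trans ?_
    nlinarith [mul_nonneg k2 a1]
  · refine (e2 N (by omega) (by omega) x z hx' h0 hz ix iz).trans ?_
    nlinarith [mul_nonneg k1 a1]

end Vale.Agent.P030
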