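import Vale.Agent.P030.VC

/-! Frobenius congruences for the tables. -/

namespace Vale.Agent.P030

open Polynomial Finset

namespace FrobA

open VC

noncomputable def EE (m e : ℕ) : ℚ := (((1 - X ^ 2 : ℤ[X]) ^ m).coeff e : ℚ)

theorem pow_eq (m : ℕ) : (1 - X ^ 2 : ℤ[X]) ^ m =
    expand ℤ 2 (((1 + X : ℤ[X]) ^ m).comp (C (-1) * X)) := by
  simp [sub_eq_add_neg]

theorem EE_even (m r : ℕ) : EE m (2 * r) = (-1) ^ r * m.choose r := by
  unfold EE
  rw [pow_eq, coeff_expand_mul' (by norm_num), comp_C_mul_X_coeff, coeff_one_add_X_pow]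
  push_cast
  ring

theorem EE_odd (m r : ℕ) : EE m (2 * r + 1) = 0 := by
  unfold EE
  rw [pow_eq, coeff_expand (by norm_num), if_neg (by omega), Int.cast_zero]

variable {p : ℕ} [hpp : Fact p.Prime] {m : ℕ}

theorem ig_EE (m e : ℕ) : Ig p (EE m e) := ig_int _

theorem aa_EE (hm : p = 2 * m + 1) {r : ℕ} (hr : r ≤ m) : Cg p (aa r) (EE m (2 * r)) := by
  rw [EE_even]; exact aa_choose hm hr

theorem aa_EE' (hm : p = 2 * m + 1) (hm2 : m % 2 = 0) {r : ℕ} (hr : r ≤ m) :
    Cg p (aa (m - r)) (EE m (2 * r)) := by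
  rw [EE_even]
  refine (aa_choose hm (Nat.sub_le m r)).eq_right ?_
  rw [Nat.choose_symm hr]
  congr 1
  rcases Nat.even_or_odd r with h | h
  · rw [h.neg_one_pow, Even.neg_one_pow]
    rw [Nat.even_iff] at h ⊢
    omega
  · rw [h.neg_one_pow, Odd.neg_one_pow]
    rw [Nat.odd_iff] at h ⊢
    omega

theorem aa_m (hm : p = 2 * m + 1) (hm2 : m % 2 = 0) : Cg p (aa m) 1 := by
  have := aa_EE' hm hm2 (Nat.zero_le m)
  rw [EE_even] at this
  simpa using this

theorem cc_cg1 (hm : p = 2 * m + 1) (hm2 : m % 2 = 0) {a s : ℕ} (ha : 2 * a + 1 < p)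
    (hs : s ≤ m) : Cg p (p * cc (p * a + m + s)) (aa s * cc a) := by
  have hp := ne_two hm
  have h1 := cc_cg hm ha hs
  have hi : Ig p (aa s * cc a) := (ig_aa hp s).mul (ig_cc0 hp ha)
  have h2 : Cg p (aa s * cc a * aa m) (aa s * cc a) :=
    ((aa_m hm hm2).mul_left hi).eq_right (mul_one _)
  exact (h1.trans h2.symm).cancel (un_aa hp (by omega))

theorem sum_aa_sq (hm : p = 2 * m + 1) (hm2 : m % 2 = 0) :
    Cg p (∑ s ∈ range (m + 1), aa s ^ 2) 1 := by
  have hp := ne_two hm
  have h1 : Cg p (∑ s ∈ range (m + 1), aa s ^ 2) (∑ s ∈ range (m + 1), (m.choose s : ℚ) ^ 2) := by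
    refine Cg.sum fun s hs => ?_
    have hs' := Finset.mem_range.1 hs
    refine ((aa_choose hm (by omega)).pow ((ig_one.neg.pow s).mul (ig_nat _)) 2).eq_right ?_
    rw [mul_pow, ← pow_mul, mul_comm s 2, pow_mul]
    simp
  have h2 : ∑ s ∈ range (m + 1), (m.choose s : ℚ) ^ 2 = aa m * 4 ^ m := by
    have := Nat.sum_range_choose_sq m
    unfold aa
    rw [div_mul_cancel₀ _ (by positivity), Nat.centralBinom_eq_two_mul_choose, ← this]
    push_cast
    rfl
  have h3 : Cg p (4 ^ m) 1 := by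
    have h4 : 2 ^ p ≡ 2 [MOD p] := by
      rw [← ZMod.natCast_eq_natCast_iff]
      push_cast
      rw [ZMod.pow_card]
    have h5 := cg_modEq h4
    push_cast at h5
    have h6 : (2 : ℚ) ^ p = 4 ^ m * 2 := by
      rw [show (4 : ℚ) = 2 ^ 2 by norm_num, ← pow_mul, ← pow_succ, ← hm]
    rw [h6] at h5
    exact Cg.cancel (h5.eq_right (one_mul _).symm) (un_two hp)
  rw [h2] at h1
  exact h1.trans (((aa_m hm hm2).mul h3 ig_one ig_one).eq_right (one_mul _))

theorem sW_low (hm : p = 2 * m + 1) {a s : ℕ} (ha : 2 * a < p) (hs : s ≤ m) :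
    Sm p (∑ k ∈ range s, (p : ℚ) ^ 2 * (cc (p * a + k) ^ 2 / 2)) := by
  refine Sm.sum fun k hk => ?_
  have hk' := Finset.mem_range.1 hk
  exact (((ig_cc hm ha (by omega)).pow 2).div (un_two (ne_two hm))).p2_mul

theorem sW_block (hm : p = 2 * m + 1) (hm2 : m % 2 = 0) {a : ℕ} (ha : 2 * a < p) :
    Cg p (∑ k ∈ range (p * a), (p : ℚ) ^ 2 * (cc k ^ 2 / 2)) (∑ k ∈ range a, cc k ^ 2 / 2) := by
  have hp := ne_two hm
  induction a with
  | zero => simpa using Cg.rfl'
  | succ a ih =>
    rw [show p * (a + 1) = p * a + m + (m + 1) by rw [mul_add]; omega, Finset.sum_range_add,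
      Finset.sum_range_add, Finset.sum_range_succ _ a]
    refine (((ih (by omega)).add (sW_low hm (by omega) le_rfl).cg).eq_right (add_zero _)).add ?_
    have hc : Ig p (cc a) := ig_cc0 hp (by omega)
    have h1 : Cg p (∑ s ∈ range (m + 1), (p : ℚ) ^ 2 * (cc (p * a + m + s) ^ 2 / 2))
        (∑ s ∈ range (m + 1), aa s ^ 2 * (cc a ^ 2 / 2)) := by
      refine Cg.sum fun s hs => ?_
      have hs' := Finset.mem_range.1 hs
      have := ((cc_cg1 hm hm2 (a := a) (s := s) (by omega) (by omega)).pow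
        ((ig_aa hp s).mul hc) 2).div_right (un_two hp)
      exact (this.eq_left (by ring)).eq_right (by ring)
    refine h1.trans ?_
    rw [← Finset.sum_mul]
    exact ((sum_aa_sq hm hm2).mul_right ((hc.pow 2).div (un_two hp))).eq_right (one_mul _)

theorem sW_cg (hm : p = 2 * m + 1) (hm2 : m % 2 = 0) {a s : ℕ} (ha : 2 * a < p) (hs : s ≤ m) :
    Cg p ((p : ℚ) ^ 2 * sW (p * a + s)) (sW a) := by
  rw [sW_eq, sW_eq, Finset.mul_sum, Finset.sum_range_add]
  exact ((sW_block hm hm2 ha).add (sW_low hm ha hs).cg).eq_right (add_zero _)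

theorem nu_cg (hm : p = 2 * m + 1) (hm2 : m % 2 = 0) {e i i1 : ℕ} (he : e < p)
    (h : i + e + 1 = p * (i1 + 1)) (hi : 2 * i < p ^ 2) :
    Cg p (p * nu i) (EE m e * nu i1) := by
  have hp := ne_two hm
  rcases Nat.even_or_odd' e with ⟨r, rfl | rfl⟩ <;>
    rcases Nat.even_or_odd' i1 with ⟨a, rfl | rfl⟩
  · have e1 : p * (2 * a + 1) = 2 * (p * a) + p := by ring
    rw [show i = 2 * (p * a + (m - r)) by omega, nu_even, nu_even, mul_zero, mul_zero]
    exact Cg.rfl'
  · have e1 : p * (2 * a + 1 + 1) = 2 * (p * a) + 2 * p := by ring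
    have e2 : p * (2 * a + 1) = 2 * (p * a) + p := by ring
    have ha : 2 * a + 1 < p := lt_of_mul_lt_sq (by omega)
    rw [show i = 2 * (p * a + m + (m - r)) + 1 by omega, nu_odd, nu_odd]
    exact (cc_cg1 hm hm2 ha (by omega)).trans
      ((aa_EE' hm hm2 (by omega)).mul_right (ig_cc0 hp ha))
  · have e1 : p * (2 * a + 1) = 2 * (p * a) + p := by ring
    have e2 : p * (2 * a) = 2 * (p * a) := by ring
    have ha : 2 * a < p := lt_of_mul_lt_sq (by omega)
    rw [show i = 2 * (p * a + (m - r - 1)) + 1 by omega, nu_odd, EE_odd, zero_mul]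
    exact (ig_cc hm ha (by omega)).p_mul.cg
  · have e1 : p * (2 * a + 1 + 1) = 2 * (p * a) + 2 * p := by ring
    rw [show i = 2 * (p * a + (2 * m - r)) by omega, nu_even, EE_odd, mul_zero, zero_mul]
    exact Cg.rfl'

theorem div_eq' {a s : ℕ} (hs : s < p) : (p * a + s) / p = a := by
  rw [Nat.mul_add_div hpp.out.pos, Nat.div_eq_of_lt hs, add_zero]

theorem b0_cg (hm : p = 2 * m + 1) (hm2 : m % 2 = 0) {c l : ℕ} (hc : c < p)
    (hl : 2 * (p * l + c) < p ^ 2) :
    Cg p ((p : ℚ) ^ 2 * b0 (p * l + c)) (EE m c * b0 l) := by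
  have hp := ne_two hm
  have hl2 : 2 * l < p := lt_of_mul_lt_sq (by
    have : p * (2 * l) = 2 * (p * l) := by ring
    omega)
  rcases Nat.even_or_odd' c with ⟨r, rfl | rfl⟩ <;>
    rcases Nat.even_or_odd' l with ⟨a, rfl | rfl⟩
  · have e1 : p * (2 * a) = 2 * (p * a) := by ring
    rw [show p * (2 * a) + 2 * r = 2 * (p * a + r) by omega, b0_even, b0_even]
    have h1 := sX_cg hm (n := p * a + r) (by omega)
    rw [div_eq' (by omega)] at h1
    have h2 := (aa_lucas hp a (l := r) hc).trans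
      ((aa_EE hm (r := r) (by omega)).mul_left (ig_aa hp a))
    have h3 := h2.mul h1 ((ig_aa hp a).mul (ig_EE _ _)) (ig_sX hp (by omega))
    exact (h3.eq_left (by ring)).eq_right (by ring)
  · have e1 : p * (2 * a + 1) = 2 * (p * a) + p := by ring
    rw [show p * (2 * a + 1) + 2 * r = 2 * (p * a + m + r) + 1 by omega, b0_odd, b0_odd]
    have h1 := sY_cg hm (n := p * a + m + r + 1) (by omega)
    rw [show p * a + m + r + 1 + m = p * (a + 1) + r by rw [mul_add]; omega,
      div_eq' (by omega)] at h1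
    have hY : Ig p (sY (a + 1)) := ig_sY hp (by omega)
    have h1' := h1.trans (((aa_m hm hm2).mul_right hY).eq_right (one_mul _))
    have hc0 : Ig p (cc a) := ig_cc0 hp (by omega)
    have h2 := (cc_cg1 hm hm2 (a := a) (s := r) (by omega) (by omega)).trans
      ((aa_EE hm (r := r) (by omega)).mul_right hc0)
    have h3 := h2.mul h1' ((ig_EE _ _).mul hc0) hY
    exact (h3.eq_left (by ring)).eq_right (by ring)
  · have e1 : p * (2 * a) = 2 * (p * a) := by ring
    rw [show p * (2 * a) + (2 * r + 1) = 2 * (p * a + r) + 1 by omega, b0_odd, EE_odd, zero_mul]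
    have h1 := ((ig_cc hm (a := a) (k := r) (by omega) (by omega)).mul
      (ig_p_sY hp (n := p * a + r + 1) (by omega))).p_mul
    exact h1.cg.eq_left (by ring)
  · have e1 : p * (2 * a + 1) = 2 * (p * a) + p := by ring
    rw [show p * (2 * a + 1) + (2 * r + 1) = 2 * (p * a + (m + r + 1)) by omega, b0_even, EE_odd,
      zero_mul]
    have h1 := (aa_lucas0 hp a (l := m + r + 1) (by omega) (by omega)).mul
      (ig_p2_sX hp (n := p * a + (m + r + 1)) (by omega))
    exact h1.cg.eq_left (by ring)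

theorem b1_cg (hm : p = 2 * m + 1) (hm2 : m % 2 = 0) {e i i1 : ℕ} (he : e < p)
    (h : i + e = p * (i1 + 1)) (hi : 2 * i < p ^ 2) :
    Cg p ((p : ℚ) ^ 2 * b1 i) (EE m e * b1 (i1 + 1)) := by
  have hp := ne_two hm
  have hl2 : 2 * i1 < p := lt_of_mul_lt_sq (by
    have : p * (2 * i1) = 2 * (p * i1) := by ring
    rw [mul_add] at h
    omega)
  rcases Nat.even_or_odd' e with ⟨r, rfl | rfl⟩ <;>
    rcases Nat.even_or_odd' i1 with ⟨a, rfl | rfl⟩
  · have e1 : p * (2 * a + 1) = 2 * (p * a) + p := by ring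
    rw [show i = 2 * (p * a + (m - r)) + 1 by omega, b1_odd, b1_odd]
    have h1 := sW_cg hm hm2 (a := a) (s := m - r) (by omega) (by omega)
    have h2 := (aa_lucas hp a (l := m - r) (by omega)).trans
      ((aa_EE' hm hm2 (r := r) (by omega)).mul_left (ig_aa hp a))
    have h3 := h2.mul h1 ((ig_aa hp a).mul (ig_EE _ _)) (ig_sW hp (by omega))
    exact (h3.eq_left (by ring)).eq_right (by ring)
  · have e1 : p * (2 * a + 1 + 1) = 2 * (p * a) + 2 * p := by ring
    rw [show i = 2 * (p * a + m + (m - r)) + 2 by omega, b1_even, show 2 * a + 1 + 1 = 2 * a + 2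
      from rfl, b1_even]
    have h1 := sZ_cg hm (p * a + m + (m - r) + 1)
    rw [show p * a + m + (m - r) + 1 + m = p * (a + 1) + (m - r) by rw [mul_add]; omega,
      div_eq' (by omega)] at h1
    have hc0 : Ig p (cc a) := ig_cc0 hp (by omega)
    have h2 := (cc_cg1 hm hm2 (a := a) (s := m - r) (by omega) (by omega)).trans
      ((aa_EE' hm hm2 (r := r) (by omega)).mul_right hc0)
    have h3 := h2.mul h1 ((ig_EE _ _).mul hc0) (ig_sZ (by omega))
    exact (h3.eq_left (by ring)).eq_right (by ring)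
  · have e1 : p * (2 * a + 1) = 2 * (p * a) + p := by ring
    rw [show i = 2 * (p * a + (m - r - 1)) + 2 by omega, b1_even, EE_odd, zero_mul]
    have h1 := ((ig_cc hm (a := a) (k := m - r - 1) (by omega) (by omega)).mul
      (ig_p_sZ (n := p * a + (m - r - 1) + 1) (by omega))).p_mul
    exact h1.cg.eq_left (by ring)
  · have e1 : p * (2 * a + 1 + 1) = 2 * (p * a) + 2 * p := by ring
    rw [show i = 2 * (p * a + (2 * m - r)) + 1 by omega, b1_odd, EE_odd, zero_mul]
    have h1 := (aa_lucas0 hp a (l := 2 * m - r) (by omega) (by omega)).mul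
      (ig_p2_sW hp (n := p * a + (2 * m - r)) (by omega))
    exact h1.cg.eq_left (by ring)

theorem mr_cg (hm : p = 2 * m + 1) (hm2 : m % 2 = 0) {e : ℕ} (he : e < p) (i : ℕ) :
    ∀ l c i1 : ℕ, c < p → i + e = p * i1 + c → 2 * i < p ^ 2 → 2 * (p * l + c) < p ^ 2 →
      Cg p ((p : ℚ) ^ 2 * mr i (p * l + c)) (EE m e * mr i1 l) := by
  have hp := ne_two hm
  induction i with
  | zero =>
    intro l c i1 hc h _ hl
    have h1 : i1 = 0 := by
      rcases i1 with _ | i1
      · rfl
      · rw [mul_add] at h; omega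
    subst h1
    have h2 : e = c := by omega
    subst h2
    simp only [mr]
    exact b0_cg hm hm2 hc hl
  | succ i ih =>
    intro l c i1 hc h hi hl
    rcases c with _ | c
    · obtain ⟨i1, rfl⟩ : ∃ k, i1 = k + 1 := by
        rcases i1 with _ | i1
        · omega
        · exact ⟨i1, rfl⟩
      rcases l with _ | l
      · simp only [mul_zero, add_zero, mr]
        exact b1_cg hm hm2 he h hi
      · have e1 : p * (l + 1) + 0 = p * l + (p - 1) + 1 := by rw [mul_add]; omega
        have h1 := ih l (p - 1) i1 (by omega) (by rw [mul_add] at h; omega) (by omega) (by omega)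
        have hl1 : l + 1 < p := lt_of_mul_lt_sq (by omega)
        have hu : Un p ((l : ℚ) + 1) := by
          have := un_lt (p := p) (n := l + 1) (by omega) hl1
          push_cast at this
          exact this
        have h2 := (nu_cg hm hm2 (i := i) (i1 := i1) he (by omega) (by omega)).div_right hu
        have e2 : ((p * l + (p - 1) : ℕ) : ℚ) + 1 = p * (l + 1) := by
          have : p * l + (p - 1) + 1 = p * (l + 1) := by omega
          exact_mod_cast this
        rw [e1]
        simp only [mr]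
        refine ((h1.sub h2).eq_left ?_).eq_right (by ring)
        have := p_ne (p := p)
        have := hu.ne
        rw [e2]
        field_simp
    · have h1 := ih l c i1 (by omega) (by omega) (by omega) (by omega)
      have hu : Un p (((p * l + c : ℕ) : ℚ) + 1) := by
        have : Un p ((p * l + (c + 1) : ℕ) : ℚ) := un_nat fun h2 =>
          Nat.not_dvd_of_pos_of_lt (by omega) hc ((Nat.dvd_add_right (dvd_mul_right p l)).1 h2)
        push_cast at this ⊢
        rwa [add_assoc]
      have h2 := ((ig_p_mul (norm_nu_le hp (i := i) (by omega))).div hu).p_mul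
      rw [← add_assoc]
      simp only [mr]
      exact ((h1.sub h2.cg).eq_left (by ring)).eq_right (sub_zero _)

end FrobA

open VC FrobA

theorem frob_zr {p : ℕ} [Fact p.Prime] {i l c : ℕ} (hc : c < p) (hi : i < p ^ 2)
    (hl : l < p) :
    padicNorm p ((p : ℚ) ^ 2 * zr i (l * p + c) - if i % p = c then zr (i / p) l else 0) < 1 :=
  zr_cg hc hi hl

theorem frob_mr {p : ℕ} [Fact p.Prime] (hp : p % 4 = 1) {i l c : ℕ} (hc : c < p)
    (hi : 2 * i < p ^ 2) (hl : 2 * (l * p + c) < p ^ 2) :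
    padicNorm p ((p : ℚ) ^ 2 * mr i (l * p + c) - ∑ e ∈ range p,
      if c ≤ i + e ∧ p ∣ i + e - c then
        (((1 - X ^ 2 : ℤ[X]) ^ ((p - 1) / 2)).coeff e : ℚ) * mr ((i + e - c) / p) l else 0) < 1 := by
  have h0 : 0 < p := by omega
  obtain ⟨e, i1, he, h⟩ : ∃ e i1, e < p ∧ i + e = p * i1 + c := by
    have h1 := Nat.div_add_mod i p
    have h2 := Nat.mod_lt i h0
    rcases le_or_gt (i % p) c with h | h
    · exact ⟨c - i % p, i / p, by omega, by omega⟩
    · exact ⟨p + c - i % p, i / p + 1, by omega, by rw [mul_add]; omega⟩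
  have h1 := mr_cg (p := p) (m := (p - 1) / 2) (by omega) (by omega) he i l c i1 hc h hi
    (by rwa [mul_comm p l])
  rw [Finset.sum_eq_single e, if_pos, show i + e - c = p * i1 by omega,
    Nat.mul_div_cancel_left _ h0, mul_comm l p]
  · exact h1
  · exact ⟨by omega, by rw [show i + e - c = p * i1 by omega]; exact dvd_mul_right _ _⟩
  · intro e' he' hne
    have he'' := Finset.mem_range.1 he'
    rw [if_neg]
    rintro ⟨h2, k, h3⟩
    have h4 : (p : ℤ) ∣ (e' : ℤ) - e := ⟨(k : ℤ) - i1, by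
      have h5 : i + e' = p * k + c := by omega
      have h6 : (i : ℤ) + e' = p * k + c := by exact_mod_cast h5
      have h7 : (i : ℤ) + e = p * i1 + c := by exact_mod_cast h
      linear_combination h6 - h7⟩
    have := Int.eq_zero_of_dvd_of_natAbs_lt_natAbs h4 (by omega)
    omega
  · intro h2
    exact absurd (Finset.mem_range.2 he) h2

end Vale.Agent.P030
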