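import Vale.Agent.P030.Ser

/-! The entries as double integrals. -/

namespace Vale.Agent.P030

open Finset Polynomial MeasureTheory

theorem rec_zero (u : ℤ → ℝ) (c : ℝ) (h : ∀ n, u (n + 2) = c * u (n + 1) - u n) (h0 : u 0 = 0)
    (h1 : u 1 = 0) (n : ℤ) : u n = 0 := by
  induction n using Polynomial.Chebyshev.induct with
  | zero => exact h0
  | one => exact h1
  | add_two n a b => rw [h, a, b]; simp
  | neg_add_one n a b =>
    have := h (-n - 1)
    rw [show -(n : ℤ) - 1 + 2 = -n + 1 by ring, show -(n : ℤ) - 1 + 1 = -n by ring, a, b] at this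
    linarith

theorem zpow_rec {x : ℝ} (hx : x ≠ 0) (n : ℤ) :
    x ^ (n + 2) = (x + x⁻¹) * x ^ (n + 1) - x ^ n ∧
      x ^ (-(n + 2)) = (x + x⁻¹) * x ^ (-(n + 1)) - x ^ (-n) := by
  have h := zpow_ne_zero n hx
  simp only [zpow_neg, zpow_add₀ hx, zpow_ofNat, zpow_one]
  constructor <;> field_simp <;> ring

theorem aeval_T {x : ℝ} (hx : x ≠ 0) (K : ℤ) :
    aeval ((x + x⁻¹) / 2) (Chebyshev.T ℤ K) = (x ^ K + x ^ (-K)) / 2 := by
  rw [← sub_eq_zero]
  refine rec_zero (fun K => aeval ((x + x⁻¹) / 2) (Chebyshev.T ℤ K) - (x ^ K + x ^ (-K)) / 2)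
    (x + x⁻¹) (fun n => ?_) (by simp) (by simp) K
  obtain ⟨h1, h2⟩ := zpow_rec hx n
  rw [Chebyshev.T_add_two, h1, h2]
  simp only [map_sub, map_mul, aeval_X, map_ofNat]
  ring

theorem aeval_U {x : ℝ} (hx : x ≠ 0) (K : ℤ) :
    (x⁻¹ - x) / 2 * aeval ((x + x⁻¹) / 2) (Chebyshev.U ℤ (K - 1)) = (x ^ (-K) - x ^ K) / 2 := by
  rw [← sub_eq_zero]
  refine rec_zero (fun K => (x⁻¹ - x) / 2 * aeval ((x + x⁻¹) / 2) (Chebyshev.U ℤ (K - 1)) -
    (x ^ (-K) - x ^ K) / 2) (x + x⁻¹) (fun n => ?_) (by simp) (by simp) K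
  obtain ⟨h1, h2⟩ := zpow_rec hx n
  rw [show n + 2 - 1 = n - 1 + 2 by ring, Chebyshev.U_add_two, h1, h2,
    show n - 1 + 1 = n + 1 - 1 by ring]
  simp only [map_sub, map_mul, aeval_X, map_ofNat]
  ring

/-- the reversed polynomial as a function -/
noncomputable def rev (A : ℕ) (Q : ℤ[X]) (t : ℝ) : ℝ :=
  ∑ k ∈ range (A + 1), (Q.coeff k : ℝ) * t ^ (A - k)

theorem rev_eq {A : ℕ} {Q : ℤ[X]} (hQ : Q.natDegree ≤ A) {t : ℝ} (ht : t ≠ 0) :
    rev A Q t = t ^ A * aeval t⁻¹ Q := by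
  rw [aeval_eq_sum_range' (Nat.lt_succ_of_le hQ), mul_sum]
  refine sum_congr rfl fun k hk => ?_
  rw [mem_range] at hk
  rw [pow_sub₀ _ ht (by omega), zsmul_eq_mul, inv_pow]
  ring

theorem continuous_rev (A : ℕ) (Q : ℤ[X]) : Continuous (rev A Q) := by
  unfold rev
  fun_prop

theorem tau_ne_zero {x : ℝ} (hx : x ≠ 0) : tau x ≠ 0 := by
  have := one_add_sq_pos x
  unfold tau
  positivity

theorem tau_inv {x : ℝ} (hx : x ≠ 0) : (tau x)⁻¹ = (x + x⁻¹) / 2 := by
  have := one_add_sq_pos x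
  unfold tau
  field_simp
  ring

theorem rev_QD (h c : ℕ) (K : ℤ) (hK : K.natAbs ≤ c) {x : ℝ} (hx : x ≠ 0) :
    rev (c + h) (QD h K) (tau x) = tau x ^ c * (1 - tau x) ^ h * ((x ^ K + x ^ (-K)) / 2) := by
  have ht := tau_ne_zero hx
  rw [rev_eq ((natDegree_QD h K).trans (by omega)) ht, QD]
  simp only [map_mul, map_pow, map_sub, aeval_X, map_one]
  have e : (1 - tau x) ^ h = tau x ^ h * ((tau x)⁻¹ - 1) ^ h := by
    rw [← mul_pow]
    congr 1
    field_simp
  rw [e, ← aeval_T hx, ← tau_inv hx]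
  ring

theorem rev_QP (h c : ℕ) (K : ℤ) (hK : K.natAbs ≤ c) {x : ℝ} (hx : x ≠ 0) :
    rev (c + h + 1) (QP h K) (tau x) =
      tau x ^ c * (1 - tau x) ^ h * ((x ^ (-K) - x ^ K) / 2) * co x := by
  have ht := tau_ne_zero hx
  have hp := one_add_sq_pos x
  rw [rev_eq ((natDegree_QP h K).trans (by omega)) ht, QP]
  simp only [map_mul, map_pow, map_sub, aeval_X, map_one]
  have e : (1 - tau x) ^ h = tau x ^ h * ((tau x)⁻¹ - 1) ^ h := by
    rw [← mul_pow]
    congr 1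
    field_simp
  have e2 : tau x * ((tau x)⁻¹ ^ 2 - 1) = (x⁻¹ - x) / 2 * co x := by
    rw [tau_inv hx]
    unfold tau co
    field_simp
    ring
  rw [e, ← aeval_U hx, ← tau_inv hx]
  linear_combination (tau x ^ c * tau x ^ h * ((tau x)⁻¹ - 1) ^ h *
    aeval (tau x)⁻¹ (Chebyshev.U ℤ (K - 1))) * e2

theorem Phi_eq (h c : ℕ) (K : ℤ) (hK : K.natAbs ≤ c) {x : ℝ} (hx : x ≠ 0) (hx1 : x < 1) :
    Phi h c K x = SignType.sign x * (rev (c + h + 1) (QP h K) (tau x) * (2 / (1 + x ^ 2))) -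
      3 / 2 * (Set.Ioo (0 : ℝ) 1).indicator (fun x => rev (c + h) (QD h K) (tau x) * dtau x) x := by
  rw [Phi, rev_QP h c K hK hx]
  rcases lt_or_gt_of_ne hx with h0 | h0
  · rw [if_neg h0.not_gt, sign_neg h0, Set.indicator_of_notMem (fun hh => h0.not_gt hh.1), dtau_eq]
    simp only [SignType.coe_neg, SignType.coe_one]
    ring
  · rw [if_pos h0, sign_pos h0, Set.indicator_of_mem (show x ∈ Set.Ioo (0 : ℝ) 1 from ⟨h0, hx1⟩),
      rev_QD h c K hK hx, dtau_eq]
    simp only [SignType.coe_one]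
    ring

theorem measurable_sgn : Measurable fun x : ℝ => ((SignType.sign x : SignType) : ℝ) := by
  have : (fun x : ℝ => ((SignType.sign x : SignType) : ℝ)) =
      fun x => if 0 < x then 1 else if x < 0 then -1 else 0 := by
    ext x
    rw [sign_apply]
    split_ifs <;> simp
  rw [this]
  exact Measurable.ite measurableSet_Ioi measurable_const
    (Measurable.ite measurableSet_Iio measurable_const measurable_const)

theorem abs_sgn_le (x : ℝ) : |((SignType.sign x : SignType) : ℝ)| ≤ 1 := by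
  rw [sign_apply]
  split_ifs <;> simp

theorem intOn {F : ℝ → ℝ} (hF : Continuous F) (a b : ℝ) : IntegrableOn F (Set.Ioo a b) :=
  (hF.integrableOn_Icc (a := a) (b := b)).mono_set Set.Ioo_subset_Icc_self

theorem intOn_sgn {F : ℝ → ℝ} (hF : Continuous F) (a b : ℝ) :
    IntegrableOn (fun x => ((SignType.sign x : SignType) : ℝ) * F x) (Set.Ioo a b) :=
  Integrable.bdd_mul (c := 1) (intOn hF a b) measurable_sgn.aestronglyMeasurable
    (Filter.Eventually.of_forall abs_sgn_le)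

theorem ae_mem_ne : ∀ᵐ x ∂(volume.restrict (Set.Ioo (-1 : ℝ) 1)), x ∈ Set.Ioo (-1 : ℝ) 1 ∧ x ≠ 0 :=
  (ae_restrict_mem measurableSet_Ioo).and (ae_restrict_of_ae (Measure.ae_ne volume 0))

theorem Phi_bound (h c : ℕ) (K : ℤ) (hK : K.natAbs ≤ c) :
    ∃ C : ℝ, ∀ᵐ x ∂(volume.restrict (Set.Ioo (-1 : ℝ) 1)), |Phi h c K x| ≤ C := by
  have c1 : Continuous fun x => rev (c + h + 1) (QP h K) (tau x) * (2 / (1 + x ^ 2)) :=
    ((continuous_rev _ _).comp continuous_tau).mul continuous_wt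
  have c2 : Continuous fun x => rev (c + h) (QD h K) (tau x) * dtau x :=
    ((continuous_rev _ _).comp continuous_tau).mul continuous_dtau
  obtain ⟨C1, h1⟩ := (isCompact_Icc (a := (-1 : ℝ)) (b := 1)).exists_bound_of_continuousOn
    c1.continuousOn
  obtain ⟨C2, h2⟩ := (isCompact_Icc (a := (-1 : ℝ)) (b := 1)).exists_bound_of_continuousOn
    c2.continuousOn
  refine ⟨C1 + 3 / 2 * C2, ae_mem_ne.mono fun x hx => ?_⟩
  have a1 := h1 x (Set.Ioo_subset_Icc_self hx.1)
  have a2 := h2 x (Set.Ioo_subset_Icc_self hx.1)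
  have a3 := norm_indicator_le_norm_self (s := Set.Ioo (0 : ℝ) 1)
    (fun x => rev (c + h) (QD h K) (tau x) * dtau x) x
  rw [Phi_eq h c K hK hx.2 hx.1.2]
  refine (abs_sub _ _).trans (add_le_add ?_ ?_)
  · rw [abs_mul]
    calc _ ≤ 1 * C1 := mul_le_mul (abs_sgn_le x) a1 (abs_nonneg _) zero_le_one
      _ = C1 := one_mul _
  · rw [abs_mul, abs_of_pos (by norm_num : (0 : ℝ) < 3 / 2)]
    exact mul_le_mul_of_nonneg_left (a3.trans a2) (by norm_num)

theorem measurable_Phi (h c : ℕ) (K : ℤ) : Measurable (Phi h c K) := by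
  have h1 := continuous_tau.measurable
  have h2 := continuous_dtau.measurable
  unfold Phi
  refine Measurable.mul (Measurable.neg (Measurable.mul (by fun_prop) ?_)) h2
  exact Measurable.ite measurableSet_Ioi (by fun_prop) (by fun_prop)

theorem int_Phi (h c : ℕ) (K : ℤ) (hK : K.natAbs ≤ c) (n : ℕ) :
    ∫ x in Set.Ioo (-1 : ℝ) 1, Phi h c K x * tau x ^ n =
      ∑ k ∈ range (c + h + 1 + 1), ((QP h K).coeff k : ℝ) * nu (c + h + 1 - k + n) -
        3 / 2 * ∑ k ∈ range (c + h + 1), ((QD h K).coeff k : ℝ) *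
          (1 / (((c + h - k : ℕ) : ℝ) + n + 1)) := by
  have e : ∀ᵐ x ∂(volume.restrict (Set.Ioo (-1 : ℝ) 1)), Phi h c K x * tau x ^ n =
      ∑ k ∈ range (c + h + 1 + 1), ((QP h K).coeff k : ℝ) *
        (SignType.sign x * (tau x ^ (c + h + 1 - k + n) * (2 / (1 + x ^ 2)))) -
      3 / 2 * (Set.Ioo (0 : ℝ) 1).indicator (fun x => ∑ k ∈ range (c + h + 1),
        ((QD h K).coeff k : ℝ) * (tau x ^ (c + h - k + n) * dtau x)) x := by
    refine ae_mem_ne.mono fun x hx => ?_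
    rw [Phi_eq h c K hK hx.2 hx.1.2, sub_mul]
    congr 1
    · rw [rev, sum_mul, mul_sum, sum_mul]
      exact sum_congr rfl fun k _ => by ring
    · by_cases hm : x ∈ Set.Ioo (0 : ℝ) 1
      · rw [Set.indicator_of_mem hm, Set.indicator_of_mem hm, mul_assoc, rev, sum_mul, sum_mul]
        congr 1
        exact sum_congr rfl fun k _ => by ring
      · rw [Set.indicator_of_notMem hm, Set.indicator_of_notMem hm]
        ring
  have i1 : ∀ k, IntegrableOn (fun x : ℝ => ((QP h K).coeff k : ℝ) *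
      (SignType.sign x * (tau x ^ (c + h + 1 - k + n) * (2 / (1 + x ^ 2))))) (Set.Ioo (-1) 1) :=
    fun k => Integrable.const_mul (intOn_sgn ((continuous_tau.pow _).mul continuous_wt) _ _) _
  have c2 : ∀ k, Continuous fun x : ℝ =>
      ((QD h K).coeff k : ℝ) * (tau x ^ (c + h - k + n) * dtau x) :=
    fun k => continuous_const.mul ((continuous_tau.pow _).mul continuous_dtau)
  rw [integral_congr_ae e, integral_sub (integrable_finsetSum _ fun k _ => i1 k)
    (Integrable.const_mul (Integrable.indicator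
      (intOn (continuous_finsetSum _ fun k _ => c2 k) _ _) measurableSet_Ioo) _),
    integral_finsetSum _ fun k _ => i1 k, integral_const_mul,
    setIntegral_indicator measurableSet_Ioo,
    Set.inter_eq_right.2 (Set.Ioo_subset_Ioo_left (by norm_num)),
    integral_finsetSum _ fun k _ => intOn (c2 k) _ _]
  congr 1
  · refine sum_congr rfl fun k _ => ?_
    rw [integral_const_mul, nu_eq_integral]
    simp only [mul_assoc]
  · congr 1
    refine sum_congr rfl fun k _ => ?_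
    rw [integral_const_mul, ← inv_eq_integral]
    push_cast
    rfl

theorem int_Psi (a b j B : ℕ) (hB : a + j + b < B) (n : ℕ) :
    ∫ z in Set.Ioo (0 : ℝ) 1, Psi a b j z * tau z ^ n =
      ∑ l ∈ range B, ((col a b j).coeff l : ℝ) * (1 / ((l : ℝ) + n + 1)) := by
  have hd : (col a b j).natDegree < B :=
    lt_of_le_of_lt (natDegree_le_iff_coeff_eq_zero.2 fun l hl =>
      coeff_col_eq_zero a b j l (Or.inr hl)) hB
  have e : ∀ z : ℝ, Psi a b j z * tau z ^ n =
      ∑ l ∈ range B, ((col a b j).coeff l : ℝ) * (tau z ^ (l + n) * dtau z) := by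
    intro z
    have h := aeval_eq_sum_range' hd (tau z)
    conv_lhs at h => rw [col]
    simp only [map_mul, map_pow, map_sub, aeval_X, map_one, zsmul_eq_mul] at h
    rw [Psi, h, sum_mul, sum_mul]
    exact sum_congr rfl fun l _ => by ring
  have c2 : ∀ l, Continuous fun z : ℝ =>
      ((col a b j).coeff l : ℝ) * (tau z ^ (l + n) * dtau z) :=
    fun l => continuous_const.mul ((continuous_tau.pow _).mul continuous_dtau)
  simp only [e]
  rw [integral_finsetSum _ fun l _ => intOn (c2 l) _ _]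
  refine sum_congr rfl fun l _ => ?_
  rw [integral_const_mul, ← inv_eq_integral]
  push_cast
  rfl

theorem abs_tau_le (x : ℝ) : |tau x| ≤ 1 := by
  rw [← sq_le_one_iff_abs_le_one]
  nlinarith [tau_sq_add x, sq_nonneg (co x)]

theorem tau_mem {z : ℝ} (hz : z ∈ Set.Ioo (0 : ℝ) 1) : 0 ≤ tau z ∧ tau z < 1 := by
  have hp := one_add_sq_pos z
  have h0 := hz.1
  unfold tau
  refine ⟨by positivity, ?_⟩
  rw [div_lt_one hp]
  nlinarith [sq_pos_of_pos (sub_pos.2 hz.2)]

theorem Psi_bound (a b j : ℕ) (hb : 1 ≤ b) {z : ℝ} (hz : z ∈ Set.Ioo (0 : ℝ) 1) :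
    |Psi a b j z| ≤ 2 * (1 - tau z) := by
  obtain ⟨h0, h1⟩ := tau_mem hz
  have hp := one_add_sq_pos z
  have d0 : 0 ≤ dtau z := div_nonneg (by nlinarith [hz.1, hz.2]) (by positivity)
  have d1 : dtau z ≤ 2 := by
    unfold dtau
    rw [div_le_iff₀ (by positivity)]
    nlinarith [sq_nonneg z, sq_nonneg (z ^ 2)]
  have h2 : 0 ≤ 1 - tau z := by linarith
  have p1 : tau z ^ (a + j) ≤ 1 := pow_le_one₀ h0 h1.le
  have p2 : (1 - tau z) ^ b ≤ 1 - tau z := pow_le_of_le_one h2 (by linarith) (by omega)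
  rw [Psi, abs_of_nonneg (by positivity)]
  calc _ ≤ 1 * (1 - tau z) * 2 := by gcongr
    _ = _ := by ring

theorem continuous_Psi (a b j : ℕ) : Continuous (Psi a b j) :=
  ((continuous_tau.pow _).mul ((continuous_const.sub continuous_tau).pow _)).mul continuous_dtau

theorem kernel_expand (μ ν : Measure ℝ) [IsFiniteMeasure μ] [IsFiniteMeasure ν] (f g : ℝ → ℝ)
    (hf : Measurable f) (hg : Measurable g) (C : ℝ) (h1 : ∀ᵐ x ∂μ, |f x| ≤ C)
    (h2 : ∀ᵐ z ∂ν, |g z| ≤ 2 * (1 - tau z) ∧ 0 ≤ tau z ∧ tau z < 1) :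
    Integrable (fun q : ℝ × ℝ => f q.1 * ker q.1 q.2 * g q.2) (μ.prod ν) ∧
      HasSum (fun n : ℕ => (∫ x, f x * tau x ^ n ∂μ) * ∫ z, g z * tau z ^ n ∂ν)
        (∫ q : ℝ × ℝ, f q.1 * ker q.1 q.2 * g q.2 ∂(μ.prod ν)) := by
  have ht := continuous_tau.measurable
  have hae : ∀ᵐ q ∂(μ.prod ν), |f q.1| ≤ C ∧
      (|g q.2| ≤ 2 * (1 - tau q.2) ∧ 0 ≤ tau q.2 ∧ tau q.2 < 1) :=
    (Measure.quasiMeasurePreserving_fst.ae h1).and (Measure.quasiMeasurePreserving_snd.ae h2)
  constructor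
  · refine Integrable.of_bound (C := C * 2) (Measurable.aestronglyMeasurable ?_)
      (hae.mono fun q ⟨a1, a2, a3, a4⟩ => ?_)
    · unfold ker
      fun_prop
    · have b1 := abs_le.1 (abs_tau_le q.1)
      have b2 : 0 < 1 - tau q.2 := by linarith
      have b3 : 1 - tau q.2 ≤ 1 - tau q.1 * tau q.2 := by nlinarith
      have b4 : |ker q.1 q.2| ≤ 1 / (1 - tau q.2) := by
        rw [ker, abs_of_pos (one_div_pos.2 (b2.trans_le b3))]
        exact one_div_le_one_div_of_le b2 b3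
      have hC : 0 ≤ C := (abs_nonneg _).trans a1
      rw [Real.norm_eq_abs, abs_mul, abs_mul]
      calc _ ≤ C * (1 / (1 - tau q.2)) * (2 * (1 - tau q.2)) := by gcongr
        _ = C * 2 := by field_simp
  · have key := hasSum_integral_of_dominated_convergence (μ := μ.prod ν)
      (F := fun (n : ℕ) (q : ℝ × ℝ) => (f q.1 * tau q.1 ^ n) * (g q.2 * tau q.2 ^ n))
      (f := fun q : ℝ × ℝ => f q.1 * ker q.1 q.2 * g q.2)
      (fun n q => C * 2 * (1 - tau q.2) * tau q.2 ^ n)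
      (fun n => Measurable.aestronglyMeasurable (by fun_prop))
      (fun n => hae.mono fun q ⟨a1, a2, a3, a4⟩ => by
        have hC : 0 ≤ C := (abs_nonneg _).trans a1
        have b1 : |tau q.1| ^ n ≤ 1 := pow_le_one₀ (abs_nonneg _) (abs_tau_le _)
        have b2 : 0 ≤ 1 - tau q.2 := by linarith
        rw [Real.norm_eq_abs, abs_mul, abs_mul, abs_mul, abs_pow, abs_pow, abs_of_nonneg a3]
        calc _ ≤ C * 1 * (2 * (1 - tau q.2) * tau q.2 ^ n) := by gcongr
          _ = _ := by ring)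
      (hae.mono fun q ⟨_, _, a3, a4⟩ => (summable_geometric_of_lt_one a3 a4).mul_left _)
      ((integrable_const (C * 2)).congr (hae.mono fun q ⟨_, _, a3, a4⟩ => by
        have b2 : 1 - tau q.2 ≠ 0 := by linarith
        simp only [tsum_mul_left, tsum_geometric_of_lt_one a3 a4]
        field_simp))
      (hae.mono fun q ⟨_, _, a3, a4⟩ => by
        have b1 : |tau q.1 * tau q.2| < 1 := by
          rw [abs_mul, abs_of_nonneg a3]
          nlinarith [abs_tau_le q.1, abs_nonneg (tau q.1)]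
        refine hs_congr ((hasSum_geometric_of_abs_lt_one b1).mul_left (f q.1 * g q.2))
          (fun n => ?_) ?_
        · ring
        · rw [ker]
          ring)
    refine hs_congr key (fun n => ?_) rfl
    exact (integral_prod_mul (fun x => f x * tau x ^ n) (fun z => g z * tau z ^ n)).symm

theorem entry_expand (N : ℕ) (r j : Fin (36 * N)) :
    Integrable (fun q : ℝ × ℝ =>
      Phi (2 * N) (47 * N - 1) (KK N r) q.1 * ker q.1 q.2 * Psi (6 * N) (2 * N) j q.2)
      ((volume.restrict (Set.Ioo (-1 : ℝ) 1)).prod (volume.restrict (Set.Ioo (0 : ℝ) 1))) ∧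
    HasSum (fun n : ℕ =>
      (∫ x in Set.Ioo (-1 : ℝ) 1, Phi (2 * N) (47 * N - 1) (KK N r) x * tau x ^ n) *
        ∫ z in Set.Ioo (0 : ℝ) 1, Psi (6 * N) (2 * N) j z * tau z ^ n)
      (∫ q : ℝ × ℝ,
        Phi (2 * N) (47 * N - 1) (KK N r) q.1 * ker q.1 q.2 * Psi (6 * N) (2 * N) j q.2
        ∂((volume.restrict (Set.Ioo (-1 : ℝ) 1)).prod (volume.restrict (Set.Ioo (0 : ℝ) 1)))) := by
  have hr := r.2
  have hK := KK_natAbs_le N r
  obtain ⟨C, hC⟩ := Phi_bound (2 * N) (47 * N - 1) (KK N r) (by omega)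
  exact kernel_expand _ _ _ _ (measurable_Phi _ _ _) (continuous_Psi _ _ _).measurable C hC
    ((ae_restrict_mem measurableSet_Ioo).mono fun z hz =>
      ⟨Psi_bound _ _ _ (by omega) hz, tau_mem hz⟩)

theorem integrable_entry (N : ℕ) (r j : Fin (36 * N)) :
    Integrable (fun q : ℝ × ℝ =>
      Phi (2 * N) (47 * N - 1) (KK N r) q.1 * ker q.1 q.2 * Psi (6 * N) (2 * N) j q.2)
      ((volume.restrict (Set.Ioo (-1 : ℝ) 1)).prod (volume.restrict (Set.Ioo (0 : ℝ) 1))) :=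
  (entry_expand N r j).1

theorem hasSum_pair_MM (A : ℕ) (P R : ℤ[X]) :
    HasSum (fun n : ℕ => (∑ k ∈ range (A + 1), (P.coeff k : ℝ) * nu (A - k + n)) *
      ∑ l ∈ range (A + 1), (R.coeff l : ℝ) * (1 / ((l : ℝ) + n + 1))) (pair MM A P R) := by
  have h := hasSum_sum (s := range (A + 1)) fun k _ => hasSum_sum (s := range (A + 1)) fun l _ =>
    (hasSum_MM (A - k) l).mul_left ((P.coeff k : ℝ) * (R.coeff l : ℝ))
  refine hs_congr h (fun n => ?_) rfl
  rw [sum_mul_sum]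
  exact sum_congr rfl fun k _ => sum_congr rfl fun l _ => by ring

theorem hasSum_pair_ZZ (A : ℕ) (P R : ℤ[X]) :
    HasSum (fun n : ℕ =>
      (∑ k ∈ range (A + 1), (P.coeff k : ℝ) * (1 / (((A - k : ℕ) : ℝ) + n + 1))) *
      ∑ l ∈ range (A + 1), (R.coeff l : ℝ) * (1 / ((l : ℝ) + n + 1))) (pair ZZ A P R) := by
  have h := hasSum_sum (s := range (A + 1)) fun k _ => hasSum_sum (s := range (A + 1)) fun l _ =>
    (summable_ZZ (A - k) l).hasSum.mul_left ((P.coeff k : ℝ) * (R.coeff l : ℝ))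
  refine hs_congr h (fun n => ?_) rfl
  rw [sum_mul_sum]
  refine sum_congr rfl fun k _ => sum_congr rfl fun l _ => ?_
  rw [← one_div_mul_one_div]
  ring

theorem entry_eq_integral (N : ℕ) (r j : Fin (36 * N)) :
    pair MM (49 * N) (QP (2 * N) (KK N r)) (col (6 * N) (2 * N) j) -
        3 / 2 * pair ZZ (49 * N - 1) (QD (2 * N) (KK N r)) (col (6 * N) (2 * N) j) =
      ∫ q : ℝ × ℝ,
        Phi (2 * N) (47 * N - 1) (KK N r) q.1 * ker q.1 q.2 * Psi (6 * N) (2 * N) j q.2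
        ∂((volume.restrict (Set.Ioo (-1 : ℝ) 1)).prod (volume.restrict (Set.Ioo (0 : ℝ) 1))) := by
  have hr := r.2
  have hj := j.2
  have hK := KK_natAbs_le N r
  have e1 : 49 * N = 47 * N - 1 + 2 * N + 1 := by omega
  have e2 : 49 * N - 1 = 47 * N - 1 + 2 * N := by omega
  have h := (hasSum_pair_MM (49 * N) (QP (2 * N) (KK N r)) (col (6 * N) (2 * N) j)).sub
    ((hasSum_pair_ZZ (49 * N - 1) (QD (2 * N) (KK N r)) (col (6 * N) (2 * N) j)).mul_left (3 / 2))
  refine h.unique (hs_congr (entry_expand N r j).2 (fun n => ?_) rfl)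
  rw [int_Phi _ _ _ (by omega), ← int_Psi _ _ _ _ (by omega), ← int_Psi _ _ _ _ (by omega),
    ← e1, ← e2, show 49 * N - 1 + 1 = 49 * N by omega]
  ring

end Vale.Agent.P030
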