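import Vale.Agent.P030.Defs

/-! Chebyshev polynomials modulo `p`. -/

namespace Vale.Agent.P030

open Polynomial Finset

theorem nvb_pow {R : Type} [CommRing R] (a : R[X]) (ha : a = X ^ 2 - 1) (n : ℕ) :
    (⟨X, 1⟩ : QuadraticAlgebra R[X] a 0) ^ n =
      ⟨Chebyshev.T R n, Chebyshev.U R (n - 1)⟩ := by
  induction n with
  | zero => ext <;> simp [QuadraticAlgebra.re_one, QuadraticAlgebra.im_one]
  | succ n ih =>
    have h1 := Chebyshev.T_eq_X_mul_T_sub_pol_U R ((n : ℤ) - 1)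
    have h2 := Chebyshev.U_eq_X_mul_U_add_T R ((n : ℤ) - 1)
    rw [show (n : ℤ) - 1 + 2 = n + 1 by ring, sub_add_cancel] at h1
    rw [sub_add_cancel] at h2
    rw [pow_succ, ih, QuadraticAlgebra.mk_mul_mk]
    push_cast
    rw [add_sub_cancel_right, h1, h2]
    congr 1
    · rw [ha]; ring
    · ring

theorem nvb_frob {R : Type} [CommRing R] (a x : R) {p m : ℕ} (hpp : p.Prime) (hm : p = 2 * m + 1)
    (hR : (p : R) = 0) : (⟨x, 1⟩ : QuadraticAlgebra R a 0) ^ p = ⟨x ^ p, a ^ m⟩ := by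
  have h2 : (⟨x, 1⟩ : QuadraticAlgebra R a 0) = ⟨x, 0⟩ + ⟨0, 1⟩ := by ext <;> simp
  obtain ⟨r, hr⟩ := exists_add_pow_prime_eq hpp (⟨x, 0⟩ : QuadraticAlgebra R a 0) ⟨0, 1⟩
  have h0 : (p : QuadraticAlgebra R a 0) = 0 := by
    ext
    · exact hR
    · rfl
  have h3 : ∀ (f : R) (n : ℕ), (⟨f, 0⟩ : QuadraticAlgebra R a 0) ^ n = ⟨f ^ n, 0⟩ := fun f n =>
    (QuadraticAlgebra.C_pow n f).symm
  have h4 : (⟨0, 1⟩ : QuadraticAlgebra R a 0) ^ 2 = ⟨a, 0⟩ := by
    rw [sq, QuadraticAlgebra.mk_mul_mk]; congr 1 <;> ring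
  have h5 : (⟨0, 1⟩ : QuadraticAlgebra R a 0) ^ p = ⟨0, a ^ m⟩ := by
    rw [hm, pow_succ, pow_mul, h4, h3, QuadraticAlgebra.mk_mul_mk]; congr 1 <;> ring
  rw [h2, hr, h0, h3, h5, zero_mul, zero_mul, zero_mul, add_zero]
  ext <;> simp

theorem nvb_T_add {R : Type} [CommRing R] (m l k : ℤ) :
    Chebyshev.T R (k * m + l) = Chebyshev.T R l * (Chebyshev.U R k).comp (Chebyshev.T R m) -
      Chebyshev.T R (m - l) * (Chebyshev.U R (k - 1)).comp (Chebyshev.T R m) := by
  have key : ∀ k : ℤ, 2 * Chebyshev.T R m * Chebyshev.T R (k * m + l) =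
      Chebyshev.T R ((k + 1) * m + l) + Chebyshev.T R ((k - 1) * m + l) := fun k => by
    rw [Chebyshev.T_mul_T, ← Chebyshev.T_neg R (m - (k * m + l))]
    congr 2 <;> ring
  have hU : ∀ k : ℤ, (Chebyshev.U R (k + 1)).comp (Chebyshev.T R m) =
      2 * Chebyshev.T R m * (Chebyshev.U R k).comp (Chebyshev.T R m) -
        (Chebyshev.U R (k - 1)).comp (Chebyshev.T R m) := fun k => by
    rw [Chebyshev.U_add_one]; simp
  induction k using Polynomial.Chebyshev.induct with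
  | zero => simp
  | one =>
    have := Chebyshev.T_mul_T R m l
    simp only [one_mul, Chebyshev.U_one, sub_self, Chebyshev.U_zero, mul_comp, X_comp, one_comp,
      ofNat_comp]
    linear_combination -this
  | add_two k ih1 ih2 =>
    have h1 := key (k + 1)
    have h2 := hU (k + 1)
    have h3 := hU k
    rw [add_sub_cancel_right] at h1 h2 ih1
    rw [show (k : ℤ) + 2 - 1 = k + 1 by ring, show (k : ℤ) + 2 = k + 1 + 1 by ring]
    linear_combination -h1 + 2 * Chebyshev.T R m * ih1 - ih2 - Chebyshev.T R l * h2 +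
      Chebyshev.T R (m - l) * h3
  | neg_add_one k ih1 ih2 =>
    have h1 := key (-k)
    have h2 := hU (-k)
    have h3 := hU (-k - 1)
    rw [add_sub_cancel_right] at ih2
    rw [sub_add_cancel] at h3
    linear_combination -h1 + 2 * Chebyshev.T R m * ih1 - ih2 - Chebyshev.T R l * h2 +
      Chebyshev.T R (m - l) * h3

theorem nvb_U_mul {R : Type} [CommRing R] (a b : ℤ) :
    2 * (X ^ 2 - 1) * Chebyshev.U R (a - 1) * Chebyshev.U R (b - 1) =
      Chebyshev.T R (a + b) - Chebyshev.T R (a - b) := by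
  induction b using Polynomial.Chebyshev.induct with
  | zero => simp
  | one =>
    have h1 := Chebyshev.T_eq_X_mul_T_sub_pol_U R (a - 1)
    have h2 := Chebyshev.T_add_one R a
    rw [show a - 1 + 2 = a + 1 by ring, sub_add_cancel] at h1
    rw [sub_self, Chebyshev.U_zero]
    linear_combination -2 * h1 + h2
  | add_two k ih1 ih2 =>
    have h1 := Chebyshev.T_add_two R (a + k)
    have h2 := Chebyshev.T_sub_two R (a - k)
    have h3 := Chebyshev.U_add_one R k
    rw [add_sub_cancel_right, ← add_assoc, ← sub_sub] at ih1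
    rw [show (k : ℤ) + 2 - 1 = k + 1 by ring, ← add_assoc, ← sub_sub]
    linear_combination 2 * X * ih1 - ih2 - h1 + h2 +
      2 * (X ^ 2 - 1) * Chebyshev.U R (a - 1) * h3
  | neg_add_one k ih1 ih2 =>
    have h1 := Chebyshev.T_sub_one R (a + -k)
    have h2 := Chebyshev.T_add_one R (a - -k)
    have h3 := Chebyshev.U_sub_one R (-k - 1)
    rw [sub_add_cancel] at h3
    rw [add_sub_cancel_right, ← add_assoc, ← sub_sub] at ih2
    rw [← add_sub_assoc, show a - (-(k : ℤ) - 1) = a - -k + 1 by ring]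
    linear_combination 2 * X * ih1 - ih2 - h1 + h2 +
      2 * (X ^ 2 - 1) * Chebyshev.U R (a - 1) * h3

variable {p : ℕ} [Fact p.Prime]

theorem nvb_two (hp : p ≠ 2) : (2 : ZMod p) ≠ 0 := by
  intro h
  have h2 : ((2 : ℕ) : ZMod p) = 0 := by exact_mod_cast h
  rw [ZMod.natCast_eq_zero_iff] at h2
  exact hp ((Nat.prime_dvd_prime_iff_eq Fact.out Nat.prime_two).1 h2)

theorem nvb_TU (hp : p ≠ 2) : Chebyshev.T (ZMod p) p = X ^ p ∧
    Chebyshev.U (ZMod p) (p - 1) = (X ^ 2 - 1) ^ ((p - 1) / 2) := by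
  have hpp : p.Prime := Fact.out
  obtain ⟨m, hm⟩ := hpp.odd_of_ne_two hp
  have h1 := nvb_pow (R := ZMod p) _ rfl p
  rw [nvb_frob _ _ hpp hm (CharP.cast_eq_zero _ p)] at h1
  have h6 := congrArg QuadraticAlgebra.re h1
  have h7 := congrArg QuadraticAlgebra.im h1
  rw [show (p - 1) / 2 = m by omega]
  exact ⟨h6.symm, h7.symm⟩

theorem T_prime (hp : p ≠ 2) : Chebyshev.T (ZMod p) p = X ^ p := (nvb_TU hp).1

theorem U_prime (hp : p ≠ 2) :
    Chebyshev.U (ZMod p) (p - 1) = (X ^ 2 - 1) ^ ((p - 1) / 2) := (nvb_TU hp).2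

theorem nvb_expand (hp : p ≠ 2) (f : (ZMod p)[X]) : expand (ZMod p) p ((X - 1) ^ 2 * f) =
    (X - 1) ^ (2 * p) * f.comp (Chebyshev.T (ZMod p) p) := by
  rw [map_mul, ZMod.expand_card, ← pow_mul, T_prime hp, expand_eq_comp_X_pow]

theorem QD_mod (hp : p ≠ 2) (k l : ℤ) :
    (QD (2 * p) (k * p + l)).map (Int.castRingHom (ZMod p)) =
      Chebyshev.T (ZMod p) l * expand (ZMod p) p ((X - 1) ^ 2 * Chebyshev.U (ZMod p) k) -
      Chebyshev.T (ZMod p) (p - l) *
        expand (ZMod p) p ((X - 1) ^ 2 * Chebyshev.U (ZMod p) (k - 1)) := by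
  rw [nvb_expand hp, nvb_expand hp, QD]
  simp only [Polynomial.map_mul, Polynomial.map_pow, Polynomial.map_sub, map_X, Polynomial.map_one,
    Chebyshev.map_T]
  rw [nvb_T_add]
  ring

theorem QP_mod (hp : p ≠ 2) (k l : ℤ) :
    (QP (2 * p) (k * p + l) * (X ^ 2 - 1) ^ ((p - 1) / 2)).map (Int.castRingHom (ZMod p)) =
      Chebyshev.T (ZMod p) l * expand (ZMod p) p ((X - 1) ^ 2 * Chebyshev.T (ZMod p) (k + 1)) -
      Chebyshev.T (ZMod p) (p - l) *
        expand (ZMod p) p ((X - 1) ^ 2 * Chebyshev.T (ZMod p) k) := by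
  rw [nvb_expand hp, nvb_expand hp, QP]
  simp only [Polynomial.map_mul, Polynomial.map_pow, Polynomial.map_sub, map_X, Polynomial.map_one,
    Chebyshev.map_U]
  rw [← U_prime hp, ← Chebyshev.T_mul, ← Chebyshev.T_mul]
  have h2 : (2 : (ZMod p)[X]) ≠ 0 := by
    rw [← C_ofNat]; exact C_ne_zero.2 (nvb_two hp)
  apply mul_left_cancel₀ h2
  have h1 := nvb_U_mul (R := ZMod p) (k * p + l) p
  have h3 := Chebyshev.T_mul_T (ZMod p) ((k + 1) * p) l
  have h4 := Chebyshev.T_mul_T (ZMod p) (k * p) (p - l)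
  rw [show (k + 1) * p + l = k * p + l + p by ring] at h3
  rw [show k * p + (p - l) = (k + 1) * p - l by ring, show k * p - (p - l) = k * p + l - p by ring]
    at h4
  linear_combination (X - 1) ^ (2 * p) * (h1 - h3 + h4)

theorem coeff_mul_expand (S Q : (ZMod p)[X]) (hS : S.natDegree < p) {d : ℕ} (hd : d < p) (k : ℕ) :
    (S * expand (ZMod p) p Q).coeff (k * p + d) = S.coeff d * Q.coeff k := by
  induction Q using Polynomial.induction_on' with
  | add f g hf hg => rw [map_add, mul_add, coeff_add, hf, hg, coeff_add, mul_add]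
  | monomial n a =>
    rw [expand_monomial, ← C_mul_X_pow_eq_monomial, mul_comm (C a), ← mul_assoc, coeff_mul_C,
      coeff_mul_X_pow', coeff_monomial]
    rcases lt_trichotomy n k with h | rfl | h
    · have h1 : (n + 1) * p ≤ k * p := Nat.mul_le_mul_right _ h
      rw [if_neg h.ne, mul_zero, if_pos (by nlinarith),
        coeff_eq_zero_of_natDegree_lt (by rw [add_mul] at h1; omega), zero_mul]
    · simp
    · have h1 : (k + 1) * p ≤ n * p := Nat.mul_le_mul_right _ h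
      rw [if_neg h.ne', mul_zero, if_neg (by nlinarith), zero_mul]

theorem T_indep (hp : p ≠ 2) (c : ℕ → ZMod p)
    (h : ∀ d < p, ∑ l ∈ range p, c l * (Chebyshev.T (ZMod p) l).coeff d = 0) :
    ∀ l < p, c l = 0 := by
  classical
  have : NeZero (2 : ZMod p) := ⟨nvb_two hp⟩
  by_contra hne
  push Not at hne
  obtain ⟨l₀, hl₀, hc₀⟩ := hne
  have hs : ((range p).filter fun l => c l ≠ 0).Nonempty := ⟨l₀, by simp [hl₀, hc₀]⟩
  obtain ⟨l, hl, hmax⟩ := Finset.exists_max_image _ id hs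
  obtain ⟨hl1, hl2⟩ := mem_filter.1 hl
  have h1 := h l (mem_range.1 hl1)
  rw [Finset.sum_eq_single l] at h1
  · have h2 : (Chebyshev.T (ZMod p) l).coeff l = 2 ^ (l - 1) := by
      have h3 := Chebyshev.leadingCoeff_T (ZMod p) l
      rwa [leadingCoeff, Chebyshev.natDegree_T, Int.natAbs_natCast] at h3
    rw [h2] at h1
    exact mul_ne_zero hl2 (pow_ne_zero _ (nvb_two hp)) h1
  · intro b hb hbl
    by_cases hcb : c b = 0
    · rw [hcb, zero_mul]
    · have h3 : b ≤ l := hmax b (mem_filter.2 ⟨hb, hcb⟩)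
      rw [coeff_eq_zero_of_natDegree_lt, mul_zero]
      rw [Chebyshev.natDegree_T, Int.natAbs_natCast]
      omega
  · intro h2; exact absurd hl1 h2

end Vale.Agent.P030
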