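import Vale.Agent.P030.NVA
import Vale.Agent.P030.NVB
import Vale.Agent.P030.Det

/-! Nonvanishing. -/

namespace Vale.Agent.P030

open Polynomial Finset

namespace NVX

open Red Dip NVAX

variable {p : ℕ} [Fact p.Prime]

/-- level one form modulo `p` -/
noncomputable def lam1 (p : ℕ) [Fact p.Prime] (j : ℕ) (P D : (ZMod p)[X]) : ZMod p :=
  ∑ l ∈ range 50, ((col 6 2 j).coeff l : ZMod p) *
    (∑ k ∈ range 50, P.coeff k * (mr (49 - k) l : ZMod p) -
      3 / 2 * ∑ k ∈ range 49, D.coeff k * (zr (48 - k) l : ZMod p))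

theorem lev_sub (d j : ℕ) (P D P' D' : (ZMod p)[X]) :
    lev p d j (P - P') (D - D') = lev p d j P D - lev p d j P' D' := by
  simp only [lev, coeff_sub, sub_mul]
  rw [← sum_sub_distrib]
  refine sum_congr rfl fun l _ => ?_
  simp only [sum_sub_distrib]
  ring

theorem lev_expand {d : ℕ} (hd : d < p) (j : ℕ) (S P D : (ZMod p)[X]) (hS : S.natDegree < p) :
    lev p d j (S * expand (ZMod p) p P) (S * expand (ZMod p) p D) = S.coeff d * lam1 p j P D := by
  simp only [lev, lam1, coeff_mul_expand _ _ hS hd, mul_assoc, ← mul_sum]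
  rw [mul_sum]
  exact sum_congr rfl fun l _ => by ring

theorem lam1_sub (j : ℕ) (σ : ZMod p) (P D P' D' : (ZMod p)[X]) :
    lam1 p j (P - C σ * P') (D - C σ * D') = lam1 p j P D - σ * lam1 p j P' D' := by
  simp only [lam1, coeff_sub, coeff_C_mul, sub_mul]
  rw [mul_sum, ← sum_sub_distrib]
  refine sum_congr rfl fun l _ => ?_
  simp only [sum_sub_distrib, mul_assoc, ← mul_sum]
  ring

theorem norm_lam_one (hp' : 200 < p) (P D R : ℤ[X]) : padicNorm p (lam 0 49 P D R) ≤ 1 :=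
  norm_lam_le (by omega) 0 49 P D R (by simp)
    (fun _ _ _ _ => norm_mr_one (by omega) (by omega) (by omega))
    (fun _ _ _ _ => norm_zr_one (by omega) (by omega))

theorem cast_lam (hp' : 200 < p) (P D : ℤ[X]) {j : ℕ} (hj : j < 36) :
    ((lam 0 49 P D (col 6 2 j) : ℚ) : ZMod p) =
      lam1 p j (P.map (Int.castRingHom (ZMod p))) (D.map (Int.castRingHom (ZMod p))) := by
  have hp2 : p ≠ 2 := by omega
  have h0 := coeff_col_eq_zero 6 2 j 49 (Or.inr (by omega))
  have n4 : ∀ l < 49, ∀ k ∈ range 50, padicNorm p ((P.coeff k : ℚ) * mr (49 - k) l) ≤ 1 :=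
    fun l hl k _ => le_mul_l (padicNorm.of_int _) (norm_mr_one hp2 (by omega) (by omega))
  have n5 : ∀ l < 49, ∀ k ∈ range 49, padicNorm p ((D.coeff k : ℚ) * zr (48 - k) l) ≤ 1 :=
    fun l hl k _ => le_mul_l (padicNorm.of_int _) (norm_zr_one (by omega) (by omega))
  have e : ∀ l, Lm 0 49 P D l = ∑ k ∈ range 50, (P.coeff k : ℚ) * mr (49 - k) l -
      3 / 2 * ∑ k ∈ range 49, (D.coeff k : ℚ) * zr (48 - k) l := fun l => by simp [Lm]
  have n6 : ∀ l < 49, padicNorm p (Lm 0 49 P D l) ≤ 1 := fun l hl => by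
    rw [e]
    exact le_sub (padicNorm.sum_le' (n4 l hl) zero_le_one)
      (le_mul_l (norm_three_half hp2) (padicNorm.sum_le' (n5 l hl) zero_le_one))
  rw [lam_eq 0 (by norm_num) _ _ _ h0,
    cast_sum _ _ fun l hl => le_mul_l (padicNorm.of_int _) (n6 l (mem_range.1 hl)), lam1,
    sum_range_succ (n := 49), h0, Int.cast_zero, zero_mul, add_zero]
  refine sum_congr rfl fun l hl => ?_
  have hl' := mem_range.1 hl
  have n7 := padicNorm.sum_le' (n5 l hl') zero_le_one
  rw [cast_int_mul _ (n6 l hl'), e, cast_sub (padicNorm.sum_le' (n4 l hl') zero_le_one)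
    (le_mul_l (norm_three_half hp2) n7), cast_mul (norm_three_half hp2) n7, cast_three_half hp2,
    cast_sum _ _ (n4 l hl'), cast_sum _ _ (n5 l hl')]
  congr 2
  · refine sum_congr rfl fun k _ => ?_
    rw [cast_int_mul _ (norm_mr_one hp2 (by omega) (by omega)), coeff_map, eq_intCast]
  · congr 1
    refine sum_congr rfl fun k _ => ?_
    rw [cast_int_mul _ (norm_zr_one (by omega) (by omega)), coeff_map, eq_intCast]

theorem cast_ne {q : ℚ} (hq : q ≠ 0) (h1 : padicNorm p q ≤ 1) (h2 : q.num.natAbs < p) :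
    (q : ZMod p) ≠ 0 := by
  rw [Rat.cast_def]
  refine div_ne_zero ?_ (den_ne h1)
  rw [Ne, ZMod.intCast_zmod_eq_zero_iff_dvd]
  intro hd
  have := Nat.le_of_dvd (Int.natAbs_pos.2 (Rat.num_ne_zero.2 hq)) (Int.natCast_dvd.1 hd)
  omega

theorem vec_zero {n : ℕ} (E : Matrix (Fin n) (Fin n) ℚ) (hE : E.det ≠ 0)
    (h1 : ∀ r j, padicNorm p (E r j) ≤ 1) (h2 : E.det.num.natAbs < p) (B : ℕ → ℕ → ZMod p)
    (hB : ∀ r j, (E r j : ZMod p) = B r j) (y : ℕ → ZMod p)
    (hy : ∀ j < n, ∑ a ∈ range n, y a * B a j = 0) : ∀ a < n, y a = 0 := by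
  have h3 := cast_ne hE ((norm_det_le E h1).trans_eq (one_pow _)) h2
  rw [cast_det E h1] at h3
  have h4 := Matrix.eq_zero_of_vecMul_eq_zero h3 (v := fun a : Fin n => y a) (by
    funext j
    rw [Pi.zero_apply, ← hy j j.2, ← Fin.sum_univ_eq_sum_range (fun a => y a * B a j)]
    simp only [Matrix.vecMul, dotProduct, Matrix.of_apply, hB])
  exact fun a ha => congrFun h4 ⟨a, ha⟩

/-- the level one form on the basic rows -/
noncomputable def mu (p : ℕ) [Fact p.Prime] (k : ℤ) (j : ℕ) : ZMod p :=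
  lam1 p j ((X - 1) ^ 2 * Chebyshev.T (ZMod p) k) ((X - 1) ^ 2 * Chebyshev.U (ZMod p) (k - 1))

/-- the reduced entries -/
noncomputable def ent (p : ℕ) [Fact p.Prime] (K : ℤ) (d j : ℕ) : ZMod p :=
  lev p d j ((QP (2 * p) K * (X ^ 2 - 1) ^ ((p - 1) / 2)).map (Int.castRingHom (ZMod p)))
    ((QD (2 * p) K).map (Int.castRingHom (ZMod p)))

theorem ent_mid (hp : p ≠ 2) (k l : ℤ) (h0 : 0 < l) (h1 : l < p) {d : ℕ} (hd : d < p) (j : ℕ) :
    ent p (k * p + l) d j = (Chebyshev.T (ZMod p) l).coeff d * mu p (k + 1) j -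
      (Chebyshev.T (ZMod p) (p - l)).coeff d * mu p k j := by
  have : NeZero (2 : ZMod p) := ⟨nvb_two hp⟩
  rw [ent, QP_mod hp, QD_mod hp, lev_sub,
    lev_expand hd _ _ _ _ (by rw [Chebyshev.natDegree_T]; omega),
    lev_expand hd _ _ _ _ (by rw [Chebyshev.natDegree_T]; omega), mu, mu, add_sub_cancel_right]

theorem ent_zero (hp : p ≠ 2) (k : ℤ) {d : ℕ} (hd : d < p) (j : ℕ) :
    ent p (k * p + 0) d j = (Chebyshev.T (ZMod p) 0).coeff d *
      lam1 p j ((QP 2 k).map (Int.castRingHom (ZMod p)))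
        ((QD 2 k).map (Int.castRingHom (ZMod p))) := by
  have hX : (X : (ZMod p)[X]) ^ p = expand (ZMod p) p X := (expand_X p).symm
  rw [← lev_expand hd _ _ _ _ (by rw [Chebyshev.T_zero, natDegree_one]; omega), ent, QP_mod hp,
    QD_mod hp, sub_zero, T_prime hp, hX, Chebyshev.T_zero, one_mul, one_mul, one_mul, one_mul,
    ← map_mul, ← map_mul, ← map_sub, ← map_sub]
  congr 2
  · have h1 := Chebyshev.T_eq_X_mul_T_sub_pol_U (ZMod p) (k - 1)
    rw [show k - 1 + 2 = k + 1 by ring, sub_add_cancel] at h1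
    simp only [QP, Polynomial.map_mul, Polynomial.map_pow, Polynomial.map_sub, map_X,
      Polynomial.map_one, Chebyshev.map_U]
    rw [h1]; ring
  · simp only [QD, Polynomial.map_mul, Polynomial.map_pow, Polynomial.map_sub, map_X,
      Polynomial.map_one, Chebyshev.map_T]
    rw [Chebyshev.T_eq_U_sub_X_mul_U]; ring

theorem cast_Bmat (hp' : 200 < p) (σ : ℤ) (r j : Fin 36) :
    ((Bmat σ r j : ℚ) : ZMod p) = mu p ((r : ℕ) - 2) j - σ * mu p ((r : ℕ) - 3) j := by
  rw [mu, mu, ← lam1_sub, Bmat, Matrix.of_apply, cast_lam hp' _ _ j.2]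
  simp only [Polynomial.map_mul, Polynomial.map_pow, Polynomial.map_sub, map_X,
    Polynomial.map_one, Chebyshev.map_T, Chebyshev.map_U, eq_intCast, Polynomial.map_intCast,
    map_intCast]
  rw [show ((r : ℕ) : ℤ) - 2 - 1 = (r : ℕ) - 3 by ring,
    show ((r : ℕ) : ℤ) - 3 - 1 = (r : ℕ) - 4 by ring]
  congr 1 <;> ring

theorem block (hp' : 200 < p) (h0 : (Emat 0 1).det.num.natAbs < p)
    (h1 : (Bmat 1).det.num.natAbs < p) (h2 : (Bmat (-1)).det.num.natAbs < p) (x : ℕ → ZMod p)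
    (hx : ∀ d < p, ∀ j < 36, ∑ r ∈ range (36 * p), x r * ent p (KK p r) d j = 0) :
    ∀ r < 36 * p, x r = 0 := by
  have hp : p ≠ 2 := by omega
  obtain ⟨q, hq⟩ : ∃ q, p = q + 1 := ⟨p - 1, by omega⟩
  have hr : range p = range (q + 1) := congrArg range hq
  set B0 : ℕ → ℕ → ZMod p := fun a j => lam1 p j ((QP 2 (KK 1 a)).map (Int.castRingHom (ZMod p)))
    ((QD 2 (KK 1 a)).map (Int.castRingHom (ZMod p))) with hB0
  set c : ℕ → ℕ → ZMod p := fun j l => Nat.casesOn l (∑ a ∈ range 36, x (a * p + q) * B0 a j)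
    fun b => ∑ a ∈ range 36, x (a * p + b) * mu p ((a : ℤ) - 2) j -
      ∑ a ∈ range 36, x (a * p + (q - 1 - b)) * mu p ((a : ℤ) - 3) j with hc
  have hc0 : ∀ j < 36, ∀ l < p, c j l = 0 := fun j hj => T_indep hp (c j) fun d hd => by
    rw [← hx d hd j hj, sum_range_mul, sum_comm, hr, sum_range_succ', sum_range_succ]
    congr 1
    · have e1 : ∀ b ∈ range q, ∑ a ∈ range 36, x (a * p + b) * ent p (KK p (a * p + b)) d j =
          (∑ a ∈ range 36, x (a * p + b) * mu p ((a : ℤ) - 2) j) *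
            (Chebyshev.T (ZMod p) (b + 1 : ℕ)).coeff d -
          (∑ a ∈ range 36, x (a * p + b) * mu p ((a : ℤ) - 3) j) *
            (Chebyshev.T (ZMod p) (p - (b + 1 : ℕ))).coeff d := fun b hb => by
        have hb' := mem_range.1 hb
        rw [sum_mul, sum_mul, ← sum_sub_distrib]
        refine sum_congr rfl fun a _ => ?_
        rw [show KK p (a * p + b) = ((a : ℤ) - 3) * p + (b + 1 : ℕ) by
          unfold KK; push_cast; ring, ent_mid hp _ _ (by omega) (by omega) hd,
          show (a : ℤ) - 3 + 1 = a - 2 by ring]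
        ring
      rw [sum_congr rfl e1, sum_sub_distrib, ← sum_range_reflect (fun b =>
        (∑ a ∈ range 36, x (a * p + b) * mu p ((a : ℤ) - 3) j) *
          (Chebyshev.T (ZMod p) (p - (b + 1 : ℕ))).coeff d), ← sum_sub_distrib]
      refine sum_congr rfl fun b hb => ?_
      have hb' := mem_range.1 hb
      rw [show (p : ℤ) - ((q - 1 - b + 1 : ℕ) : ℤ) = (b + 1 : ℕ) by omega, ← sub_mul]
    · change (∑ a ∈ range 36, x (a * p + q) * B0 a j) * _ = _
      rw [sum_mul]
      refine sum_congr rfl fun a _ => ?_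
      have hq' : (p : ℤ) = q + 1 := by exact_mod_cast hq
      rw [show KK p (a * p + q) = KK 1 a * p + 0 by
        unfold KK; push_cast; linear_combination -hq', ent_zero hp _ hd]
      simp only [hB0, Nat.cast_zero]
      ring
  have z0 : ∀ a < 36, x (a * p + q) = 0 :=
    vec_zero (Emat 0 1) det_B0 (fun r j => norm_lam_one hp' _ _ _) h0 B0
      (fun r j => cast_lam hp' _ _ j.2) (fun a => x (a * p + q))
      (fun j hj => hc0 j hj 0 (by omega))
  have z1 : ∀ σ : ℤ, σ * σ = 1 → (Bmat σ).det ≠ 0 → (Bmat σ).det.num.natAbs < p → ∀ b < q,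
      ∀ a < 36, x (a * p + b) + σ * x (a * p + (q - 1 - b)) = 0 := fun σ hσ hd hn b hb =>
    vec_zero (Bmat σ) hd (fun r j => norm_lam_one hp' _ _ _) hn
      (fun a j => mu p ((a : ℤ) - 2) j - σ * mu p ((a : ℤ) - 3) j) (cast_Bmat hp' σ)
      (fun a => x (a * p + b) + σ * x (a * p + (q - 1 - b))) (fun j hj => by
        have e1 := hc0 j hj (b + 1) (by omega)
        have e2 := hc0 j hj (q - 1 - b + 1) (by omega)
        have hσ' : (σ : ZMod p) * σ = 1 := by exact_mod_cast congrArg (Int.cast (R := ZMod p)) hσ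
        simp only [hc] at e1 e2
        rw [show q - 1 - (q - 1 - b) = b by omega] at e2
        have e3 : ∀ a ∈ range 36, (x (a * p + b) + σ * x (a * p + (q - 1 - b))) *
            (mu p ((a : ℤ) - 2) j - σ * mu p ((a : ℤ) - 3) j) =
            (x (a * p + b) * mu p ((a : ℤ) - 2) j - x (a * p + (q - 1 - b)) * mu p ((a : ℤ) - 3) j) +
            σ * (x (a * p + (q - 1 - b)) * mu p ((a : ℤ) - 2) j -
              x (a * p + b) * mu p ((a : ℤ) - 3) j) := fun a _ => by
          linear_combination -(x (a * p + (q - 1 - b)) * mu p ((a : ℤ) - 3) j) * hσ'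
        rw [sum_congr rfl e3, sum_add_distrib, ← mul_sum, sum_sub_distrib, sum_sub_distrib, e1, e2,
          mul_zero, add_zero])
  intro r hr'
  have ha : r / p < 36 := Nat.div_lt_of_lt_mul (by omega)
  have hb : r % p < p := Nat.mod_lt _ (by omega)
  rw [← Nat.div_add_mod' r p]
  rcases Nat.lt_or_ge (r % p) q with h | h
  · have e1 := z1 1 (by norm_num) det_Bp h1 _ h _ ha
    have e2 := z1 (-1) (by norm_num) det_Bm h2 _ h _ ha
    push_cast at e1 e2
    refine (mul_eq_zero.1 ?_).resolve_left (nvb_two hp)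
    linear_combination e1 + e2
  · rw [show r % p = q by omega]
    exact z0 _ ha

end NVX

open Red NVX in
theorem nonvanishing (g : ℚ) : ∃ P0 : ℕ, ∀ p : ℕ, p.Prime → P0 < p → p % 4 = 1 →
    (Emat g p).det ≠ 0 := by
  refine ⟨200 + g.den + (Emat 0 1).det.num.natAbs + (Bmat 1).det.num.natAbs +
    (Bmat (-1)).det.num.natAbs, fun p hpp hP hp h => ?_⟩
  have : Fact p.Prime := ⟨hpp⟩
  have hp' : 200 < p := by omega
  have hg : padicNorm p g ≤ 1 := by
    have e : g = g.num / g.den := (Rat.num_div_den g).symm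
    rw [e, div_unit (unit_lt g.den_nz (by omega))]
    exact padicNorm.of_int _
  have h1 : ∀ r j, padicNorm p ((((p : ℚ) ^ 2) • Emat g p) r j) ≤ 1 := fun r j =>
    sq_le (norm_Emat_sq (by omega) g hg p (by nlinarith) r j)
  have h2 := cast_det _ h1
  rw [Matrix.det_smul, h, mul_zero, Rat.cast_zero] at h2
  obtain ⟨x, hx0, hx⟩ := Matrix.exists_vecMul_eq_zero_iff.2 h2.symm
  have h3 := block hp' (by omega) (by omega) (by omega)
    (fun r => if hr : r < 36 * p then x ⟨r, hr⟩ else 0) (fun d hd j hj => by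
      have h4 : j * p ≤ 35 * p := Nat.mul_le_mul_right _ (by omega)
      have h5 := congrFun hx ⟨p - 1 - d + j * p, by omega⟩
      rw [Pi.zero_apply] at h5
      refine Eq.trans ?_ h5
      rw [← Fin.sum_univ_eq_sum_range
        (fun r => (if hr : r < 36 * p then x ⟨r, hr⟩ else 0) * ent p (KK p r) d j)]
      refine sum_congr rfl fun r _ => ?_
      beta_reduce
      rw [dif_pos r.2, Matrix.of_apply, Matrix.smul_apply, smul_eq_mul, red_Emat hp hp' g hg]
      simp only
      rw [Nat.add_mul_mod_self_right, Nat.mod_eq_of_lt (by omega),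
        Nat.add_mul_div_right _ _ (by omega), Nat.div_eq_of_lt (by omega), zero_add,
        show p - 1 - (p - 1 - d) = d by omega, ent])
  refine hx0 (funext fun r => ?_)
  simpa [r.2] using h3 r r.2

end Vale.Agent.P030
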