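import Vale.Agent.P030.Frob
import Vale.Agent.P030.OddDip
import Vale.Agent.P030.NVB

/-! Reduction of the entries modulo `p` for `N = p`. -/

namespace Vale.Agent.P030

open Polynomial Finset

/-- level one form modulo `p`, applied to the component of residue `d` -/
noncomputable def lev (p : ℕ) [Fact p.Prime] (d j : ℕ) (P D : (ZMod p)[X]) : ZMod p :=
  ∑ l ∈ range 50, ((col 6 2 j).coeff l : ZMod p) *
    (∑ k ∈ range 50, P.coeff (k * p + d) * (mr (49 - k) l : ZMod p) -
      3 / 2 * ∑ k ∈ range 49, D.coeff (k * p + d) * (zr (48 - k) l : ZMod p))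

namespace NVAX

open Red Dip

theorem sum_range_mul {K : Type} [AddCommMonoid K] (f : ℕ → K) (a p : ℕ) :
    ∑ i ∈ range (a * p), f i = ∑ k ∈ range a, ∑ d ∈ range p, f (k * p + d) := by
  induction a with
  | zero => simp
  | succ a ih => rw [add_mul, one_mul, sum_range_add, ih, sum_range_succ]

theorem reidx {K : Type} [CommRing K] {p : ℕ} (P F : ℕ → K) (hP : ∀ n, 49 * p < n → P n = 0)
    {c e : ℕ} (hc : c < p) (he : e < p) :
    ∑ k ∈ range 50, (if c ≤ k * p + e then P (k * p + e - c) * F (49 - k) else 0) =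
    ∑ k ∈ range (49 * p + 1), P k * (if c ≤ 49 * p - k + e ∧ p ∣ 49 * p - k + e - c then
      F ((49 * p - k + e - c) / p) else 0) := by
  have hp : 0 < p := by omega
  have key : ∀ k < 50, c ≤ k * p + e → k * p + e - c ≤ 49 * p →
      49 * p - (k * p + e - c) + e - c = (49 - k) * p := fun k hk h1 h2 => by
    have h3 : k * p ≤ 49 * p := Nat.mul_le_mul_right _ (by omega)
    rw [Nat.sub_mul]; omega
  have hne : ∀ k, (if c ≤ k * p + e then P (k * p + e - c) * F (49 - k) else 0) ≠ 0 →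
      c ≤ k * p + e ∧ k * p + e - c ≤ 49 * p := fun k h => by
    split_ifs at h with h1
    · exact ⟨h1, not_lt.1 fun h2 => h (by rw [hP _ h2, zero_mul])⟩
    · exact absurd rfl h
  refine sum_bij_ne_zero (fun k _ _ => k * p + e - c) (fun k _ h => ?_)
    (fun k _ h k' _ h' hkk => ?_) (fun k hk h => ?_) (fun k hk h => ?_)
  · exact mem_range.2 (Nat.lt_succ_of_le (hne k h).2)
  · have h1 := (hne k h).1
    have h2 := (hne k' h').1
    exact Nat.eq_of_mul_eq_mul_right hp (by omega)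
  · have hk' := mem_range.1 hk
    split_ifs at h with h1
    · obtain ⟨h1, t, ht⟩ := h1
      have h2 : t < 50 := Nat.lt_of_mul_lt_mul_left (a := p) (by omega)
      have h3 : p * t ≤ p * 49 := Nat.mul_le_mul_left _ (by omega)
      have h4 : (49 - t) * p = 49 * p - p * t := by rw [Nat.sub_mul, mul_comm t]
      have h5 : (49 - t) * p + e - c = k := by omega
      refine ⟨49 - t, mem_range.2 (by omega), ?_, h5⟩
      rw [if_pos (by omega), h5, show 49 - (49 - t) = t by omega]
      rwa [ht, Nat.mul_div_cancel_left _ hp] at h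
    · exact absurd (mul_zero _) h
  · obtain ⟨h1, h2⟩ := hne k h
    have hk' := mem_range.1 hk
    have h3 := key k hk' h1 h2
    have h4 : k * p ≤ 49 * p := Nat.mul_le_mul_right _ (by omega)
    rw [if_pos h1, if_pos ⟨by omega, by rw [h3]; exact dvd_mul_left _ _⟩, h3,
      Nat.mul_div_cancel _ hp]

theorem natDegree_E (m : ℕ) : ((1 - X ^ 2 : ℤ[X]) ^ m).natDegree ≤ 2 * m := by
  refine natDegree_pow_le.trans ?_
  have : (1 - X ^ 2 : ℤ[X]).natDegree ≤ 2 := by compute_degree
  nlinarith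

theorem reflect_E (m : ℕ) : reflect (2 * m) ((1 - X ^ 2 : ℤ[X]) ^ m) = (X ^ 2 - 1) ^ m := by
  induction m with
  | zero => simp
  | succ m ih =>
    rw [pow_succ, pow_succ _ m, mul_add, mul_one,
      reflect_mul _ _ (natDegree_E m) (by compute_degree), ih]
    congr 1
    rw [reflect_sub, reflect_one, reflect_monomial]
    simp

theorem coeff_mul_W (P : ℤ[X]) {p m : ℕ} (hm : p = 2 * m + 1) (n : ℕ) :
    (P * (X ^ 2 - 1) ^ m).coeff n = ∑ e ∈ range p, if p - 1 - e ≤ n then
      P.coeff (n - (p - 1 - e)) * ((1 - X ^ 2 : ℤ[X]) ^ m).coeff e else 0 := by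
  have hd : ((X ^ 2 - 1 : ℤ[X]) ^ m).natDegree < p := by
    refine natDegree_pow_le.trans_lt ?_
    have : (X ^ 2 - 1 : ℤ[X]).natDegree ≤ 2 := by compute_degree
    nlinarith
  rw [as_sum_range' _ _ hd, mul_sum, finset_sum_coeff, ← sum_range_reflect]
  refine sum_congr rfl fun e he => ?_
  have he' := mem_range.1 he
  rw [← C_mul_X_pow_eq_monomial, mul_comm (C _), ← mul_assoc, coeff_mul_C, coeff_mul_X_pow',
    ← reflect_E, coeff_reflect, revAt_le (by omega), show 2 * m - (p - 1 - e) = e by omega]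
  split_ifs <;> simp

variable {p : ℕ} [Fact p.Prime]

theorem col_mod {j c : ℕ} :
    (col (6 * p) (2 * p) (j * p + c)).map (Int.castRingHom (ZMod p)) =
      X ^ c * expand (ZMod p) p ((col 6 2 j).map (Int.castRingHom (ZMod p))) := by
  rw [ZMod.expand_card]
  simp only [col, Polynomial.map_mul, Polynomial.map_pow, Polynomial.map_sub, map_X,
    Polynomial.map_one, mul_pow, ← pow_mul]
  ring

theorem col_coeff {j c l c' : ℕ} (hc : c < p) (hc' : c' < p) :
    ((col (6 * p) (2 * p) (j * p + c)).coeff (l * p + c') : ZMod p) =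
      if c' = c then ((col 6 2 j).coeff l : ZMod p) else 0 := by
  have h := congrArg (fun f => coeff f (l * p + c')) (col_mod (p := p) (j := j) (c := c))
  rw [coeff_mul_expand _ _ (by simpa using hc) hc', coeff_map, coeff_map, coeff_X_pow] at h
  simpa using h

theorem cast_zr {i l c : ℕ} (hc : c < p) (hi : i < p ^ 2) (hl : l < p) :
    (((p : ℚ) ^ 2 * zr i (l * p + c) : ℚ) : ZMod p) =
      if i % p = c then (zr (i / p) l : ZMod p) else 0 := by
  have h := frob_zr hc hi hl
  have hi' : i / p < p := Nat.div_lt_of_lt_mul (by rwa [← sq])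
  split_ifs at h ⊢
  · exact cast_eq (norm_zr_one hi' hl) h
  · exact cast_eq_zero (by simpa using h)

theorem cast_mr (hp : p % 4 = 1) (hp' : 200 < p) {i l c : ℕ} (hc : c < p) (hi : i ≤ 49 * p)
    (hl : l < 49) : (((p : ℚ) ^ 2 * mr i (l * p + c) : ℚ) : ZMod p) = ∑ e ∈ range p,
      (((1 - X ^ 2 : ℤ[X]) ^ ((p - 1) / 2)).coeff e : ZMod p) *
        if c ≤ i + e ∧ p ∣ i + e - c then (mr ((i + e - c) / p) l : ZMod p) else 0 := by
  have hp2 : p ≠ 2 := by omega
  have h1 : l * p ≤ 48 * p := Nat.mul_le_mul_right _ (by omega)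
  have h := frob_mr hp (i := i) (l := l) hc (by nlinarith) (by nlinarith)
  have hn : ∀ e < p, padicNorm p (mr ((i + e - c) / p) l) ≤ 1 := fun e he =>
    norm_mr_one hp2 (Nat.div_lt_of_lt_mul (lt_of_le_of_lt (Nat.sub_le _ _) (by nlinarith)))
      (by omega)
  have hn' : ∀ e ∈ range p, padicNorm p (if c ≤ i + e ∧ p ∣ i + e - c then
      (((1 - X ^ 2 : ℤ[X]) ^ ((p - 1) / 2)).coeff e : ℚ) * mr ((i + e - c) / p) l else 0) ≤ 1 :=
    fun e he => by
      split_ifs
      · exact le_mul_l (padicNorm.of_int _) (hn e (mem_range.1 he))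
      · simp
  rw [cast_eq (padicNorm.sum_le' hn' zero_le_one) h, cast_sum _ _ hn']
  refine sum_congr rfl fun e he => ?_
  split_ifs
  · exact cast_int_mul _ (hn e (mem_range.1 he))
  · simp

theorem cast_Lm (hp : p % 4 = 1) (hp' : 200 < p) {g : ℚ} (hg : padicNorm p g ≤ 1) (P D : ℤ[X])
    (hP : P.natDegree ≤ 49 * p) {l c : ℕ} (hc : c < p) (hl : l < 49) :
    (((p : ℚ) ^ 2 * Lm g (49 * p) P D (l * p + c) : ℚ) : ZMod p) =
      ∑ k ∈ range 50, ((P * (X ^ 2 - 1) ^ ((p - 1) / 2)).coeff (k * p + (p - 1 - c)) : ZMod p) *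
        (mr (49 - k) l : ZMod p) -
      3 / 2 * ∑ k ∈ range 49, (D.coeff (k * p + (p - 1 - c)) : ZMod p) *
        (zr (48 - k) l : ZMod p) := by
  have hp2 : p ≠ 2 := by omega
  have h1 : l * p ≤ 48 * p := Nat.mul_le_mul_right _ (by omega)
  have h2 : 50 * p < p ^ 2 := by nlinarith
  have e : (p : ℚ) ^ 2 * Lm g (49 * p) P D (l * p + c) =
      ∑ k ∈ range (49 * p + 1), (P.coeff k : ℚ) * ((p : ℚ) ^ 2 * mr (49 * p - k) (l * p + c) +
        (p : ℚ) ^ 2 * (4 * g * mg (49 * p - k) (l * p + c))) -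
      3 / 2 * ∑ k ∈ range (49 * p), (D.coeff k : ℚ) *
        ((p : ℚ) ^ 2 * zr (49 * p - 1 - k) (l * p + c)) := by
    simp only [Lm, mul_sub, mul_sum]
    congr 1 <;> exact sum_congr rfl fun k _ => by ring
  have n1 : ∀ k, padicNorm p ((p : ℚ) ^ 2 * mr (49 * p - k) (l * p + c)) ≤ 1 := fun k =>
    sq_le (norm_mr_sq hp2 (by omega) (by omega))
  have n2 : ∀ k, padicNorm p ((p : ℚ) ^ 2 * (4 * g * mg (49 * p - k) (l * p + c))) < 1 := fun k =>
    sq_lt ((le_mul_l (le_mul_l norm_four hg) (norm_mg_le hp2 _ _)).trans one_lt_p.le)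
  have n3 : ∀ k, padicNorm p ((p : ℚ) ^ 2 * zr (49 * p - 1 - k) (l * p + c)) ≤ 1 := fun k =>
    sq_le (norm_zr_sq (by omega) (by omega))
  have n4 : ∀ k ∈ range (49 * p + 1), padicNorm p ((P.coeff k : ℚ) *
      ((p : ℚ) ^ 2 * mr (49 * p - k) (l * p + c) +
        (p : ℚ) ^ 2 * (4 * g * mg (49 * p - k) (l * p + c)))) ≤ 1 := fun k _ =>
    le_mul_l (padicNorm.of_int _) (le_add (n1 k) (n2 k).le)
  have n5 : ∀ k ∈ range (49 * p), padicNorm p ((D.coeff k : ℚ) *
      ((p : ℚ) ^ 2 * zr (49 * p - 1 - k) (l * p + c))) ≤ 1 := fun k _ =>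
    le_mul_l (padicNorm.of_int _) (n3 k)
  have n6 := padicNorm.sum_le' n5 zero_le_one
  rw [e, cast_sub (padicNorm.sum_le' n4 zero_le_one) (le_mul_l (norm_three_half hp2) n6),
    cast_mul (norm_three_half hp2) n6, cast_three_half hp2, cast_sum _ _ n4, cast_sum _ _ n5]
  congr 1
  · have hm : p = 2 * ((p - 1) / 2) + 1 := by omega
    simp only [coeff_mul_W P hm, Int.cast_sum, sum_mul]
    rw [sum_comm (s := range 50)]
    have e1 : ∀ k ∈ range (49 * p + 1), (((P.coeff k : ℚ) *
        ((p : ℚ) ^ 2 * mr (49 * p - k) (l * p + c) +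
          (p : ℚ) ^ 2 * (4 * g * mg (49 * p - k) (l * p + c))) : ℚ) : ZMod p) =
        ∑ e ∈ range p, (((1 - X ^ 2 : ℤ[X]) ^ ((p - 1) / 2)).coeff e : ZMod p) *
          ((P.coeff k : ZMod p) * if c ≤ 49 * p - k + e ∧ p ∣ 49 * p - k + e - c then
            (mr ((49 * p - k + e - c) / p) l : ZMod p) else 0) := fun k _ => by
      rw [cast_int_mul _ (le_add (n1 k) (n2 k).le), cast_add (n1 k) (n2 k).le, cast_eq_zero (n2 k),
        add_zero, cast_mr hp hp' hc (Nat.sub_le _ _) hl, mul_sum]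
      exact sum_congr rfl fun e _ => by ring
    rw [sum_congr rfl e1, sum_comm]
    refine sum_congr rfl fun e he => ?_
    have he' := mem_range.1 he
    rw [← mul_sum, ← reidx (fun k => (P.coeff k : ZMod p)) (fun k => (mr k l : ZMod p))
      (fun n hn => by rw [coeff_eq_zero_of_natDegree_lt (by omega), Int.cast_zero]) hc he', mul_sum]
    refine sum_congr rfl fun k _ => ?_
    by_cases h : c ≤ k * p + e
    · rw [if_pos h, if_pos (by omega),
        show k * p + (p - 1 - c) - (p - 1 - e) = k * p + e - c by omega]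
      push_cast
      ring
    · rw [if_neg h, if_neg (by omega)]
      simp
  · congr 1
    rw [sum_range_mul]
    refine sum_congr rfl fun k hk => ?_
    have hk' := mem_range.1 hk
    have h3 : k * p ≤ 48 * p := Nat.mul_le_mul_right _ (by omega)
    have e2 : ∀ d < p, (((D.coeff (k * p + d) : ℚ) *
        ((p : ℚ) ^ 2 * zr (49 * p - 1 - (k * p + d)) (l * p + c)) : ℚ) : ZMod p) =
        (D.coeff (k * p + d) : ZMod p) * if p - 1 - d = c then (zr (48 - k) l : ZMod p) else 0 :=
      fun d hd => by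
        have h4 : 49 * p - 1 - (k * p + d) = p - 1 - d + (48 - k) * p := by
          rw [Nat.sub_mul]; omega
        rw [cast_int_mul _ (n3 _), cast_zr hc (by omega) (by omega), h4, Nat.add_mul_mod_self_right,
          Nat.mod_eq_of_lt (by omega), Nat.add_mul_div_right _ _ (by omega),
          Nat.div_eq_of_lt (by omega), zero_add]
    rw [sum_eq_single (p - 1 - c)]
    · rw [e2 _ (by omega), if_pos (by omega)]
    · intro d hd hne
      have := mem_range.1 hd
      rw [e2 _ this, if_neg (by omega), mul_zero]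
    · intro h
      exact absurd (mem_range.2 (by omega)) h

end NVAX

open Red Dip NVAX in
theorem red_Emat {p : ℕ} [Fact p.Prime] (hp : p % 4 = 1) (hp' : 200 < p) (g : ℚ)
    (hg : padicNorm p g ≤ 1) (r j : Fin (36 * p)) :
    (((p : ℚ) ^ 2 * Emat g p r j : ℚ) : ZMod p) = lev p (p - 1 - j % p) (j / p)
      ((QP (2 * p) (KK p r) * (X ^ 2 - 1) ^ ((p - 1) / 2)).map (Int.castRingHom (ZMod p)))
      ((QD (2 * p) (KK p r)).map (Int.castRingHom (ZMod p))) := by
  have hp2 : p ≠ 2 := by omega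
  have h2 : 49 * p < p ^ 2 := by nlinarith
  have hc : (j : ℕ) % p < p := Nat.mod_lt _ (by omega)
  have hj : (j : ℕ) / p < 36 := Nat.div_lt_of_lt_mul (by have := j.2; omega)
  have hr := r.2
  have hK : (KK p r).natAbs ≤ 33 * p := by unfold KK; omega
  have d1 := natDegree_QP (2 * p) (KK p r)
  set P := QP (2 * p) (KK p r)
  set D := QD (2 * p) (KK p r)
  have e : (p : ℚ) ^ 2 * Emat g p r j = ∑ l ∈ range (49 * p),
      ((col (6 * p) (2 * p) j).coeff l : ℚ) * ((p : ℚ) ^ 2 * Lm g (49 * p) P D l) := by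
    rw [Emat_eq_sum g (by omega), mul_sum]
    exact sum_congr rfl fun l _ => by ring
  have n1 : ∀ l < 49 * p, padicNorm p ((p : ℚ) ^ 2 * Lm g (49 * p) P D l) ≤ 1 := fun l hl =>
    norm_Lm_sq hp2 hg h2 _ _ (by omega)
  rw [e, cast_sum _ _ fun l hl => le_mul_l (padicNorm.of_int _) (n1 l (mem_range.1 hl)),
    sum_range_mul, lev, sum_range_succ (n := 49), coeff_col_eq_zero 6 2 _ 49 (Or.inr (by omega)),
    Int.cast_zero, zero_mul, add_zero]
  refine sum_congr rfl fun l hl => ?_
  have hl' := mem_range.1 hl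
  have h3 : l * p ≤ 48 * p := Nat.mul_le_mul_right _ (by omega)
  have hjj : (j : ℕ) = j / p * p + j % p := (Nat.div_add_mod' _ _).symm
  have e2 : ∀ d < p, ((((col (6 * p) (2 * p) j).coeff (l * p + d) : ℚ) *
      ((p : ℚ) ^ 2 * Lm g (49 * p) P D (l * p + d)) : ℚ) : ZMod p) =
      (if d = j % p then ((col 6 2 (j / p)).coeff l : ZMod p) else 0) *
        (((p : ℚ) ^ 2 * Lm g (49 * p) P D (l * p + d) : ℚ) : ZMod p) := fun d hd => by
    rw [cast_int_mul _ (n1 _ (by omega)), ← col_coeff hc hd, ← hjj]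
  rw [sum_eq_single ((j : ℕ) % p)]
  · rw [e2 _ hc, if_pos rfl, cast_Lm hp hp' hg P D (by omega) hc hl']
    simp only [coeff_map, eq_intCast]
  · intro d hd hne
    rw [e2 _ (mem_range.1 hd), if_neg hne, zero_mul]
  · intro h
    exact absurd (mem_range.2 hc) h

end Vale.Agent.P030
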