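import Vale.Agent.P030.Val

/-! A small calculus of `p`-adic congruences of rational numbers, and the basic congruences
for `aa` and `cc`. -/

namespace Vale.Agent.P030.VC

open Polynomial Finset

def Ig (p : ℕ) (x : ℚ) : Prop := padicNorm p x ≤ 1

def Sm (p : ℕ) (x : ℚ) : Prop := padicNorm p x < 1

def Un (p : ℕ) (x : ℚ) : Prop := padicNorm p x = 1

def Cg (p : ℕ) (x y : ℚ) : Prop := Sm p (x - y)

variable {p : ℕ} [hpp : Fact p.Prime] {x y z w : ℚ}

theorem Ig.add (hx : Ig p x) (hy : Ig p y) : Ig p (x + y) :=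
  padicNorm.nonarchimedean.trans (max_le hx hy)

theorem Ig.sub (hx : Ig p x) (hy : Ig p y) : Ig p (x - y) := padicNorm.sub.trans (max_le hx hy)

omit hpp in
theorem Ig.neg (hx : Ig p x) : Ig p (-x) := by unfold Ig; rwa [padicNorm.neg]

theorem Ig.mul (hx : Ig p x) (hy : Ig p y) : Ig p (x * y) := by
  unfold Ig; rw [padicNorm.mul]; exact mul_le_one₀ hx (padicNorm.nonneg _) hy

theorem ig_nat (n : ℕ) : Ig p n := padicNorm.of_nat n

theorem ig_int (n : ℤ) : Ig p n := padicNorm.of_int n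

theorem ig_zero : Ig p 0 := by simpa using ig_nat (p := p) 0

theorem ig_one : Ig p 1 := by simpa using ig_nat (p := p) 1

theorem ig_two : Ig p 2 := by simpa using ig_nat (p := p) 2

theorem Ig.pow (hx : Ig p x) (n : ℕ) : Ig p (x ^ n) := by
  induction n with
  | zero => simpa using ig_one
  | succ n ih => rw [pow_succ]; exact ih.mul hx

theorem Ig.sum {α : Type*} {s : Finset α} {f : α → ℚ} (h : ∀ a ∈ s, Ig p (f a)) :
    Ig p (∑ a ∈ s, f a) := padicNorm.sum_le' h zero_le_one

theorem Ig.div (hx : Ig p x) (hy : Un p y) : Ig p (x / y) := by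
  unfold Ig; rw [padicNorm.div, hy, div_one]; exact hx

omit hpp in
theorem Un.ig (hx : Un p x) : Ig p x := le_of_eq hx

omit hpp in
theorem Sm.ig (hx : Sm p x) : Ig p x := le_of_lt hx

theorem Un.mul (hx : Un p x) (hy : Un p y) : Un p (x * y) := by
  unfold Un at *; rw [padicNorm.mul, hx, hy, mul_one]

theorem Un.div (hx : Un p x) (hy : Un p y) : Un p (x / y) := by
  unfold Un at *; rw [padicNorm.div, hx, hy, div_one]

omit hpp in
theorem Un.neg (hx : Un p x) : Un p (-x) := by unfold Un; rwa [padicNorm.neg]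

omit hpp in
theorem un_one : Un p 1 := padicNorm.one

theorem Un.pow (hx : Un p x) (n : ℕ) : Un p (x ^ n) := by
  induction n with
  | zero => simpa using un_one
  | succ n ih => rw [pow_succ]; exact ih.mul hx

omit hpp in
theorem Un.ne (hx : Un p x) : x ≠ 0 := by
  rintro rfl
  simp [Un] at hx

theorem un_nat {n : ℕ} (h : ¬ p ∣ n) : Un p n := (padicNorm.nat_eq_one_iff n).2 h

theorem un_int {n : ℤ} (h : ¬ (p : ℤ) ∣ n) : Un p n := (padicNorm.int_eq_one_iff n).2 h

theorem un_lt {n : ℕ} (h0 : 0 < n) (h : n < p) : Un p n :=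
  un_nat (Nat.not_dvd_of_pos_of_lt h0 h)

theorem un_two (hp : p ≠ 2) : Un p 2 := val_norm_two hp

/-- a difference of natural numbers which is not a multiple of `p` -/
theorem un_sub {a b : ℕ} (h : ¬ (p : ℤ) ∣ (a : ℤ) - b) : Un p ((a : ℚ) - b) := by
  have := un_int h
  push_cast at this
  exact this

theorem un_sub_lt {a b : ℕ} (h0 : a ≠ b) (h1 : a < b + p) (h2 : b < a + p) :
    Un p ((a : ℚ) - b) := by
  refine un_sub fun h => ?_
  have := Int.eq_zero_of_dvd_of_natAbs_lt_natAbs h (by omega)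
  omega

theorem Sm.add (hx : Sm p x) (hy : Sm p y) : Sm p (x + y) :=
  padicNorm.nonarchimedean.trans_lt (max_lt hx hy)

theorem Sm.sub (hx : Sm p x) (hy : Sm p y) : Sm p (x - y) := padicNorm.sub.trans_lt (max_lt hx hy)

omit hpp in
theorem Sm.neg (hx : Sm p x) : Sm p (-x) := by unfold Sm; rwa [padicNorm.neg]

omit hpp in
theorem sm_zero : Sm p 0 := by simp [Sm]

theorem sm_p : Sm p p := padicNorm.padicNorm_p_lt_one_of_prime

theorem Sm.mul (hx : Sm p x) (hy : Ig p y) : Sm p (x * y) := by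
  unfold Sm; rw [padicNorm.mul]
  exact (mul_le_of_le_one_right (padicNorm.nonneg _) hy).trans_lt hx

theorem Ig.mul_sm (hx : Ig p x) (hy : Sm p y) : Sm p (x * y) := by
  rw [mul_comm]; exact hy.mul hx

theorem Ig.p_mul (hx : Ig p x) : Sm p (p * x) := sm_p.mul hx

theorem Ig.p2_mul (hx : Ig p x) : Sm p ((p : ℚ) ^ 2 * x) := by
  rw [sq, mul_assoc]; exact ((ig_nat p).mul hx).p_mul

theorem Sm.div (hx : Sm p x) (hy : Un p y) : Sm p (x / y) := by
  unfold Sm; rw [padicNorm.div, hy, div_one]; exact hx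

theorem Sm.sum {α : Type*} {s : Finset α} {f : α → ℚ} (h : ∀ a ∈ s, Sm p (f a)) :
    Sm p (∑ a ∈ s, f a) := padicNorm.sum_lt' h zero_lt_one

theorem p_ne : (p : ℚ) ≠ 0 := by exact_mod_cast hpp.out.ne_zero

theorem ig_p_mul (h : padicNorm p x ≤ p) : Ig p (p * x) := by
  have h0 : (0 : ℚ) < p := by exact_mod_cast hpp.out.pos
  unfold Ig
  rw [padicNorm.mul, padicNorm.padicNorm_p_of_prime, inv_mul_le_iff₀ h0, mul_one]
  exact h

theorem ig_p2_mul (h : padicNorm p x ≤ (p : ℚ) ^ 2) : Ig p ((p : ℚ) ^ 2 * x) := by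
  have h0 : (0 : ℚ) < p := by exact_mod_cast hpp.out.pos
  unfold Ig
  rw [padicNorm.mul, val_norm_pow, padicNorm.padicNorm_p_of_prime, inv_pow,
    inv_mul_le_iff₀ (by positivity), mul_one]
  exact h

theorem Sm.div_p (hx : Sm p x) : Ig p (x / p) := by
  by_cases h0 : x = 0
  · rw [h0, zero_div]; exact ig_zero
  have h1 : (1 : ℚ) < p := by exact_mod_cast hpp.out.one_lt
  obtain ⟨z, hz⟩ := padicNorm.values_discrete (p := p) h0
  unfold Sm at hx
  unfold Ig
  rw [padicNorm.div, padicNorm.padicNorm_p_of_prime, hz, div_inv_eq_mul,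
    ← zpow_add_one₀ (by positivity)]
  rw [hz, zpow_lt_one_iff_right₀ h1] at hx
  exact zpow_le_one_of_nonpos₀ h1.le (by omega)

omit hpp in
theorem Cg.rfl' : Cg p x x := by unfold Cg; rw [sub_self]; exact sm_zero

omit hpp in
theorem Cg.of_eq (h : x = y) : Cg p x y := h ▸ Cg.rfl'

omit hpp in
theorem Cg.symm (h : Cg p x y) : Cg p y x := by
  unfold Cg at *; rw [← neg_sub]; exact h.neg

theorem Cg.trans (h : Cg p x y) (h' : Cg p y z) : Cg p x z := by
  unfold Cg at *; rw [← sub_add_sub_cancel x y z]; exact h.add h'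

omit hpp in
theorem Cg.eq_right (h : Cg p x y) (h' : y = z) : Cg p x z := h' ▸ h

omit hpp in
theorem Cg.eq_left (h : Cg p x y) (h' : z = x) : Cg p z y := h' ▸ h

theorem Cg.add (h : Cg p x y) (h' : Cg p z w) : Cg p (x + z) (y + w) := by
  unfold Cg at *; rw [add_sub_add_comm]; exact h.add h'

theorem Cg.sub (h : Cg p x y) (h' : Cg p z w) : Cg p (x - z) (y - w) := by
  unfold Cg at *; rw [sub_sub_sub_comm]; exact h.sub h'

omit hpp in
theorem Cg.neg (h : Cg p x y) : Cg p (-x) (-y) := by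
  unfold Cg at *; rw [neg_sub_neg, ← neg_sub]; exact h.neg

omit hpp in
theorem Sm.cg (h : Sm p x) : Cg p x 0 := by unfold Cg; rwa [sub_zero]

omit hpp in
theorem Cg.sm0 (h : Cg p x 0) : Sm p x := by unfold Cg at h; rwa [sub_zero] at h

theorem Cg.sm (h : Cg p x y) (hy : Sm p y) : Sm p x := (h.trans hy.cg).sm0

theorem Cg.ig (h : Cg p x y) (hy : Ig p y) : Ig p x := by
  rw [← sub_add_cancel x y]; exact (Sm.ig h).add hy

theorem Cg.un (h : Cg p x y) (hy : Un p y) : Un p x := by
  unfold Cg Sm Un at *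
  rw [← sub_add_cancel x y, padicNorm.add_eq_max_of_ne (by rw [hy]; exact h.ne), hy]
  exact max_eq_right h.le

theorem Cg.mul (h : Cg p x y) (h' : Cg p z w) (hy : Ig p y) (hw : Ig p w) :
    Cg p (x * z) (y * w) := by
  have hz := h'.ig hw
  unfold Cg at *
  rw [show x * z - y * w = (x - y) * z + y * (z - w) by ring]
  exact (h.mul hz).add (hy.mul_sm h')

theorem Cg.mul_left (h : Cg p x y) (hz : Ig p z) : Cg p (z * x) (z * y) := by
  unfold Cg at *; rw [← mul_sub]; exact hz.mul_sm h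

theorem Cg.mul_right (h : Cg p x y) (hz : Ig p z) : Cg p (x * z) (y * z) := by
  unfold Cg at *; rw [← sub_mul]; exact h.mul hz

theorem Cg.div_right (h : Cg p x y) (hz : Un p z) : Cg p (x / z) (y / z) := by
  unfold Cg at *; rw [← sub_div]; exact h.div hz

theorem Cg.div (h : Cg p x y) (h' : Cg p z w) (hy : Ig p y) (hw : Un p w) :
    Cg p (x / z) (y / w) := by
  have hz := h'.un hw
  have h1 := hz.ne
  have h2 := hw.ne
  unfold Cg at *
  rw [show x / z - y / w = ((x - y) * w - y * (z - w)) / (z * w) by field_simp; ring]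
  exact ((h.mul hw.ig).sub (hy.mul_sm h')).div (hz.mul hw)

theorem Cg.pow (h : Cg p x y) (hy : Ig p y) (n : ℕ) : Cg p (x ^ n) (y ^ n) := by
  induction n with
  | zero => simpa using Cg.rfl'
  | succ n ih => rw [pow_succ, pow_succ]; exact ih.mul h (hy.pow n) hy

theorem Cg.sum {α : Type*} {s : Finset α} {f g : α → ℚ} (h : ∀ a ∈ s, Cg p (f a) (g a)) :
    Cg p (∑ a ∈ s, f a) (∑ a ∈ s, g a) := by
  unfold Cg at *; rw [← Finset.sum_sub_distrib]; exact Sm.sum h

theorem Cg.cancel (h : Cg p (x * z) (y * z)) (hz : Un p z) : Cg p x y := by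
  have := h.div_right hz
  rwa [mul_div_cancel_right₀ _ hz.ne, mul_div_cancel_right₀ _ hz.ne] at this

theorem cg_modEq {a b : ℕ} (h : a ≡ b [MOD p]) : Cg p a b := by
  have h1 : Sm p (((a : ℤ) - b : ℤ) : ℚ) := (padicNorm.int_lt_one_iff _).2 (Nat.ModEq.dvd h.symm)
  push_cast at h1
  exact h1

theorem cg_add_p (hx : Ig p y) (h : x = z + p * y) : Cg p x z := by
  unfold Cg; rw [h, add_sub_cancel_left]; exact hx.p_mul

/-- sums in which only one residue class survives -/
theorem sum_cg (f g : ℕ → ℚ) {r : ℕ} (hr : r < p) (n : ℕ)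
    (h1 : ∀ k < n, ¬ p ∣ k + 1 + r → Sm p (f k))
    (h2 : ∀ k < n, ∀ k1, k + 1 + r = p * (k1 + 1) → Cg p (f k) (g k1)) :
    Cg p (∑ k ∈ range n, f k) (∑ k ∈ range ((n + r) / p), g k) := by
  induction n with
  | zero => rw [zero_add, Nat.div_eq_of_lt hr]; exact Cg.rfl'
  | succ n ih =>
    have ih' := ih (fun k hk => h1 k (by omega)) (fun k hk => h2 k (by omega))
    rw [Finset.sum_range_succ, show n + 1 + r = n + r + 1 by ring, Nat.succ_div]
    split_ifs with h
    · rw [Finset.sum_range_succ]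
      refine ih'.add (h2 n (by omega) _ ?_)
      have h3 := Nat.succ_div (a := n + r) (b := p)
      rw [if_pos h] at h3
      rw [← h3, Nat.mul_div_cancel' h]
      ring
    · rw [add_zero]
      exact (ih'.add (h1 n (by omega) (by rwa [show n + 1 + r = n + r + 1 by ring])).cg).eq_right
        (add_zero _)

theorem h1_cg (n : ℕ) : Cg p (p * h1 n) (h1 (n / p)) := by
  unfold h1
  rw [Finset.mul_sum]
  refine sum_cg _ _ (r := 0) hpp.out.pos n (fun k _ h => ?_) (fun k _ k1 h => Cg.of_eq ?_)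
  · have := un_nat h
    push_cast at this
    rw [add_zero] at this
    exact (ig_one.div this).p_mul
  · have h' : (k : ℚ) + 1 = p * (k1 + 1) := by exact_mod_cast h
    have := p_ne (p := p)
    rw [h']
    field_simp

theorem h2_cg (n : ℕ) : Cg p ((p : ℚ) ^ 2 * h2 n) (h2 (n / p)) := by
  unfold h2
  rw [Finset.mul_sum]
  refine sum_cg _ _ (r := 0) hpp.out.pos n (fun k _ h => ?_) (fun k _ k1 h => Cg.of_eq ?_)
  · have := un_nat h
    push_cast at this
    rw [add_zero] at this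
    exact (ig_one.div (this.pow 2)).p2_mul
  · have h' : (k : ℚ) + 1 = p * (k1 + 1) := by exact_mod_cast h
    have := p_ne (p := p)
    rw [h']
    field_simp

theorem ig_h1 {n : ℕ} (hn : n < p) : Ig p (h1 n) := valPw_one.h1 (by omega)

theorem ig_aa (hp : p ≠ 2) (l : ℕ) : Ig p (aa l) := norm_aa_le hp l

theorem un_aa (hp : p ≠ 2) {l : ℕ} (hl : 2 * l < p) : Un p (aa l) := norm_aa_eq hp hl

theorem un_four_pow (hp : p ≠ 2) (n : ℕ) : Un p (4 ^ n) := val_norm_four_pow hp n

theorem four_pow_cg (a l : ℕ) : Cg p (4 ^ (p * a + l)) (4 ^ a * 4 ^ l) := by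
  have : 4 ^ (p * a + l) ≡ 4 ^ a * 4 ^ l [MOD p] := by
    rw [← ZMod.natCast_eq_natCast_iff]
    push_cast
    rw [pow_add, pow_mul, ZMod.pow_card]
  have := cg_modEq this
  push_cast at this
  exact this

theorem aa_lucas (hp : p ≠ 2) (a : ℕ) {l : ℕ} (hl : 2 * l < p) :
    Cg p (aa (p * a + l)) (aa a * aa l) := by
  have h0 := hpp.out.pos
  have h := Choose.choose_modEq_choose_mod_mul_choose_div_nat (p := p) (n := 2 * (p * a + l))
    (k := p * a + l)
  have e1 : 2 * (p * a + l) = p * (2 * a) + 2 * l := by ring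
  rw [show 2 * (p * a + l) % p = 2 * l by rw [e1, Nat.mul_add_mod, Nat.mod_eq_of_lt hl],
    show (p * a + l) % p = l by rw [Nat.mul_add_mod, Nat.mod_eq_of_lt (by omega)],
    show 2 * (p * a + l) / p = 2 * a by
      rw [e1, Nat.mul_add_div h0, Nat.div_eq_of_lt hl, add_zero],
    show (p * a + l) / p = a by
      rw [Nat.mul_add_div h0, Nat.div_eq_of_lt (by omega), add_zero]] at h
  have h' := cg_modEq h
  unfold aa
  simp only [Nat.centralBinom_eq_two_mul_choose]
  refine (h'.div (four_pow_cg a l) (ig_nat _) ((un_four_pow hp a).mul (un_four_pow hp l))).eq_right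
    ?_
  push_cast
  field_simp

theorem aa_lucas0 (hp : p ≠ 2) (a : ℕ) {l : ℕ} (hl : p < 2 * l) (hl' : l < p) :
    Sm p (aa (p * a + l)) := by
  have h0 := hpp.out.pos
  have h := Choose.choose_modEq_choose_mod_mul_choose_div_nat (p := p) (n := 2 * (p * a + l))
    (k := p * a + l)
  have e1 : 2 * (p * a + l) = p * (2 * a + 1) + (2 * l - p) := by
    have : p * (2 * a + 1) = 2 * (p * a) + p := by ring
    omega
  rw [show 2 * (p * a + l) % p = 2 * l - p by
      rw [e1, Nat.mul_add_mod, Nat.mod_eq_of_lt (by omega)],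
    show (p * a + l) % p = l by rw [Nat.mul_add_mod, Nat.mod_eq_of_lt hl'],
    Nat.choose_eq_zero_of_lt (show 2 * l - p < l by omega), zero_mul] at h
  have h' := cg_modEq h
  unfold aa
  rw [Nat.centralBinom_eq_two_mul_choose]
  rw [Nat.cast_zero] at h'
  exact h'.sm0.div (un_four_pow hp _)

omit hpp in
theorem ne_two {m : ℕ} (hm : p = 2 * m + 1) : p ≠ 2 := by omega

theorem aa_choose {m : ℕ} (hm : p = 2 * m + 1) {s : ℕ} (hs : s ≤ m) :
    Cg p (aa s) ((-1) ^ s * m.choose s) := by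
  induction s with
  | zero => rw [aa_zero]; simpa using Cg.rfl'
  | succ s ih =>
    have h1 : ((m.choose (s + 1) : ℕ) : ℚ) * (s + 1) = m.choose s * (m - s) := by
      have := Nat.choose_succ_right_eq m s
      rw [← Nat.cast_sub (by omega)]
      exact_mod_cast this
    have hu : Un p (2 * (s : ℚ) + 2) := by
      have := un_lt (p := p) (n := 2 * s + 2) (by omega) (by omega)
      push_cast at this
      exact this
    have hm' : (p : ℚ) = 2 * m + 1 := by exact_mod_cast hm
    have h2 : Cg p (2 * (s : ℚ) + 1) (-(2 * ((m : ℚ) - s))) :=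
      cg_add_p ig_one (by rw [hm']; ring)
    rw [aa_succ]
    have hi : Ig p ((-1) ^ s * (m.choose s : ℚ)) := (ig_one.neg.pow s).mul (ig_nat _)
    refine (((ih (by omega)).mul h2 hi
      (ig_two.mul ((ig_nat _).sub (ig_nat _))).neg).div_right hu).eq_right ?_
    have := hu.ne
    field_simp
    linear_combination (-1) ^ s * h1

theorem ig_cc {m : ℕ} (hm : p = 2 * m + 1) {a k : ℕ} (ha : 2 * a < p) (hk : k < m) :
    Ig p (cc (p * a + k)) := by
  have hp := ne_two hm
  unfold cc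
  refine ig_two.div (Un.mul ?_ ((aa_lucas hp a (by omega)).un
    ((un_aa hp ha).mul (un_aa hp (by omega)))))
  have hu : Un p (2 * (k : ℚ) + 1) := by
    have := un_lt (p := p) (n := 2 * k + 1) (by omega) (by omega)
    push_cast at this
    exact this
  refine Cg.un (cg_add_p (y := 2 * a) (ig_two.mul (ig_nat _)) ?_) hu
  push_cast
  ring

theorem ig_cc0 (hp : p ≠ 2) {a : ℕ} (ha : 2 * a + 1 < p) : Ig p (cc a) :=
  valPw_one.cc hp (by omega)

theorem ig_pcc (hp : p ≠ 2) {k : ℕ} (hk : 2 * k + 1 < p ^ 2) : Ig p (p * cc k) :=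
  ig_p_mul (valPw_sq.cc hp (by omega))

theorem cc_cg {m : ℕ} (hm : p = 2 * m + 1) {a s : ℕ} (ha : 2 * a + 1 < p) (hs : s ≤ m) :
    Cg p (p * cc (p * a + m + s) * aa m) (aa s * cc a) := by
  have hp := ne_two hm
  have hm' : (p : ℚ) = 2 * m + 1 := by exact_mod_cast hm
  induction s with
  | zero =>
    have hu : Un p (2 * (a : ℚ) + 1) := by
      have := un_lt (p := p) (n := 2 * a + 1) (by omega) ha
      push_cast at this
      exact this
    have hum := un_aa hp (l := m) (by omega)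
    have hua := un_aa hp (l := a) (by omega)
    have h1 : Cg p ((2 * aa m) / ((2 * (a : ℚ) + 1) * aa (p * a + m)))
        ((2 * aa m) / ((2 * (a : ℚ) + 1) * (aa a * aa m))) :=
      Cg.rfl'.div ((aa_lucas hp a (by omega)).mul_left hu.ig) (ig_two.mul hum.ig)
        (hu.mul (hua.mul hum))
    refine (h1.eq_left ?_).eq_right ?_
    · unfold cc
      rw [add_zero]
      have h2 : 2 * ((p * a + m : ℕ) : ℚ) + 1 = p * (2 * a + 1) := by
        push_cast; rw [hm']; ring
      have := p_ne (p := p)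
      have := (aa_pos (p * a + m)).ne'
      have := hu.ne
      rw [h2]
      field_simp
    · unfold cc
      have := hum.ne
      have := hua.ne
      have := hu.ne
      rw [aa_zero]
      field_simp
  | succ s ih =>
    have hu : Un p (2 * (s : ℚ) + 2) := by
      have := un_lt (p := p) (n := 2 * s + 2) (by omega) (by omega)
      push_cast at this
      exact this
    have h1 : Cg p (2 * ((p * a + m + s : ℕ) : ℚ) + 2) (2 * (s : ℚ) + 1) :=
      cg_add_p (y := 2 * a + 1) ((ig_two.mul (ig_nat _)).add ig_one) (by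
        push_cast; linear_combination (-1) * hm')
    have h2 : Cg p (2 * ((p * a + m + s : ℕ) : ℚ) + 3) (2 * (s : ℚ) + 2) :=
      cg_add_p (y := 2 * a + 1) ((ig_two.mul (ig_nat _)).add ig_one) (by
        push_cast; linear_combination (-1) * hm')
    have hi : Ig p (aa s * cc a) := (ig_aa hp s).mul (ig_cc0 hp ha)
    have hi2 : Ig p (2 * (s : ℚ) + 1) := (ig_two.mul (ig_nat _)).add ig_one
    have h3 := ((ih (by omega)).mul h1 hi hi2).div h2 (hi.mul hi2) hu
    refine (h3.eq_left ?_).eq_right ?_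
    · rw [← add_assoc, cc_succ]; ring
    · rw [aa_succ]; ring

/-! ### the four partial sums -/

def sX (n : ℕ) : ℚ := ∑ k ∈ range n, 1 / (2 * ((k : ℚ) + 1) ^ 2 * aa (k + 1))

def sY (n : ℕ) : ℚ := ∑ k ∈ range n, aa k / (2 * (k : ℚ) + 1)

def sW (n : ℕ) : ℚ := ∑ k ∈ range n, 1 / (2 * ((k : ℚ) + 1) ^ 2 * aa (k + 1) ^ 2)

def sZ (n : ℕ) : ℚ := ∑ k ∈ range n, 1 / (2 * (k : ℚ) + 1)

theorem b0_even (n : ℕ) : b0 (2 * n) = aa n * sX n := by
  unfold b0 sX
  rw [if_pos (by omega), show 2 * n / 2 = n by omega]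

theorem b0_odd (n : ℕ) : b0 (2 * n + 1) = cc n * sY (n + 1) := by
  unfold b0 sY
  rw [if_neg (by omega), show (2 * n + 1) / 2 = n by omega]

theorem b1_odd (n : ℕ) : b1 (2 * n + 1) = aa n * sW n := by
  unfold b1 sW
  rw [if_pos (by omega), show (2 * n + 1) / 2 = n by omega]

theorem b1_even (n : ℕ) : b1 (2 * n + 2) = cc n * sZ (n + 1) := by
  unfold b1 sZ
  rw [if_neg (by omega), show (2 * n + 2) / 2 = n + 1 by omega, Nat.add_sub_cancel]

theorem nu_odd (n : ℕ) : nu (2 * n + 1) = cc n := by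
  unfold nu
  rw [if_pos (by omega), show (2 * n + 1) / 2 = n by omega]

theorem nu_even (n : ℕ) : nu (2 * n) = 0 := by
  unfold nu
  rw [if_neg (by omega)]

theorem sX_eq (n : ℕ) : sX n = ∑ k ∈ range n, cc k / (2 * ((k : ℚ) + 1)) := by
  unfold sX
  refine Finset.sum_congr rfl fun k _ => ?_
  rw [val_cc_eq]
  have := (aa_pos (k + 1)).ne'
  field_simp

theorem sW_eq (n : ℕ) : sW n = ∑ k ∈ range n, cc k ^ 2 / 2 := by
  unfold sW
  refine Finset.sum_congr rfl fun k _ => ?_
  rw [val_cc_eq]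
  have := (aa_pos (k + 1)).ne'
  field_simp

theorem un_odd {m k : ℕ} (hm : p = 2 * m + 1) (h : ¬ p ∣ k + 1 + m) : Un p (2 * (k : ℚ) + 1) := by
  have : ¬ p ∣ 2 * k + 1 := by
    intro h'
    have h2 : p ∣ 2 * (k + 1 + m) := by
      rw [show 2 * (k + 1 + m) = 2 * k + 1 + p by omega]
      exact dvd_add h' dvd_rfl
    rcases (Nat.Prime.dvd_mul hpp.out).1 h2 with h3 | h3
    · have := Nat.le_of_dvd (by norm_num) h3
      have := hpp.out.two_le
      omega
    · exact h h3
  have := un_nat this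
  push_cast at this
  exact this

omit hpp in
theorem odd_eq {m k k1 : ℕ} (hm : p = 2 * m + 1) (h : k + 1 + m = p * (k1 + 1)) :
    k = p * k1 + m := by
  rw [mul_add, mul_one] at h
  omega

theorem sZ_cg {m : ℕ} (hm : p = 2 * m + 1) (n : ℕ) : Cg p (p * sZ n) (sZ ((n + m) / p)) := by
  unfold sZ
  rw [Finset.mul_sum]
  refine sum_cg _ _ (by omega) n (fun k _ h => (ig_one.div (un_odd hm h)).p_mul)
    (fun k _ k1 h => Cg.of_eq ?_)
  have hm' : (p : ℚ) = 2 * m + 1 := by exact_mod_cast hm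
  have h2 : 2 * (k : ℚ) + 1 = p * (2 * k1 + 1) := by
    rw [odd_eq hm h]; push_cast; rw [hm']; ring
  have := p_ne (p := p)
  rw [h2]
  field_simp

omit hpp in
theorem lt_of_mul_lt_sq {a : ℕ} (h : p * a < p ^ 2) : a < p := by
  rw [sq] at h
  exact lt_of_mul_lt_mul_left h (Nat.zero_le _)

theorem sY_cg {m : ℕ} (hm : p = 2 * m + 1) {n : ℕ} (hn : 2 * n ≤ p ^ 2) :
    Cg p (p * sY n) (aa m * sY ((n + m) / p)) := by
  have hp := ne_two hm
  unfold sY
  rw [Finset.mul_sum, Finset.mul_sum]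
  refine sum_cg _ _ (by omega) n (fun k _ h => ((ig_aa hp k).div (un_odd hm h)).p_mul)
    (fun k hk k1 h => ?_)
  have hm' : (p : ℚ) = 2 * m + 1 := by exact_mod_cast hm
  have hk' := odd_eq hm h
  have h2 : 2 * (k : ℚ) + 1 = p * (2 * k1 + 1) := by
    rw [hk']; push_cast; rw [hm']; ring
  have h3 : 2 * k1 + 1 < p := lt_of_mul_lt_sq (by
    have : p * (2 * k1 + 1) = 2 * (p * k1) + p := by ring
    omega)
  have hu : Un p (2 * (k1 : ℚ) + 1) := by
    have := un_lt (p := p) (n := 2 * k1 + 1) (by omega) h3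
    push_cast at this
    exact this
  have h4 := (aa_lucas hp k1 (l := m) (by omega)).div_right hu
  refine (h4.eq_left ?_).eq_right (by ring)
  have := p_ne (p := p)
  rw [h2, ← hk']
  field_simp

theorem sX_cg {m : ℕ} (hm : p = 2 * m + 1) {n : ℕ} (hn : 2 * n ≤ p ^ 2) :
    Cg p ((p : ℚ) ^ 2 * sX n) (sX (n / p)) := by
  have hp := ne_two hm
  rw [sX_eq, sX_eq, Finset.mul_sum]
  refine sum_cg _ _ (r := 0) (by omega) n (fun k hk h => ?_) (fun k hk k1 h => ?_)
  · have hu := un_nat h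
    push_cast at hu
    rw [add_zero] at hu
    have := ((ig_pcc hp (k := k) (by omega)).div ((un_two hp).mul hu)).p_mul
    rwa [show (p : ℚ) ^ 2 * (cc k / (2 * ((k : ℚ) + 1))) = p * (p * cc k / (2 * ((k : ℚ) + 1)))
      by ring]
  · have hk' : k = p * k1 + m + m := by rw [mul_add, mul_one] at h; omega
    have h3 : 2 * k1 + 1 < p := lt_of_mul_lt_sq (by
      have : p * (2 * k1 + 1) = 2 * (p * k1) + p := by ring
      omega)
    have hu : Un p ((k1 : ℚ) + 1) := by
      have := un_lt (p := p) (n := k1 + 1) (by omega) (by omega)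
      push_cast at this
      exact this
    have h4 := cc_cg hm h3 (le_refl m)
    rw [mul_comm (aa m), ← hk'] at h4
    have h5 := (h4.cancel (un_aa hp (by omega))).div_right ((un_two hp).mul hu)
    refine h5.eq_left ?_
    have h' : (k : ℚ) + 1 = p * (k1 + 1) := by exact_mod_cast h
    have := p_ne (p := p)
    have := hu.ne
    rw [h']
    field_simp

theorem ig_sZ {n : ℕ} (hn : 2 * n ≤ p) : Ig p (sZ n) := by
  refine Ig.sum fun k hk => ig_one.div ?_
  have hk' := Finset.mem_range.1 hk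
  have := un_lt (p := p) (n := 2 * k + 1) (by omega) (by omega)
  push_cast at this
  exact this

theorem ig_sY (hp : p ≠ 2) {n : ℕ} (hn : 2 * n ≤ p) : Ig p (sY n) := by
  refine Ig.sum fun k hk => (ig_aa hp k).div ?_
  have hk' := Finset.mem_range.1 hk
  have := un_lt (p := p) (n := 2 * k + 1) (by omega) (by omega)
  push_cast at this
  exact this

theorem ig_sX (hp : p ≠ 2) {n : ℕ} (hn : 2 * n ≤ p) : Ig p (sX n) := by
  rw [sX_eq]
  refine Ig.sum fun k hk => ?_
  have hk' := Finset.mem_range.1 hk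
  have := un_lt (p := p) (n := k + 1) (by omega) (by omega)
  push_cast at this
  exact (ig_cc0 hp (by omega)).div ((un_two hp).mul this)

theorem ig_sW (hp : p ≠ 2) {n : ℕ} (hn : 2 * n ≤ p) : Ig p (sW n) := by
  rw [sW_eq]
  refine Ig.sum fun k hk => ?_
  have hk' := Finset.mem_range.1 hk
  exact ((ig_cc0 hp (by omega)).pow 2).div (un_two hp)

theorem ig_p2_sW (hp : p ≠ 2) {n : ℕ} (hn : 2 * n ≤ p ^ 2) : Ig p ((p : ℚ) ^ 2 * sW n) := by
  rw [sW_eq, Finset.mul_sum]
  refine Ig.sum fun k hk => ?_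
  have hk' := Finset.mem_range.1 hk
  have := ((ig_pcc hp (k := k) (by omega)).pow 2).div (un_two hp)
  rwa [show (p : ℚ) ^ 2 * (cc k ^ 2 / 2) = (p * cc k) ^ 2 / 2 by ring]

theorem ig_p_inv {n : ℕ} (h0 : n ≠ 0) (hn : n < p ^ 2) : Ig p (p * (1 / (n : ℚ))) :=
  ig_p_mul (valPw_sq.inv h0 (by omega))

theorem ig_p_sZ {n : ℕ} (hn : 2 * n ≤ p ^ 2) : Ig p (p * sZ n) := by
  unfold sZ
  rw [Finset.mul_sum]
  refine Ig.sum fun k hk => ?_
  have hk' := Finset.mem_range.1 hk
  have := ig_p_inv (p := p) (n := 2 * k + 1) (by omega) (by omega)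
  push_cast at this
  exact this

theorem ig_p_sY (hp : p ≠ 2) {n : ℕ} (hn : 2 * n ≤ p ^ 2) : Ig p (p * sY n) := by
  unfold sY
  rw [Finset.mul_sum]
  refine Ig.sum fun k hk => ?_
  have hk' := Finset.mem_range.1 hk
  have := (ig_aa hp k).mul (ig_p_inv (p := p) (n := 2 * k + 1) (by omega) (by omega))
  push_cast at this
  rwa [show (p : ℚ) * (aa k / (2 * k + 1)) = aa k * (p * (1 / (2 * k + 1))) by ring]

theorem ig_p2_sX (hp : p ≠ 2) {n : ℕ} (hn : 2 * n ≤ p ^ 2) : Ig p ((p : ℚ) ^ 2 * sX n) := by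
  rw [sX_eq, Finset.mul_sum]
  refine Ig.sum fun k hk => ?_
  have hk' := Finset.mem_range.1 hk
  have := ((ig_pcc hp (k := k) (by omega)).mul
    (ig_p_inv (p := p) (n := k + 1) (by omega) (by omega))).div (un_two hp)
  push_cast at this
  rwa [show (p : ℚ) ^ 2 * (cc k / (2 * (k + 1))) = p * cc k * (p * (1 / (k + 1))) / 2 by
    have : (k : ℚ) + 1 ≠ 0 := by positivity
    field_simp]

theorem zr_cg {i l c : ℕ} (hc : c < p) (hi : i < p ^ 2) (hl : l < p) :
    Cg p ((p : ℚ) ^ 2 * zr i (l * p + c)) (if i % p = c then zr (i / p) l else 0) := by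
  have h0 := hpp.out.pos
  have hj : (l * p + c) / p = l := by
    rw [mul_comm, Nat.mul_add_div h0, Nat.div_eq_of_lt hc, add_zero]
  have hj' : (l * p + c) % p = c := by rw [mul_comm, Nat.mul_add_mod, Nat.mod_eq_of_lt hc]
  have hi1 : i / p < p := by rw [Nat.div_lt_iff_lt_mul h0, ← sq]; exact hi
  have hh : Cg p (p * h1 (l * p + c) - p * h1 i) (h1 l - h1 (i / p)) := by
    have := (h1_cg (p := p) (l * p + c)).sub (h1_cg i)
    rwa [hj] at this
  have hig : Ig p (h1 l - h1 (i / p)) := (ig_h1 hl).sub (ig_h1 hi1)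
  by_cases h : i = l * p + c
  · subst h
    rw [if_pos hj', hj]
    unfold zr
    rw [if_pos rfl, if_pos rfl, mul_neg]
    have := (h2_cg (p := p) (l * p + c)).neg
    rwa [hj] at this
  · have hz : zr i (l * p + c) = (h1 (l * p + c) - h1 i) / (((l * p + c : ℕ) : ℚ) - i) := by
      unfold zr; rw [if_neg h]
    rw [hz]
    split_ifs with h'
    · have hi' : i = p * (i / p) + c := by rw [← h', Nat.div_add_mod]
      have hne : i / p ≠ l := by
        intro h2
        rw [h2, mul_comm] at hi'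
        exact h hi'
      have hu : Un p ((l : ℚ) - (i / p : ℕ)) :=
        un_sub_lt hne.symm (Nat.lt_add_left _ hl) (Nat.lt_add_left _ hi1)
      unfold zr
      rw [if_neg hne]
      refine (hh.div_right hu).eq_left ?_
      have e : ((l * p + c : ℕ) : ℚ) - i = p * ((l : ℚ) - (i / p : ℕ)) := by
        conv_lhs => rw [hi']
        push_cast
        ring
      have := p_ne (p := p)
      have := hu.ne
      rw [e]
      field_simp
    · have hu : Un p (((l * p + c : ℕ) : ℚ) - i) := by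
        refine un_sub fun h2 => h' ?_
        have h3 : i ≡ l * p + c [MOD p] := (Nat.modEq_iff_dvd).2 h2
        unfold Nat.ModEq at h3
        rw [h3, hj']
      have := ((hh.ig hig).div hu).p_mul
      refine Sm.cg ?_
      rwa [show (p : ℚ) ^ 2 * ((h1 (l * p + c) - h1 i) / (((l * p + c : ℕ) : ℚ) - i)) =
        p * ((p * h1 (l * p + c) - p * h1 i) / (((l * p + c : ℕ) : ℚ) - i)) by ring]

end Vale.Agent.P030.VC
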