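import Vale.Agent.P030.Taylor
import Vale.Agent.P030.Lat
import Vale.Agent.P030.VC

/-! Primes above half of the largest index. -/

namespace Vale.Agent.P030

open Polynomial Finset

namespace BigA

open VC

def mu (p i j : ℕ) : ℚ := if j + 1 ≤ i then p * nu (p + (i - 1 - j)) else 0

variable {p : ℕ} [hpp : Fact p.Prime] {m : ℕ}

theorem two_p_le (_hm : p = 2 * m + 1) : 2 * p ≤ p ^ 2 := by
  have := hpp.out.two_le
  rw [sq]
  exact Nat.mul_le_mul_right p this

theorem ig_pnu (hm : p = 2 * m + 1) {i : ℕ} (hi : i < 2 * p) : Ig p (p * nu i) :=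
  ig_p_mul (norm_nu_le (ne_two hm) (by have := two_p_le hm; omega))

theorem ig_mu (hm : p = 2 * m + 1) {i j : ℕ} (hi : i < 2 * p) (hj : p ≤ j) : Ig p (mu p i j) := by
  unfold mu
  split_ifs with h
  · exact ig_pnu hm (by omega)
  · exact ig_zero

theorem ig_b0 (hm : p = 2 * m + 1) {d : ℕ} (hd : d < p) : Ig p (b0 d) := by
  have := valPw_one.b0 (ne_two hm) (j := d) (by omega)
  rwa [one_pow] at this

theorem ig_b1 (hm : p = 2 * m + 1) {d : ℕ} (hd : d ≤ p) : Ig p (b1 d) := by
  rcases hd.lt_or_eq with h | h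
  · have := valPw_one.b1 (ne_two hm) (i := d) (by omega)
    rwa [one_pow] at this
  · rw [show d = 2 * m + 1 by omega, b1_odd]
    exact (ig_aa (ne_two hm) m).mul (ig_sW (ne_two hm) (by omega))

theorem sum_range_eq (F : ℕ → ℚ) (n n' : ℕ) (h : ∀ k, n ≤ k ∨ n' ≤ k → F k = 0) :
    ∑ k ∈ range n, F k = ∑ k ∈ range n', F k := by
  rcases le_total n n' with h1 | h1
  · refine Finset.sum_subset (Finset.range_subset_range.2 h1) fun k _ hk => h k (Or.inl ?_)
    simpa using hk
  · refine (Finset.sum_subset (Finset.range_subset_range.2 h1) fun k _ hk => h k (Or.inr ?_)).symm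
    simpa using hk

theorem mr_a (hm : p = 2 * m + 1) {A i l : ℕ} (hl : l < p) (hi : i ≤ A) (hA : A ≤ l + p) :
    Cg p (p * mr i l) (-∑ j ∈ Ico p A, mu p i j / ((l : ℚ) - j)) := by
  have hp := ne_two hm
  have hb : Ig p (if i ≤ l then b0 (l - i) else b1 (i - l)) := by
    split_ifs
    · exact ig_b0 hm (by omega)
    · exact ig_b1 hm (by omega)
  have ht : Cg p (∑ k ∈ range (min i l), p * (nu (i - 1 - k) / ((l : ℚ) - k)))
      (∑ k ∈ range (min i l), mu p i (p + k) / ((l : ℚ) - (p + k : ℕ))) := by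
    refine Cg.sum fun k hk => ?_
    have hk' := Finset.mem_range.1 hk
    unfold mu
    split_ifs with h
    · rw [show p + (i - 1 - (p + k)) = i - 1 - k by omega, ← mul_div_assoc]
      refine Cg.rfl'.div (cg_add_p ig_one (by push_cast; ring)) (ig_pnu hm (by omega))
        (un_sub_lt (by omega) (by omega) (by omega))
    · rw [zero_div]
      exact (Ig.div (norm_nu_le_one hp (by omega))
        (un_sub_lt (by omega) (by omega) (by omega))).p_mul.cg
  rw [sum_range_eq (fun k => mu p i (p + k) / ((l : ℚ) - (p + k : ℕ))) (min i l) (A - p)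
    (fun k hk => by unfold mu; rw [if_neg (by omega), zero_div]), ← Finset.mul_sum] at ht
  rw [mr_eq, mul_sub, Finset.sum_Ico_eq_sum_range]
  exact (hb.p_mul.cg.sub ht).eq_right (zero_sub _)

theorem zr_a {i l : ℕ} (hl : l < p) (hi : i < l + p) :
    Cg p (p * zr i l) (if p ≤ i then -(1 / ((l : ℚ) - i)) else 0) := by
  split_ifs with h
  · have h1 := h1_cg (p := p) i
    rw [show i / p = 1 by rw [Nat.div_eq_iff (by omega)]; omega] at h1
    have h2 := (((ig_h1 hl).p_mul.cg).sub h1).div_right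
      (un_sub_lt (p := p) (a := l) (b := i) (by omega) (by omega) (by omega))
    unfold zr
    rw [if_neg (by omega)]
    refine (h2.eq_left (by ring)).eq_right ?_
    simp only [P030.h1, range_one, sum_singleton]
    ring
  · exact (Ig.p_mul (norm_zr_one (by omega) hl)).cg

theorem mr_b (hm : p = 2 * m + 1) {i l : ℕ} (hl : l < p) (hi : i < 2 * p) :
    Cg p ((p : ℚ) ^ 2 * mr i l) (mu p i (l + p)) := by
  have hp := ne_two hm
  have h2p := two_p_le hm
  have ht : Sm p ((p : ℚ) ^ 2 * ∑ k ∈ range (min i l), nu (i - 1 - k) / ((l : ℚ) - k)) := by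
    rw [Finset.mul_sum]
    refine Sm.sum fun k hk => ?_
    have hk' := Finset.mem_range.1 hk
    have := ((ig_pnu hm (i := i - 1 - k) (by omega)).div
      (un_sub_lt (a := l) (b := k) (by omega) (by omega) (by omega))).p_mul
    rwa [show (p : ℚ) ^ 2 * (nu (i - 1 - k) / ((l : ℚ) - k)) =
      p * (p * nu (i - 1 - k) / ((l : ℚ) - k)) by ring]
  have hb : Cg p ((p : ℚ) ^ 2 * if i ≤ l then b0 (l - i) else b1 (i - l)) (mu p i (l + p)) := by
    unfold mu
    split_ifs with h1 h2 h2
    · omega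
    · exact (ig_b0 hm (by omega)).p2_mul.cg
    · rcases Nat.even_or_odd' (i - l - 1) with ⟨n, h | h⟩
      · rw [show i - l = 2 * n + 1 by omega, show p + (i - 1 - (l + p)) = 2 * n by omega, b1_odd,
          nu_even, mul_zero]
        have h3 := aa_lucas0 hp 0 (l := n) (by omega) (by omega)
        rw [mul_zero, zero_add] at h3
        exact (h3.mul (ig_p2_sW hp (n := n) (by omega))).cg.eq_left (by ring)
      · rw [show i - l = 2 * n + 2 by omega, show p + (i - 1 - (l + p)) = 2 * n + 1 by omega,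
          b1_even, nu_odd]
        have h3 := sZ_cg hm (n + 1)
        rw [show (n + 1 + m) / p = 1 by rw [Nat.div_eq_iff (by omega)]; omega] at h3
        refine ((h3.mul_left (ig_pcc hp (k := n) (by omega))).eq_left (by ring)).eq_right ?_
        simp [sZ]
    · exact (ig_b1 hm (by omega)).p2_mul.cg
  rw [mr_eq, mul_sub]
  exact (hb.sub ht.cg).eq_right (sub_zero _)

theorem zr_b (hm : p = 2 * m + 1) {i l : ℕ} (hl : l < p) (hi : i < 2 * p) :
    Cg p ((p : ℚ) ^ 2 * zr i l) (if i = l + p then 1 else 0) := by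
  have h2p := two_p_le hm
  have h := zr_cg (p := p) (i := i) (l := 0) (c := l) hl (by omega) (by omega)
  rw [zero_mul, zero_add] at h
  refine h.eq_right ?_
  rcases lt_or_ge i p with h1 | h1
  · rw [Nat.div_eq_of_lt h1, if_neg (show i ≠ l + p by omega)]
    simp [zr, h2]
  · rw [show i / p = 1 by rw [Nat.div_eq_iff (by omega)]; omega, Nat.mod_eq_sub_mod h1,
      Nat.mod_eq_of_lt (by omega)]
    split_ifs
    · simp [zr, P030.h1]
    · omega
    · omega
    · rfl

theorem mr_c (hm : p = 2 * m + 1) {i c : ℕ} (hc : c < p) (hi : i < 2 * p) :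
    Cg p ((p : ℚ) ^ 2 * mr i (p + c)) (2 * mz i c - mu p i (p + c)) := by
  have hp := ne_two hm
  have h2p := two_p_le hm
  have ht : Cg p ((p : ℚ) ^ 2 * ∑ k ∈ range (min i (p + c)),
      nu (i - 1 - k) / (((p + c : ℕ) : ℚ) - k)) (mu p i (p + c)) := by
    rw [Finset.mul_sum]
    have h1 : Cg p (∑ k ∈ range (min i (p + c)),
        (p : ℚ) ^ 2 * (nu (i - 1 - k) / (((p + c : ℕ) : ℚ) - k)))
        (∑ k ∈ range (min i (p + c)), if k = c then mu p i (p + c) else 0) := by
      refine Cg.sum fun k hk => ?_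
      have hk' := Finset.mem_range.1 hk
      split_ifs with h
      · subst h
        have e : (p : ℚ) ^ 2 * (nu (i - 1 - k) / (((p + k : ℕ) : ℚ) - k)) = p * nu (i - 1 - k) := by
          have := p_ne (p := p)
          push_cast
          rw [add_sub_cancel_right]
          field_simp
        rw [e]
        unfold mu
        split_ifs with h
        · rw [show p + (i - 1 - (p + k)) = i - 1 - k by omega]
          exact Cg.rfl'
        · exact (Ig.p_mul (norm_nu_le_one hp (by omega))).cg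
      · have hu : Un p (((p + c : ℕ) : ℚ) - k) :=
          (cg_add_p (z := (c : ℚ) - k) ig_one (by push_cast; ring)).un
            (un_sub_lt (by omega) (by omega) (by omega))
        exact ((ig_pnu hm (i := i - 1 - k) (by omega)).div hu).p_mul.cg.eq_left (by ring)
    refine h1.eq_right ?_
    rw [Finset.sum_ite_eq']
    split_ifs with h
    · rfl
    · unfold mu
      rw [Finset.mem_range] at h
      rw [if_neg (by omega)]
  have hb : Cg p ((p : ℚ) ^ 2 * if i ≤ p + c then b0 (p + c - i) else b1 (i - (p + c)))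
      (2 * mz i c) := by
    by_cases h : i ≤ c
    · rw [if_pos (by omega)]
      rcases Nat.even_or_odd' (c - i) with ⟨r, h1 | h1⟩
      · have hz : mz i c = aa r := by
          unfold mz; rw [if_pos ⟨h, by omega⟩, show (c - i) / 2 = r by omega]
        rw [hz, show p + c - i = 2 * (m + r) + 1 by omega, b0_odd]
        have h3 := sY_cg hm (n := m + r + 1) (by omega)
        rw [show (m + r + 1 + m) / p = 1 by rw [Nat.div_eq_iff (by omega)]; omega] at h3
        have h4 := cc_cg hm (a := 0) (s := r) (by have := hpp.out.two_le; omega) (by omega)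
        rw [mul_zero, zero_add] at h4
        have h5 := h3.mul_left (ig_pcc hp (k := m + r) (by omega))
        refine (h5.eq_left (by ring)).trans ((h4.eq_left ?_).eq_right ?_)
        · simp [sY, aa_zero]
        · simp [cc, aa_zero, mul_comm]
      · have hz : mz i c = 0 := by unfold mz; rw [if_neg (by omega)]
        rw [hz, show p + c - i = 2 * (m + r + 1) by omega, b0_even, mul_zero]
        have h3 := sX_cg hm (n := m + r + 1) (by omega)
        rw [Nat.div_eq_of_lt (by omega)] at h3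
        refine ((h3.mul_left (ig_aa hp (m + r + 1))).eq_left (by ring)).eq_right ?_
        simp [sX]
    · have hz : mz i c = 0 := by unfold mz; rw [if_neg (by omega)]
      rw [hz, mul_zero]
      split_ifs
      · exact (ig_b0 hm (by omega)).p2_mul.cg
      · exact (ig_b1 hm (by omega)).p2_mul.cg
  rw [mr_eq, mul_sub]
  exact hb.sub ht

theorem zr_c (hm : p = 2 * m + 1) {i c : ℕ} (hc : c < p) (hi : i < 2 * p) :
    Cg p ((p : ℚ) ^ 2 * zr i (p + c))
      ((if i = c then 1 else 0) - if i = p + c then 1 else 0) := by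
  have h2p := two_p_le hm
  have h := zr_cg (p := p) (i := i) (l := 1) (c := c) hc (by omega) hpp.out.one_lt
  rw [one_mul] at h
  refine h.eq_right ?_
  rcases lt_or_ge i p with h1 | h1
  · rw [Nat.div_eq_of_lt h1, Nat.mod_eq_of_lt h1, if_neg (show i ≠ p + c by omega)]
    simp [zr, P030.h1]
  · rw [show i / p = 1 by rw [Nat.div_eq_iff (by omega)]; omega, Nat.mod_eq_sub_mod h1,
      Nat.mod_eq_of_lt (by omega), if_neg (show i ≠ c by omega)]
    split_ifs
    · simp [zr, h2]
    · omega
    · omega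
    · simp

def Lam (g : ℚ) (A : ℕ) (t d : ℕ → ℚ) (l : ℕ) : ℚ :=
  ∑ i ∈ range (A + 1), t i * (mr i l + 4 * g * mg i l) - 3 / 2 * ∑ i ∈ range A, d i * zr i l

def al (p A : ℕ) (t d : ℕ → ℚ) (j : ℕ) : ℚ :=
  3 / 2 * d j - ∑ i ∈ range (A + 1), t i * mu p i j

theorem ig_32 (hm : p = 2 * m + 1) : Ig p (3 / 2) := by
  have := ig_nat (p := p) 3
  push_cast at this
  exact this.div (un_two (ne_two hm))

theorem ig_g (hm : p = 2 * m + 1) {g : ℚ} (hg : Ig p g) (i l : ℕ) : Ig p (4 * g * mg i l) := by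
  have := ig_nat (p := p) 4
  push_cast at this
  exact (this.mul hg).mul (norm_mg_le (ne_two hm) i l)

theorem ig_al (hm : p = 2 * m + 1) {A : ℕ} (hA : A < 2 * p) {t d : ℕ → ℚ} (ht : ∀ i, Ig p (t i))
    (hd : ∀ i, Ig p (d i)) {j : ℕ} (hj : p ≤ j) : Ig p (al p A t d j) := by
  refine ((ig_32 hm).mul (hd j)).sub (Ig.sum fun i hi => (ht i).mul (ig_mu hm ?_ hj))
  have := Finset.mem_range.1 hi
  omega

theorem Lam_cg (hm : p = 2 * m + 1) {g : ℚ} (hg : Ig p g) {A l : ℕ} {t d : ℕ → ℚ}
    (ht : ∀ i, Ig p (t i)) (hd : ∀ i, Ig p (d i)) {q : ℚ} (hq : Sm p q) (a b : ℕ → ℚ)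
    (ha : ∀ i ≤ A, Cg p (q * mr i l) (a i)) (hb : ∀ i < A, Cg p (q * zr i l) (b i)) :
    Cg p (q * Lam g A t d l)
      (∑ i ∈ range (A + 1), t i * a i - 3 / 2 * ∑ i ∈ range A, d i * b i) := by
  have h1 : Cg p (∑ i ∈ range (A + 1), q * (t i * (mr i l + 4 * g * mg i l)))
      (∑ i ∈ range (A + 1), t i * a i) := by
    refine Cg.sum fun i hi => ?_
    have hi' := Finset.mem_range.1 hi
    have := ((ha i (by omega)).add (hq.mul (ig_g hm hg i l)).cg).mul_left (ht i)
    exact (this.eq_left (by ring)).eq_right (by ring)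
  have h2 : Cg p (∑ i ∈ range A, q * (d i * zr i l)) (∑ i ∈ range A, d i * b i) := by
    refine Cg.sum fun i hi => ?_
    exact ((hb i (Finset.mem_range.1 hi)).mul_left (hd i)).eq_left (by ring)
  refine (h1.sub (h2.mul_left (ig_32 hm))).eq_left ?_
  unfold Lam
  rw [← Finset.mul_sum, ← Finset.mul_sum]
  ring

theorem sm_p2 : Sm p ((p : ℚ) ^ 2) := by simpa using (ig_one (p := p)).p2_mul

theorem Lam_a (hm : p = 2 * m + 1) {g : ℚ} (hg : Ig p g) {A l : ℕ} {t d : ℕ → ℚ}
    (ht : ∀ i, Ig p (t i)) (hd : ∀ i, Ig p (d i)) (hl : l < p) (hA : A ≤ l + p)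
    (hal : ∀ j, p ≤ j → j < A → Sm p (al p A t d j)) : Ig p (Lam g A t d l) := by
  have h1 := Lam_cg hm hg ht hd sm_p _ _ (fun i hi => mr_a hm hl hi hA)
    (fun i (hi : i < A) => zr_a hl (by omega))
  have h2 : ∑ i ∈ range (A + 1), t i * (-∑ j ∈ Ico p A, mu p i j / ((l : ℚ) - j)) -
      3 / 2 * ∑ i ∈ range A, d i * (if p ≤ i then -(1 / ((l : ℚ) - i)) else 0) =
      ∑ j ∈ Ico p A, al p A t d j / ((l : ℚ) - j) := by
    have h3 : ∑ i ∈ range A, d i * (if p ≤ i then -(1 / ((l : ℚ) - i)) else 0) =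
        ∑ j ∈ Ico p A, -(d j / ((l : ℚ) - j)) := by
      rw [show Ico p A = (range A).filter (fun i => p ≤ i) by
        ext i; simp only [Finset.mem_Ico, Finset.mem_filter, Finset.mem_range]; tauto,
        Finset.sum_filter]
      refine Finset.sum_congr rfl fun i _ => ?_
      split_ifs <;> ring
    rw [h3]
    simp only [mul_neg, Finset.mul_sum]
    rw [Finset.sum_neg_distrib, Finset.sum_comm, ← Finset.sum_neg_distrib,
      ← Finset.sum_sub_distrib]
    refine Finset.sum_congr rfl fun j _ => ?_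
    unfold al
    rw [sub_div, Finset.sum_div]
    simp only [mul_div_assoc]
    ring
  rw [h2] at h1
  have h4 : Sm p (p * Lam g A t d l) := h1.sm (Sm.sum fun j hj => by
    rw [Finset.mem_Ico] at hj
    exact (hal j hj.1 hj.2).div (un_sub_lt (by omega) (by omega) (by omega)))
  have := h4.div_p
  rwa [mul_div_cancel_left₀ _ p_ne] at this

theorem Lam_b (hm : p = 2 * m + 1) {g : ℚ} (hg : Ig p g) {A l : ℕ} {t d : ℕ → ℚ}
    (ht : ∀ i, Ig p (t i)) (hd : ∀ i, Ig p (d i)) (hA : A < 2 * p) (hl : l + p < A)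
    (hal : ∀ j, p ≤ j → j < A → Sm p (al p A t d j)) : Sm p ((p : ℚ) ^ 2 * Lam g A t d l) := by
  have h1 := Lam_cg hm hg ht hd sm_p2 _ _
    (fun i (hi : i ≤ A) => mr_b hm (l := l) (by omega) (by omega))
    (fun i (hi : i < A) => zr_b hm (by omega) (by omega))
  refine h1.sm ?_
  have h2 := (hal (l + p) (by omega) hl).neg
  simp only [mul_ite, mul_one, mul_zero, Finset.sum_ite_eq', Finset.mem_range, if_pos hl]
  unfold al at h2
  rwa [neg_sub] at h2

theorem Lam_c (hm : p = 2 * m + 1) {g : ℚ} (hg : Ig p g) {A c : ℕ} {t d : ℕ → ℚ}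
    (ht : ∀ i, Ig p (t i)) (hd : ∀ i, Ig p (d i)) (hA : A < 2 * p) (hl : p + c < A)
    (hal : ∀ j, p ≤ j → j < A → Sm p (al p A t d j)) (hc : Sm p (d c))
    (hz : ∑ i ∈ range (A + 1), t i * mz i c = d c) :
    Sm p ((p : ℚ) ^ 2 * Lam g A t d (p + c)) := by
  have h1 := Lam_cg hm hg ht hd sm_p2 _ _
    (fun i (hi : i ≤ A) => mr_c hm (c := c) (by omega) (by omega))
    (fun i (hi : i < A) => zr_c hm (by omega) (by omega))
  refine h1.sm ?_
  have h2 := (hal (p + c) (by omega) hl).add (hc.div (un_two (ne_two hm)))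
  have h3 : ∑ i ∈ range (A + 1), t i * (2 * mz i c - mu p i (p + c)) =
      2 * d c - ∑ i ∈ range (A + 1), t i * mu p i (p + c) := by
    rw [← hz, Finset.mul_sum, ← Finset.sum_sub_distrib]
    exact Finset.sum_congr rfl fun i _ => by ring
  rw [h3]
  simp only [mul_sub, Finset.sum_sub_distrib, mul_ite, mul_one, mul_zero, Finset.sum_ite_eq',
    Finset.mem_range, if_pos hl, if_pos (show c < A by omega)]
  unfold al at h2
  rwa [show 2 * d c - ∑ i ∈ range (A + 1), t i * mu p i (p + c) -
    (3 / 2 * d c - 3 / 2 * d (p + c)) =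
    3 / 2 * d (p + c) - ∑ i ∈ range (A + 1), t i * mu p i (p + c) + d c / 2 by ring]

theorem ig_of_sm {x y : ℚ} (hx : Sm p x) (hy : Sm p ((p : ℚ) ^ 2 * y)) : Ig p (x * y) := by
  have := hx.div_p.mul hy.div_p
  have h0 := p_ne (p := p)
  rwa [show x / p * ((p : ℚ) ^ 2 * y / p) = x * y by field_simp] at this

theorem lam_eq (g : ℚ) {A : ℕ} (hA : 1 ≤ A) (P D R : ℤ[X]) (hR : R.coeff A = 0) :
    lam g A P D R = ∑ l ∈ range A, (R.coeff l : ℚ) *
      Lam g A (fun i => P.coeff (A - i)) (fun i => D.coeff (A - 1 - i)) l := by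
  unfold lam pair Lam
  rw [Finset.sum_comm, Finset.sum_range_succ, hR, Nat.sub_add_cancel hA,
    Finset.sum_comm (s := range A) (t := range A)]
  simp only [Int.cast_zero, mul_zero, zero_mul, Finset.sum_const_zero, add_zero]
  rw [Finset.mul_sum, ← Finset.sum_sub_distrib]
  refine Finset.sum_congr rfl fun l _ => ?_
  rw [mul_sub, mul_left_comm]
  refine congrArg₂ (· - ·) ?_ (congrArg (3 / 2 * ·) ?_)
  · rw [Finset.mul_sum, ← Finset.sum_range_reflect]
    refine Finset.sum_congr rfl fun i hi => ?_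
    have := Finset.mem_range.1 hi
    rw [show A + 1 - 1 - i = A - i by omega, show A - (A - i) = i by omega]
    ring
  · rw [Finset.mul_sum, ← Finset.sum_range_reflect]
    refine Finset.sum_congr rfl fun i hi => ?_
    have := Finset.mem_range.1 hi
    rw [show A - 1 - (A - 1 - i) = i by omega]
    ring

theorem Lam_sum {n : Type} [Fintype n] (g : ℚ) (A : ℕ) (t d : n → ℕ → ℚ) (x : n → ℚ) (l : ℕ) :
    Lam g A (fun i => ∑ r, t r i * x r) (fun i => ∑ r, d r i * x r) l =
      ∑ r, Lam g A (t r) (d r) l * x r := by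
  unfold Lam
  simp only [sub_mul, Finset.sum_sub_distrib, Finset.sum_mul, Finset.mul_sum]
  rw [Finset.sum_comm, Finset.sum_comm (s := range A)]
  refine congrArg₂ (· - ·) ?_ ?_ <;>
    exact Finset.sum_congr rfl fun r _ => Finset.sum_congr rfl fun i _ => by ring

theorem al_sum {n : Type} [Fintype n] (p A : ℕ) (t d : n → ℕ → ℚ) (x : n → ℚ) (j : ℕ) :
    al p A (fun i => ∑ r, t r i * x r) (fun i => ∑ r, d r i * x r) j =
      ∑ r, al p A (t r) (d r) j * x r := by
  unfold al
  simp only [sub_mul, Finset.sum_sub_distrib, Finset.sum_mul, Finset.mul_sum]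
  rw [Finset.sum_comm]
  refine congrArg₂ (· - ·) (Finset.sum_congr rfl fun r _ => by ring) ?_
  exact Finset.sum_congr rfl fun r _ => Finset.sum_congr rfl fun i _ => by ring

noncomputable def tt (N r i : ℕ) : ℚ := (QP (2 * N) (KK N r)).coeff (49 * N - i)

noncomputable def dd (N r i : ℕ) : ℚ := (QD (2 * N) (KK N r)).coeff (49 * N - 1 - i)

noncomputable def rr (N j l : ℕ) : ℚ := (col (6 * N) (2 * N) j).coeff l

noncomputable def rowc (p N : ℕ) : Fin (49 * N - p) ⊕ Fin (30 * N + 1 - p) → Fin (36 * N) → ℚ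
  | Sum.inl a => fun r => al p (49 * N) (tt N r) (dd N r) (p + a)
  | Sum.inr c => fun r => dd N r (14 * N - 1 + c)

theorem main_step (hm : p = 2 * m + 1) {g : ℚ} (hg : Ig p g) {N : ℕ} (hN : 1 ≤ N)
    (h1 : 49 * N < 2 * p) (x y : Fin (36 * N) → ℤ)
    (hx : ∀ i, Sm p (∑ r, rowc p N i r * x r))
    (hy : ∀ l, (6 * N ≤ l ∧ l + p < 49 * N) ∨ (p ≤ l ∧ l < 44 * N) →
      Sm p (∑ j : Fin (36 * N), rr N j l * y j)) :
    Ig p (∑ r, ∑ j, (x r : ℚ) * Emat g N r j * y j) := by
  set t : ℕ → ℚ := fun i => ∑ r : Fin (36 * N), tt N r i * x r with htdef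
  set d : ℕ → ℚ := fun i => ∑ r : Fin (36 * N), dd N r i * x r with hddef
  have ht : ∀ i, Ig p (t i) := fun i => Ig.sum fun r _ => (ig_int _).mul (ig_int _)
  have hd : ∀ i, Ig p (d i) := fun i => Ig.sum fun r _ => (ig_int _).mul (ig_int _)
  have hE : ∑ r, ∑ j, (x r : ℚ) * Emat g N r j * y j = ∑ l ∈ range (49 * N),
      (∑ j : Fin (36 * N), rr N j l * y j) * Lam g (49 * N) t d l := by
    have h2 : ∀ r j : Fin (36 * N), Emat g N r j =
        ∑ l ∈ range (49 * N), rr N j l * Lam g (49 * N) (tt N r) (dd N r) l := fun r j => by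
      have hj := j.2
      exact lam_eq g (by omega) _ _ _ (coeff_col_eq_zero _ _ _ _ (Or.inr (by omega)))
    simp only [h2, htdef, hddef, Lam_sum, Finset.mul_sum, Finset.sum_mul]
    rw [Finset.sum_comm (s := range (49 * N))]
    refine Finset.sum_congr rfl fun r _ => ?_
    rw [Finset.sum_comm (s := range (49 * N))]
    exact Finset.sum_congr rfl fun j _ => Finset.sum_congr rfl fun l _ => by ring
  have hal : ∀ j, p ≤ j → j < 49 * N → Sm p (al p (49 * N) t d j) := fun j h2 h3 => by
    have := hx (Sum.inl ⟨j - p, by omega⟩)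
    simp only [rowc, show p + (j - p) = j by omega] at this
    rw [htdef, hddef, al_sum]
    exact this
  have hK : ∀ r : Fin (36 * N), (KK N r).natAbs ≤ 33 * N := fun r => by
    have := r.2
    unfold KK
    omega
  rw [hE]
  refine Ig.sum fun l hl => ?_
  have hl' := Finset.mem_range.1 hl
  by_cases h0 : l < 6 * N ∨ 44 * N ≤ l
  · have : ∑ j : Fin (36 * N), rr N j l * y j = 0 := Finset.sum_eq_zero fun j _ => by
      have hj := j.2
      unfold rr
      rw [coeff_col_eq_zero _ _ _ _ (by omega)]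
      simp
    rw [this, zero_mul]
    exact ig_zero
  by_cases h2 : l + p < 49 * N
  · exact ig_of_sm (hy l (Or.inl ⟨by omega, h2⟩)) (Lam_b hm hg ht hd h1 h2 hal)
  by_cases h3 : l < p
  · exact (Ig.sum fun j _ => (ig_int _).mul (ig_int _)).mul
      (Lam_a hm hg ht hd h3 (by omega) hal)
  obtain ⟨c, rfl⟩ : ∃ c, l = p + c := ⟨l - p, by omega⟩
  refine ig_of_sm (hy _ (Or.inr ⟨by omega, by omega⟩)) (Lam_c hm hg ht hd h1 hl' hal ?_ ?_)
  · by_cases h4 : c < 14 * N - 1
    · have : d c = 0 := Finset.sum_eq_zero fun r _ => by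
        have h5 := natDegree_QD (2 * N) (KK N r)
        have h6 := hK r
        unfold dd
        rw [coeff_eq_zero_of_natDegree_lt (by omega)]
        simp
      rw [this]
      exact sm_zero
    · have := hx (Sum.inr ⟨c - (14 * N - 1), by omega⟩)
      simp only [rowc, show 14 * N - 1 + (c - (14 * N - 1)) = c by omega] at this
      exact this
  · simp only [htdef, hddef, Finset.sum_mul]
    rw [Finset.sum_comm]
    refine Finset.sum_congr rfl fun r _ => ?_
    have h5 := hK r
    have h6 := taylor (2 * N) (49 * N) (KK N r) (by omega) c (by omega) (by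
      unfold KK; push_cast; omega)
    unfold dd tt
    rw [← h6, Finset.sum_mul, ← Finset.sum_range_reflect]
    refine Finset.sum_congr rfl fun k hk => ?_
    have := Finset.mem_range.1 hk
    rw [show 49 * N + 1 - 1 - k = 49 * N - k by omega, show 49 * N - (49 * N - k) = k by omega]
    ring

noncomputable def colc (p N : ℕ) : Fin (43 * N - p) ⊕ Fin (44 * N - p) → Fin (36 * N) → ℚ
  | Sum.inl a => fun j => rr N j (6 * N + a)
  | Sum.inr a => fun j => rr N j (p + a)

theorem ig_tt (N r i : ℕ) : Ig p (tt N r i) := ig_int _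

theorem ig_dd (N r i : ℕ) : Ig p (dd N r i) := ig_int _

theorem ig_rr (N r i : ℕ) : Ig p (rr N r i) := ig_int _

theorem ig_rowc (hm : p = 2 * m + 1) {N : ℕ} (h1 : 49 * N < 2 * p)
    (i : Fin (49 * N - p) ⊕ Fin (30 * N + 1 - p)) (r : Fin (36 * N)) : Ig p (rowc p N i r) := by
  cases i with
  | inl a =>
    simp only [rowc]
    exact ig_al hm h1 (ig_tt N r) (ig_dd N r) (Nat.le_add_right _ _)
  | inr c =>
    simp only [rowc]
    exact ig_dd _ _ _

theorem ig_colc {N : ℕ} (i : Fin (43 * N - p) ⊕ Fin (44 * N - p)) (r : Fin (36 * N)) :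
    Ig p (colc p N i r) := by
  cases i <;> simp only [colc] <;> exact ig_rr _ _ _

end BigA

open VC BigA

theorem odd_big {p : ℕ} [Fact p.Prime] (hp : p ≠ 2) (g : ℚ) (hg : padicNorm p g ≤ 1) (N : ℕ)
    (hN : 1 ≤ N) (h1 : 49 * N < 2 * p) (h2 : 49 * N < p ^ 2) :
    padicNorm p (Emat g N).det ≤
      (p : ℚ) ^ ((49 * N - p) + (30 * N + 1 - p) + min (36 * N) ((43 * N - p) + (44 * N - p))) := by
  obtain ⟨m, hm⟩ := (Fact.out : p.Prime).odd_of_ne_two hp
  have hα : ∀ i r, padicNorm p (rowc p N i r) ≤ 1 := ig_rowc hm h1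
  rcases min_choice (36 * N) ((43 * N - p) + (44 * N - p)) with h | h <;> rw [h]
  · have := lat (p := p) (Emat g N) (rowc p N)
      (fun k j : Fin (36 * N) => if k = j then (1 : ℚ) else 0) hα
      (fun k j => by
        split_ifs
        · exact ig_one
        · exact ig_zero)
      (fun x y hx hy => main_step hm hg hN h1 x y hx fun l _ => Sm.sum fun j _ => by
        have h3 := hy j
        simp only [ite_mul, one_mul, zero_mul, Finset.sum_ite_eq, Finset.mem_univ, if_true] at h3
        exact (ig_rr _ _ _).mul_sm h3)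
    simpa only [Fintype.card_sum, Fintype.card_fin] using this
  · have := lat (p := p) (Emat g N) (rowc p N) (colc p N) hα
      ig_colc
      (fun x y hx hy => main_step hm hg hN h1 x y hx fun l hl => by
        rcases hl with hl | hl
        · have h3 := hy (Sum.inl ⟨l - 6 * N, by omega⟩)
          simp only [colc, show 6 * N + (l - 6 * N) = l by omega] at h3
          exact h3
        · have h3 := hy (Sum.inr ⟨l - p, by omega⟩)
          simp only [colc, show p + (l - p) = l by omega] at h3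
          exact h3)
    simpa only [Fintype.card_sum, Fintype.card_fin] using this

end Vale.Agent.P030
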