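import Vale.Agent.P030.Pick

/-! The two cases for the row determinant. -/

namespace Vale.Agent.P030

open Finset

namespace OmX

theorem log_conc {y : ℝ} (h0 : 0 ≤ y) (h1 : y ≤ 1) :
    Real.log (1 + y) ≤ 2 * (y / (1 + y)) * Real.log 2 := by
  have hy : 0 < 1 + y := by linarith
  have hu : 2 * (y / (1 + y)) ≤ 1 := by
    rw [← mul_div_assoc, div_le_one hy]; linarith
  have hu0 : 0 ≤ 2 * (y / (1 + y)) := by positivity
  have h := strictConcaveOn_log_Ioi.concaveOn.2 (show (1 : ℝ) ∈ Set.Ioi 0 by simp)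
    (show (2⁻¹ : ℝ) ∈ Set.Ioi 0 by simp) (show 0 ≤ 1 - 2 * (y / (1 + y)) by linarith) hu0
    (by ring)
  have e : (1 - 2 * (y / (1 + y))) • (1 : ℝ) + (2 * (y / (1 + y))) • (2⁻¹ : ℝ) = (1 + y)⁻¹ := by
    simp only [smul_eq_mul]
    field_simp
    ring
  rw [e, Real.log_inv, Real.log_one, Real.log_inv] at h
  simp only [smul_eq_mul] at h
  linarith

theorem ratio_le {y u : ℝ} (h0 : 0 < y) (h1 : y ≤ 1) (hu : u ≤ 0) :
    Real.log (1 + y * Real.exp u) - Real.log (Real.exp u + y) + (1 - y) / (1 + y) * u ≤ 0 := by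
  set φ : ℝ → ℝ := fun u =>
    Real.log (1 + y * Real.exp u) - Real.log (Real.exp u + y) + (1 - y) / (1 + y) * u with hφ
  have hd : ∀ v, HasDerivAt φ (y * Real.exp v / (1 + y * Real.exp v) -
      Real.exp v / (Real.exp v + y) + (1 - y) / (1 + y) * 1) v := by
    intro v
    have hv := Real.exp_pos v
    exact (((((Real.hasDerivAt_exp v).const_mul y).const_add 1).log (by positivity)).sub
      (((Real.hasDerivAt_exp v).add_const y).log (by positivity))).add
      ((hasDerivAt_id v).const_mul _)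
  have hm : Monotone φ := by
    refine monotone_of_deriv_nonneg (fun v => (hd v).differentiableAt) fun v => ?_
    rw [(hd v).deriv]
    have hv := Real.exp_pos v
    generalize Real.exp v = s at hv
    have e : y * s / (1 + y * s) - s / (s + y) + (1 - y) / (1 + y) * 1 =
        (1 - y) * (y * (1 - s) ^ 2) / ((1 + y) * ((1 + y * s) * (s + y))) := by
      field_simp
      ring
    rw [e]
    have : 0 ≤ 1 - y := by linarith
    positivity
  have h := hm hu
  simp only [hφ, Real.exp_zero, mul_one, mul_zero, add_zero] at h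
  simpa using h

theorem htau_of {n : ℕ} (x : Fin n → ℝ) (D : ℕ) (L τ : ℝ) (h0 : 0 < τ)
    (h : 2 * D * Real.log τ + ∑ i, Real.log (1 + x i ^ 2 * τ ^ 2) ≤
      2 * L + ∑ i, Real.log (τ ^ 2 + x i ^ 2)) :
    τ ^ (2 * D) * ∏ i, (1 + x i ^ 2 * τ ^ 2) ≤ Real.exp L ^ 2 * ∏ i, (τ ^ 2 + x i ^ 2) := by
  have h2 := Real.exp_le_exp.2 h
  rw [Real.exp_add, Real.exp_add, Real.exp_sum, Real.exp_sum] at h2
  have e1 : Real.exp (2 * D * Real.log τ) = τ ^ (2 * D) := by
    rw [show (2 * D : ℝ) = ((2 * D : ℕ) : ℝ) by push_cast; ring, Real.exp_nat_mul, Real.exp_log h0]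
  have e2 : Real.exp (2 * L) = Real.exp L ^ 2 := by
    rw [show (2 : ℝ) = ((2 : ℕ) : ℝ) by norm_num, Real.exp_nat_mul]
  rw [e1, e2, Finset.prod_congr rfl fun i _ => Real.exp_log (by positivity),
    Finset.prod_congr rfl fun i _ => Real.exp_log (by positivity)] at h2
  exact h2

theorem exists_L (N : ℕ) (x : Fin (36 * N) → ℝ) (hx : ∀ i, |x i| < 1) (h0 : ∀ i, x i ≠ 0) :
    ∃ (ex : ℝ → ℝ) (L : ℝ), (ex = (fun _ => 0) ∨ ex = ex2) ∧ 0 ≤ L ∧ L ≤ ∑ i, ex (x i) ∧
      ∀ τ : ℝ, 0 < τ → τ < 1 → τ ^ (2 * (30 * N + 1)) * ∏ i, (1 + x i ^ 2 * τ ^ 2) ≤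
        Real.exp L ^ 2 * ∏ i, (τ ^ 2 + x i ^ 2) := by
  have l2 : 0 < Real.log 2 := Real.log_pos (by norm_num)
  have y0 : ∀ i, 0 < x i ^ 2 := fun i => by have := h0 i; positivity
  have y1 : ∀ i, x i ^ 2 ≤ 1 := fun i => by
    have := hx i
    rw [← sq_abs]
    nlinarith [abs_nonneg (x i)]
  by_cases hc : 6 * N * Real.log 2 ≤ ∑ i, Real.log (1 + x i ^ 2)
  · refine ⟨fun _ => 0, 0, Or.inl rfl, le_rfl, by simp, fun τ t0 t1 => htau_of x _ 0 τ t0 ?_⟩
    have lt : Real.log τ < 0 := Real.log_neg t0 t1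
    have et : Real.exp (2 * Real.log τ) = τ ^ 2 := by
      rw [show (2 : ℝ) = ((2 : ℕ) : ℝ) by norm_num, Real.exp_nat_mul, Real.exp_log t0]
    have h1 : ∀ i, Real.log (1 + x i ^ 2 * τ ^ 2) ≤ Real.log (τ ^ 2 + x i ^ 2) +
        (-2 * Real.log τ) * (1 - Real.log (1 + x i ^ 2) / Real.log 2) := by
      intro i
      have a1 := ratio_le (y0 i) (y1 i) (u := 2 * Real.log τ) (by linarith)
      rw [et] at a1
      have a2 := log_conc (y0 i).le (y1 i)
      have a3 : Real.log (1 + x i ^ 2) / Real.log 2 ≤ 2 * (x i ^ 2 / (1 + x i ^ 2)) :=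
        (div_le_iff₀ l2).2 a2
      have a4 : (1 - x i ^ 2) / (1 + x i ^ 2) = 1 - 2 * (x i ^ 2 / (1 + x i ^ 2)) := by
        field_simp
        ring
      rw [a4] at a1
      nlinarith
    have h2 := Finset.sum_le_sum fun i (_ : i ∈ Finset.univ) => h1 i
    rw [Finset.sum_add_distrib, ← Finset.mul_sum, Finset.sum_sub_distrib, ← Finset.sum_div] at h2
    simp only [Finset.sum_const, Finset.card_univ, Fintype.card_fin, nsmul_eq_mul, mul_one] at h2
    have h3 : (6 * N : ℝ) ≤ (∑ i, Real.log (1 + x i ^ 2)) / Real.log 2 := (le_div_iff₀ l2).2 hc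
    push_cast at h2 ⊢
    nlinarith
  · have lx : ∀ i, Real.log |x i| ≤ 0 := fun i => Real.log_nonpos (abs_nonneg _) (hx i).le
    have ly : ∀ i, 0 ≤ Real.log (1 + x i ^ 2) := fun i => Real.log_nonneg (by linarith [y0 i])
    refine ⟨ex2, ∑ i, (-(1 / 6) * Real.log |x i| + 1 / 2 * Real.log (1 + x i ^ 2)), Or.inr rfl,
      Finset.sum_nonneg fun i _ => by linarith [lx i, ly i], ?_,
      fun τ t0 t1 => htau_of x _ _ τ t0 ?_⟩
    · simp only [ex2, Finset.sum_add_distrib, ← Finset.mul_sum, Finset.sum_sub_distrib,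
        Finset.sum_const, Finset.card_univ, Fintype.card_fin, nsmul_eq_mul]
      push_cast
      linarith [not_le.1 hc]
    · have lt : Real.log τ < 0 := Real.log_neg t0 t1
      have h1 : ∀ i, Real.log (1 + x i ^ 2 * τ ^ 2) + 5 / 3 * Real.log τ ≤
          2 * (-(1 / 6) * Real.log |x i| + 1 / 2 * Real.log (1 + x i ^ 2)) +
            Real.log (τ ^ 2 + x i ^ 2) := by
        intro i
        have a1 : Real.log (τ ^ 2) ≤ Real.log (τ ^ 2 + x i ^ 2) :=
          Real.log_le_log (by positivity) (by linarith [y0 i])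
        have a2 : Real.log (|x i| ^ 2) ≤ Real.log (τ ^ 2 + x i ^ 2) := by
          rw [sq_abs]
          exact Real.log_le_log (y0 i) (by nlinarith)
        have a3 : Real.log (1 + x i ^ 2 * τ ^ 2) ≤ Real.log (1 + x i ^ 2) :=
          Real.log_le_log (by positivity) (by
            have : τ ^ 2 ≤ 1 := by nlinarith
            nlinarith [y0 i])
        rw [Real.log_pow] at a1 a2
        push_cast at a1 a2
        linarith
      have h2 := Finset.sum_le_sum fun i (_ : i ∈ Finset.univ) => h1 i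
      rw [Finset.sum_add_distrib, Finset.sum_add_distrib, ← Finset.mul_sum, ← Finset.mul_sum] at h2
      simp only [Finset.sum_const, Finset.card_univ, Fintype.card_fin, nsmul_eq_mul] at h2
      push_cast at h2 ⊢
      nlinarith

theorem abs_vdm {n : ℕ} (x : Fin n → ℝ) (hinj : Function.Injective x) :
    |vdm x| = Real.exp (lv x) := by
  rw [vdm, lv, Real.exp_sum, Finset.abs_prod]
  refine Finset.prod_congr rfl fun i _ => ?_
  rw [Real.exp_sum, Finset.abs_prod]
  refine Finset.prod_congr rfl fun j hj => ?_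
  rw [Real.exp_log]
  exact abs_pos.2 (sub_ne_zero.2 fun h => (Finset.mem_Ioi.1 hj).ne' (hinj h))

/-- the column factor -/
noncomputable def cf (N : ℕ) (x : ℝ) : ℝ :=
  -(tau x ^ (47 * N - 1) * (1 - tau x) ^ (2 * N) * (x ^ (33 * N))⁻¹) *
    ((if 0 < x then 1 / 4 else 1 / 2) * dtau x)

theorem Phi_eq (N : ℕ) (r : Fin (36 * N)) (x : ℝ) (h0 : x ≠ 0) :
    Phi (2 * N) (47 * N - 1) (KK N r) x = cf N x * (x ^ ((Fin.rev r : Fin (36 * N)) : ℕ) +
      (if 0 < x then 5 else -1) *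
        x ^ (30 * N + 1 + (36 * N - 1 - (Fin.rev r : Fin (36 * N))))) := by
  have hr := r.isLt
  have e1 : x ^ (-KK N r) = (x ^ (33 * N))⁻¹ * x ^ ((Fin.rev r : Fin (36 * N)) : ℕ) := by
    rw [← zpow_natCast, ← zpow_natCast, ← zpow_neg, ← zpow_add₀ h0]
    congr 1
    rw [Fin.val_rev, KK]
    omega
  have e2 : x ^ (KK N r) = (x ^ (33 * N))⁻¹ *
      x ^ (30 * N + 1 + (36 * N - 1 - (Fin.rev r : Fin (36 * N)))) := by
    rw [← zpow_natCast, ← zpow_natCast, ← zpow_neg, ← zpow_add₀ h0]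
    congr 1
    rw [Fin.val_rev, KK]
    omega
  rw [Phi, cf, e1, e2]
  split_ifs <;> ring

theorem abs_cf (N : ℕ) (x : ℝ) (hx : |x| < 1) (h0 : x ≠ 0) :
    |cf N x| ≤ Real.exp (((47 * N - 1 : ℕ) : ℝ) * Real.log |tau x|
      + 2 * N * Real.log (1 - tau x) - 33 * N * Real.log |x|) := by
  have hx' := abs_lt.1 hx
  have y1 : x ^ 2 < 1 := by nlinarith
  have t0 : 0 < |tau x| := by
    rw [abs_pos, tau]
    positivity
  have t1 : 0 < 1 - tau x := by
    rw [tau, sub_pos, div_lt_one (by positivity)]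
    nlinarith
  have d0 : 0 ≤ dtau x := by
    rw [dtau]
    have : 0 ≤ 1 - x ^ 2 := by linarith
    positivity
  have d1 : dtau x ≤ 2 := by
    rw [dtau, div_le_iff₀ (by positivity)]
    nlinarith [sq_nonneg x, sq_nonneg (x ^ 2)]
  have b1 : |(if 0 < x then 1 / 4 else 1 / 2) * dtau x| ≤ 1 := by
    split_ifs <;> rw [abs_of_nonneg (by positivity)] <;> linarith
  have e : Real.exp (((47 * N - 1 : ℕ) : ℝ) * Real.log |tau x|
      + 2 * N * Real.log (1 - tau x) - 33 * N * Real.log |x|) =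
      |tau x| ^ (47 * N - 1) * (1 - tau x) ^ (2 * N) * (|x| ^ (33 * N))⁻¹ := by
    rw [Real.exp_sub, Real.exp_add, show (2 * N : ℝ) = ((2 * N : ℕ) : ℝ) by push_cast; ring,
      show (33 * N : ℝ) = ((33 * N : ℕ) : ℝ) by push_cast; ring, Real.exp_nat_mul,
      Real.exp_nat_mul, Real.exp_nat_mul, Real.exp_log t0, Real.exp_log t1,
      Real.exp_log (abs_pos.2 h0), div_eq_mul_inv]
  rw [e, cf, abs_mul, abs_neg, abs_mul, abs_mul, abs_inv, abs_pow, abs_pow, abs_pow,
    abs_of_pos t1]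
  exact mul_le_of_le_one_right (by positivity) b1

end OmX

open OmX

theorem det_Phi (N : ℕ) (hN : 1 ≤ N) (x : Fin (36 * N) → ℝ) (hinj : Function.Injective x)
    (hx : ∀ i, |x i| < 1) (h0 : ∀ i, x i ≠ 0) :
    ∃ ex : ℝ → ℝ, (ex = (fun _ => 0) ∨ ex = ex2) ∧
      |(Matrix.of fun (r : Fin (36 * N)) i => Phi (2 * N) (47 * N - 1) (KK N r) (x i)).det| ≤
        Real.exp (∑ i, (((47 * N - 1 : ℕ) : ℝ) * Real.log |tau (x i)|
          + 2 * N * Real.log (1 - tau (x i)) - 33 * N * Real.log |x i| + 36 * N * ex (x i))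
          + lv x + 36 * N * Real.log 60) := by
  obtain ⟨ex, L, hex, L0, L1, hτ⟩ := exists_L N x hx h0
  refine ⟨ex, hex, ?_⟩
  have hp := pick x hinj hx h0 (30 * N + 1) (Real.exp L) (Real.one_le_exp L0) hτ
  set M : Matrix (Fin (36 * N)) (Fin (36 * N)) ℝ := Matrix.of fun (j i : Fin (36 * N)) =>
      x i ^ (j : ℕ) + (if 0 < x i then 5 else -1) * x i ^ (30 * N + 1 + (36 * N - 1 - j)) with hM
  have e : (Matrix.of fun (r : Fin (36 * N)) i => Phi (2 * N) (47 * N - 1) (KK N r) (x i)) =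
      Matrix.of fun r i => cf N (x i) * (M.submatrix Fin.revPerm id) r i := by
    ext r i
    rw [Matrix.of_apply, Phi_eq N r _ (h0 i)]
    rfl
  have e2 : |(M.submatrix Fin.revPerm id).det| = |M.det| := by
    rw [Matrix.det_permute, abs_mul]
    rcases Int.units_eq_one_or (Equiv.Perm.sign (Fin.revPerm : Equiv.Perm (Fin (36 * N))))
      with h | h <;> rw [h] <;> simp
  rw [e, Matrix.det_mul_row, abs_mul, e2, Finset.abs_prod]
  have h1 : ∏ i, |cf N (x i)| ≤ Real.exp (∑ i, (((47 * N - 1 : ℕ) : ℝ) * Real.log |tau (x i)|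
      + 2 * N * Real.log (1 - tau (x i)) - 33 * N * Real.log |x i|)) := by
    rw [Real.exp_sum]
    exact Finset.prod_le_prod (fun i _ => abs_nonneg _) fun i _ => abs_cf N _ (hx i) (h0 i)
  have h2 : (30 * Real.exp L) ^ (36 * N) ≤
      Real.exp (∑ i, 36 * N * ex (x i) + 36 * N * Real.log 60) := by
    rw [← Finset.mul_sum, ← mul_add, show (36 * N : ℝ) = ((36 * N : ℕ) : ℝ) by push_cast; ring,
      Real.exp_nat_mul, Real.exp_add, Real.exp_log (by norm_num)]
    refine pow_le_pow_left₀ (by positivity) ?_ _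
    have := Real.exp_le_exp.2 L1
    have := Real.exp_pos L
    linarith
  rw [abs_vdm x hinj] at hp
  refine (mul_le_mul h1 (hp.trans (mul_le_mul_of_nonneg_right h2 (Real.exp_pos _).le))
    (abs_nonneg _) (Real.exp_pos _).le).trans (le_of_eq ?_)
  rw [← Real.exp_add, ← Real.exp_add, Finset.sum_add_distrib (f := fun i =>
    (((47 * N - 1 : ℕ) : ℝ) * Real.log |tau (x i)|
      + 2 * N * Real.log (1 - tau (x i)) - 33 * N * Real.log |x i|))]
  congr 1
  ring

end Vale.Agent.P030
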