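import Vale.Agent.P030.PickA

/-! Domination by the principal sheet. -/

namespace Vale.Agent.P030

open Finset Polynomial

namespace PickX

open ComplexConjugate

variable {n : ℕ} {x : Fin n → ℝ}

/-- interpolation at the nodes -/
noncomputable def itp (x : Fin n → ℝ) (v : Fin n → ℂ) : ℂ[X] :=
  Lagrange.interpolate univ (fun i => (x i : ℂ)) v

lemma injOn_x (hinj : Function.Injective x) :
    Set.InjOn (fun i => (x i : ℂ)) (↑(univ : Finset (Fin n))) :=
  fun _ _ _ _ h => hinj (Complex.ofReal_injective h)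

lemma itp_deg (hinj : Function.Injective x) (v : Fin n → ℂ) : (itp x v).degree < n := by
  have := Lagrange.degree_interpolate_lt v (injOn_x hinj)
  simpa [itp] using this

lemma itp_eval (hinj : Function.Injective x) (v : Fin n → ℂ) (i : Fin n) :
    (itp x v).eval (x i : ℂ) = v i :=
  Lagrange.eval_interpolate_at_node v (injOn_x hinj) (mem_univ i)

lemma eq_of_eval (hinj : Function.Injective x) {p q : ℂ[X]} (hp : p.degree < n)
    (hq : q.degree < n) (h : ∀ i, p.eval (x i : ℂ) = q.eval (x i : ℂ)) : p = q :=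
  Polynomial.eq_of_degrees_lt_of_eval_index_eq univ (injOn_x hinj) (by simpa using hp)
    (by simpa using hq) fun i _ => h i

lemma ip_itp (hx : ∀ i, |x i| < 1) (v : Fin n → ℂ) (q : ℂ[X]) :
    ip x (itp x v) q = ∑ i, v i * ip x (Lagrange.basis univ (fun i => (x i : ℂ)) i) q := by
  rw [← ip_sum hx]
  congr 1
  rw [itp, Lagrange.interpolate_apply]
  simp only [smul_eq_C_mul]

/-- the numerator of the Blaschke product -/
noncomputable def Pf (x : Fin n → ℝ) (z : ℂ) : ℂ := ∏ i, (z - (x i : ℂ))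

lemma conj_Pf (z : ℂ) : conj (Pf x z) = Pf x (conj z) := by
  simp [Pf, map_prod]

lemma norm_Pf {z : ℂ} (hz : ‖z‖ = 1) : ‖Pf x z‖ = ‖Qf x z‖ := by
  have hz0 : z ≠ 0 := by
    rintro rfl
    simp at hz
  have h1 : z⁻¹ = conj z := (Complex.inv_eq_conj hz)
  rw [Pf, ← pow_mul_Qf hz0, norm_mul, norm_pow, hz, one_pow, one_mul, h1, ← conj_Qf,
    Complex.norm_conj]

lemma near_le {u v : ℂ} {t : ℝ} (hu : ‖u‖ = 1) (hv : ‖v‖ = 1) (h0 : 0 ≤ t) (h1 : t ≤ 1) :
    ‖u + v‖ ≤ 2 * ‖u + t * v‖ := by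
  have h2 : ‖u + v‖ ≤ ‖u + t * v‖ + (1 - t) := by
    have : u + v = (u + t * v) + ((1 - t : ℝ) : ℂ) * v := by
      push_cast
      ring
    rw [this]
    refine (norm_add_le _ _).trans ?_
    rw [norm_mul, Complex.norm_real, hv, mul_one, Real.norm_eq_abs, abs_of_nonneg (by linarith)]
  have h3 : 1 ≤ ‖u + t * v‖ + t := by
    have : u = (u + t * v) - (t : ℂ) * v := by ring
    have h4 := norm_sub_le (u + t * v) ((t : ℂ) * v)
    rw [← this, hu, norm_mul, Complex.norm_real, hv, mul_one, Real.norm_eq_abs,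
      abs_of_nonneg h0] at h4
    exact h4
  linarith

lemma ne_of_lt_norm {u v : ℂ} (h : ‖v‖ < ‖u‖) : u + v ≠ 0 := by
  intro h1
  have : u = -v := by linear_combination h1
  rw [this, norm_neg] at h
  exact lt_irrefl _ h

lemma div_le_of {a b : ℂ} {K : ℝ} (hK : 0 ≤ K) (h : ‖a‖ ≤ K * ‖b‖) : ‖a / b‖ ≤ K := by
  rw [norm_div]
  exact div_le_of_le_mul₀ (norm_nonneg _) hK h

/-- the bound for one value of the parameter -/
lemma piece (hinj : Function.Injective x) (hx : ∀ i, |x i| < 1) (D : ℕ) (Ω : ℝ) (hΩ : 1 ≤ Ω)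
    (τ : ℝ) (h0 : 0 < τ) (h1 : τ < 1)
    (hτ : τ ^ (2 * D) * ∏ i, (1 + x i ^ 2 * τ ^ 2) ≤ Ω ^ 2 * ∏ i, (τ ^ 2 + x i ^ 2))
    (q : ℂ[X]) :
    nsq x (itp x fun i => ((x i / (x i ^ 2 + τ ^ 2) + x i / (1 + τ ^ 2 * x i ^ 2) : ℝ) : ℂ) *
      ((((1 + x i ^ 2) * x i ^ D : ℝ) : ℂ) * q.eval (x i : ℂ))) ≤ (8 * Ω) ^ 2 * nsq x q := by
  set a : ℂ := τ * Complex.I with ha
  have hna : ‖a‖ = τ := by simp [ha, abs_of_pos h0]
  have hca : conj a = -a := by simp [ha]
  have ha2 : a ^ 2 = -(τ : ℂ) ^ 2 := by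
    rw [ha, mul_pow, Complex.I_sq]
    ring
  have hPa : Pf x a ≠ 0 := by
    refine Finset.prod_ne_zero_iff.2 fun i _ h => ?_
    have := congrArg Complex.im h
    simp [ha] at this
    exact h0.ne' this
  set c : ℂ := a ^ D * Qf x a / (2 * Pf x a) with hc
  have hcn : ‖c‖ ≤ Ω / 2 := by
    refine div_le_of (by positivity) ?_
    have e1 : ‖Qf x a‖ ^ 2 = ∏ i, (1 + x i ^ 2 * τ ^ 2) := by
      rw [Qf, norm_prod, ← Finset.prod_pow]
      refine Finset.prod_congr rfl fun i _ => ?_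
      rw [Complex.sq_norm, Complex.normSq_apply]
      simp [ha]
      ring
    have e2 : ‖Pf x a‖ ^ 2 = ∏ i, (τ ^ 2 + x i ^ 2) := by
      rw [Pf, norm_prod, ← Finset.prod_pow]
      refine Finset.prod_congr rfl fun i _ => ?_
      rw [Complex.sq_norm, Complex.normSq_apply]
      simp [ha]
      ring
    rw [← e1, ← e2, pow_mul', ← mul_pow, ← mul_pow] at hτ
    have h3 := abs_le_of_sq_le_sq hτ (by positivity)
    rw [abs_of_nonneg (by positivity)] at h3
    rw [norm_mul, norm_mul, norm_pow, hna, Complex.norm_two]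
    linarith
  set Pp : ℂ[X] := ∏ i, (X - C (x i : ℂ)) with hPp
  set Qp : ℂ[X] := ∏ i, (1 - C (x i : ℂ) * X) with hQp
  have eP : ∀ z, Pp.eval z = Pf x z := fun z => by simp [hPp, Pf, eval_prod]
  have eQ : ∀ z, Qp.eval z = Qf x z := fun z => by simp [hQp, Qf, eval_prod]
  set N : ℂ[X] := X ^ (D + 1) * Qp - Pp * (C c * (X + C a) + C (conj c) * (X - C a)) with hN
  have eN : ∀ z, N.eval z =
      z ^ (D + 1) * Qf x z - Pf x z * (c * (z + a) + conj c * (z - a)) := fun z => by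
    simp [hN, eP, eQ]
  have r1 : a ^ (D + 1) * Qf x a = Pf x a * (c * (2 * a)) := by
    rw [hc]
    field_simp
    ring
  have r2 : (-a) ^ (D + 1) * Qf x (-a) = Pf x (-a) * (conj c * (2 * -a)) := by
    have := congrArg conj r1
    rw [map_mul, map_mul, map_mul, map_mul, map_pow, conj_Qf, conj_Pf, hca, map_ofNat] at this
    exact this
  have hdvd : (X - C a) * (X - C (-a)) ∣ N := by
    refine IsCoprime.mul_dvd (isCoprime_X_sub_C_of_isUnit_sub ?_) ?_ ?_
    · refine isUnit_iff_ne_zero.2 fun h => ?_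
      have h2 : a = 0 := by linear_combination h / 2
      rw [h2, norm_zero] at hna
      exact h0.ne hna
    · rw [dvd_iff_isRoot, IsRoot.def, eN, r1]
      ring
    · rw [dvd_iff_isRoot, IsRoot.def, eN, r2]
      ring
  obtain ⟨W, hW⟩ := hdvd
  have eW : ∀ z, (z - a) * (z + a) * W.eval z =
      z ^ (D + 1) * Qf x z - Pf x z * (c * (z + a) + conj c * (z - a)) := fun z => by
    rw [← eN, hW]
    simp
  have hG1 : ∀ z : ℂ, ‖z‖ ≤ 1 → 1 + (τ : ℂ) ^ 2 * z ^ 2 ≠ 0 := fun z hz => by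
    refine ne_of_lt_norm ?_
    rw [norm_one, norm_mul, norm_pow, norm_pow, Complex.norm_real, Real.norm_eq_abs,
      abs_of_pos h0]
    have h2 : ‖z‖ ^ 2 ≤ 1 := pow_le_one₀ (norm_nonneg _) hz
    have h3 : τ ^ 2 < 1 := pow_lt_one₀ h0.le h1 two_ne_zero
    nlinarith [sq_nonneg τ]
  refine pick_pair x hinj hx q _
    ((1 + X ^ 2) * (X ^ (D + 1) * Qp + W * (1 + C ((τ : ℂ) ^ 2) * X ^ 2)))
    ((1 + C ((τ : ℂ) ^ 2) * X ^ 2) * Qp) (itp_deg hinj _) (fun z hz => ?_) (8 * Ω)
    (by positivity) (fun z hz => ?_) fun i => ?_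
  · simp only [eval_mul, eval_add, eval_one, eval_C, eval_pow, eval_X, eQ]
    exact mul_ne_zero (hG1 z hz) (Qf_ne hx hz)
  · simp only [eval_mul, eval_add, eval_one, eval_C, eval_pow, eval_X, eQ]
    have hQ := Qf_ne hx hz.le
    have hG := hG1 z hz.le
    have hp : z + a ≠ 0 := ne_of_lt_norm (by rw [hna, hz]; exact h1)
    have hm : z - a ≠ 0 := by
      rw [sub_eq_add_neg]
      exact ne_of_lt_norm (by rw [norm_neg, hna, hz]; exact h1)
    have e : (1 + z ^ 2) * (z ^ (D + 1) * Qf x z + W.eval z * (1 + (τ : ℂ) ^ 2 * z ^ 2)) =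
        ((1 + z ^ 2) / (1 + (τ : ℂ) ^ 2 * z ^ 2) * z ^ (D + 1) +
          (1 + z ^ 2) / ((z - a) * (z + a)) * z ^ (D + 1) -
          Pf x z / Qf x z * c * ((1 + z ^ 2) / (z - a)) -
          Pf x z / Qf x z * conj c * ((1 + z ^ 2) / (z + a))) *
        ((1 + (τ : ℂ) ^ 2 * z ^ 2) * Qf x z) := by
      have := eW z
      clear_value c a
      generalize 1 + (τ : ℂ) ^ 2 * z ^ 2 = g at *
      field_simp
      linear_combination (1 + z ^ 2) * g * this
    rw [e, norm_mul]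
    gcongr
    have hz2 : ‖z ^ 2‖ = 1 := by rw [norm_pow, hz, one_pow]
    have ht2 : τ ^ 2 ≤ 1 := pow_le_one₀ h0.le h1.le
    have b1 : ‖(1 + z ^ 2) / (1 + (τ : ℂ) ^ 2 * z ^ 2)‖ ≤ 2 := by
      refine div_le_of zero_le_two ?_
      have := near_le (u := 1) (v := z ^ 2) (t := τ ^ 2) norm_one hz2 (sq_nonneg _) ht2
      simpa using this
    have b2 : ‖(1 + z ^ 2) / ((z - a) * (z + a))‖ ≤ 2 := by
      refine div_le_of zero_le_two ?_
      have := near_le (u := z ^ 2) (v := 1) (t := τ ^ 2) hz2 norm_one (sq_nonneg _) ht2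
      have e2 : (z - a) * (z + a) = z ^ 2 + ((τ ^ 2 : ℝ) : ℂ) * 1 := by
        push_cast
        linear_combination -ha2
      rw [e2, add_comm 1]
      exact this
    have f1 : 1 + z ^ 2 = (z + Complex.I) * (z + -Complex.I) := by
      linear_combination Complex.I_sq
    have n1 : ‖z + Complex.I‖ ≤ 2 := (norm_add_le _ _).trans (by rw [hz, Complex.norm_I]; norm_num)
    have n2 : ‖z + -Complex.I‖ ≤ 2 :=
      (norm_add_le _ _).trans (by rw [hz, norm_neg, Complex.norm_I]; norm_num)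
    have b3 : ‖(1 + z ^ 2) / (z - a)‖ ≤ 4 := by
      refine div_le_of (by norm_num) ?_
      have := near_le (u := z) (v := -Complex.I) (t := τ) hz (by simp) h0.le h1.le
      have e2 : z - a = z + τ * -Complex.I := by rw [ha]; ring
      rw [f1, e2, norm_mul]
      nlinarith [norm_nonneg (z + Complex.I), norm_nonneg (z + -Complex.I),
        norm_nonneg (z + τ * -Complex.I)]
    have b4 : ‖(1 + z ^ 2) / (z + a)‖ ≤ 4 := by
      refine div_le_of (by norm_num) ?_
      have := near_le (u := z) (v := Complex.I) (t := τ) hz (by simp) h0.le h1.le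
      rw [f1, ha, norm_mul]
      nlinarith [norm_nonneg (z + Complex.I), norm_nonneg (z + -Complex.I),
        norm_nonneg (z + τ * Complex.I)]
    have b5 : ‖Pf x z / Qf x z‖ ≤ 1 := div_le_of zero_le_one (by rw [norm_Pf hz, one_mul])
    have b6 : ‖z ^ (D + 1)‖ = 1 := by rw [norm_pow, hz, one_pow]
    have c3 : ‖Pf x z / Qf x z * c * ((1 + z ^ 2) / (z - a))‖ ≤ 1 * (Ω / 2) * 4 := by
      rw [norm_mul, norm_mul]
      gcongr
    have c4 : ‖Pf x z / Qf x z * conj c * ((1 + z ^ 2) / (z + a))‖ ≤ 1 * (Ω / 2) * 4 := by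
      rw [norm_mul, norm_mul, Complex.norm_conj]
      gcongr
    refine (norm_sub_le _ _).trans ?_
    refine (add_le_add (norm_sub_le _ _) le_rfl).trans ?_
    refine (add_le_add (add_le_add (norm_add_le _ _) le_rfl) le_rfl).trans ?_
    rw [norm_mul, norm_mul, b6]
    linarith
  · rw [itp_eval hinj]
    simp only [eval_mul, eval_add, eval_one, eval_C, eval_pow, eval_X, eQ]
    have hP0 : Pf x (x i : ℂ) = 0 := Finset.prod_eq_zero (mem_univ i) (sub_self _)
    have h2 := eW (x i)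
    rw [hP0, zero_mul, sub_zero] at h2
    have hG := hG1 (x i) (by rw [Complex.norm_real]; exact (hx i).le)
    have h3 : ((x i : ℂ) ^ 2 + (τ : ℂ) ^ 2) ≠ 0 := by
      have : x i ^ 2 + τ ^ 2 ≠ 0 := by positivity
      exact_mod_cast this
    have h4 : W.eval (x i : ℂ) = (x i : ℂ) ^ (D + 1) * Qf x (x i) / ((x i : ℂ) ^ 2 + (τ : ℂ) ^ 2) := by
      rw [eq_div_iff h3, ← h2]
      linear_combination W.eval (x i : ℂ) * ha2
    rw [h4]
    push_cast
    generalize 1 + (τ : ℂ) ^ 2 * (x i : ℂ) ^ 2 = g at *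
    generalize (x i : ℂ) ^ 2 + (τ : ℂ) ^ 2 = g' at *
    field_simp
    ring

lemma int_sign {y : ℝ} (hy : y ≠ 0) :
    ∫ τ in (0 : ℝ)..1, (y / (y ^ 2 + τ ^ 2) + y / (1 + τ ^ 2 * y ^ 2)) =
      (if 0 < y then 1 else -1) * (Real.pi / 2) := by
  have e : ∀ τ : ℝ, y / (1 + τ ^ 2 * y ^ 2) = y⁻¹ / (y⁻¹ ^ 2 + τ ^ 2) := fun τ => by
    field_simp
  have hi : ∀ c : ℝ, c ≠ 0 →
      IntervalIntegrable (fun τ : ℝ => c / (c ^ 2 + τ ^ 2)) MeasureTheory.volume 0 1 :=
    fun c hc => (Continuous.div continuous_const (by fun_prop)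
      fun τ => by positivity).intervalIntegrable _ _
  simp only [e]
  rw [intervalIntegral.integral_add (hi y hy) (hi _ (inv_ne_zero hy)), integral_div_sq_add_sq,
    integral_div_sq_add_sq]
  simp only [zero_div, Real.arctan_zero, sub_zero, one_div, inv_inv]
  split_ifs with h
  · rw [Real.arctan_inv_of_pos h]
    ring
  · rw [Real.arctan_inv_of_neg (lt_of_le_of_ne (not_lt.1 h) hy)]
    ring

lemma sqrt_le_of {A B K : ℝ} (hK : 0 ≤ K) (h : A ≤ K ^ 2 * B) : √A ≤ K * √B := by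
  refine (Real.sqrt_le_sqrt h).trans (le_of_eq ?_)
  rw [Real.sqrt_mul (sq_nonneg K), Real.sqrt_sq hK]

/-- a determinant bound through generalized eigenvalues -/
lemma det_le (A B : Matrix (Fin n) (Fin n) ℂ) (hB : B.det ≠ 0) (K : ℝ) (hK : 0 ≤ K)
    (h : ∀ (l : ℂ) (w : Fin n → ℂ), w ≠ 0 → Matrix.vecMul w A = l • Matrix.vecMul w B →
      ‖l‖ ≤ K) : ‖A.det‖ ≤ K ^ n * ‖B.det‖ := by
  have hu : IsUnit B.det := isUnit_iff_ne_zero.2 hB
  set O := A * B⁻¹ with hO
  have e1 : O * B = A := by rw [hO, Matrix.nonsing_inv_mul_cancel_right _ _ hu]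
  have e2 : A.det = O.det * B.det := by rw [← e1, Matrix.det_mul]
  rw [e2, norm_mul]
  gcongr
  rw [Matrix.det_eq_prod_roots_charpoly]
  have hr : ∀ l ∈ O.charpoly.roots, ‖l‖ ≤ K := by
    intro l hl
    have h1 : O.charpoly.eval l = 0 := isRoot_of_mem_roots hl
    rw [Matrix.eval_charpoly] at h1
    obtain ⟨w, hw, h2⟩ := Matrix.exists_vecMul_eq_zero_iff.2 h1
    refine h l w hw ?_
    rw [Matrix.vecMul_sub, sub_eq_zero] at h2
    rw [← e1, ← Matrix.vecMul_vecMul, ← h2, ← Matrix.smul_vecMul]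
    congr 1
    ext i
    simp [Matrix.scalar_apply, Matrix.vecMul_diagonal, mul_comm]
  have hc : Multiset.card O.charpoly.roots = n := by
    rw [← (IsAlgClosed.splits O.charpoly).natDegree_eq_card_roots, Matrix.charpoly_natDegree_eq_dim,
      Fintype.card_fin]
  have gen : ∀ s : Multiset ℂ, (∀ l ∈ s, ‖l‖ ≤ K) → ‖s.prod‖ ≤ K ^ Multiset.card s := by
    intro s
    induction s using Multiset.induction_on with
    | empty => simp
    | cons a s ih =>
      intro hs
      rw [Multiset.prod_cons, Multiset.card_cons, norm_mul, pow_succ']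
      exact mul_le_mul (hs a (Multiset.mem_cons_self a s))
        (ih fun l hl => hs l (Multiset.mem_cons_of_mem hl)) (norm_nonneg _) hK
  have := gen _ hr
  rwa [hc] at this

end PickX

open PickX

theorem pick_sign {n : ℕ} (x : Fin n → ℝ) (hinj : Function.Injective x) (hx : ∀ i, |x i| < 1)
    (h0 : ∀ i, x i ≠ 0) (D : ℕ) (Ω : ℝ) (hΩ : 1 ≤ Ω)
    (hτ : ∀ τ : ℝ, 0 < τ → τ < 1 →
      τ ^ (2 * D) * ∏ i, (1 + x i ^ 2 * τ ^ 2) ≤ Ω ^ 2 * ∏ i, (τ ^ 2 + x i ^ 2))
    (q q' : ℂ[X]) (hq' : q'.degree < n)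
    (hv : ∀ i, q'.eval (x i : ℂ) =
      (((if 0 < x i then 1 else -1) * (1 + x i ^ 2) * x i ^ D : ℝ) : ℂ) * q.eval (x i : ℂ)) :
    √(nsq x q') ≤ 8 * Ω * √(nsq x q) := by
  refine sqrt_le_of (by positivity) ?_
  set k : Fin n → ℝ → ℝ := fun i τ => x i / (x i ^ 2 + τ ^ 2) + x i / (1 + τ ^ 2 * x i ^ 2)
    with hk
  set w : Fin n → ℂ := fun i => ((((1 + x i ^ 2) * x i ^ D : ℝ) : ℂ) * q.eval (x i : ℂ)) *
    ip x (Lagrange.basis univ (fun i => (x i : ℂ)) i) q' with hw
  have hkc : ∀ i, Continuous (k i) := fun i => by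
    have := h0 i
    refine Continuous.add (Continuous.div continuous_const (by fun_prop) fun τ => by positivity)
      (Continuous.div continuous_const (by fun_prop) fun τ => by positivity)
  have e1 : ((Real.pi / 2 * nsq x q' : ℝ) : ℂ) = ∫ τ in (0 : ℝ)..1, ∑ i, (k i τ : ℂ) * w i := by
    rw [intervalIntegral.integral_finsetSum (f := fun i τ => (k i τ : ℂ) * w i) fun i _ =>
      ((Complex.continuous_ofReal.comp (hkc i)).mul continuous_const).intervalIntegrable _ _]
    have e2 : q' = itp x fun i => q'.eval (x i : ℂ) :=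
      eq_of_eval hinj hq' (itp_deg hinj _) fun i => (itp_eval hinj (fun i => q'.eval (x i : ℂ)) i).symm
    have e3 : (nsq x q' : ℂ) = ip x (itp x fun i => q'.eval (x i : ℂ)) q' := by
      rw [← e2, ip_self]
    rw [Complex.ofReal_mul, e3, ip_itp hx, Finset.mul_sum]
    refine Finset.sum_congr rfl fun i _ => ?_
    rw [intervalIntegral.integral_mul_const, intervalIntegral.integral_ofReal, hk, int_sign (h0 i),
      hv i, hw]
    push_cast
    ring
  have e4 : ‖∫ τ in (0 : ℝ)..1, ∑ i, (k i τ : ℂ) * w i‖ ≤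
      ((8 * Ω) ^ 2 * nsq x q + nsq x q') / 2 * |(1 : ℝ) - 0| := by
    refine intervalIntegral.norm_integral_le_of_norm_le_const_ae ?_
    have hae : ∀ᵐ τ : ℝ, τ ∉ ({1} : Set ℝ) :=
      MeasureTheory.measure_eq_zero_iff_ae_notMem.1 (MeasureTheory.measure_singleton 1)
    filter_upwards [hae] with τ h1 h2
    rw [Set.uIoc_of_le zero_le_one] at h2
    have h3 : τ < 1 := lt_of_le_of_ne h2.2 h1
    have h4 := piece hinj hx D Ω hΩ τ h2.1 h3 (hτ τ h2.1 h3) q
    have h5 := norm_ip_le hx (itp x fun i => (k i τ : ℂ) *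
      ((((1 + x i ^ 2) * x i ^ D : ℝ) : ℂ) * q.eval (x i : ℂ))) q'
    rw [ip_itp hx] at h5
    simp only [mul_assoc (k _ τ : ℂ)] at h5
    refine h5.trans ?_
    simp only [hk]
    linarith
  rw [← e1, Complex.norm_real, Real.norm_eq_abs] at e4
  have h6 := nsq_nonneg x q'
  rw [abs_of_nonneg (by positivity), sub_zero, abs_one, mul_one] at e4
  nlinarith [Real.pi_gt_three]

theorem pick {n : ℕ} (x : Fin n → ℝ) (hinj : Function.Injective x) (hx : ∀ i, |x i| < 1)
    (h0 : ∀ i, x i ≠ 0) (D : ℕ) (Ω : ℝ) (hΩ : 1 ≤ Ω)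
    (hτ : ∀ τ : ℝ, 0 < τ → τ < 1 →
      τ ^ (2 * D) * ∏ i, (1 + x i ^ 2 * τ ^ 2) ≤ Ω ^ 2 * ∏ i, (τ ^ 2 + x i ^ 2)) :
    |(Matrix.of fun (j i : Fin n) =>
      x i ^ (j : ℕ) + (if 0 < x i then 5 else -1) * x i ^ (D + (n - 1 - j))).det| ≤
      (30 * Ω) ^ n * |vdm x| := by
  set M : Matrix (Fin n) (Fin n) ℝ := Matrix.of fun (j i : Fin n) =>
      x i ^ (j : ℕ) + (if 0 < x i then 5 else -1) * x i ^ (D + (n - 1 - j)) with hM
  set A : Matrix (Fin n) (Fin n) ℂ := Complex.ofRealHom.mapMatrix M *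
    Matrix.diagonal fun i => ((1 + x i ^ 2 : ℝ) : ℂ) with hA
  set B : Matrix (Fin n) (Fin n) ℂ := (Matrix.vandermonde fun i => (x i : ℂ)).transpose with hB
  have hBd : B.det = (vdm x : ℂ) := by
    rw [hB, Matrix.det_transpose, Matrix.det_vandermonde, vdm]
    push_cast
    rfl
  have hB0 : B.det ≠ 0 := by
    rw [hB, Matrix.det_transpose]
    exact Matrix.det_vandermonde_ne_zero_iff.2 fun i j h => hinj (Complex.ofReal_injective h)
  have hAd : |M.det| ≤ ‖A.det‖ := by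
    rw [hA, Matrix.det_mul, ← RingHom.map_det, Matrix.det_diagonal, norm_mul, norm_prod]
    have : 1 ≤ ∏ i, ‖((1 + x i ^ 2 : ℝ) : ℂ)‖ := by
      refine Finset.one_le_prod fun i _ => ?_
      rw [Complex.norm_real, Real.norm_eq_abs, abs_of_nonneg (by positivity)]
      nlinarith [sq_nonneg (x i)]
    have e : ‖Complex.ofRealHom M.det‖ = |M.det| := by simp
    rw [e]
    exact le_mul_of_one_le_right (abs_nonneg _) this
  have key := det_le A B hB0 (30 * Ω) (by positivity) fun l w hw h => ?_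
  · rw [hBd, Complex.norm_real, Real.norm_eq_abs] at key
    exact hAd.trans key
  set q : ℂ[X] := ∑ j : Fin n, C (w j) * X ^ (j : ℕ) with hq
  have hqd : q.degree < n := degree_sum_fin_lt w
  have hq0 : q ≠ 0 := by
    intro h1
    refine hw (funext fun j => ?_)
    have := congrArg (fun p => coeff p j) h1
    simp only [hq, finsetSum_coeff, coeff_C_mul, coeff_X_pow, coeff_zero] at this
    rw [Finset.sum_eq_single j (fun b _ hb => by simp [Fin.val_inj, hb.symm]) (by simp)] at this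
    simpa using this
  have hqn : q.natDegree ≤ n - 1 := by
    have := (natDegree_lt_iff_degree_lt hq0).2 hqd
    omega
  set r := reflect (n - 1) q with hr
  have hre : ∀ z : ℂ, r.eval z = ∑ j : Fin n, w j * z ^ (n - 1 - j) := by
    intro z
    have : r = ∑ j : Fin n, C (w j) * X ^ (n - 1 - (j : ℕ)) := by
      rw [hr, hq]
      have hs : ∀ s : Finset (Fin n), reflect (n - 1) (∑ j ∈ s, C (w j) * X ^ (j : ℕ)) =
          ∑ j ∈ s, C (w j) * X ^ (n - 1 - (j : ℕ)) := by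
        intro s
        induction s using Finset.induction_on with
        | empty => simp
        | insert a s ha ih =>
          rw [Finset.sum_insert ha, Finset.sum_insert ha, reflect_add, ih, reflect_C_mul_X_pow,
            revAt_le (by have := a.2; omega)]
      exact hs _
    rw [this]
    simp [eval_finsetSum]
  have hqe : ∀ z : ℂ, q.eval z = ∑ j : Fin n, w j * z ^ (j : ℕ) := fun z => by
    simp [hq, eval_finsetSum]
  have hrn : nsq x r = nsq x q := nsq_reflect x hx q _ hqn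
  set q1 := itp x fun i => (1 + (x i : ℂ) ^ 2) * q.eval (x i : ℂ) with hq1
  set q2 := itp x fun i => (1 + (x i : ℂ) ^ 2) * (x i : ℂ) ^ D * r.eval (x i : ℂ) with hq2
  set q3 := itp x fun i =>
    (((if 0 < x i then 1 else -1) * (1 + x i ^ 2) * x i ^ D : ℝ) : ℂ) * r.eval (x i : ℂ) with hq3
  have hb : ∀ z : ℂ, ‖z‖ = 1 → ‖1 + z ^ 2‖ ≤ 2 := fun z hz =>
    (norm_add_le _ _).trans (by rw [norm_pow, hz]; norm_num)
  have b1 : √(nsq x q1) ≤ 2 * √(nsq x q) := by
    refine sqrt_le_of zero_le_two (pick_pair x hinj hx q q1 (1 + X ^ 2) 1 (itp_deg hinj _)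
      (fun z _ => by simp) 2 zero_le_two (fun z hz => by simpa using hb z hz) fun i => ?_)
    rw [hq1, itp_eval hinj]
    simp
  have b2 : √(nsq x q2) ≤ 2 * √(nsq x q) := by
    rw [← hrn]
    refine sqrt_le_of zero_le_two (pick_pair x hinj hx r q2 ((1 + X ^ 2) * X ^ D) 1
      (itp_deg hinj _) (fun z _ => by simp) 2 zero_le_two
      (fun z hz => by simpa [hz] using hb z hz) fun i => ?_)
    rw [hq2, itp_eval hinj]
    simp
  have b3 : √(nsq x q3) ≤ 8 * Ω * √(nsq x q) := by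
    rw [← hrn]
    exact pick_sign x hinj hx h0 D Ω hΩ hτ r q3 (itp_deg hinj _) fun i => itp_eval hinj _ i
  have e : l • q = q1 + (2 : ℂ) • q2 + (3 : ℂ) • q3 := by
    refine eq_of_eval hinj ((degree_smul_le _ _).trans_lt hqd) ?_ fun i => ?_
    · refine (degree_add_le _ _).trans_lt (max_lt ((degree_add_le _ _).trans_lt (max_lt
        (itp_deg hinj _) ?_)) ?_) <;> exact (degree_smul_le _ _).trans_lt (itp_deg hinj _)
    · have h1 := congrFun h i
      simp only [eval_add, eval_smul, smul_eq_mul, hq1, hq2, hq3, itp_eval hinj]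
      have h2 : (l • Matrix.vecMul w B) i = l * q.eval (x i : ℂ) := by
        simp [hB, hqe, Matrix.vecMul, dotProduct, Matrix.vandermonde_apply]
      have h3 : Matrix.vecMul w A i = (q.eval (x i : ℂ) + ((if 0 < x i then 5 else -1 : ℝ) : ℂ) *
          (x i : ℂ) ^ D * r.eval (x i : ℂ)) * (1 + (x i : ℂ) ^ 2) := by
        rw [hA, ← Matrix.vecMul_vecMul, Matrix.vecMul_diagonal, hqe, hre, Finset.mul_sum,
          ← Finset.sum_add_distrib]
        push_cast
        congr 1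
        rw [Matrix.vecMul, dotProduct]
        refine Finset.sum_congr rfl fun j _ => ?_
        simp only [hM, RingHom.mapMatrix_apply, Matrix.map_apply, Matrix.of_apply,
          Complex.ofRealHom_eq_coe]
        push_cast
        ring
      rw [← h2, ← h1, h3]
      split_ifs <;> push_cast <;> ring
  have s1 : ∀ (c : ℂ) (p : ℂ[X]), √(nsq x (c • p)) = ‖c‖ * √(nsq x p) := fun c p => by
    rw [nsq_smul, Real.sqrt_mul (sq_nonneg _), Real.sqrt_sq (norm_nonneg _)]
  have s2 : √(nsq x (l • q)) ≤ √(nsq x q1) + 2 * √(nsq x q2) + 3 * √(nsq x q3) := by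
    rw [e]
    refine (sqrt_nsq_add x hx _ _).trans (add_le_add ((sqrt_nsq_add x hx _ _).trans ?_) ?_)
    · rw [s1, Complex.norm_two]
    · rw [s1]
      simp
  rw [s1] at s2
  have hp : 0 < √(nsq x q) := Real.sqrt_pos.2 (nsq_pos x hx q hq0)
  refine le_of_mul_le_mul_right ?_ hp
  nlinarith

end Vale.Agent.P030
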