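import Vale.Agent.P030.Defs

/-! Interpolation in a model space. -/

namespace Vale.Agent.P030

open Finset Polynomial

/-- square of the norm of `q / ∏ (1 - x i * z)` on the unit circle -/
noncomputable def nsq {n : ℕ} (x : Fin n → ℝ) (q : ℂ[X]) : ℝ :=
  ∫ θ in (0 : ℝ)..2 * Real.pi,
    ‖q.eval (circleMap 0 1 θ) / ∏ i, (1 - (x i : ℂ) * circleMap 0 1 θ)‖ ^ 2

namespace PickX

open ComplexConjugate

/-- the denominator -/
noncomputable def Qf {n : ℕ} (x : Fin n → ℝ) (z : ℂ) : ℂ := ∏ i, (1 - (x i : ℂ) * z)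

/-- the boundary function -/
noncomputable def gf {n : ℕ} (x : Fin n → ℝ) (q : ℂ[X]) (θ : ℝ) : ℂ :=
  q.eval (circleMap 0 1 θ) / Qf x (circleMap 0 1 θ)

/-- the inner product -/
noncomputable def ip {n : ℕ} (x : Fin n → ℝ) (p q : ℂ[X]) : ℂ :=
  ∫ θ in (0 : ℝ)..2 * Real.pi, gf x p θ * conj (gf x q θ)

variable {n : ℕ} {x : Fin n → ℝ}

lemma nsq_eq (q : ℂ[X]) : nsq x q = ∫ θ in (0 : ℝ)..2 * Real.pi, ‖gf x q θ‖ ^ 2 := rfl

lemma norm_cm (θ : ℝ) : ‖circleMap 0 1 θ‖ = 1 := by simp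

lemma one_sub_ne (hx : ∀ i, |x i| < 1) {z : ℂ} (hz : ‖z‖ ≤ 1) (i : Fin n) :
    1 - (x i : ℂ) * z ≠ 0 := by
  intro h
  have h1 : (x i : ℂ) * z = 1 := by linear_combination -h
  have h2 : ‖(x i : ℂ) * z‖ < 1 := by
    rw [norm_mul, Complex.norm_real, Real.norm_eq_abs]
    have := hx i
    have h3 := abs_nonneg (x i)
    nlinarith [norm_nonneg z]
  rw [h1] at h2
  simp at h2

lemma Qf_ne (hx : ∀ i, |x i| < 1) {z : ℂ} (hz : ‖z‖ ≤ 1) : Qf x z ≠ 0 :=
  Finset.prod_ne_zero_iff.2 fun i _ => one_sub_ne hx hz i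

lemma Qf_diff : Differentiable ℂ (Qf x) := by
  unfold Qf
  fun_prop

lemma gf_cont (hx : ∀ i, |x i| < 1) (q : ℂ[X]) : Continuous (gf x q) := by
  unfold gf
  refine Continuous.div (q.continuous.comp (continuous_circleMap 0 1))
    (Qf_diff.continuous.comp (continuous_circleMap 0 1)) fun θ => Qf_ne hx (norm_cm θ).le

lemma gf_add (p q : ℂ[X]) (θ : ℝ) : gf x (p + q) θ = gf x p θ + gf x q θ := by
  simp [gf, add_div]

lemma gf_smul (c : ℂ) (q : ℂ[X]) (θ : ℝ) : gf x (c • q) θ = c * gf x q θ := by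
  simp [gf, mul_div_assoc]

lemma gf_sum {ι : Type} (s : Finset ι) (q : ι → ℂ[X]) (θ : ℝ) :
    gf x (∑ i ∈ s, q i) θ = ∑ i ∈ s, gf x (q i) θ := by
  simp [gf, Polynomial.eval_finsetSum, Finset.sum_div]

lemma sq_int (hx : ∀ i, |x i| < 1) (q : ℂ[X]) (a b : ℝ) :
    IntervalIntegrable (fun θ => ‖gf x q θ‖ ^ 2) MeasureTheory.volume a b :=
  (((gf_cont hx q).norm).pow 2).intervalIntegrable a b

lemma ip_int (hx : ∀ i, |x i| < 1) (p q : ℂ[X]) (a b : ℝ) :
    IntervalIntegrable (fun θ => gf x p θ * conj (gf x q θ)) MeasureTheory.volume a b :=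
  ((gf_cont hx p).mul (Complex.continuous_conj.comp (gf_cont hx q))).intervalIntegrable a b

lemma ip_self (q : ℂ[X]) : ip x q q = (nsq x q : ℂ) := by
  rw [nsq_eq, ← intervalIntegral.integral_ofReal]
  unfold ip
  congr 1
  ext θ
  rw [Complex.mul_conj, Complex.normSq_eq_norm_sq]

lemma ip_sum (hx : ∀ i, |x i| < 1) {ι : Type} (s : Finset ι) (c : ι → ℂ) (p : ι → ℂ[X])
    (q : ℂ[X]) : ip x (∑ i ∈ s, c i • p i) q = ∑ i ∈ s, c i * ip x (p i) q := by
  unfold ip
  simp only [gf_sum, gf_smul, Finset.sum_mul, mul_assoc]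
  rw [intervalIntegral.integral_finsetSum fun i _ => (ip_int hx (p i) q _ _).const_mul (c i)]
  exact Finset.sum_congr rfl fun i _ => intervalIntegral.integral_const_mul _ _

/-- an integral bound through the arithmetic-geometric inequality -/
lemma norm_int_le (hx : ∀ i, |x i| < 1) (p q : ℂ[X]) (M : ℝ) (f : ℝ → ℂ)
    (hf : ∀ θ, ‖f θ‖ ≤ M * ‖gf x p θ‖ * ‖gf x q θ‖) :
    ‖∫ θ in (0 : ℝ)..2 * Real.pi, f θ‖ ≤ (M ^ 2 * nsq x p + nsq x q) / 2 := by
  have h1 : (M ^ 2 * nsq x p + nsq x q) / 2 =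
      ∫ θ in (0 : ℝ)..2 * Real.pi, (M ^ 2 * ‖gf x p θ‖ ^ 2 + ‖gf x q θ‖ ^ 2) / 2 := by
    rw [intervalIntegral.integral_div, intervalIntegral.integral_add
      ((sq_int hx p _ _).const_mul _) (sq_int hx q _ _), intervalIntegral.integral_const_mul]
    rfl
  rw [h1]
  refine intervalIntegral.norm_integral_le_of_norm_le Real.two_pi_pos.le
    (Filter.Eventually.of_forall fun θ _ => ?_)
    ((((sq_int hx p _ _).const_mul _).add (sq_int hx q _ _)).div_const _)
  have := hf θ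
  nlinarith [sq_nonneg (M * ‖gf x p θ‖ - ‖gf x q θ‖)]

lemma norm_ip_le (hx : ∀ i, |x i| < 1) (p q : ℂ[X]) : ‖ip x p q‖ ≤ (nsq x p + nsq x q) / 2 := by
  have := norm_int_le hx p q 1 (fun θ => gf x p θ * conj (gf x q θ)) fun θ => by
    simp
  rw [one_pow, one_mul] at this
  exact this

lemma eval_reflect (q : ℂ[X]) (m : ℕ) (hq : q.natDegree ≤ m) {z : ℂ} (hz : z ≠ 0) :
    (reflect m q).eval z = z ^ m * q.eval z⁻¹ := by
  have hz' : z⁻¹ ≠ 0 := inv_ne_zero hz
  let _ := invertibleOfNonzero hz'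
  have := eval₂_reflect_mul_pow (RingHom.id ℂ) z⁻¹ m q hq
  rw [invOf_eq_inv, inv_inv, eval₂_id, eval₂_id] at this
  rw [← this, mul_left_comm, ← mul_pow, mul_inv_cancel₀ hz, one_pow, mul_one]

lemma conj_cm (θ : ℝ) : conj (circleMap 0 1 θ) = (circleMap 0 1 θ)⁻¹ := by
  rw [conj_circleMap_zero, circleMap_zero_inv, inv_one]

lemma conj_Qf (z : ℂ) : conj (Qf x z) = Qf x (conj z) := by
  simp [Qf, map_prod]

lemma conj_eval (q : ℂ[X]) (z : ℂ) :
    conj (q.eval z) = (q.map (starRingEnd ℂ)).eval (conj z) := by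
  rw [eval_map, eval₂_at_apply]

lemma pow_mul_Qf {z : ℂ} (hz : z ≠ 0) : z ^ n * Qf x z⁻¹ = ∏ i, (z - (x i : ℂ)) := by
  have : z ^ n = ∏ _i : Fin n, z := by simp
  rw [this, Qf, ← Finset.prod_mul_distrib]
  refine Finset.prod_congr rfl fun i _ => ?_
  field_simp

end PickX

open PickX ComplexConjugate

theorem nsq_nonneg {n : ℕ} (x : Fin n → ℝ) (q : ℂ[X]) : 0 ≤ nsq x q :=
  intervalIntegral.integral_nonneg_of_forall Real.two_pi_pos.le fun _ => sq_nonneg _

theorem nsq_pos {n : ℕ} (x : Fin n → ℝ) (hx : ∀ i, |x i| < 1) (q : ℂ[X]) (hq : q ≠ 0) :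
    0 < nsq x q := by
  rw [nsq_eq]
  refine intervalIntegral.integral_pos Real.two_pi_pos
    (((gf_cont hx q).norm).pow 2).continuousOn (fun _ _ => sq_nonneg _) ?_
  by_contra hc
  push Not at hc
  have h1 : ∀ θ ∈ Set.Ico (0 : ℝ) (2 * Real.pi), q.IsRoot (circleMap 0 1 θ) := by
    intro θ hθ
    have h2 := hc θ (Set.Ico_subset_Icc_self hθ)
    have h3 : gf x q θ = 0 := by
      have : ‖gf x q θ‖ ^ 2 = 0 := le_antisymm h2 (sq_nonneg _)
      simpa using this
    rcases div_eq_zero_iff.1 h3 with h | h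
    · exact h
    · exact absurd h (Qf_ne hx (norm_cm θ).le)
  have h2 : Set.InjOn (circleMap 0 1) (Set.Ico (0 : ℝ) (2 * Real.pi)) := by
    have := injOn_circleMap_of_abs_sub_le' (c := 0) (R := 1) (a := 0) (b := 2 * Real.pi)
      one_ne_zero (by simp)
    simpa using this
  have h3 : (circleMap 0 1 '' Set.Ico (0 : ℝ) (2 * Real.pi)).Infinite :=
    (Set.Ico_infinite Real.two_pi_pos).image h2
  refine hq (Polynomial.eq_zero_of_infinite_isRoot q (h3.mono ?_))
  rintro _ ⟨θ, hθ, rfl⟩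
  exact h1 θ hθ

theorem nsq_reflect {n : ℕ} (x : Fin n → ℝ) (hx : ∀ i, |x i| < 1) (q : ℂ[X]) (m : ℕ)
    (hq : q.natDegree ≤ m) : nsq x (reflect m q) = nsq x q := by
  have _ := hx
  have h1 : ∀ θ : ℝ, ‖gf x (reflect m q) θ‖ ^ 2 = ‖gf x q (2 * Real.pi - θ)‖ ^ 2 := by
    intro θ
    have hz : circleMap 0 1 θ ≠ 0 := circleMap_ne_center one_ne_zero
    have h2 : circleMap 0 1 (2 * Real.pi - θ) = (circleMap 0 1 θ)⁻¹ := by
      rw [circleMap_zero_inv, inv_one, ← periodic_circleMap 0 1 (-θ)]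
      congr 1
      ring
    have h3 : ‖Qf x (circleMap 0 1 θ)⁻¹‖ = ‖Qf x (circleMap 0 1 θ)‖ := by
      rw [← conj_cm, ← conj_Qf, Complex.norm_conj]
    unfold gf
    rw [h2, eval_reflect q m hq hz, norm_div, norm_div, h3, norm_mul, norm_pow, norm_cm, one_pow,
      one_mul]
  rw [nsq_eq, nsq_eq]
  simp only [h1]
  rw [intervalIntegral.integral_comp_sub_left (fun θ => ‖gf x q θ‖ ^ 2)]
  simp

/-- If `q' = ψ * q` at the nodes, with `ψ = F / G` holomorphic on the disc and bounded by `M`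
on the circle, then the norm of `q'` is at most `M` times the norm of `q`. -/
theorem pick_pair {n : ℕ} (x : Fin n → ℝ) (hinj : Function.Injective x) (hx : ∀ i, |x i| < 1)
    (q q' F G : ℂ[X]) (hq' : q'.degree < n) (hG : ∀ z : ℂ, ‖z‖ ≤ 1 → G.eval z ≠ 0) (M : ℝ)
    (hM0 : 0 ≤ M) (hM : ∀ z : ℂ, ‖z‖ = 1 → ‖F.eval z‖ ≤ M * ‖G.eval z‖)
    (hv : ∀ i, q'.eval (x i : ℂ) * G.eval (x i : ℂ) = F.eval (x i : ℂ) * q.eval (x i : ℂ)) :
    nsq x q' ≤ M ^ 2 * nsq x q := by
  have _ := hM0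
  rcases eq_or_ne q' 0 with rfl | hq0
  · have : nsq x (0 : ℂ[X]) = 0 := by simp [nsq]
    rw [this]
    exact mul_nonneg (sq_nonneg _) (nsq_nonneg x q)
  have hdeg : q'.natDegree < n := (natDegree_lt_iff_degree_lt hq0).2 hq'
  obtain ⟨m, rfl⟩ : ∃ m, n = m + 1 := ⟨n - 1, by omega⟩
  have hdvd : (∏ i, (X - C (x i : ℂ))) ∣ q' * G - F * q := by
    refine Finset.prod_dvd_of_coprime ?_ fun i _ => ?_
    · have hi : Function.Injective fun i => (x i : ℂ) :=
        fun i j h => hinj (Complex.ofReal_injective h)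
      exact fun i _ j _ hij => pairwise_coprime_X_sub_C hi hij
    · rw [dvd_iff_isRoot, IsRoot.def, eval_sub, eval_mul, eval_mul, hv i, sub_self]
  obtain ⟨W, hW⟩ := hdvd
  set s := reflect m (q'.map (starRingEnd ℂ)) with hs
  have hsd : (q'.map (starRingEnd ℂ)).natDegree ≤ m :=
    natDegree_map_le.trans (by omega)
  set f : ℂ → ℂ := fun z => W.eval z * s.eval z / (G.eval z * Qf x z) with hf
  have hfd : DifferentiableOn ℂ f (Metric.closedBall 0 1) := by
    refine DifferentiableOn.div ((W.differentiable.mul s.differentiable).differentiableOn)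
      ((G.differentiable.mul Qf_diff).differentiableOn) fun z hz => ?_
    have hz' : ‖z‖ ≤ 1 := by simpa using hz
    exact mul_ne_zero (hG z hz') (Qf_ne hx hz')
  have hI : (∮ z in C(0, 1), f z) = 0 :=
    DiffContOnCl.circleIntegral_eq_zero zero_le_one
      (DifferentiableOn.diffContOnCl (by rwa [closure_ball _ one_ne_zero]))
  set u : ℝ → ℂ := fun θ => F.eval (circleMap 0 1 θ) / G.eval (circleMap 0 1 θ) * gf x q θ *
    conj (gf x q' θ) with hu
  have huc : Continuous u := by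
    refine Continuous.mul (Continuous.mul (Continuous.div
      (F.continuous.comp (continuous_circleMap 0 1))
      (G.continuous.comp (continuous_circleMap 0 1)) fun θ => hG _ (norm_cm θ).le)
      (gf_cont hx q)) (Complex.continuous_conj.comp (gf_cont hx q'))
  have key : ∀ θ : ℝ, deriv (circleMap 0 1) θ • f (circleMap 0 1 θ) =
      Complex.I * (gf x q' θ * conj (gf x q' θ) - u θ) := by
    intro θ
    set z := circleMap 0 1 θ with hz
    have hz0 : z ≠ 0 := circleMap_ne_center one_ne_zero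
    have hz1 : ‖z‖ = 1 := norm_cm θ
    have hQ : Qf x z ≠ 0 := Qf_ne hx hz1.le
    have hGz : G.eval z ≠ 0 := hG z hz1.le
    have hQ' : Qf x z⁻¹ ≠ 0 := Qf_ne hx (by rw [norm_inv, hz1, inv_one])
    have h1 : conj (gf x q' θ) = (q'.map (starRingEnd ℂ)).eval z⁻¹ / Qf x z⁻¹ := by
      unfold gf
      rw [map_div₀, conj_eval, conj_Qf, conj_cm]
    have h2 : s.eval z = z ^ m * (q'.map (starRingEnd ℂ)).eval z⁻¹ := eval_reflect _ m hsd hz0
    have h3 : q'.eval z * G.eval z - F.eval z * q.eval z =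
        z ^ (m + 1) * Qf x z⁻¹ * W.eval z := by
      have := congrArg (eval z) hW
      rw [eval_sub, eval_mul, eval_mul, eval_mul, eval_prod] at this
      rw [this, pow_mul_Qf hz0]
      simp
    rw [deriv_circleMap, smul_eq_mul, hu]
    simp only [hf]
    rw [h1, h2]
    unfold gf
    rw [← hz]
    generalize (q'.map (starRingEnd ℂ)).eval z⁻¹ = e at *
    generalize Qf x z⁻¹ = r at *
    field_simp
    linear_combination (-e) * h3
  have hI2 : (nsq x q' : ℂ) = ∫ θ in (0 : ℝ)..2 * Real.pi, u θ := by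
    unfold circleIntegral at hI
    simp only [key] at hI
    rw [intervalIntegral.integral_const_mul, intervalIntegral.integral_sub (ip_int hx q' q' _ _)
      (huc.intervalIntegrable _ _)] at hI
    have h2 := (mul_eq_zero.1 hI).resolve_left Complex.I_ne_zero
    rw [← ip_self]
    exact sub_eq_zero.1 h2
  have h3 := norm_int_le hx q q' M u fun θ => by
    have hGz := hG _ (norm_cm θ).le
    have h4 : ‖F.eval (circleMap 0 1 θ) / G.eval (circleMap 0 1 θ)‖ ≤ M := by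
      rw [norm_div, div_le_iff₀ (norm_pos_iff.2 hGz)]
      exact hM _ (norm_cm θ)
    simp only [hu]
    rw [norm_mul, norm_mul, Complex.norm_conj]
    gcongr
  rw [← hI2, Complex.norm_real, Real.norm_eq_abs, abs_of_nonneg (nsq_nonneg x q')] at h3
  linarith

theorem sqrt_nsq_add {n : ℕ} (x : Fin n → ℝ) (hx : ∀ i, |x i| < 1) (q q' : ℂ[X]) :
    √(nsq x (q + q')) ≤ √(nsq x q) + √(nsq x q') := by
  rcases eq_or_ne q 0 with rfl | hq
  · simp
  rcases eq_or_ne q' 0 with rfl | hq'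
  · simp
  set A := √(nsq x q) with hA
  set B := √(nsq x q') with hB
  have hA0 : 0 < A := Real.sqrt_pos.2 (nsq_pos x hx q hq)
  have hB0 : 0 < B := Real.sqrt_pos.2 (nsq_pos x hx q' hq')
  have hA2 : nsq x q = A ^ 2 := (Real.sq_sqrt (nsq_nonneg x q)).symm
  have hB2 : nsq x q' = B ^ 2 := (Real.sq_sqrt (nsq_nonneg x q')).symm
  refine Real.sqrt_le_iff.2 ⟨by positivity, ?_⟩
  have h1 : nsq x (q + q') ≤ (1 + B / A) * nsq x q + (1 + A / B) * nsq x q' := by
    rw [nsq_eq, nsq_eq, nsq_eq, ← intervalIntegral.integral_const_mul,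
      ← intervalIntegral.integral_const_mul, ← intervalIntegral.integral_add
      ((sq_int hx q _ _).const_mul _) ((sq_int hx q' _ _).const_mul _)]
    refine intervalIntegral.integral_mono_on Real.two_pi_pos.le (sq_int hx _ _ _)
      (((sq_int hx q _ _).const_mul _).add ((sq_int hx q' _ _).const_mul _)) fun θ _ => ?_
    rw [gf_add]
    have h2 := norm_add_le (gf x q θ) (gf x q' θ)
    set a := ‖gf x q θ‖
    set b := ‖gf x q' θ‖
    have h3 : (1 + B / A) * a ^ 2 + (1 + A / B) * b ^ 2 - (a + b) ^ 2 =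
        (B * a - A * b) ^ 2 / (A * B) := by
      field_simp
      ring
    have h4 : 0 ≤ (B * a - A * b) ^ 2 / (A * B) := by positivity
    have h5 : ‖gf x q θ + gf x q' θ‖ ^ 2 ≤ (a + b) ^ 2 := by gcongr
    linarith
  refine h1.trans (le_of_eq ?_)
  rw [hA2, hB2]
  field_simp
  ring

theorem nsq_smul {n : ℕ} (x : Fin n → ℝ) (c : ℂ) (q : ℂ[X]) :
    nsq x (c • q) = ‖c‖ ^ 2 * nsq x q := by
  rw [nsq_eq, nsq_eq, ← intervalIntegral.integral_const_mul]
  congr 1
  ext θ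
  rw [gf_smul, norm_mul, mul_pow]

end Vale.Agent.P030
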