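import Vale.Agent.P030.Base
import Vale.Agent.P030.Taylor

/-! Closed forms of the series. -/

namespace Vale.Agent.P030

open Finset Polynomial Filter Topology

theorem summable_ZZ (i j : ℕ) :
    Summable fun k : ℕ => 1 / (((i : ℝ) + k + 1) * ((j : ℝ) + k + 1)) := by
  have h := (summable_nat_add_iff 1).2 hasSum_zeta_two.summable
  refine Summable.of_nonneg_of_le (fun k => by positivity) (fun k => ?_) h
  push_cast
  refine one_div_le_one_div_of_le (by positivity) ?_
  have hi : (0 : ℝ) ≤ i := by positivity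
  have hj : (0 : ℝ) ≤ j := by positivity
  have hk : (0 : ℝ) ≤ k := by positivity
  nlinarith [mul_nonneg hi hj, mul_nonneg hi hk, mul_nonneg hj hk]

theorem cc_sq_le (m : ℕ) : cc m ^ 2 * (m + 1) ≤ 4 := by
  induction m with
  | zero => norm_num [cc_zero]
  | succ m ih =>
    rw [cc_succ, div_pow, div_mul_eq_mul_div, div_le_iff₀ (by positivity)]
    push_cast
    have hm : (0 : ℚ) ≤ m := by positivity
    have h1 : (cc m * (2 * m + 2)) ^ 2 * (m + 1 + 1) =
        (cc m ^ 2 * (m + 1)) * (4 * (m + 1) * (m + 2)) := by ring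
    rw [h1]
    calc (cc m ^ 2 * (m + 1)) * (4 * (m + 1) * (m + 2)) ≤ 4 * (4 * (m + 1) * (m + 2)) := by
          gcongr
      _ ≤ _ := by nlinarith

theorem nu_sq_le (n : ℕ) : (nu n : ℝ) ^ 2 ≤ 8 * (1 / ((n : ℝ) + 1)) := by
  rcases Nat.even_or_odd' n with ⟨m, rfl | rfl⟩
  · rw [nu_even]
    simp only [Rat.cast_zero, ne_eq, OfNat.ofNat_ne_zero, not_false_eq_true, zero_pow]
    positivity
  · rw [nu_odd, mul_one_div, le_div_iff₀ (by positivity)]
    have h : ((cc m : ℝ)) ^ 2 * (m + 1) ≤ 4 := by exact_mod_cast cc_sq_le m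
    push_cast
    linarith

theorem tendsto_nu : Tendsto (fun n => (nu n : ℝ)) atTop (𝓝 0) := by
  have h1 : Tendsto (fun n => (nu n : ℝ) ^ 2) atTop (𝓝 0) := by
    have := tendsto_one_div_add_atTop_nhds_zero_nat (𝕜 := ℝ).const_mul 8
    rw [mul_zero] at this
    exact squeeze_zero (fun n => by positivity) nu_sq_le this
  have h2 := h1.sqrt
  rw [Real.sqrt_zero] at h2
  refine h2.congr fun n => Real.sqrt_sq ?_
  exact_mod_cast nu_nonneg n

theorem tendsto_const_add_nat (i : ℕ) : Tendsto (fun n : ℕ => i + n) atTop atTop :=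
  tendsto_atTop_mono (fun n => Nat.le_add_left n i) tendsto_id

theorem hasSum_nu_sub (i : ℕ) :
    HasSum (fun k : ℕ => (nu (i + k) : ℝ) - nu (i + k + 2)) (nu i + nu (i + 1)) := by
  rw [(summable_nu_sub i).hasSum_iff_tendsto_nat]
  simp only [sum_nu_sub]
  have h1 : Tendsto (fun n => (nu (i + n) : ℝ)) atTop (𝓝 0) :=
    tendsto_nu.comp (tendsto_const_add_nat i)
  have h2 : Tendsto (fun n => (nu (i + n + 1) : ℝ)) atTop (𝓝 0) :=
    tendsto_nu.comp ((tendsto_add_atTop_nat 1).comp (tendsto_const_add_nat i))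
  simpa using (h1.add h2).const_sub ((nu i : ℝ) + nu (i + 1))

theorem hasSum_MM (i j : ℕ) :
    HasSum (fun k : ℕ => (nu (i + k) : ℝ) / ((j : ℝ) + k + 1)) (MM i j) := (summable_MM i j).hasSum

theorem MM_succ_succ (i j : ℕ) : MM (i + 1) (j + 1) = MM i j - nu i / ((j : ℝ) + 1) := by
  have h := (summable_MM i j).tsum_eq_zero_add
  have e : ∑' k : ℕ, (nu (i + (k + 1)) : ℝ) / ((j : ℝ) + ((k + 1 : ℕ) : ℝ) + 1) =
      MM (i + 1) (j + 1) := by
    unfold MM
    refine tsum_congr fun k => ?_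
    rw [show i + (k + 1) = i + 1 + k by ring]
    push_cast
    ring
  rw [e] at h
  unfold MM at h ⊢
  rw [h]
  simp

theorem nu_zero : nu 0 = 0 := nu_even 0

theorem nu_one : nu 1 = 2 := (nu_odd 0).trans cc_zero

theorem nu_add_two' (i : ℕ) : (nu (i + 2) : ℝ) = nu i * (i + 1) / (i + 2) := by
  rw [nu_add_two]
  push_cast
  rfl

theorem MM_zero_one : MM 0 1 = 2 := by
  have h := hasSum_nu_sub 0
  have h2 : HasSum (fun k : ℕ => (nu (0 + k) : ℝ) / (((1 : ℕ) : ℝ) + k + 1)) 2 := by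
    refine hs_congr h (fun k => ?_) ?_
    · rw [nu_sub]
      push_cast
      ring
    · simp [nu_zero, nu_one]
  exact h2.tsum_eq

theorem MM_rec_left (i : ℕ) :
    ((i : ℝ) + 1) * MM (i + 2) 0 = i * MM i 0 + nu i + nu (i + 1) := by
  have h := ((hasSum_MM i 0).mul_left (i : ℝ)).add (hasSum_nu_sub i)
  refine ((hasSum_MM (i + 2) 0).mul_left ((i : ℝ) + 1)).unique (hs_congr h (fun k => ?_) ?_)
  · rw [show i + 2 + k = i + k + 2 by ring, nu_add_two']
    push_cast
    field_simp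
    ring
  · ring

theorem MM_rec_right (j : ℕ) :
    ((j : ℝ) + 2) * MM 0 (j + 2) = (j + 1) * MM 0 j + 2 / (j + 2) := by
  have h := ((hasSum_MM 2 (j + 2)).mul_left ((j : ℝ) + 1)).add (hasSum_nu_sub 0)
  have h1 : ((j : ℝ) + 2) * MM 0 (j + 2) = (j + 1) * MM 2 (j + 2) + (nu 0 + nu (0 + 1)) := by
    refine ((hasSum_MM 0 (j + 2)).mul_left ((j : ℝ) + 2)).unique (hs_congr h (fun k => ?_) rfl)
    rw [show 2 + k = k + 2 by ring, zero_add, nu_add_two']
    push_cast
    field_simp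
    ring
  have h2 := MM_succ_succ 1 (j + 1)
  have h3 := MM_succ_succ 0 j
  rw [h1, h2, h3, zero_add, nu_zero, nu_one]
  push_cast
  field_simp
  ring

theorem b0_even (n : ℕ) :
    b0 (2 * n) = aa n * ∑ k ∈ range n, 1 / (2 * ((k : ℚ) + 1) ^ 2 * aa (k + 1)) := by
  simp [b0]

theorem b0_odd (n : ℕ) :
    b0 (2 * n + 1) = cc n * ∑ k ∈ range (n + 1), aa k / (2 * (k : ℚ) + 1) := by
  have h1 : ¬ (2 * n + 1) % 2 = 0 := by omega
  have h2 : (2 * n + 1) / 2 = n := by omega
  rw [b0, if_neg h1, h2]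

theorem b1_odd (n : ℕ) :
    b1 (2 * n + 1) = aa n * ∑ k ∈ range n, 1 / (2 * ((k : ℚ) + 1) ^ 2 * aa (k + 1) ^ 2) := by
  have h1 : (2 * n + 1) % 2 = 1 := by omega
  have h2 : (2 * n + 1) / 2 = n := by omega
  rw [b1, if_pos h1, h2]

theorem b1_even (n : ℕ) :
    b1 (2 * n + 2) = cc n * ∑ k ∈ range (n + 1), 1 / (2 * (k : ℚ) + 1) := by
  have h1 : ¬ (2 * n + 2) % 2 = 1 := by omega
  have h2 : (2 * n + 2) / 2 = n + 1 := by omega
  rw [b1, if_neg h1, h2, Nat.add_sub_cancel]

theorem b0_rec (j : ℕ) : ((j : ℚ) + 2) * b0 (j + 2) = (j + 1) * b0 j + 2 / (j + 2) := by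
  rcases Nat.even_or_odd' j with ⟨n, rfl | rfl⟩
  · rw [show 2 * n + 2 = 2 * (n + 1) by ring, b0_even, b0_even, sum_range_succ]
    have := (aa_pos (n + 1)).ne'
    rw [mul_add]
    nth_rewrite 1 [aa_succ]
    push_cast
    field_simp
  · rw [show 2 * n + 1 + 2 = 2 * (n + 1) + 1 by ring, b0_odd, b0_odd, sum_range_succ _ (n + 1)]
    have := (aa_pos (n + 1)).ne'
    rw [mul_add]
    nth_rewrite 1 [cc_succ]
    rw [cc.eq_1 (n + 1)]
    push_cast
    field_simp
    ring

theorem b1_rec (i : ℕ) :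
    ((i : ℚ) + 2) * b1 (i + 3) = (i + 1) * b1 (i + 1) + nu (i + 1) + nu (i + 2) := by
  rcases Nat.even_or_odd' i with ⟨n, rfl | rfl⟩
  · rw [show 2 * n + 3 = 2 * (n + 1) + 1 by ring, b1_odd, b1_odd, sum_range_succ, nu_odd,
      show 2 * n + 2 = 2 * (n + 1) by ring, nu_even]
    have := (aa_pos n).ne'
    rw [aa_succ, cc]
    push_cast
    field_simp
    ring
  · rw [show 2 * n + 1 + 3 = 2 * (n + 1) + 2 by ring, show 2 * n + 1 + 1 = 2 * n + 2 by ring,
      b1_even, b1_even, sum_range_succ _ (n + 1), show 2 * n + 2 = 2 * (n + 1) by ring, nu_even,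
      show 2 * n + 1 + 2 = 2 * (n + 1) + 1 by ring, nu_odd, cc_succ]
    push_cast
    field_simp
    ring

theorem mz_zero_even (n : ℕ) : mz 0 (2 * n) = aa n := by simp [mz]

theorem mz_zero_odd (n : ℕ) : mz 0 (2 * n + 1) = 0 := by
  unfold mz
  rw [if_neg (by omega)]

theorem mz_rec (j : ℕ) : ((j : ℚ) + 2) * mz 0 (j + 2) = (j + 1) * mz 0 j := by
  rcases Nat.even_or_odd' j with ⟨n, rfl | rfl⟩
  · rw [show 2 * n + 2 = 2 * (n + 1) by ring, mz_zero_even, mz_zero_even, aa_succ]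
    push_cast
    field_simp
  · rw [show 2 * n + 1 + 2 = 2 * (n + 1) + 1 by ring, mz_zero_odd, mz_zero_odd]
    simp

theorem mg_odd_zero (n : ℕ) : mg (2 * n + 1) 0 = aa n := by simp [mg]

theorem mg_even_zero (n : ℕ) : mg (2 * n) 0 = 0 := by
  unfold mg
  rw [if_neg (by omega)]

theorem mg_rec (i : ℕ) : ((i : ℚ) + 2) * mg (i + 3) 0 = (i + 1) * mg (i + 1) 0 := by
  rcases Nat.even_or_odd' i with ⟨n, rfl | rfl⟩
  · rw [show 2 * n + 3 = 2 * (n + 1) + 1 by ring, mg_odd_zero, mg_odd_zero, aa_succ]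
    push_cast
    field_simp
  · rw [show 2 * n + 1 + 3 = 2 * (n + 2) by ring, show 2 * n + 1 + 1 = 2 * (n + 1) by ring,
      mg_even_zero, mg_even_zero]
    simp

theorem MM_zero_left (j : ℕ) : MM 0 j = b0 j + Real.pi ^ 2 / 4 * mz 0 j := by
  induction j using Nat.twoStepInduction with
  | zero => simp [MM_zero_zero, b0, mz, aa_zero]
  | one => simp [MM_zero_one, b0, mz, aa_zero, cc_zero]
  | more j ih _ =>
    have h1 := MM_rec_right j
    have h2 : ((j : ℝ) + 2) * b0 (j + 2) = (j + 1) * b0 j + 2 / (j + 2) := by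
      have := congrArg (Rat.cast : ℚ → ℝ) (b0_rec j)
      push_cast at this
      exact this
    have h3 : ((j : ℝ) + 2) * mz 0 (j + 2) = (j + 1) * mz 0 j := by exact_mod_cast mz_rec j
    refine mul_left_cancel₀ (a := (j : ℝ) + 2) (by positivity) ?_
    rw [h1, ih]
    linear_combination -h2 - Real.pi ^ 2 / 4 * h3

theorem MM_zero_right (i : ℕ) : MM (i + 1) 0 = b1 (i + 1) + 4 * GG * mg (i + 1) 0 := by
  induction i using Nat.twoStepInduction with
  | zero => simp [MM_one_zero, b1, mg, aa_zero]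
  | one =>
    have h := MM_rec_left 0
    simp only [Nat.cast_zero, zero_add, one_mul, zero_mul, nu_zero, nu_one] at h
    rw [h]
    simp [b1, mg, cc_zero]
  | more i ih _ =>
    have h1 := MM_rec_left (i + 1)
    have h2 : ((i : ℝ) + 2) * b1 (i + 3) = (i + 1) * b1 (i + 1) + nu (i + 1) + nu (i + 2) := by
      exact_mod_cast b1_rec i
    have h3 : ((i : ℝ) + 2) * mg (i + 3) 0 = (i + 1) * mg (i + 1) 0 := by exact_mod_cast mg_rec i
    refine mul_left_cancel₀ (a := (i : ℝ) + 2) (by positivity) ?_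
    rw [ih] at h1
    push_cast at h1
    change _ * MM (i + 3) 0 = _ + _ + ((nu (i + 2) : ℚ) : ℝ) at h1
    change _ * MM (i + 3) 0 = _ * (((b1 (i + 3) : ℚ) : ℝ) + _ * ((mg (i + 3) 0 : ℚ) : ℝ))
    linear_combination h1 - h2 - 4 * GG * h3

theorem MM_eq (i j : ℕ) : MM i j = mr i j + 4 * GG * mg i j + Real.pi ^ 2 / 4 * mz i j := by
  induction i generalizing j with
  | zero =>
    rw [MM_zero_left]
    simp [mr, mg]
  | succ i ih =>
    cases j with
    | zero =>
      rw [MM_zero_right]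
      simp [mr, mz]
    | succ j =>
      have e1 : mg (i + 1) (j + 1) = mg i j := by simp [mg]
      have e2 : mz (i + 1) (j + 1) = mz i j := by simp [mz]
      rw [MM_succ_succ, ih, e1, e2, mr]
      push_cast
      ring

theorem hasSum_tele (i : ℕ) :
    HasSum (fun k : ℕ => 1 / ((i : ℝ) + k + 1) - 1 / ((i : ℝ) + k + 2)) (1 / ((i : ℝ) + 1)) := by
  rw [hasSum_iff_tendsto_nat_of_nonneg]
  · have e : ∀ n : ℕ, ∑ k ∈ range n, (1 / ((i : ℝ) + k + 1) - 1 / ((i : ℝ) + k + 2)) =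
        1 / ((i : ℝ) + 1) - 1 / (((i + n : ℕ) : ℝ) + 1) := by
      intro n
      induction n with
      | zero => simp
      | succ n ih =>
        rw [sum_range_succ, ih]
        push_cast
        ring
    simp only [e]
    have h := (tendsto_one_div_add_atTop_nhds_zero_nat (𝕜 := ℝ)).comp
      (tendsto_const_add_nat i)
    have h2 := h.const_sub (1 / ((i : ℝ) + 1))
    rw [sub_zero] at h2
    exact h2
  · intro k
    rw [sub_nonneg]
    exact one_div_le_one_div_of_le (by positivity) (by linarith)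

theorem hasSum_h1 (j : ℕ) :
    HasSum (fun k : ℕ => 1 / ((k : ℝ) + 1) - 1 / ((j : ℝ) + k + 1)) (h1 j) := by
  induction j with
  | zero => simpa [h1] using hasSum_zero
  | succ j ih =>
    refine hs_congr (ih.add (hasSum_tele j)) (fun k => ?_) ?_
    · push_cast
      ring
    · rw [h1, sum_range_succ, ← h1]
      push_cast
      ring

theorem ZZ_diag (i : ℕ) : ZZ i i = Real.pi ^ 2 / 6 - h2 i := by
  induction i with
  | zero =>
    have h := (hasSum_nat_add_iff' 1).2 hasSum_zeta_two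
    have h' : HasSum (fun k : ℕ => 1 / ((((0 : ℕ) : ℝ) + k + 1) * (((0 : ℕ) : ℝ) + k + 1)))
        (Real.pi ^ 2 / 6 - h2 0) := by
      refine hs_congr h (fun k => ?_) ?_
      · push_cast
        ring
      · simp [h2]
    exact h'.tsum_eq
  | succ i ih =>
    have h := (summable_ZZ i i).tsum_eq_zero_add
    have e : ∑' k : ℕ, 1 / (((i : ℝ) + ((k + 1 : ℕ) : ℝ) + 1) *
        ((i : ℝ) + ((k + 1 : ℕ) : ℝ) + 1)) = ZZ (i + 1) (i + 1) := by
      unfold ZZ
      refine tsum_congr fun k => ?_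
      push_cast
      ring
    rw [e] at h
    change ZZ i i = _ at h
    rw [h2, sum_range_succ, ← h2]
    push_cast at h ⊢
    have e2 : 1 / (((i : ℝ) + 0 + 1) * (i + 0 + 1)) = 1 / ((i : ℝ) + 1) ^ 2 := by ring
    linarith

theorem ZZ_eq (i j : ℕ) : ZZ i j = zr i j + if i = j then Real.pi ^ 2 / 6 else 0 := by
  unfold zr
  split_ifs with hij
  · subst hij
    rw [ZZ_diag]
    push_cast
    ring
  · have hne : (j : ℝ) - i ≠ 0 := by
      rw [sub_ne_zero]
      exact_mod_cast Ne.symm hij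
    have h := ((hasSum_h1 j).sub (hasSum_h1 i)).div_const ((j : ℝ) - i)
    refine (hs_congr h (fun k => ?_) ?_).tsum_eq
    · field_simp
      ring
    · push_cast
      ring

theorem KK_natAbs_le (N : ℕ) (r : Fin (36 * N)) : (KK N r).natAbs ≤ 33 * N := by
  have := r.2
  unfold KK
  omega

theorem pi_cancel (N : ℕ) (r j : Fin (36 * N)) :
    pair mz (49 * N) (QP (2 * N) (KK N r)) (col (6 * N) (2 * N) j) =
      pair (fun i l => if i = l then (1 : ℚ) else 0) (49 * N - 1) (QD (2 * N) (KK N r))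
        (col (6 * N) (2 * N) j) := by
  have hr := r.2
  have hj := j.2
  have hK := KK_natAbs_le N r
  have hA : 49 * N - 1 + 1 = 49 * N := by omega
  unfold pair
  rw [hA, sum_comm, sum_range_succ, sum_comm (s := range (49 * N)) (t := range (49 * N)),
    coeff_col_eq_zero _ _ _ (49 * N) (by omega)]
  simp only [Int.cast_zero, mul_zero, zero_mul, sum_const_zero, add_zero]
  refine sum_congr rfl fun l hl => ?_
  rw [mem_range] at hl
  by_cases hc : 6 * N + j + 2 * N < l
  · rw [coeff_col_eq_zero _ _ _ l (Or.inr hc)]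
    simp
  have ht := taylor (2 * N) (49 * N) (KK N r) (by omega) l hl (by unfold KK; push_cast; omega)
  rw [sum_eq_single (s := range (49 * N)) (49 * N - 1 - l)]
  · rw [if_pos (by omega), mul_one, ← ht, sum_mul]
    exact sum_congr rfl fun k _ => by ring
  · intro k hk hne
    rw [mem_range] at hk
    rw [if_neg (by omega), mul_zero]
  · intro hk
    exact absurd (mem_range.2 (by omega)) hk

theorem pair_cast (m : ℕ → ℕ → ℚ) (A : ℕ) (Q R : ℤ[X]) :
    ((pair m A Q R : ℚ) : ℝ) = pair (fun i l => (m i l : ℝ)) A Q R := by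
  unfold pair
  push_cast
  rfl

theorem pair_add_smul (m m' : ℕ → ℕ → ℝ) (c : ℝ) (A : ℕ) (Q R : ℤ[X]) :
    pair (fun i l => m i l + c * m' i l) A Q R = pair m A Q R + c * pair m' A Q R := by
  unfold pair
  rw [mul_sum, ← sum_add_distrib]
  refine sum_congr rfl fun k _ => ?_
  rw [mul_sum, ← sum_add_distrib]
  exact sum_congr rfl fun l _ => by ring

theorem Emat_eq (g : ℚ) (hg : (g : ℝ) = GG) (N : ℕ) (r j : Fin (36 * N)) :
    (Emat g N r j : ℝ) =
      pair MM (49 * N) (QP (2 * N) (KK N r)) (col (6 * N) (2 * N) j) -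
        3 / 2 * pair ZZ (49 * N - 1) (QD (2 * N) (KK N r)) (col (6 * N) (2 * N) j) := by
  have e1 : MM = fun i l => ((mr i l + 4 * g * mg i l : ℚ) : ℝ) +
      Real.pi ^ 2 / 4 * ((mz i l : ℚ) : ℝ) := by
    funext i l
    rw [MM_eq, ← hg]
    push_cast
    ring
  have e2 : ZZ = fun i l => ((zr i l : ℚ) : ℝ) +
      Real.pi ^ 2 / 6 * ((if i = l then (1 : ℚ) else 0 : ℚ) : ℝ) := by
    funext i l
    rw [ZZ_eq]
    split_ifs <;> simp
  rw [e1, e2, pair_add_smul, pair_add_smul, ← pair_cast, ← pair_cast, ← pair_cast, ← pair_cast,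
    pi_cancel]
  simp only [Emat, Matrix.of_apply, lam]
  push_cast
  ring

end Vale.Agent.P030
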