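import Vale.Agent.P030.Val

/-! The `2`-adic size of the table `mr`. -/

namespace Vale.Agent.P030

open Polynomial Finset

/-- truncation of the `2`-adic Catalan constant -/
def gam (B : ℕ) : ℚ := ∑ k ∈ range B, 1 / (2 * ((k : ℚ) + 1) ^ 2 * aa (k + 1) ^ 2)

def xi (B : ℕ) : ℚ := ∑ k ∈ range B, 1 / (2 * ((k : ℚ) + 1) ^ 2 * aa (k + 1))

namespace TwoA

theorem norm_pow (p : ℕ) [Fact p.Prime] (x : ℚ) (n : ℕ) :
    padicNorm p (x ^ n) = padicNorm p x ^ n := by
  induction n with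
  | zero => simp
  | succ n ih => rw [pow_succ, padicNorm.mul, ih, pow_succ]

theorem norm_inv (p : ℕ) [Fact p.Prime] (x : ℚ) : padicNorm p (1 / x) = 1 / padicNorm p x := by
  rw [padicNorm.div, padicNorm.one]

theorem norm_two : padicNorm 2 2 = 1 / 2 := by
  have := padicNorm.padicNorm_p_of_prime (p := 2)
  simpa using this

theorem norm_four_pow (l : ℕ) : padicNorm 2 ((4 : ℚ) ^ l) = 1 / 4 ^ l := by
  rw [norm_pow, show (4 : ℚ) = 2 * 2 by norm_num, padicNorm.mul, norm_two]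
  rw [show (1 / 2 * (1 / 2) : ℚ) = 1 / (2 * 2) by norm_num, div_pow, one_pow]

theorem norm_inv_nat (p : ℕ) [hp : Fact p.Prime] (n : ℕ) (hn : n ≠ 0) :
    padicNorm p (1 / (n : ℚ)) = ((p ^ n.factorization p : ℕ) : ℚ) := by
  rw [norm_inv, padicNorm.eq_zpow_of_nonzero (by exact_mod_cast hn), padicValRat.of_nat,
    Nat.factorization_def n hp.out, zpow_neg, one_div, inv_inv, zpow_natCast]
  push_cast
  rfl

theorem norm_inv_nat_le (p : ℕ) [hp : Fact p.Prime] (n : ℕ) (hn : n ≠ 0) :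
    padicNorm p (1 / (n : ℚ)) ≤ n := by
  rw [norm_inv_nat p n hn]
  exact_mod_cast Nat.ordProj_le p hn

theorem norm_inv_aa (k : ℕ) : padicNorm 2 (1 / aa k) ≤ (2 * k + 1) / 4 ^ k := by
  have h1 : (1 : ℚ) / aa k = 4 ^ k * (1 / (Nat.centralBinom k : ℚ)) := by
    unfold aa
    have : (Nat.centralBinom k : ℚ) ≠ 0 := by exact_mod_cast (Nat.centralBinom_pos k).ne'
    field_simp
  rw [h1, padicNorm.mul, norm_four_pow, norm_inv_nat 2 _ (Nat.centralBinom_pos k).ne']
  have h2 : 2 ^ (Nat.centralBinom k).factorization 2 ≤ 2 * k + 1 := by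
    rcases Nat.eq_zero_or_pos k with rfl | hk
    · simp
    · have := Nat.pow_factorization_choose_le (p := 2) (n := 2 * k) (k := k) (by omega)
      rw [Nat.centralBinom_eq_two_mul_choose]
      omega
  have h3 : ((2 ^ (Nat.centralBinom k).factorization 2 : ℕ) : ℚ) ≤ 2 * k + 1 := by
    exact_mod_cast h2
  rw [one_div, mul_comm, ← div_eq_mul_inv]
  gcongr

theorem norm_inv_odd (k : ℕ) : padicNorm 2 (1 / (2 * (k : ℚ) + 1)) = 1 := by
  have : padicNorm 2 ((2 * k + 1 : ℕ) : ℚ) = 1 := (padicNorm.nat_eq_one_iff _).2 (by omega)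
  push_cast at this
  rw [norm_inv, this, div_one]

theorem norm_cc (m : ℕ) : padicNorm 2 (cc m) ≤ (2 * m + 1) / 4 ^ m := by
  have h1 : cc m = 2 * ((1 / (2 * (m : ℚ) + 1)) * (1 / aa m)) := by
    unfold cc
    have := (aa_pos m).ne'
    field_simp
  rw [h1, padicNorm.mul, padicNorm.mul, norm_two, norm_inv_odd, one_mul]
  have := norm_inv_aa m
  have h0 := padicNorm.nonneg (p := 2) (1 / aa m)
  linarith

theorem odd_le_four_pow (m : ℕ) : (2 * (m : ℚ) + 1) / 4 ^ m ≤ 1 := by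
  rw [div_le_one (by positivity)]
  have : 2 * m + 1 ≤ 4 ^ m := by
    induction m with
    | zero => simp
    | succ m ih => rw [pow_succ]; omega
  exact_mod_cast this

theorem norm_nu (i : ℕ) : padicNorm 2 (nu i) ≤ 1 := by
  unfold nu
  split_ifs
  · exact (norm_cc _).trans (odd_le_four_pow _)
  · simp

theorem norm_sq_inv (k : ℕ) :
    padicNorm 2 (1 / (2 * ((k : ℚ) + 1) ^ 2)) ≤ 2 * ((k : ℚ) + 1) ^ 2 := by
  have := norm_inv_nat_le 2 (2 * (k + 1) ^ 2) (by positivity)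
  push_cast at this
  exact this

theorem norm_term1 (k : ℕ) : padicNorm 2 (1 / (2 * ((k : ℚ) + 1) ^ 2 * aa (k + 1))) ≤
    2 * ((k : ℚ) + 1) ^ 2 * (2 * (k + 1) + 1) / 4 ^ (k + 1) := by
  rw [← one_div_mul_one_div, padicNorm.mul, mul_div_assoc]
  have h := norm_inv_aa (k + 1)
  push_cast at h
  exact mul_le_mul (norm_sq_inv k) h (padicNorm.nonneg _) (by positivity)

theorem norm_term2 (k : ℕ) : padicNorm 2 (1 / (2 * ((k : ℚ) + 1) ^ 2 * aa (k + 1) ^ 2)) ≤
    2 * ((k : ℚ) + 1) ^ 2 * (2 * (k + 1) + 1) ^ 2 / 4 ^ (k + 1) := by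
  rw [← one_div_mul_one_div, padicNorm.mul, mul_div_assoc, ← one_div_pow, norm_pow]
  have h := norm_inv_aa (k + 1)
  have h' := odd_le_four_pow (k + 1)
  push_cast at h h'
  have h0 := padicNorm.nonneg (p := 2) (1 / aa (k + 1))
  refine mul_le_mul (norm_sq_inv k) ?_ (by positivity) (by positivity)
  calc padicNorm 2 (1 / aa (k + 1)) ^ 2
      = padicNorm 2 (1 / aa (k + 1)) * padicNorm 2 (1 / aa (k + 1)) := sq _
    _ ≤ 1 * ((2 * ((k : ℚ) + 1) + 1) / 4 ^ (k + 1)) :=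
        mul_le_mul (h.trans h') h h0 (by norm_num)
    _ ≤ (2 * ((k : ℚ) + 1) + 1) * ((2 * ((k : ℚ) + 1) + 1) / 4 ^ (k + 1)) := by
        gcongr
        have : (0 : ℚ) ≤ k := by positivity
        linarith
    _ = _ := by ring

theorem poly_le {B k : ℕ} (hk : k < B) :
    2 * ((k : ℚ) + 1) ^ 2 * (2 * (k + 1) + 1) ^ 2 ≤ (2 * B : ℚ) ^ 5 := by
  have h1 : (k : ℚ) + 1 ≤ B := by exact_mod_cast hk
  have h0 : (0 : ℚ) ≤ k := by positivity
  have h2 : 2 * ((k : ℚ) + 1) + 1 ≤ 3 * B := by linarith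
  have h3 : (1 : ℚ) ≤ B := by linarith
  calc 2 * ((k : ℚ) + 1) ^ 2 * (2 * (k + 1) + 1) ^ 2 ≤ 2 * (B : ℚ) ^ 2 * (3 * B) ^ 2 := by gcongr
    _ = 18 * (B : ℚ) ^ 4 * 1 := by ring
    _ ≤ 32 * (B : ℚ) ^ 4 * B := by gcongr; norm_num
    _ = _ := by ring

theorem poly_le' {B k : ℕ} (hk : k < B) :
    2 * ((k : ℚ) + 1) ^ 2 * (2 * (k + 1) + 1) ≤ (2 * B : ℚ) ^ 5 := by
  refine le_trans ?_ (poly_le hk)
  have h0 : (0 : ℚ) ≤ k := by positivity
  gcongr
  nlinarith

end TwoA

open TwoA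

theorem norm_aa_two (l : ℕ) : padicNorm 2 (aa l) ≤ 4 ^ l := by
  unfold aa
  rw [padicNorm.div, norm_four_pow, div_div_eq_mul_div, div_one]
  have := padicNorm.of_nat (p := 2) (Nat.centralBinom l)
  calc _ ≤ 1 * (4 : ℚ) ^ l := by gcongr
    _ = _ := one_mul _

namespace TwoA

theorem norm_tail {B n : ℕ} (hB : 1 ≤ B) (hn : n ≤ B) (f : ℕ → ℚ)
    (hf : ∀ k < B, padicNorm 2 (f k) ≤ (2 * B : ℚ) ^ 5 / 4 ^ (k + 1)) :
    padicNorm 2 (aa n * ∑ k ∈ range n, f k - (∑ k ∈ range B, f k) * aa n) ≤ (2 * B : ℚ) ^ 5 := by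
  have h1 : aa n * ∑ k ∈ range n, f k - (∑ k ∈ range B, f k) * aa n =
      -∑ k ∈ Ico n B, aa n * f k := by
    rw [← Finset.sum_range_add_sum_Ico f hn, ← Finset.mul_sum]
    ring
  rw [h1, padicNorm.neg]
  refine padicNorm.sum_le' (fun k hk => ?_) (by positivity)
  rw [Finset.mem_Ico] at hk
  rw [padicNorm.mul]
  calc _ ≤ (4 : ℚ) ^ (k + 1) * ((2 * B : ℚ) ^ 5 / 4 ^ (k + 1)) := by
        refine mul_le_mul ((norm_aa_two n).trans ?_) (hf k hk.2) (padicNorm.nonneg _)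
          (by positivity)
        exact pow_le_pow_right₀ (by norm_num) (by omega)
    _ = _ := by field_simp

theorem term1_le {B k : ℕ} (hk : k < B) :
    padicNorm 2 (1 / (2 * ((k : ℚ) + 1) ^ 2 * aa (k + 1))) ≤ (2 * B : ℚ) ^ 5 / 4 ^ (k + 1) :=
  (norm_term1 k).trans (by gcongr; exact poly_le' hk)

theorem term2_le {B k : ℕ} (hk : k < B) :
    padicNorm 2 (1 / (2 * ((k : ℚ) + 1) ^ 2 * aa (k + 1) ^ 2)) ≤ (2 * B : ℚ) ^ 5 / 4 ^ (k + 1) :=
  (norm_term2 k).trans (by gcongr; exact poly_le hk)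

theorem div_four_le (x : ℚ) (hx : 0 ≤ x) (k : ℕ) : x / 4 ^ k ≤ x :=
  div_le_self hx (one_le_pow₀ (by norm_num))

theorem le_pow5 {B : ℕ} (hB : 1 ≤ B) : (2 * B : ℚ) ≤ (2 * B : ℚ) ^ 5 := by
  have h3 : (1 : ℚ) ≤ B := by exact_mod_cast hB
  exact le_self_pow₀ (by linarith) (by norm_num)

end TwoA

theorem norm_gam (B : ℕ) (hB : 1 ≤ B) : padicNorm 2 (gam B) ≤ (2 * B : ℚ) ^ 5 := by
  unfold gam
  refine padicNorm.sum_le' (fun k hk => ?_) (by positivity)
  exact (term2_le (Finset.mem_range.1 hk)).trans (div_four_le _ (by positivity) _)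

theorem norm_xi (B : ℕ) (hB : 1 ≤ B) : padicNorm 2 (xi B) ≤ (2 * B : ℚ) ^ 5 := by
  unfold xi
  refine padicNorm.sum_le' (fun k hk => ?_) (by positivity)
  exact (term1_le (Finset.mem_range.1 hk)).trans (div_four_le _ (by positivity) _)

theorem norm_mr_two {B i l : ℕ} (hB : 1 ≤ B) (hi : i ≤ B) (hl : l ≤ B) :
    padicNorm 2 (mr i l - gam B * mg i l - xi B * mz i l) ≤ (2 * B : ℚ) ^ 5 := by
  have hB' : (1 : ℚ) ≤ B := by exact_mod_cast hB
  have htail : padicNorm 2 (∑ k ∈ range (min i l), nu (i - 1 - k) / ((l : ℚ) - k)) ≤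
      (2 * B : ℚ) ^ 5 := by
    refine padicNorm.sum_le' (fun k hk => ?_) (by positivity)
    have hk' : k < l := lt_of_lt_of_le (Finset.mem_range.1 hk) (min_le_right _ _)
    have h1 := norm_inv_nat_le 2 (l - k) (by omega)
    rw [Nat.cast_sub hk'.le] at h1
    rw [div_eq_mul_one_div, padicNorm.mul]
    have h2 : (l : ℚ) ≤ B := by exact_mod_cast hl
    have h3 : (0 : ℚ) ≤ k := by positivity
    calc _ ≤ 1 * ((l : ℚ) - k) :=
          mul_le_mul (norm_nu _) h1 (padicNorm.nonneg _) (by norm_num)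
      _ ≤ 2 * B := by linarith
      _ ≤ _ := le_pow5 hB
  have hb : padicNorm 2 ((if i ≤ l then b0 (l - i) else b1 (i - l)) - gam B * mg i l
      - xi B * mz i l) ≤ (2 * B : ℚ) ^ 5 := by
    by_cases hil : i ≤ l
    · have hg : mg i l = 0 := by unfold mg; rw [if_neg (by omega)]
      rw [if_pos hil, hg, mul_zero, sub_zero]
      by_cases hd : (l - i) % 2 = 0
      · have hz : mz i l = aa ((l - i) / 2) := by unfold mz; rw [if_pos ⟨hil, hd⟩]
        rw [hz]
        unfold b0 xi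
        rw [if_pos hd]
        exact norm_tail hB (by omega) _ (fun k hk => term1_le hk)
      · have hz : mz i l = 0 := by unfold mz; rw [if_neg (by tauto)]
        rw [hz, mul_zero, sub_zero]
        unfold b0
        rw [if_neg hd, padicNorm.mul]
        set n := (l - i) / 2 with hn
        have hs : padicNorm 2 (∑ k ∈ range (n + 1), aa k / (2 * (k : ℚ) + 1)) ≤ 4 ^ n := by
          refine padicNorm.sum_le' (fun k hk => ?_) (by positivity)
          rw [div_eq_mul_one_div, padicNorm.mul, norm_inv_odd, mul_one]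
          refine (norm_aa_two k).trans (pow_le_pow_right₀ (by norm_num) ?_)
          have := Finset.mem_range.1 hk
          omega
        have hn2 : 2 * n + 1 ≤ 2 * B := by omega
        have hn3 : 2 * (n : ℚ) + 1 ≤ 2 * B := by exact_mod_cast hn2
        calc _ ≤ (2 * (n : ℚ) + 1) / 4 ^ n * 4 ^ n :=
              mul_le_mul (norm_cc n) hs (padicNorm.nonneg _) (by positivity)
          _ = 2 * (n : ℚ) + 1 := by field_simp
          _ ≤ 2 * B := hn3
          _ ≤ _ := le_pow5 hB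
    · have hz : mz i l = 0 := by unfold mz; rw [if_neg (by tauto)]
      rw [if_neg hil, hz, mul_zero, sub_zero]
      by_cases hd : (i - l) % 2 = 1
      · have hg : mg i l = aa ((i - l) / 2) := by
          unfold mg
          rw [if_pos ⟨by omega, by omega⟩]
          congr 1
          omega
        rw [hg]
        unfold b1 gam
        rw [if_pos hd]
        exact norm_tail hB (by omega) _ (fun k hk => term2_le hk)
      · have hg : mg i l = 0 := by unfold mg; rw [if_neg (by omega)]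
        rw [hg, mul_zero, sub_zero]
        unfold b1
        rw [if_neg hd, padicNorm.mul]
        have hs : padicNorm 2 (∑ k ∈ range ((i - l) / 2), 1 / (2 * (k : ℚ) + 1)) ≤ 1 :=
          padicNorm.sum_le' (fun k _ => (norm_inv_odd k).le) (by norm_num)
        calc _ ≤ (1 : ℚ) * 1 :=
              mul_le_mul ((norm_cc _).trans (odd_le_four_pow _)) hs (padicNorm.nonneg _)
                (by norm_num)
          _ ≤ 2 * B := by linarith
          _ ≤ _ := le_pow5 hB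
  rw [mr_eq, show ∀ a b c d : ℚ, a - b - c - d = (a - c - d) - b from fun a b c d => by ring]
  exact padicNorm.sub.trans (max_le hb htail)

end Vale.Agent.P030
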