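import Vale.Agent.P030.Defs

/-! Basic recurrences and crude `p`-adic bounds (odd `p`). -/

namespace Vale.Agent.P030

open Polynomial Finset

theorem aa_pos (l : ℕ) : 0 < aa l := by
  unfold aa
  have := Nat.centralBinom_pos l
  positivity

theorem aa_zero : aa 0 = 1 := by
  simp [aa]

theorem aa_succ (l : ℕ) : aa (l + 1) = aa l * (2 * l + 1) / (2 * l + 2) := by
  have h := Nat.succ_mul_centralBinom_succ l
  have h' : ((l : ℚ) + 1) * (Nat.centralBinom (l + 1) : ℚ) =
      2 * (2 * l + 1) * (Nat.centralBinom l : ℚ) := by exact_mod_cast h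
  unfold aa
  have hl : (0 : ℚ) < (l : ℚ) + 1 := by positivity
  have e : (Nat.centralBinom (l + 1) : ℚ) =
      2 * (2 * l + 1) * (Nat.centralBinom l : ℚ) / ((l : ℚ) + 1) := by
    rw [eq_div_iff hl.ne', mul_comm, h']
  rw [e]
  field_simp
  ring

theorem cc_succ (m : ℕ) : cc (m + 1) = cc m * (2 * m + 2) / (2 * m + 3) := by
  unfold cc
  rw [aa_succ]
  have := aa_pos m
  push_cast
  field_simp
  ring

theorem mr_eq (i l : ℕ) : mr i l = (if i ≤ l then b0 (l - i) else b1 (i - l)) -
    ∑ k ∈ range (min i l), nu (i - 1 - k) / ((l : ℚ) - k) := by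
  induction i generalizing l with
  | zero => simp [mr]
  | succ i ih =>
    cases l with
    | zero => simp [mr]
    | succ l =>
      rw [mr, ih l, Nat.succ_min_succ, Finset.sum_range_succ']
      have e1 : (if i + 1 ≤ l + 1 then b0 (l + 1 - (i + 1)) else b1 (i + 1 - (l + 1))) =
          (if i ≤ l then b0 (l - i) else b1 (i - l)) := by
        simp only [Nat.add_sub_add_right, Nat.add_le_add_iff_right]
      have e2 : ∑ k ∈ range (min i l), nu (i + 1 - 1 - (k + 1)) / (((l + 1 : ℕ) : ℚ) - ((k + 1 : ℕ) : ℚ)) =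
          ∑ k ∈ range (min i l), nu (i - 1 - k) / ((l : ℚ) - k) := by
        refine Finset.sum_congr rfl fun k _ => ?_
        have : i + 1 - 1 - (k + 1) = i - 1 - k := by omega
        rw [this]
        push_cast
        ring_nf
      rw [e1, e2]
      simp only [Nat.add_sub_cancel, Nat.sub_zero, Nat.cast_zero, sub_zero]
      push_cast
      ring

/-- `cc m = 1 / ((m + 1) * aa (m + 1))` -/
theorem val_cc_eq (m : ℕ) : cc m = 1 / (((m : ℚ) + 1) * aa (m + 1)) := by
  unfold cc
  rw [aa_succ]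
  have := aa_pos m
  field_simp

variable {p : ℕ} [Fact p.Prime]

theorem val_norm_two (hp : p ≠ 2) : padicNorm p 2 = 1 := by
  have h : ¬ p ∣ 2 := fun h =>
    hp ((Nat.prime_dvd_prime_iff_eq (Fact.out : p.Prime) Nat.prime_two).1 h)
  exact_mod_cast (padicNorm.nat_eq_one_iff (p := p) 2).2 h

theorem val_norm_pow (q : ℚ) (n : ℕ) : padicNorm p (q ^ n) = padicNorm p q ^ n := by
  induction n with
  | zero => simp
  | succ n ih => rw [pow_succ, pow_succ, padicNorm.mul, ih]

theorem val_norm_four_pow (hp : p ≠ 2) (n : ℕ) : padicNorm p (4 ^ n) = 1 := by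
  have : (4 : ℚ) = 2 ^ 2 := by norm_num
  rw [this, val_norm_pow, val_norm_pow, val_norm_two hp]
  simp

theorem val_norm_inv_nat {n : ℕ} (hn : n ≠ 0) :
    padicNorm p (1 / (n : ℚ)) = (p : ℚ) ^ padicValNat p n := by
  have hq : (n : ℚ) ≠ 0 := by exact_mod_cast hn
  rw [padicNorm.div, padicNorm.one, padicNorm.eq_zpow_of_nonzero hq, padicValRat.of_nat]
  simp

theorem val_pow_le {n : ℕ} (hn : n ≠ 0) : p ^ padicValNat p n ≤ n :=
  Nat.le_of_dvd (Nat.pos_of_ne_zero hn) pow_padicValNat_dvd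

theorem val_cb_le (m : ℕ) :
    p ^ padicValNat p ((2 * m + 1) * Nat.centralBinom m) ≤ 2 * m + 1 := by
  have hp : p.Prime := Fact.out
  set n := (2 * m + 1) * Nat.centralBinom m with hn
  have hn0 : n ≠ 0 := by
    have := Nat.centralBinom_pos m
    positivity
  have hf : n * (m.factorial * m.factorial) = (2 * m + 1).factorial := by
    have h := Nat.choose_mul_factorial_mul_factorial (show m ≤ 2 * m by omega)
    have e : 2 * m - m = m := by omega
    rw [e] at h
    rw [Nat.factorial_succ, ← h, hn, Nat.centralBinom_eq_two_mul_choose]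
    ring
  set b := Nat.log p (2 * m + 1) + 1 with hb
  have h1 : padicValNat p (2 * m + 1).factorial = ∑ i ∈ Ico 1 b, (2 * m + 1) / p ^ i :=
    padicValNat_factorial (by omega)
  have h2 : padicValNat p m.factorial = ∑ i ∈ Ico 1 b, m / p ^ i := by
    refine padicValNat_factorial ?_
    have : Nat.log p m ≤ Nat.log p (2 * m + 1) := Nat.log_mono_right (by omega)
    omega
  have hm0 : m.factorial ≠ 0 := Nat.factorial_ne_zero m
  have h3 : padicValNat p n + (padicValNat p m.factorial + padicValNat p m.factorial) =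
      padicValNat p (2 * m + 1).factorial := by
    rw [← hf, padicValNat.mul hn0 (mul_ne_zero hm0 hm0), padicValNat.mul hm0 hm0]
  have h4 : ∑ i ∈ Ico 1 b, (2 * m + 1) / p ^ i ≤
      ∑ i ∈ Ico 1 b, (m / p ^ i + m / p ^ i + 1) := by
    refine Finset.sum_le_sum fun i _ => ?_
    have hq : 0 < p ^ i := pow_pos hp.pos i
    generalize p ^ i = q at hq
    have e := Nat.div_add_mod m q
    have hr := Nat.mod_lt m hq
    have : (2 * m + 1) / q < m / q + m / q + 1 + 1 := by
      rw [Nat.div_lt_iff_lt_mul hq]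
      nlinarith
    omega
  rw [Finset.sum_add_distrib, Finset.sum_add_distrib] at h4
  simp only [Finset.sum_const, Nat.card_Ico, smul_eq_mul, mul_one] at h4
  have h5 : padicValNat p n ≤ Nat.log p (2 * m + 1) := by omega
  exact (Nat.pow_le_pow_right hp.pos h5).trans (Nat.pow_log_le_self p (by omega))

theorem val_norm_cc (hp : p ≠ 2) (m : ℕ) :
    padicNorm p (cc m) = (p : ℚ) ^ padicValNat p ((2 * m + 1) * Nat.centralBinom m) := by
  have hn0 : (2 * m + 1) * Nat.centralBinom m ≠ 0 := by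
    have := Nat.centralBinom_pos m
    positivity
  have e : cc m = 2 * 4 ^ m * (1 / (((2 * m + 1) * Nat.centralBinom m : ℕ) : ℚ)) := by
    unfold cc aa
    have : (0 : ℚ) < (Nat.centralBinom m : ℚ) := by exact_mod_cast Nat.centralBinom_pos m
    push_cast
    field_simp
  rw [e, padicNorm.mul, padicNorm.mul, val_norm_two hp, val_norm_four_pow hp,
    val_norm_inv_nat hn0]
  simp

/-- `c` bounds all powers of `p` up to `B` -/
def ValPw (p B : ℕ) (c : ℚ) : Prop := 1 ≤ c ∧ ∀ e : ℕ, p ^ e ≤ B → (p : ℚ) ^ e ≤ c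

omit [Fact p.Prime] in
theorem valPw_self {B : ℕ} (hB : 1 ≤ B) : ValPw p B B :=
  ⟨by exact_mod_cast hB, fun e he => by exact_mod_cast he⟩

theorem valPw_sq : ValPw p (p ^ 2 - 1) p := by
  have hp : p.Prime := Fact.out
  have h1 : (1 : ℚ) ≤ p := by exact_mod_cast hp.one_lt.le
  refine ⟨h1, fun e he => ?_⟩
  have h2 : 0 < p ^ 2 := pow_pos hp.pos 2
  have h3 : p ^ e < p ^ 2 := by omega
  have h4 : e < 2 := (Nat.pow_lt_pow_iff_right hp.one_lt).1 h3
  calc (p : ℚ) ^ e ≤ (p : ℚ) ^ 1 := pow_le_pow_right₀ h1 (by omega)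
    _ = p := pow_one _

theorem valPw_one : ValPw p (p - 1) 1 := by
  have hp : p.Prime := Fact.out
  refine ⟨le_rfl, fun e he => ?_⟩
  have h3 : p ^ e < p ^ 1 := by have := hp.pos; rw [pow_one]; omega
  have h4 : e < 1 := (Nat.pow_lt_pow_iff_right hp.one_lt).1 h3
  have : e = 0 := by omega
  simp [this]

theorem ValPw.inv {B : ℕ} {c : ℚ} (h : ValPw p B c) {n : ℕ} (hn : n ≠ 0) (hB : n ≤ B) :
    padicNorm p (1 / (n : ℚ)) ≤ c := by
  rw [val_norm_inv_nat hn]
  exact h.2 _ ((val_pow_le hn).trans hB)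

theorem ValPw.cc {B : ℕ} {c : ℚ} (h : ValPw p B c) (hp : p ≠ 2) {m : ℕ} (hB : 2 * m + 1 ≤ B) :
    padicNorm p (cc m) ≤ c := by
  rw [val_norm_cc hp]
  exact h.2 _ ((val_cb_le m).trans hB)

theorem ValPw.nu {B : ℕ} {c : ℚ} (h : ValPw p B c) (hp : p ≠ 2) {i : ℕ} (hB : i ≤ B) :
    padicNorm p (nu i) ≤ c := by
  unfold Vale.Agent.P030.nu
  split_ifs with hi
  · exact h.cc hp (by omega)
  · rw [padicNorm.zero]; exact zero_le_one.trans h.1

theorem val_mul_le {x y a b : ℚ} (hx : padicNorm p x ≤ a) (hy : padicNorm p y ≤ b) :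
    padicNorm p (x * y) ≤ a * b := by
  rw [padicNorm.mul]
  exact mul_le_mul hx hy (padicNorm.nonneg _) ((padicNorm.nonneg _).trans hx)

theorem val_sub_le {x y a : ℚ} (hx : padicNorm p x ≤ a) (hy : padicNorm p y ≤ a) :
    padicNorm p (x - y) ≤ a :=
  padicNorm.sub.trans (max_le hx hy)

theorem val_add_le {x y a : ℚ} (hx : padicNorm p x ≤ a) (hy : padicNorm p y ≤ a) :
    padicNorm p (x + y) ≤ a :=
  padicNorm.nonarchimedean.trans (max_le hx hy)

theorem val_half (hp : p ≠ 2) : padicNorm p (1 / 2) = 1 := by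
  rw [padicNorm.div, padicNorm.one, val_norm_two hp]; simp

theorem norm_aa_le (hp : p ≠ 2) (l : ℕ) : padicNorm p (aa l) ≤ 1 := by
  unfold aa
  rw [padicNorm.div, val_norm_four_pow hp, div_one]
  exact padicNorm.of_nat _

theorem norm_aa_eq (hp : p ≠ 2) {l : ℕ} (hl : 2 * l < p) : padicNorm p (aa l) = 1 := by
  unfold aa
  rw [padicNorm.div, val_norm_four_pow hp, div_one, padicNorm.nat_eq_one_iff]
  intro hd
  have h0 := Nat.factorization_centralBinom_eq_zero_of_two_mul_lt hl
  have h1 := (Fact.out : p.Prime).factorization_pos_of_dvd (Nat.centralBinom_ne_zero l) hd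
  omega

theorem norm_mg_le (hp : p ≠ 2) (i l : ℕ) : padicNorm p (mg i l) ≤ 1 := by
  unfold mg
  split_ifs
  · exact norm_aa_le hp _
  · simp

theorem norm_nu_le (hp : p ≠ 2) {i : ℕ} (hi : i < p ^ 2) : padicNorm p (nu i) ≤ p :=
  valPw_sq.nu hp (by omega)

theorem norm_nu_le_one (hp : p ≠ 2) {i : ℕ} (hi : i < p) : padicNorm p (nu i) ≤ 1 :=
  valPw_one.nu hp (by omega)

theorem ValPw.b0 {B : ℕ} {c : ℚ} (h : ValPw p B c) (hp : p ≠ 2) {j : ℕ} (hB : j ≤ B) :
    padicNorm p (b0 j) ≤ c ^ 2 := by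
  have hc : 0 ≤ c := zero_le_one.trans h.1
  unfold Vale.Agent.P030.b0
  split_ifs with hj
  · have : padicNorm p (∑ k ∈ range (j / 2), 1 / (2 * ((k : ℚ) + 1) ^ 2 * aa (k + 1))) ≤ c ^ 2 := by
      refine padicNorm.sum_le' (fun k hk => ?_) (by positivity)
      have hk' := Finset.mem_range.1 hk
      have e : 1 / (2 * ((k : ℚ) + 1) ^ 2 * aa (k + 1)) =
          1 / 2 * (Vale.Agent.P030.cc k * (1 / ((k + 1 : ℕ) : ℚ))) := by
        rw [val_cc_eq]
        have := aa_pos (k + 1)
        push_cast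
        field_simp
      rw [e]
      have := val_mul_le (val_half hp).le
        (val_mul_le (h.cc hp (m := k) (by omega)) (h.inv (n := k + 1) (by omega) (by omega)))
      linarith only [this, sq c]
    have := val_mul_le (norm_aa_le hp (j / 2)) this
    linarith only [this]
  · have : padicNorm p (∑ k ∈ range (j / 2 + 1), aa k / (2 * (k : ℚ) + 1)) ≤ c := by
      refine padicNorm.sum_le' (fun k hk => ?_) hc
      have hk' := Finset.mem_range.1 hk
      have e : aa k / (2 * (k : ℚ) + 1) = aa k * (1 / ((2 * k + 1 : ℕ) : ℚ)) := by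
        push_cast
        field_simp
      rw [e]
      have := val_mul_le (norm_aa_le hp k) (h.inv (n := 2 * k + 1) (by omega) (by omega))
      linarith only [this]
    have := val_mul_le (h.cc hp (m := j / 2) (by omega)) this
    linarith only [this, sq c]

theorem ValPw.b1 {B : ℕ} {c : ℚ} (h : ValPw p B c) (hp : p ≠ 2) {i : ℕ} (hB : i ≤ B) :
    padicNorm p (b1 i) ≤ c ^ 2 := by
  have hc : 0 ≤ c := zero_le_one.trans h.1
  unfold Vale.Agent.P030.b1
  split_ifs with hj
  · have : padicNorm p (∑ k ∈ range (i / 2),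
        1 / (2 * ((k : ℚ) + 1) ^ 2 * aa (k + 1) ^ 2)) ≤ c ^ 2 := by
      refine padicNorm.sum_le' (fun k hk => ?_) (by positivity)
      have hk' := Finset.mem_range.1 hk
      have e : 1 / (2 * ((k : ℚ) + 1) ^ 2 * aa (k + 1) ^ 2) =
          1 / 2 * (Vale.Agent.P030.cc k * Vale.Agent.P030.cc k) := by
        rw [val_cc_eq]
        have := aa_pos (k + 1)
        field_simp
      rw [e]
      have := val_mul_le (val_half hp).le
        (val_mul_le (h.cc hp (m := k) (by omega)) (h.cc hp (m := k) (by omega)))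
      linarith only [this, sq c]
    have := val_mul_le (norm_aa_le hp (i / 2)) this
    linarith only [this]
  · rcases Nat.eq_zero_or_pos i with rfl | hi
    · simp only [Nat.zero_div, range_zero, sum_empty, mul_zero, padicNorm.zero]
      positivity
    have : padicNorm p (∑ k ∈ range (i / 2), 1 / (2 * (k : ℚ) + 1)) ≤ c := by
      refine padicNorm.sum_le' (fun k hk => ?_) hc
      have hk' := Finset.mem_range.1 hk
      have e : 1 / (2 * (k : ℚ) + 1) = 1 / ((2 * k + 1 : ℕ) : ℚ) := by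
        push_cast
        rfl
      rw [e]
      exact h.inv (n := 2 * k + 1) (by omega) (by omega)
    have := val_mul_le (h.cc hp (m := i / 2 - 1) (by omega)) this
    linarith only [this, sq c]

theorem ValPw.mr {B : ℕ} {c : ℚ} (h : ValPw p B c) (hp : p ≠ 2) {i l : ℕ} (hi : i ≤ B)
    (hl : l ≤ B) : padicNorm p (mr i l) ≤ c ^ 2 := by
  have hc : 0 ≤ c := zero_le_one.trans h.1
  rw [mr_eq]
  refine val_sub_le ?_ ?_
  · split_ifs
    · exact h.b0 hp (by omega)
    · exact h.b1 hp (by omega)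
  · refine padicNorm.sum_le' (fun k hk => ?_) (by positivity)
    have hk' := Finset.mem_range.1 hk
    have hk1 : k < l := lt_of_lt_of_le hk' (min_le_right _ _)
    have e : Vale.Agent.P030.nu (i - 1 - k) / ((l : ℚ) - k) =
        Vale.Agent.P030.nu (i - 1 - k) * (1 / ((l - k : ℕ) : ℚ)) := by
      rw [Nat.cast_sub hk1.le]
      ring
    rw [e]
    have := val_mul_le (h.nu hp (i := i - 1 - k) (by omega))
      (h.inv (n := l - k) (by omega) (by omega))
    linarith only [this, sq c]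

theorem ValPw.h1 {B : ℕ} {c : ℚ} (h : ValPw p B c) {n : ℕ} (hn : n ≤ B) :
    padicNorm p (h1 n) ≤ c := by
  have hc : 0 ≤ c := zero_le_one.trans h.1
  unfold Vale.Agent.P030.h1
  refine padicNorm.sum_le' (fun k hk => ?_) hc
  have hk' := Finset.mem_range.1 hk
  have := h.inv (n := k + 1) (by omega) (by omega)
  push_cast at this
  exact this

theorem ValPw.h2 {B : ℕ} {c : ℚ} (h : ValPw p B c) {n : ℕ} (hn : n ≤ B) :
    padicNorm p (h2 n) ≤ c ^ 2 := by
  have hc : 0 ≤ c := zero_le_one.trans h.1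
  unfold Vale.Agent.P030.h2
  refine padicNorm.sum_le' (fun k hk => ?_) (by positivity)
  have hk' := Finset.mem_range.1 hk
  have h0 := h.inv (n := k + 1) (by omega) (by omega)
  have := val_mul_le h0 h0
  have e : 1 / ((k : ℚ) + 1) ^ 2 = 1 / ((k + 1 : ℕ) : ℚ) * (1 / ((k + 1 : ℕ) : ℚ)) := by
    push_cast
    field_simp
  rw [e]
  linarith only [this, sq c]

theorem ValPw.zr {B : ℕ} {c : ℚ} (h : ValPw p B c) {i l : ℕ} (hi : i ≤ B)
    (hl : l ≤ B) : padicNorm p (zr i l) ≤ c ^ 2 := by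
  unfold Vale.Agent.P030.zr
  split_ifs with hil
  · rw [padicNorm.neg]
    exact h.h2 hi
  · have h0 : padicNorm p (1 / ((l : ℚ) - i)) ≤ c := by
      rcases lt_or_gt_of_ne hil with h1 | h1
      · have := h.inv (n := l - i) (by omega) (by omega)
        rwa [Nat.cast_sub h1.le] at this
      · have := h.inv (n := i - l) (by omega) (by omega)
        rw [Nat.cast_sub h1.le, ← padicNorm.neg] at this
        have e : 1 / ((l : ℚ) - i) = -(1 / ((i : ℚ) - l)) := by
          rw [← neg_sub (i : ℚ) l, div_neg]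
        rwa [e]
    have := val_mul_le (val_sub_le (h.h1 hl) (h.h1 hi)) h0
    rw [div_eq_mul_one_div]
    linarith only [this, sq c]

theorem norm_mr_crude (hp : p ≠ 2) {B i l : ℕ} (hB : 1 ≤ B) (hi : i ≤ B) (hl : l ≤ B) :
    padicNorm p (mr i l) ≤ (B : ℚ) ^ 4 :=
  ((valPw_self hB).mr hp hi hl).trans
    (pow_le_pow_right₀ (by exact_mod_cast hB) (by norm_num))

/-- also for `p = 2` -/
theorem norm_zr_crude {B i l : ℕ} (hB : 1 ≤ B) (hi : i ≤ B) (hl : l ≤ B) :
    padicNorm p (zr i l) ≤ (B : ℚ) ^ 2 :=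
  (valPw_self hB).zr hi hl

theorem norm_mr_sq (hp : p ≠ 2) {i l : ℕ} (hi : i < p ^ 2) (hl : l < p ^ 2) :
    padicNorm p (mr i l) ≤ (p : ℚ) ^ 2 :=
  valPw_sq.mr hp (by omega) (by omega)

theorem norm_zr_sq {i l : ℕ} (hi : i < p ^ 2) (hl : l < p ^ 2) :
    padicNorm p (zr i l) ≤ (p : ℚ) ^ 2 :=
  valPw_sq.zr (by omega) (by omega)

theorem norm_mr_one (hp : p ≠ 2) {i l : ℕ} (hi : i < p) (hl : l + 1 < p) :
    padicNorm p (mr i l) ≤ 1 := by
  have := (valPw_one (p := p)).mr hp (i := i) (l := l) (by omega) (by omega)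
  simpa using this

theorem norm_zr_one {i l : ℕ} (hi : i < p) (hl : l < p) : padicNorm p (zr i l) ≤ 1 := by
  have := (valPw_one (p := p)).zr (i := i) (l := l) (by omega) (by omega)
  simpa using this

end Vale.Agent.P030
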